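import Vale.Agent.P096b.ModApi

/-! Admissible families of matched operators. -/

set_option linter.unusedSectionVars false

namespace Vale.Agent.P096b

open Filter Topology Vale.Agent.P096 MeasureTheory
open scoped InnerProductSpace ComplexConjugate

universe u v

variable {H : Type u} [NormedAddCommGroup H] [InnerProductSpace ℂ H] [CompleteSpace H]

/-- Admissible families: `m i ξ = m' i ξ` and both columns are contractions. -/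
structure Adm (C B : Alg H) (ξ : H) {ι : Type} [Fintype ι] (m m' : ι → Op H) : Prop where
  mem : ∀ i, m i ∈ C
  mem' : ∀ i, m' i ∈ B
  eq : ∀ i, m i ξ = m' i ξ
  col : ∀ η, ∑ i, ‖m i η‖ ^ 2 ≤ ‖η‖ ^ 2
  col' : ∀ η, ∑ i, ‖m' i η‖ ^ 2 ≤ ‖η‖ ^ 2

/-- The operator of a family. -/
noncomputable def admOp {ι : Type} [Fintype ι] (m m' : ι → Op H) : Op H :=
  ∑ i, star (m i) * m' i

/-- The defect of a family. -/
noncomputable def admDf (ξ : H) {ι : Type} [Fintype ι] (m : ι → Op H) : ℝ :=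
  ‖ξ‖ ^ 2 - ∑ i, ‖m i ξ‖ ^ 2

/-- Operators that come from an admissible family with defect at most `d`. -/
def IsAdm (C B : Alg H) (ξ : H) (w : Op H) (d : ℝ) : Prop :=
  ∃ (ι : Type) (_ : Fintype ι) (m m' : ι → Op H), Adm C B ξ m m' ∧ w = admOp m m' ∧ admDf ξ m ≤ d

variable {A B C C' : Alg H} {ξ : H}

theorem adm_cs {ι : Type} [Fintype ι] {u v : ι → H} {α β : ℝ} (hα : 0 ≤ α) (hβ : 0 ≤ β)
    (hu : ∑ i, ‖u i‖ ^ 2 ≤ α ^ 2) (hv : ∑ i, ‖v i‖ ^ 2 ≤ β ^ 2) :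
    ‖∑ i, ⟪u i, v i⟫_ℂ‖ ≤ α * β := by
  have h1 : ‖∑ i, ⟪u i, v i⟫_ℂ‖ ≤ ∑ i, ‖u i‖ * ‖v i‖ :=
    (norm_sum_le _ _).trans (Finset.sum_le_sum fun i _ => norm_inner_le_norm _ _)
  have h2 := Finset.sum_mul_sq_le_sq_mul_sq Finset.univ (fun i => ‖u i‖) fun i => ‖v i‖
  have h3 : (∑ i, ‖u i‖ * ‖v i‖) ^ 2 ≤ (α * β) ^ 2 := by
    rw [mul_pow]
    exact h2.trans (mul_le_mul hu hv (Finset.sum_nonneg fun i _ => sq_nonneg _) (sq_nonneg _))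
  exact h1.trans (le_of_sq_le_sq h3 (mul_nonneg hα hβ))

theorem adm_inner {ι : Type} [Fintype ι] (m m' : ι → Op H) (η ζ : H) :
    ⟪η, admOp m m' ζ⟫_ℂ = ∑ i, ⟪m i η, m' i ζ⟫_ℂ := by
  simp only [admOp, sum_apply, inner_sum, tl_inner]
  rfl

theorem Adm.norm_le {ι : Type} [Fintype ι] {m m' : ι → Op H} (h : Adm C B ξ m m') :
    ‖admOp m m'‖ ≤ 1 :=
  norm_le_of_inner zero_le_one fun ζ η => by
    rw [adm_inner, one_mul]
    exact adm_cs (norm_nonneg _) (norm_nonneg _) (h.col η) (h.col' ζ)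

/-- The square root of the defect operator of a column. -/
theorem adm_sqrt {ι : Type} [Fintype ι] {n : ι → Op H} (h : ∀ η, ∑ i, ‖n i η‖ ^ 2 ≤ ‖η‖ ^ 2) :
    ∃ l : Op H, (∀ η, ‖l η‖ ^ 2 = ‖η‖ ^ 2 - ∑ i, ‖n i η‖ ^ 2) ∧
      ∀ y, (∀ i, y * n i = n i * y ∧ y * star (n i) = star (n i) * y) → y * l = l * y := by
  have h1 : ∀ η, (⟪η, (1 - ∑ i, star (n i) * n i : Op H) η⟫_ℂ).re
      = ‖η‖ ^ 2 - ∑ i, ‖n i η‖ ^ 2 := fun η => by
    simp only [sub_apply, sum_apply, inner_sub_right, inner_sum, Complex.sub_re, Complex.re_sum,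
      tl_norm_sq, one_apply_eq_self]
    rw [← inner_self_eq_norm_sq (𝕜 := ℂ) η]
    rfl
  obtain ⟨l, hl1, hl2, hl3⟩ := exists_sqrt' (1 - ∑ i, star (n i) * n i : Op H)
    (by simp [star_sum]) fun η => by rw [h1]; linarith [h η]
  refine ⟨l, fun η => by rw [tl_norm_sq, hl1, hl2, h1], fun y hy => hl3 y ?_⟩
  rw [mul_sub, sub_mul, mul_one, one_mul, Finset.mul_sum, Finset.sum_mul]
  congr 1
  refine Finset.sum_congr rfl fun i _ => ?_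
  rw [← mul_assoc, (hy i).2, mul_assoc, (hy i).1, mul_assoc]

theorem adm_sq_smul {r : ℝ} (hr : 0 ≤ r) (x : Op H) (η : H) :
    ‖(((√r : ℝ) : ℂ) • x) η‖ ^ 2 = r * ‖x η‖ ^ 2 := by
  rw [smul_apply, norm_smul, mul_pow, Complex.norm_real, Real.norm_eq_abs, sq_abs,
    Real.sq_sqrt hr]

theorem adm_star_smul {r : ℝ} (hr : 0 ≤ r) (x y : Op H) :
    star (((√r : ℝ) : ℂ) • x) * (((√r : ℝ) : ℂ) • y) = (r : ℂ) • (star x * y) := by
  rw [star_smul, smul_mul_smul_comm, Complex.star_def, Complex.conj_ofReal, ← Complex.ofReal_mul,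
    Real.mul_self_sqrt hr]

theorem IsAdm.nonneg {w : Op H} {d : ℝ} (h : IsAdm C B ξ w d) : 0 ≤ d := by
  obtain ⟨ι, _, m, m', h1, -, h2⟩ := h
  exact le_trans (sub_nonneg.2 (h1.col ξ)) h2

theorem IsAdm.norm_le {w : Op H} {d : ℝ} (h : IsAdm C B ξ w d) : ‖w‖ ≤ 1 := by
  obtain ⟨ι, _, m, m', h1, rfl, -⟩ := h
  exact h1.norm_le

theorem isAdm_one : IsAdm C B ξ 1 0 := by
  refine ⟨Unit, inferInstance, fun _ => 1, fun _ => 1,
    ⟨fun _ => one_mem _, fun _ => one_mem _, fun _ => rfl, fun η => ?_, fun η => ?_⟩, ?_, ?_⟩ <;>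
    simp [admOp, admDf]

/-- Products: the family `m i * n j` with partners `n' j * m' i`; the defects add up because
`∑ (m i)* (m i)` and `1 - ∑ (n' j)* (n' j)` are commuting positive operators (take a square root
of the second one with `exists_sqrt'`). -/
theorem IsAdm.mul (hAB : CP A B) (hle : C ≤ A) {w w' : Op H} {d d' : ℝ} (h : IsAdm C B ξ w d)
    (h' : IsAdm C B ξ w' d') : IsAdm C B ξ (w' * w) (d + d') := by
  obtain ⟨ι, _, m, m', h1, rfl, h2⟩ := h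
  obtain ⟨κ, _, n, n', h3, rfl, h4⟩ := h'
  have hc : ∀ i j, m i * n' j = n' j * m i ∧ m i * star (n' j) = star (n' j) * m i := fun i j =>
    ⟨(hAB.left _).1 (hle (h1.mem i)) _ (h3.mem' j),
      (hAB.left _).1 (hle (h1.mem i)) _ (star_mem (h3.mem' j))⟩
  have he : ∀ i j, m i (n j ξ) = n' j (m i ξ) := fun i j => by
    rw [h3.eq, hAB.app (hle (h1.mem i)) (h3.mem' j)]
  refine ⟨ι × κ, inferInstance, fun p => m p.1 * n p.2, fun p => n' p.2 * m' p.1,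
    ⟨fun p => mul_mem (h1.mem _) (h3.mem _), fun p => mul_mem (h3.mem' _) (h1.mem' _),
      fun p => ?_, fun η => ?_, fun η => ?_⟩, ?_, ?_⟩
  · show m p.1 (n p.2 ξ) = n' p.2 (m' p.1 ξ)
    rw [he, h1.eq]
  · rw [Fintype.sum_prod_type_right]
    exact (Finset.sum_le_sum fun j _ => h1.col (n j η)).trans (h3.col η)
  · rw [Fintype.sum_prod_type]
    exact (Finset.sum_le_sum fun i _ => h3.col' (m' i η)).trans (h1.col' η)
  · unfold admOp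
    rw [Fintype.sum_prod_type_right, Finset.sum_mul_sum]
    refine Finset.sum_congr rfl fun j _ => Finset.sum_congr rfl fun i _ => ?_
    have := (hAB.left _).1 (star_mem (hle (h1.mem i))) _ (h3.mem' j)
    rw [star_mul, mul_assoc, mul_assoc, ← mul_assoc (n' j), ← this, mul_assoc]
  · obtain ⟨l, hl1, hl2⟩ := adm_sqrt h3.col'
    have e1 : ∀ i, ∑ j, ‖m i (n j ξ)‖ ^ 2 = ‖m i ξ‖ ^ 2 - ‖m i (l ξ)‖ ^ 2 := fun i => by
      have : m i (l ξ) = l (m i ξ) := congrArg (fun f : Op H => f ξ) (hl2 (m i) (hc i))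
      rw [this, hl1]
      simp only [he]
      ring
    have e2 := h1.col (l ξ)
    rw [hl1] at e2
    unfold admDf at h2 h4 ⊢
    rw [Fintype.sum_prod_type]
    simp only [mul_apply_eq_comp, e1, Finset.sum_sub_distrib]
    simp only [h3.eq] at h4
    linarith

theorem IsAdm.half {w : Op H} {d : ℝ} (h : IsAdm C B ξ w d) :
    IsAdm C B ξ ((1 / 2 : ℂ) • (1 + w)) d := by
  obtain ⟨ι, _, m, m', h1, rfl, h2⟩ := h
  have h0 : (0 : ℝ) ≤ 1 / 2 := by norm_num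
  have key : ∀ (n : ι → Op H) (η : H),
      ∑ o : Option ι, ‖(((√(1 / 2) : ℝ) : ℂ) • (o.elim 1 n : Op H)) η‖ ^ 2
        = 1 / 2 * ‖η‖ ^ 2 + 1 / 2 * ∑ i, ‖n i η‖ ^ 2 := fun n η => by
    simp only [adm_sq_smul h0, Fintype.sum_option, Option.elim, Finset.mul_sum]
    rfl
  refine ⟨Option ι, inferInstance, fun o => ((√(1 / 2) : ℝ) : ℂ) • o.elim 1 m,
    fun o => ((√(1 / 2) : ℝ) : ℂ) • o.elim 1 m', ⟨fun o => ?_, fun o => ?_, fun o => ?_,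
      fun η => ?_, fun η => ?_⟩, ?_, ?_⟩
  · cases o
    · exact SMulMemClass.smul_mem _ (one_mem _)
    · exact SMulMemClass.smul_mem _ (h1.mem _)
  · cases o
    · exact SMulMemClass.smul_mem _ (one_mem _)
    · exact SMulMemClass.smul_mem _ (h1.mem' _)
  · cases o
    · rfl
    · simp only [Option.elim, smul_apply, h1.eq]
  · rw [key]
    linarith [h1.col η]
  · rw [key]
    linarith [h1.col' η]
  · unfold admOp
    simp only [adm_star_smul h0, Fintype.sum_option, Option.elim, ← Finset.smul_sum, star_one,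
      mul_one, smul_add]
    norm_num
  · unfold admDf at h2 ⊢
    rw [key]
    linarith [h1.col ξ]

/-- `w (a ξ) = (∑ (m i)* a (m i)) ξ`. -/
theorem IsAdm.vec (hAB : CP A B) (hle : C ≤ A) {w : Op H} {d : ℝ} (h : IsAdm C B ξ w d) {a : Op H}
    (ha : a ∈ C) : ∃ c ∈ C, ‖c‖ ≤ ‖a‖ ∧ w (a ξ) = c ξ := by
  obtain ⟨ι, _, m, m', h1, rfl, -⟩ := h
  refine ⟨∑ i, star (m i) * (a * m i),
    sum_mem fun i _ => mul_mem (star_mem (h1.mem i)) (mul_mem ha (h1.mem i)), ?_, ?_⟩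
  · refine norm_le_of_inner (norm_nonneg _) fun ζ η => ?_
    have := adm_inner m (fun i => a * m i) η ζ
    unfold admOp at this
    rw [this, mul_comm ‖a‖, mul_assoc]
    refine adm_cs (norm_nonneg _) (by positivity) (h1.col η) ?_
    rw [mul_pow]
    refine le_trans ?_ (mul_le_mul_of_nonneg_left (h1.col ζ) (sq_nonneg _))
    rw [Finset.mul_sum]
    refine Finset.sum_le_sum fun i _ => ?_
    rw [← mul_pow]
    exact pow_le_pow_left₀ (norm_nonneg _) (a.le_opNorm _) 2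
  · simp only [admOp, sum_apply, mul_apply_eq_comp]
    refine Finset.sum_congr rfl fun i _ => ?_
    rw [h1.eq, hAB.app (hle ha) (h1.mem' i)]

theorem Adm.drop {ι : Type} [Fintype ι] {m m' : ι → Op H} (h : Adm C B ξ m m') (ζ : H) :
    ‖((1 / 2 : ℂ) • (1 + admOp m m')) ζ‖ ^ 2 ≤ ‖ζ‖ ^ 2 - 1 / 4 * ∑ i, ‖m i ζ - m' i ζ‖ ^ 2 := by
  have h1 : ‖admOp m m' ζ‖ ≤ ‖ζ‖ := by
    simpa using (admOp m m').le_of_opNorm_le h.norm_le ζ
  have h2 : ‖admOp m m' ζ‖ ^ 2 ≤ ‖ζ‖ ^ 2 := pow_le_pow_left₀ (norm_nonneg _) h1 2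
  have h3 : ∑ i, ‖m i ζ - m' i ζ‖ ^ 2 = ∑ i, ‖m i ζ‖ ^ 2 - 2 * (⟪ζ, admOp m m' ζ⟫_ℂ).re
      + ∑ i, ‖m' i ζ‖ ^ 2 := by
    rw [adm_inner, Complex.re_sum, Finset.mul_sum, ← Finset.sum_sub_distrib,
      ← Finset.sum_add_distrib]
    exact Finset.sum_congr rfl fun i _ => norm_sub_sq (𝕜 := ℂ) _ _
  have h4 : ‖ζ + admOp m m' ζ‖ ^ 2 = ‖ζ‖ ^ 2 + 2 * (⟪ζ, admOp m m' ζ⟫_ℂ).re
      + ‖admOp m m' ζ‖ ^ 2 := norm_add_sq (𝕜 := ℂ) _ _
  have h5 : ‖((1 / 2 : ℂ) • (1 + admOp m m')) ζ‖ = 1 / 2 * ‖ζ + admOp m m' ζ‖ := by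
    rw [smul_apply, norm_smul]
    simp
  rw [h5, mul_pow, h4, h3]
  linarith [h.col ζ, h.col' ζ]

/-- With `β ^ 2 = ∑ ‖m' i η‖ ^ 2 ≥ ‖η‖ ^ 2 - defect` for `η = a ξ`, `‖a‖ ≤ 1`, one has
`β ^ 2 - re ⟪η, w η⟫ = re ∑ ⟪m' i η - m i η, m' i η⟫ ≤ √X β` and `β ≤ 1`. -/
theorem Adm.gain (hAB : CP A B) (hξ : ‖ξ‖ = 1) {ι : Type} [Fintype ι] {m m' : ι → Op H}
    (h : Adm C B ξ m m') {a : Op H} (ha : a ∈ A) (h1 : ‖a‖ ≤ 1) :
    ‖a ξ‖ ^ 2 - admDf ξ m - (⟪a ξ, admOp m m' (a ξ)⟫_ℂ).re ≤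
      √(∑ i, ‖m i (a ξ) - m' i (a ξ)‖ ^ 2) := by
  obtain ⟨l, hl1, hl2⟩ := adm_sqrt h.col'
  have e1 : a (l ξ) = l (a ξ) := congrArg (fun f : Op H => f ξ) (hl2 a fun i =>
    ⟨(hAB.left _).1 ha _ (h.mem' i), (hAB.left _).1 ha _ (star_mem (h.mem' i))⟩)
  have e2 : ‖a (l ξ)‖ ^ 2 ≤ ‖l ξ‖ ^ 2 :=
    pow_le_pow_left₀ (norm_nonneg _) (by simpa using a.le_of_opNorm_le h1 (l ξ)) 2
  rw [e1, hl1, hl1] at e2
  have e3 : ‖a ξ‖ ≤ 1 := by simpa [hξ] using a.le_of_opNorm_le h1 ξ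
  have e4 : ∑ i, ‖m' i (a ξ)‖ ^ 2 ≤ 1 ^ 2 :=
    (h.col' _).trans (pow_le_pow_left₀ (norm_nonneg _) e3 2)
  have e5 := adm_cs (u := fun i => m i (a ξ) - m' i (a ξ)) (v := fun i => m' i (a ξ))
    (Real.sqrt_nonneg _) zero_le_one
    (Real.sq_sqrt (Finset.sum_nonneg fun i _ => sq_nonneg _)).ge e4
  have e6 : (∑ i, ⟪m i (a ξ) - m' i (a ξ), m' i (a ξ)⟫_ℂ).re
      = (⟪a ξ, admOp m m' (a ξ)⟫_ℂ).re - ∑ i, ‖m' i (a ξ)‖ ^ 2 := by
    rw [adm_inner, Complex.re_sum, Complex.re_sum, ← Finset.sum_sub_distrib]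
    refine Finset.sum_congr rfl fun i _ => ?_
    rw [inner_sub_left, Complex.sub_re, ← inner_self_eq_norm_sq (𝕜 := ℂ)]
    rfl
  have e7 := (abs_le.1 ((Complex.abs_re_le_norm _).trans e5)).1
  unfold admDf
  simp only [h.eq]
  linarith

theorem adm_gen {m b g : Op H} {t : ℝ} (ht : 0 < t)
    (hg : ‖g + star g - (star m * m + star b * b)‖ ≤ t / 32) :
    ∃ s κ : ℝ, 0 < s ∧ 1 / 2 ≤ κ ∧ κ ≤ 1 ∧ s ≤ 1 ∧ ∀ η,
      κ * ‖(1 - (s : ℂ) • g : Op H) η‖ ^ 2 + κ * s * ‖m η‖ ^ 2 + κ * s * ‖b η‖ ^ 2 ≤ ‖η‖ ^ 2 ∧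
      (1 - t * (s / 8)) * ‖η‖ ^ 2 ≤
        κ * ‖(1 - (s : ℂ) • g : Op H) η‖ ^ 2 + κ * s * ‖m η‖ ^ 2 + κ * s * ‖b η‖ ^ 2 := by
  set γ := ‖g‖ ^ 2 with hγ
  have hγ0 : 0 ≤ γ := sq_nonneg _
  obtain ⟨s, hs, hs1, hs2⟩ : ∃ s : ℝ, 0 < s ∧ s * (γ + 1) ≤ t / 16 ∧ s * (t / 32 + γ + 1) ≤ 1 := by
    refine ⟨min (t / 16 / (γ + 1)) (1 / (t / 32 + γ + 1)), by positivity, ?_, ?_⟩
    · rw [← le_div_iff₀ (by positivity)]
      exact min_le_left _ _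
    · rw [← le_div_iff₀ (by positivity)]
      exact min_le_right _ _
  have hs3 : s ≤ 1 := by nlinarith
  set D := 1 + s * (t / 32) + s ^ 2 * γ with hD
  have hD1 : 1 ≤ D := by nlinarith [mul_nonneg (sq_nonneg s) hγ0]
  have hD2 : D ≤ 2 := by nlinarith [mul_nonneg hs.le hγ0]
  have hD0 : 0 < D := by linarith
  refine ⟨s, D⁻¹, hs, by rw [one_div]; exact inv_anti₀ hD0 hD2, inv_le_one_of_one_le₀ hD1, hs3,
    fun η => ?_⟩
  have e1 : ‖(1 - (s : ℂ) • g : Op H) η‖ ^ 2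
      = ‖η‖ ^ 2 - 2 * (s * (⟪η, g η⟫_ℂ).re) + s ^ 2 * ‖g η‖ ^ 2 := by
    have := norm_sub_sq (𝕜 := ℂ) η ((s : ℂ) • g η)
    rw [inner_smul_right, norm_smul, mul_pow, Complex.norm_real, Real.norm_eq_abs, sq_abs] at this
    simpa using this
  have e2 : (⟪η, (g + star g - (star m * m + star b * b) : Op H) η⟫_ℂ).re
      = 2 * (⟪η, g η⟫_ℂ).re - (‖m η‖ ^ 2 + ‖b η‖ ^ 2) := by
    simp only [sub_apply, add_apply, inner_sub_right, inner_add_right, Complex.sub_re,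
      Complex.add_re, tl_norm_sq, ← tl_inner g]
    rw [← inner_conj_symm (g η) η, Complex.conj_re]
    ring
  have e3 : |2 * (⟪η, g η⟫_ℂ).re - (‖m η‖ ^ 2 + ‖b η‖ ^ 2)| ≤ t / 32 * ‖η‖ ^ 2 := by
    rw [← e2]
    refine (Complex.abs_re_le_norm _).trans ((norm_inner_le_norm _ _).trans ?_)
    have := (g + star g - (star m * m + star b * b) : Op H).le_of_opNorm_le hg η
    nlinarith [norm_nonneg η]
  have e4 : ‖g η‖ ^ 2 ≤ γ * ‖η‖ ^ 2 := by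
    rw [hγ, ← mul_pow]
    exact pow_le_pow_left₀ (norm_nonneg _) (g.le_opNorm η) 2
  obtain ⟨e5, e6⟩ := abs_le.1 e3
  have e7 : D⁻¹ * ‖(1 - (s : ℂ) • g : Op H) η‖ ^ 2 + D⁻¹ * s * ‖m η‖ ^ 2 + D⁻¹ * s * ‖b η‖ ^ 2
      = (‖η‖ ^ 2 - s * (2 * (⟪η, g η⟫_ℂ).re - (‖m η‖ ^ 2 + ‖b η‖ ^ 2))
        + s ^ 2 * ‖g η‖ ^ 2) / D := by
    rw [e1]
    ring
  have n0 := sq_nonneg ‖η‖
  have a1 := mul_le_mul_of_nonneg_left e5 hs.le
  have a2 := mul_le_mul_of_nonneg_left e6 hs.le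
  have a3 := mul_le_mul_of_nonneg_left e4 (sq_nonneg s)
  have a4 := mul_nonneg (sq_nonneg s) (sq_nonneg ‖g η‖)
  rw [e7, div_le_iff₀ hD0, le_div_iff₀ hD0]
  refine ⟨by rw [hD]; nlinarith, ?_⟩
  have a5 : (1 - t * (s / 8)) * D ≤ 1 - s * (t / 32) := by
    have b1 : t * (s / 8) * 1 ≤ t * (s / 8) * D := mul_le_mul_of_nonneg_left hD1 (by positivity)
    have b2 : s * (s * (γ + 1)) ≤ s * (t / 16) := mul_le_mul_of_nonneg_left hs1 hs.le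
    nlinarith [sq_nonneg s]
  have a6 := mul_le_mul_of_nonneg_right a5 n0
  nlinarith

/-- The generators. Let `m = filt (gk e 0 0) x`, `b = filt (gk e 0 (1/2)) x*` (`partner`:
`J m ξ = b ξ`), `P = m* m + b* b`, `g` from `genG`. The family is
`c (1 - s g), c √s m, c √s b` with partners `c (1 - s J g J), c √s J b J, c √s J m J`, where
`c ^ 2 = 1 / (1 + s ε + s ^ 2 ‖g‖ ^ 2)`; choose `ε` and then `s` small. -/
theorem Mod.generator (μ : Mod A B ξ) (hξ : ‖ξ‖ = 1) (hC : CP C C') (hle : C ≤ A)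
    (hσ : ∀ t, ∀ x ∈ C, μ.σ t x ∈ C) {x : Op H} (hx : x ∈ C) {e : ℝ} (he : 0 < e) :
    ∃ m' ∈ B, m' ξ = μ.filt (gk e 0 0) x ξ ∧ ∀ t : ℝ, 0 < t → ∃ s : ℝ, 0 < s ∧ ∃ w,
      IsAdm C B ξ w (t * s) ∧ ∀ ζ,
        ‖w ζ‖ ^ 2 ≤ ‖ζ‖ ^ 2 - s * ‖μ.filt (gk e 0 0) x ζ - m' ζ‖ ^ 2 := by
  set m := μ.filt (gk e 0 0) x with hm
  set b := μ.filt (gk e 0 (1 / 2)) (star x) with hb
  have hmC : m ∈ C := μ.filt_mem hC (gk_int he _ _) fun t => hσ t x hx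
  have hbC : b ∈ C := μ.filt_mem hC (gk_int he _ _) fun t => hσ t _ (star_mem hx)
  have hJ : μ.J ξ = ξ := μ.J_fix μ.cp
  have h1 : μ.J (m ξ) = b ξ := μ.partner he (hle hx)
  have h2 : μ.J (b ξ) = m ξ := by rw [← h1, μ.JJ]
  refine ⟨jc μ.J b, μ.jA b (hle hbC), by rw [jc_apply, hJ, h2], fun t ht => ?_⟩
  have hP : star m * m + star b * b ∈ C :=
    add_mem (mul_mem (star_mem hmC) hmC) (mul_mem (star_mem hbC) hbC)
  have c1 : Continuous fun s => μ.σ s m := μ.filt_cont he _ _ _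
  have c2 : Continuous fun s => μ.σ s b := μ.filt_cont he _ _ _
  obtain ⟨g, hgA, hg1, hg2, hg3⟩ := μ.genG (hle hP) (by simp) (by
    simp only [Calc.σ_add, Calc.σ_mul, Calc.σ_star]
    exact (c1.star.mul c1).add (c2.star.mul c2)) (t / 32) (by positivity)
  have hgC : g ∈ C := (hC.left g).2 fun y hy => by
    have := hg3 (star y) fun s => (hC.right _).1 (star_mem hy) _ (hσ s _ hP)
    rw [star_star] at this
    exact this.symm
  obtain ⟨s, κ, hs, hκ, hκ2, hd, hcol⟩ := adm_gen (m := m) (b := b) ht hg2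
  have hκ0 : 0 ≤ κ := by linarith
  have hκs : 0 ≤ κ * s := by positivity
  have hadm : Adm C B ξ
      ![((√κ : ℝ) : ℂ) • (1 - (s : ℂ) • g), ((√(κ * s) : ℝ) : ℂ) • m, ((√(κ * s) : ℝ) : ℂ) • b]
      ![((√κ : ℝ) : ℂ) • jc μ.J (1 - (s : ℂ) • g), ((√(κ * s) : ℝ) : ℂ) • jc μ.J b,
        ((√(κ * s) : ℝ) : ℂ) • jc μ.J m] := by
    have hu : 1 - (s : ℂ) • g ∈ C := sub_mem (one_mem _) (SMulMemClass.smul_mem _ hgC)
    refine ⟨fun i => ?_, fun i => ?_, fun i => ?_, fun η => ?_, fun η => ?_⟩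
    · fin_cases i
      · exact SMulMemClass.smul_mem _ hu
      · exact SMulMemClass.smul_mem _ hmC
      · exact SMulMemClass.smul_mem _ hbC
    · fin_cases i
      · exact SMulMemClass.smul_mem _ (μ.jA _ (hle hu))
      · exact SMulMemClass.smul_mem _ (μ.jA _ (hle hbC))
      · exact SMulMemClass.smul_mem _ (μ.jA _ (hle hmC))
    · fin_cases i
      · show ((√κ : ℝ) : ℂ) • (ξ - (s : ℂ) • g ξ)
          = ((√κ : ℝ) : ℂ) • μ.J (μ.J ξ - (s : ℂ) • g (μ.J ξ))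
        rw [hJ, map_sub, hJ, map_smulₛₗ, hg1, Complex.conj_ofReal]
      · show ((√(κ * s) : ℝ) : ℂ) • m ξ = ((√(κ * s) : ℝ) : ℂ) • μ.J (b (μ.J ξ))
        rw [hJ, h2]
      · show ((√(κ * s) : ℝ) : ℂ) • b ξ = ((√(κ * s) : ℝ) : ℂ) • μ.J (m (μ.J ξ))
        rw [hJ, h1]
    · simp only [Fin.sum_univ_three, Matrix.cons_val_zero, Matrix.cons_val_one, Matrix.cons_val,
        adm_sq_smul hκ0, adm_sq_smul hκs]
      linarith [(hcol η).1]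
    · simp only [Fin.sum_univ_three, Matrix.cons_val_zero, Matrix.cons_val_one, Matrix.cons_val,
        adm_sq_smul hκ0, adm_sq_smul hκs, jc_apply, LinearIsometryEquiv.norm_map]
      have := (hcol (μ.J η)).1
      rw [LinearIsometryEquiv.norm_map] at this
      linarith
  refine ⟨s / 8, by positivity, _, IsAdm.half ⟨_, _, _, _, hadm, rfl, ?_⟩, fun ζ => ?_⟩
  · simp only [admDf, Fin.sum_univ_three, Matrix.cons_val_zero, Matrix.cons_val_one,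
      Matrix.cons_val, adm_sq_smul hκ0, adm_sq_smul hκs]
    have := (hcol ξ).2
    rw [hξ] at this ⊢
    linarith
  · refine (hadm.drop ζ).trans ?_
    have h3 := Finset.single_le_sum (f := fun i : Fin 3 =>
      ‖![((√κ : ℝ) : ℂ) • (1 - (s : ℂ) • g), ((√(κ * s) : ℝ) : ℂ) • m,
        ((√(κ * s) : ℝ) : ℂ) • b] i ζ - ![((√κ : ℝ) : ℂ) • jc μ.J (1 - (s : ℂ) • g),
        ((√(κ * s) : ℝ) : ℂ) • jc μ.J b, ((√(κ * s) : ℝ) : ℂ) • jc μ.J m] i ζ‖ ^ 2)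
      (fun i _ => sq_nonneg _) (Finset.mem_univ 1)
    have h4 := adm_sq_smul hκs (m - jc μ.J b) ζ
    rw [smul_sub, sub_apply, sub_apply] at h4
    simp only [Matrix.cons_val_one, Matrix.cons_val_zero, h4] at h3
    have h5 : s / 2 * ‖m ζ - jc μ.J b ζ‖ ^ 2 ≤ κ * s * ‖m ζ - jc μ.J b ζ‖ ^ 2 :=
      mul_le_mul_of_nonneg_right (by nlinarith) (sq_nonneg _)
    linarith

end Vale.Agent.P096b
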