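import Vale.Agent.P096b.Defs

/-! Existence of invariant means. -/

set_option linter.unusedSectionVars false

namespace Vale.Agent.P096b

open Filter Topology Vale.Agent.P096 MeasureTheory
open scoped InnerProductSpace ComplexConjugate

universe u v

variable {H : Type u} [NormedAddCommGroup H] [InnerProductSpace ℂ H] [CompleteSpace H]

/-- The bounded functions. -/
def amBd (G : Type v) : Submodule ℂ (G → ℂ) where
  carrier := {f | ∃ C : ℝ, ∀ x, ‖f x‖ ≤ C}
  add_mem' := fun ⟨C, hC⟩ ⟨D, hD⟩ => ⟨C + D, fun x => norm_add_le_of_le (hC x) (hD x)⟩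
  zero_mem' := ⟨0, fun _ => norm_zero.le⟩
  smul_mem' := fun c _ ⟨C, hC⟩ => ⟨‖c‖ * C, fun x =>
    (norm_smul_le c _).trans (mul_le_mul_of_nonneg_left (hC x) (norm_nonneg c))⟩

/-- Approximately invariant means. -/
structure AmPre {G : Type v} [Group G] (μ : (G → ℂ) →ₗ[ℂ] ℂ) (s : Finset G) (ε : ℝ) : Prop where
  one : μ (fun _ => 1) = 1
  le : ∀ (f : G → ℂ) (C : ℝ), (∀ g, ‖f g‖ ≤ C) → ‖μ f‖ ≤ C
  inv : ∀ a ∈ s, ∀ (f : G → ℂ) (C : ℝ), (∀ g, ‖f g‖ ≤ C) →
    ‖μ (fun g => f (a * g)) - μ f‖ ≤ ε * C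

theorem am_lim {G : Type v} [Group G]
    (h : ∀ (s : Finset G) (ε : ℝ), 0 < ε → ∃ μ, AmPre μ s ε) : Nonempty (Mean G) := by
  classical
  choose μ hμ using fun i : Finset G × ℕ => h i.1 (1 / ((i.2 : ℝ) + 1)) (by positivity)
  obtain ⟨U, hU⟩ := Ultrafilter.exists_le (atTop : Filter (Finset G × ℕ))
  have hl : ∀ (f : G → ℂ) (C : ℝ), (∀ g, ‖f g‖ ≤ C) →
      ∃ z, ‖z‖ ≤ C ∧ Tendsto (fun i => μ i f) U (𝓝 z) := fun f C hf => by
    obtain ⟨z, h1, h2⟩ := (isCompact_closedBall (0 : ℂ) C).ultrafilter_le_nhds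
      (U.map fun i => μ i f) (le_principal_iff.2 (mem_map.2 (Eventually.of_forall fun i =>
        mem_closedBall_zero_iff.2 ((hμ i).le f C hf))))
    exact ⟨z, mem_closedBall_zero_iff.1 h1, h2⟩
  choose L hL using fun f : amBd G => (hl f _ f.2.choose_spec).imp fun _ h => h.2
  obtain ⟨m, hm⟩ := LinearMap.exists_extend (p := amBd G)
    { toFun := L
      map_add' := fun f g => tendsto_nhds_unique (hL (f + g)) (by
        simpa only [Submodule.coe_add, map_add] using (hL f).add (hL g))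
      map_smul' := fun c f => tendsto_nhds_unique (hL (c • f)) (by
        simpa only [Submodule.coe_smul, map_smul, RingHom.id_apply] using (hL f).const_smul c) }
  have ht : ∀ (f : G → ℂ) (C : ℝ), (∀ g, ‖f g‖ ≤ C) →
      Tendsto (fun i => μ i f) U (𝓝 (m f)) := fun f C hf => by
    have e : m f = L ⟨f, C, hf⟩ := LinearMap.congr_fun hm ⟨f, C, hf⟩
    rw [e]
    exact hL ⟨f, C, hf⟩
  refine ⟨⟨m, ?_, fun f C hf => ?_, fun f C a hf => ?_⟩⟩
  · refine tendsto_nhds_unique (ht _ 1 fun _ => norm_one.le) ?_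
    simp only [(hμ _).one]
    exact tendsto_const_nhds
  · obtain ⟨z, h1, h2⟩ := hl f C hf
    rw [tendsto_nhds_unique (ht f C hf) h2]
    exact h1
  · have h1 := ((ht (fun g => f (a * g)) C fun g => hf _).sub (ht f C hf)).norm
    have h0 : Tendsto (fun i : Finset G × ℕ => i.2) atTop atTop := by
      rw [← prod_atTop_atTop_eq]
      exact tendsto_snd
    have h2 : Tendsto (fun i : Finset G × ℕ => 1 / ((i.2 : ℝ) + 1) * C) U (𝓝 (0 * C)) :=
      ((tendsto_one_div_add_atTop_nhds_zero_nat.comp h0).mul_const C).mono_left hU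
    have h3 := le_of_tendsto_of_tendsto h1 h2 (hU ((eventually_ge_atTop ({a}, 0)).mono
      fun i hi => (hμ i).inv a (hi.1 (Finset.mem_singleton_self a)) f C hf))
    rw [zero_mul] at h3
    exact sub_eq_zero.1 (norm_le_zero_iff.1 h3)

theorem am_avg {ι : Type*} (s : Finset ι) (hs : s.Nonempty) {z : ι → ℂ} {C : ℝ}
    (h : ∀ i ∈ s, ‖z i‖ ≤ C) : ‖(s.card : ℂ)⁻¹ * ∑ i ∈ s, z i‖ ≤ C := by
  have h0 : (0 : ℝ) < s.card := Nat.cast_pos.2 hs.card_pos
  rw [norm_mul, norm_inv, Complex.norm_natCast, inv_mul_le_iff₀ h0, ← nsmul_eq_mul]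
  exact (norm_sum_le _ _).trans (Finset.sum_le_card_nsmul _ _ _ h)

theorem am_comm (G : Type v) [Group G] (h : ∀ a b : G, a * b = b * a) : Nonempty (Mean G) := by
  classical
  refine am_lim fun s ε hε => ?_
  induction s using Finset.induction_on with
  | empty => exact ⟨LinearMap.proj 1, rfl, fun f C hf => hf 1, fun a ha => absurd ha (by simp)⟩
  | insert a s _ ih =>
    obtain ⟨μ, hμ⟩ := ih
    obtain ⟨N, hN⟩ := exists_nat_gt (2 / ε)
    have hN0 : (0 : ℝ) < N := lt_trans (by positivity) hN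
    have hne : (Finset.range N).Nonempty := Finset.nonempty_range_iff.2 (Nat.cast_pos.1 hN0).ne'
    obtain ⟨ν, hν⟩ : ∃ ν : (G → ℂ) →ₗ[ℂ] ℂ, ∀ f, ν f = ((Finset.range N).card : ℂ)⁻¹ *
        ∑ j ∈ Finset.range N, μ fun g => f (a ^ j * g) :=
      ⟨((Finset.range N).card : ℂ)⁻¹ • ∑ j ∈ Finset.range N,
        μ.comp (LinearMap.funLeft ℂ ℂ fun g => a ^ j * g), fun f => by
          rw [LinearMap.smul_apply, LinearMap.sum_apply]
          rfl⟩
    refine ⟨ν, ?_, fun f C hf => ?_, fun b hb f C hf => ?_⟩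
    · rw [hν]
      simp only [hμ.one, Finset.sum_const, nsmul_eq_mul, mul_one]
      exact inv_mul_cancel₀ (Nat.cast_ne_zero.2 hne.card_pos.ne')
    · rw [hν]
      exact am_avg _ hne fun j _ => hμ.le _ C fun g => hf _
    · rw [hν, hν, ← mul_sub, ← Finset.sum_sub_distrib]
      rcases Finset.mem_insert.1 hb with rfl | hb
      · have e : ∀ (j : ℕ) (g : G), b * (b ^ j * g) = b ^ (j + 1) * g := fun j g => by
          rw [pow_succ', mul_assoc]
        have h0 : 0 ≤ C := (norm_nonneg _).trans (hf 1)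
        have h1 := norm_sub_le_of_le (hμ.le (fun g => f (b ^ N * g)) C fun g => hf _)
          (hμ.le (fun g => f (b ^ 0 * g)) C fun g => hf _)
        have h2 := mul_le_mul_of_nonneg_right ((div_lt_iff₀ hε).1 hN).le h0
        simp only [e]
        rw [Finset.sum_range_sub fun j => μ fun g => f (b ^ j * g), norm_mul, norm_inv,
          Complex.norm_natCast, Finset.card_range, inv_mul_le_iff₀ hN0]
        linarith
      · refine am_avg _ hne fun j _ => ?_
        have e : ∀ g : G, b * (a ^ j * g) = a ^ j * (b * g) := fun g => by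
          rw [← mul_assoc, h b, mul_assoc]
        simp only [e]
        exact hμ.inv b hb (fun g => f (a ^ j * g)) C fun g => hf _

/-- Reiter's condition gives a mean (ultrafilter limit over pairs `(s, n)`, then extend the
functional from bounded functions to all functions by `LinearMap.exists_extend`). -/
theorem mean_of_reiter {G : Type v} [Group G]
    (h : ∀ (s : Finset G) (ε : ℝ), 0 < ε → ∃ (ι : Type v) (_ : Fintype ι) (p : ι → ℝ) (g : ι → G),
      (∀ i, 0 ≤ p i) ∧ ∑ i, p i = 1 ∧ ∀ a ∈ s, ∀ (f : G → ℂ) (C : ℝ), (∀ x, ‖f x‖ ≤ C) →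
        ‖∑ i, p i * f (a * g i) - ∑ i, p i * f (g i)‖ ≤ ε * C) : Nonempty (Mean G) := by
  refine am_lim fun s ε hε => ?_
  obtain ⟨ι, _, p, g, h0, h1, h2⟩ := h s ε hε
  obtain ⟨ν, hν⟩ : ∃ ν : (G → ℂ) →ₗ[ℂ] ℂ, ∀ f, ν f = ∑ i, p i * f (g i) :=
    ⟨∑ i, (p i : ℂ) • LinearMap.proj (g i), fun f => by
      rw [LinearMap.sum_apply]
      rfl⟩
  refine ⟨ν, ?_, fun f C hf => ?_, fun a ha f C hf => ?_⟩
  · rw [hν]
    simp only [mul_one]
    exact_mod_cast h1
  · rw [hν, ← one_mul C, ← h1, Finset.sum_mul]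
    refine norm_sum_le_of_le _ fun i _ => ?_
    rw [norm_mul, Complex.norm_real, Real.norm_of_nonneg (h0 i)]
    exact mul_le_mul_of_nonneg_left (hf _) (h0 i)
  · rw [hν, hν]
    exact h2 a ha f C hf

/-- Abelian groups: for `s = {a 1, ..., a k}` use the uniform law on the products of
`a i ^ (n i)`, `n i < N`. -/
theorem mean_comm (G : Type v) [CommGroup G] : Nonempty (Mean G) := by
  exact am_comm G mul_comm

theorem mean_comm' (G : Type v) [Group G] (h : ∀ a b : G, a * b = b * a) :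
    Nonempty (Mean G) := by
  exact am_comm G h

/-- Locally finite groups. -/
theorem mean_lf {G : Type v} [Group G] (K : ℕ → Subgroup G) (hm : Monotone K)
    (hf : ∀ n, Finite (K n)) : Nonempty (Mean ↥(⨆ n, K n)) := by
  classical
  refine am_lim fun s ε hε => ?_
  obtain ⟨n, hn⟩ : ∃ n, ∀ a ∈ s, (a : G) ∈ K n := by
    choose k hk using fun a : ↥(⨆ n, K n) =>
      (Subgroup.mem_iSup_of_directed hm.directed_le).1 a.2
    exact ⟨s.sup k, fun a ha => hm (Finset.le_sup ha) (hk a)⟩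
  have := hf n
  have := Fintype.ofFinite (K n)
  obtain ⟨ν, hν⟩ : ∃ ν : (↥(⨆ n, K n) → ℂ) →ₗ[ℂ] ℂ, ∀ f, ν f =
      ((Finset.univ : Finset (K n)).card : ℂ)⁻¹ *
        ∑ x : K n, f (Subgroup.inclusion (le_iSup K n) x) :=
    ⟨((Finset.univ : Finset (K n)).card : ℂ)⁻¹ • ∑ x : K n,
      LinearMap.proj (Subgroup.inclusion (le_iSup K n) x), fun f => by
        rw [LinearMap.smul_apply, LinearMap.sum_apply]
        rfl⟩
  refine ⟨ν, ?_, fun f C hf => ?_, fun a ha f C hf => ?_⟩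
  · rw [hν]
    simp only [Finset.sum_const, nsmul_eq_mul, mul_one]
    exact inv_mul_cancel₀ (Nat.cast_ne_zero.2 Finset.univ_nonempty.card_pos.ne')
  · rw [hν]
    exact am_avg _ Finset.univ_nonempty fun x _ => hf _
  · rw [hν, hν, Fintype.sum_equiv (Equiv.mulLeft (⟨a, hn a ha⟩ : K n))
      (fun x => f (a * Subgroup.inclusion (le_iSup K n) x))
      (fun x => f (Subgroup.inclusion (le_iSup K n) x)) fun _ => rfl, sub_self, norm_zero]
    exact mul_nonneg hε.le ((norm_nonneg _).trans (hf 1))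

/-- Products: iterated means. -/
theorem mean_prod {G₁ G₂ : Type v} [Group G₁] [Group G₂] (m₁ : Mean G₁) (m₂ : Mean G₂) :
    Nonempty (Mean (G₁ × G₂)) := by
  refine ⟨⟨m₁.m.comp (LinearMap.pi fun x => m₂.m.comp (LinearMap.funLeft ℂ ℂ (Prod.mk x))), ?_,
    fun f C hf => m₁.le _ C fun x => m₂.le _ C fun y => hf _, fun f C a hf => ?_⟩⟩
  · change m₁.m (fun _ => m₂.m fun _ => 1) = 1
    rw [m₂.one, m₁.one]
  · change m₁.m (fun x => m₂.m fun y => f (a.1 * x, a.2 * y)) =
      m₁.m fun x => m₂.m fun y => f (x, y)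
    have e : ∀ x, (m₂.m fun y => f (a.1 * x, a.2 * y)) = m₂.m fun y => f (a.1 * x, y) :=
      fun x => m₂.inv (fun y => f (a.1 * x, y)) C a.2 fun _ => hf _
    simp only [e]
    exact m₁.inv (fun x => m₂.m fun y => f (x, y)) C a.1 fun x => m₂.le _ C fun y => hf _

end Vale.Agent.P096b
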