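import Vale.Agent.P096b.Close

/-! Amplification and induction. -/

set_option linter.unusedSectionVars false

namespace Vale.Agent.P096b

open Filter Topology Vale.Agent.P096 MeasureTheory
open scoped InnerProductSpace ComplexConjugate

universe u v

variable {H : Type u} [NormedAddCommGroup H] [InnerProductSpace ℂ H] [CompleteSpace H]

theorem amp_diag : ∃ π : Op H →⋆ₐ[ℂ] Op (lp (fun _ : ℕ => H) 2), ∀ x f i, π x f i = x (f i) :=
  ⟨{ toFun := fun x => lp.mapCLM 2 (fun _ => x) (norm_nonneg x) fun _ => le_rfl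
     map_one' := by ext; rfl
     map_mul' := fun _ _ => by ext; rfl
     map_zero' := by ext; rfl
     map_add' := fun _ _ => by ext; rfl
     commutes' := fun _ => by ext; rfl
     map_star' := fun x => (ContinuousLinearMap.eq_adjoint_iff _ _).2 fun f g =>
       tsum_congr fun i => ContinuousLinearMap.adjoint_inner_left x (g i) (f i) },
    fun _ _ _ => rfl⟩

theorem amp_sep [TopologicalSpace.SeparableSpace H] :
    TopologicalSpace.SeparableSpace (lp (fun _ : ℕ => H) 2) := by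
  have h1 : TopologicalSpace.IsSeparable
      (⋃ i : ℕ, Set.range (lp.singleContinuousLinearMap ℂ (fun _ : ℕ => H) 2 i)) :=
    .iUnion fun i => TopologicalSpace.isSeparable_range
      (lp.singleContinuousLinearMap ℂ (fun _ : ℕ => H) 2 i).continuous
  refine TopologicalSpace.isSeparable_univ_iff.1 ((h1.span (R := ℂ)).closure.mono fun f _ => ?_)
  refine mem_closure_of_tendsto (lp.hasSum_single (by norm_num) f) (Eventually.of_forall fun s => ?_)
  exact Submodule.sum_mem _ fun i _ => Submodule.subset_span (Set.mem_iUnion.2 ⟨i, f i, rfl⟩)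

theorem amp_vec [TopologicalSpace.SeparableSpace H] : ∃ η : lp (fun _ : ℕ => H) 2,
    ∀ (K : Type u) [NormedAddCommGroup K] [NormedSpace ℂ K] (T : H →L[ℂ] K),
      (∀ i, T (η i) = 0) → T = 0 := by
  let w := TopologicalSpace.denseSeq H
  let c : ℕ → ℝ := fun n => (1 / 2) ^ n / (1 + ‖w n‖)
  have hc : ∀ n, 0 < c n := fun n => by positivity
  have hb : ∀ n, ‖(c n : ℂ) • w n‖ ≤ (1 / 2) ^ n := fun n => by
    rw [norm_smul, Complex.norm_real, Real.norm_of_nonneg (hc n).le, div_mul_eq_mul_div,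
      div_le_iff₀ (by positivity)]
    exact mul_le_mul_of_nonneg_left (by linarith) (by positivity)
  have hm : Memℓp (fun n : ℕ => (c n : ℂ) • w n) 2 := by
    refine memℓp_gen (Summable.of_nonneg_of_le (fun n => by positivity) (fun n => ?_)
      summable_geometric_two)
    rw [ENNReal.toReal_ofNat, Real.rpow_ofNat, sq]
    refine (mul_le_mul_of_nonneg_left ((hb n).trans ?_) (norm_nonneg _)).trans
      ((mul_one _).trans_le (hb n))
    exact pow_le_one₀ (by norm_num) (by norm_num)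
  refine ⟨⟨_, hm⟩, fun K _ _ T hT => ?_⟩
  have h1 : ∀ n, T (w n) = 0 := fun n => by
    have h2 : T ((c n : ℂ) • w n) = 0 := hT n
    rw [map_smul, smul_eq_zero] at h2
    exact h2.resolve_left (by exact_mod_cast (hc n).ne')
  ext x
  exact (TopologicalSpace.denseRange_denseSeq H).induction_on x
    (isClosed_eq T.continuous continuous_const) h1

theorem amp_single (π : Op H →⋆ₐ[ℂ] Op (lp (fun _ : ℕ => H) 2)) (hπ : ∀ x f i, π x f i = x (f i))
    (x : Op H) (i : ℕ) (η : H) : π x (lp.single 2 i η) = lp.single 2 i (x η) := by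
  ext k
  rw [hπ, lp.single_apply, lp.single_apply, Pi.single_apply, Pi.single_apply]
  split_ifs
  · rfl
  · exact map_zero x

theorem amp_unit (π : Op H →⋆ₐ[ℂ] Op (lp (fun _ : ℕ => H) 2)) (hπ : ∀ x f i, π x f i = x (f i))
    (i k : ℕ) : ∃ e : Op (lp (fun _ : ℕ => H) 2), (∀ f, e f = lp.single 2 i (f k)) ∧
      ∀ n, e * π n = π n * e := by
  refine ⟨lp.singleContinuousLinearMap ℂ (fun _ : ℕ => H) 2 i ∘L
    lp.evalCLM ℂ (fun _ : ℕ => H) 2 k, fun _ => rfl, fun n => ContinuousLinearMap.ext fun f => ?_⟩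
  change lp.single 2 i (π n f k) = π n (lp.single 2 i (f k))
  rw [amp_single π hπ, hπ]

theorem amp_cyc [TopologicalSpace.SeparableSpace H] (π : Op H →⋆ₐ[ℂ] Op (lp (fun _ : ℕ => H) 2))
    (hπ : ∀ x f i, π x f i = x (f i)) {N : Set (Op H)} (hstar : ∀ y ∈ π '' N, star y ∈ π '' N) :
    ∃ η, Cyc (cm (π '' N)) η := by
  obtain ⟨η, hη⟩ := amp_vec (H := H)
  refine ⟨η, cyc_of_sep (cp_cm (π '' N)).symm fun x hx h0 => ?_⟩
  refine lp.ext_continuousLinearMap (by norm_num) fun i => ?_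
  rw [ContinuousLinearMap.zero_comp]
  refine hη _ _ fun k => ?_
  obtain ⟨e, he, he'⟩ := amp_unit π hπ i k
  have hm : e ∈ cm (π '' N) := by
    refine (mem_cm' hstar).2 ?_
    rintro _ ⟨n, -, rfl⟩
    exact he' n
  have h4 : x (e η) = e (x η) := DFunLike.congr_fun (mem_cm_alg.1 hx e hm) η
  rw [h0, map_zero, he] at h4
  exact h4

theorem amp_iso : ∃ j : H →ₗᵢ[ℂ] lp (fun _ : ℕ => H) 2, ∀ ζ, j ζ = lp.single 2 0 ζ :=
  ⟨{ toLinearMap := lp.lsingle (E := fun _ : ℕ => H) 2 0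
     norm_map' := fun ζ => lp.norm_single (E := fun _ : ℕ => H) (by norm_num) 0 ζ }, fun _ => rfl⟩

theorem amp_ex [TopologicalSpace.SeparableSpace H] : ∃ (K : Type u) (_ : NormedAddCommGroup K)
    (_ : InnerProductSpace ℂ K) (_ : CompleteSpace K) (π : Op H →⋆ₐ[ℂ] Op K) (j : H →ₗᵢ[ℂ] K),
    TopologicalSpace.SeparableSpace K ∧ (∀ x η, π x (j η) = j (x η)) ∧
      ∀ N : Set (Op H), (∀ y ∈ π '' N, star y ∈ π '' N) → ∃ η, Cyc (cm (π '' N)) η := by
  obtain ⟨π, hπ⟩ := amp_diag (H := H)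
  obtain ⟨j, hj⟩ := amp_iso (H := H)
  refine ⟨lp (fun _ : ℕ => H) 2, _, _, _, π, j, amp_sep, fun x ζ => ?_,
    fun N hN => amp_cyc π hπ hN⟩
  rw [hj, hj, amp_single π hπ]

/-- Let `K = lp (fun _ : ℕ => H) 2` (separable), `π` the diagonal representation (`lp.mapCLM`, see
`glue_diag` in `P096/Glue.lean`), `B' = cm (π '' A)`, `D' = cm (π '' N)` (close by `hyp_close`),
`A' = cm B'`, `N' = cm D'` (close by `comm_close`). For a dense sequence `v n` in the unit ball
the vector `(2 ^ (-n) v n)` is cyclic for `D'`, which contains the matrix units. Use `Lift.of_dil`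
with the first coordinate embedding; note `π y ∈ D'` for `y ∈ D`. -/
theorem lift_amp (hH : HyperStmt.{u}) (h : LiftCyc.{u}) : LiftSep.{u} := by
  intro ε hε
  obtain ⟨δ₁, hδ₁, h1⟩ := h ε hε
  obtain ⟨K₀, hK₀, h2⟩ := hyp_close hH
  obtain ⟨K₁, hK₁, h3⟩ := comm_close hH
  refine ⟨δ₁ / (K₁ * K₀), by positivity, fun H _ _ _ A B N D hAB hND hc hsep => ?_⟩
  have : TopologicalSpace.SeparableSpace H := hsep
  obtain ⟨K, _, _, _, π, j, hK, hj, hcy⟩ := amp_ex (H := H)
  have c1 : Close (cm (π '' A)) (cm (π '' N)) (K₀ * (δ₁ / (K₁ * K₀))) :=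
    h2 H _ A N (π : Op H →ₗ[ℂ] Op K) _ (tl_closed hAB) (tl_closed hND)
      (by positivity) hc (fun x => NonUnitalStarAlgHom.norm_apply_le π x) (map_one π)
      (fun x => map_star π x) (fun x _ y _ => map_mul π x y) fun x _ y _ => map_mul π x y
  have c2 := h3 _ _ _ _ _ _ (cp_cm (π '' A)) (cp_cm (π '' N)) (by positivity) c1
  rw [show K₁ * (K₀ * (δ₁ / (K₁ * K₀))) = δ₁ by field_simp] at c2
  have hstar : ∀ y ∈ π '' (N : Set (Op H)), star y ∈ π '' (N : Set (Op H)) := by
    rintro _ ⟨n, hn, rfl⟩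
    exact ⟨star n, star_mem (s := N) hn, map_star π n⟩
  have h5 := h1 _ _ _ _ _ (cp_cm (π '' A)).symm (cp_cm (π '' N)).symm c2 ⟨hK, hcy _ hstar⟩
  refine Lift.of_dil hND π j hj (fun x hx => sub_cm_cm (Set.mem_image_of_mem π hx))
    (fun n hn y hy => mem_cm_alg.1 hn _ ((mem_cm' hstar).2 ?_)) hε.le h5
  rintro _ ⟨m, hm, rfl⟩
  rw [← map_mul, ← map_mul, (hND.right y).1 hy m hm]

end Vale.Agent.P096b
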