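import Vale.Agent.P096b.Defs

/-! Elementary facts used everywhere. -/

set_option linter.unusedSectionVars false

namespace Vale.Agent.P096b

open Filter Topology Vale.Agent.P096 MeasureTheory
open scoped InnerProductSpace ComplexConjugate

universe u v

variable {H : Type u} [NormedAddCommGroup H] [InnerProductSpace ℂ H] [CompleteSpace H]

section Jc

variable {J : H ≃ₗᵢ⋆[ℂ] H}

theorem J_inner (J : H ≃ₗᵢ⋆[ℂ] H) (ξ η : H) : ⟪J ξ, J η⟫_ℂ = ⟪η, ξ⟫_ℂ := by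
  have h : ∀ a b : H, (⟪J a, J b⟫_ℂ).re = (⟪b, a⟫_ℂ).re := fun a b => by
    have h1 := re_inner_eq_norm_add_mul_self_sub_norm_sub_mul_self_div_four (𝕜 := ℂ) (J a) (J b)
    have h2 := re_inner_eq_norm_add_mul_self_sub_norm_sub_mul_self_div_four (𝕜 := ℂ) b a
    rw [← map_add, ← map_sub, J.norm_map, J.norm_map] at h1
    rw [add_comm, norm_sub_rev] at h2
    exact h1.trans h2.symm
  refine Complex.ext (h ξ η) ?_
  have h1 := h ξ (Complex.I • η)
  rw [map_smulₛₗ, inner_smul_right, inner_smul_left] at h1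
  simpa using h1

theorem J_inner' (hJ : ∀ η, J (J η) = η) (ξ η : H) : ⟪J ξ, η⟫_ℂ = ⟪J η, ξ⟫_ℂ := by
  rw [← J_inner J ξ (J η), hJ, ← J_inner J η (J ξ), hJ, ← J_inner J ξ (J η), hJ]

theorem jc_mul (hJ : ∀ η, J (J η) = η) (x y : Op H) : jc J (x * y) = jc J x * jc J y := by
  ext η
  simp [hJ]

theorem jc_one (hJ : ∀ η, J (J η) = η) : jc J 1 = 1 := by
  ext η
  simp [hJ]

theorem jc_jc (hJ : ∀ η, J (J η) = η) (x : Op H) : jc J (jc J x) = x := by
  ext η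
  simp [hJ]

theorem jc_star (hJ : ∀ η, J (J η) = η) (x : Op H) : jc J (star x) = star (jc J x) := by
  ext η
  refine ext_inner_left ℂ fun ζ => ?_
  rw [← tl_inner, jc_apply, jc_apply, J_inner' hJ (x (J ζ)) η, ← inner_conj_symm, J_inner' hJ,
    inner_conj_symm, tl_inner']

theorem jc_add (x y : Op H) : jc J (x + y) = jc J x + jc J y := by
  ext η
  simp

theorem jc_sub (x y : Op H) : jc J (x - y) = jc J x - jc J y := by
  ext η
  simp

theorem jc_smul (c : ℂ) (x : Op H) : jc J (c • x) = conj c • jc J x := by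
  ext η
  simp [map_smulₛₗ]

theorem jc_norm (hJ : ∀ η, J (J η) = η) (x : Op H) : ‖jc J x‖ = ‖x‖ := by
  have h : ∀ y : Op H, ‖jc J y‖ ≤ ‖y‖ := fun y =>
    ContinuousLinearMap.opNorm_le_bound _ (norm_nonneg _) fun η => by
      rw [jc_apply, J.norm_map, ← J.norm_map η]
      exact y.le_opNorm _
  refine le_antisymm (h x) ?_
  have := h (jc J x)
  rwa [jc_jc hJ] at this

theorem jc_unitary (hJ : ∀ η, J (J η) = η) {x : Op H} (hx : x ∈ unitary (Op H)) :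
    jc J x ∈ unitary (Op H) := by
  constructor
  · rw [← jc_star hJ, ← jc_mul hJ, hx.1, jc_one hJ]
  · rw [← jc_star hJ, ← jc_mul hJ, hx.2, jc_one hJ]

end Jc

variable {A B N D : Alg H} {ξ : H}

theorem Cyc.closed (hc : Cyc A ξ) {p : H → Prop} (hp : IsClosed {η | p η})
    (h : ∀ a ∈ A, p (a ξ)) (η : H) : p η := by
  refine hp.closure_subset (Metric.mem_closure_iff.2 fun ε hε => ?_)
  obtain ⟨a, ha, h1⟩ := hc η ε hε
  exact ⟨a ξ, h a ha, by rwa [dist_comm, dist_eq_norm]⟩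

theorem Cyc.ext_op (hc : Cyc A ξ) {x y : Op H} (h : ∀ a ∈ A, x (a ξ) = y (a ξ)) : x = y := by
  exact ContinuousLinearMap.ext (hc.closed (isClosed_eq x.continuous y.continuous) h)

theorem Cyc.strong' {K : Type*} [NormedAddCommGroup K] [NormedSpace ℂ K] (hc : Cyc B ξ)
    {ι : Type*} {l : Filter ι} {a : ι → H →L[ℂ] K} {x : H →L[ℂ] K} {C : ℝ} (hb : ∀ i, ‖a i‖ ≤ C)
    (h : ∀ b ∈ B, Tendsto (fun i => a i (b ξ)) l (𝓝 (x (b ξ)))) (η : H) :
    Tendsto (fun i => a i η) l (𝓝 (x η)) := by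
  refine Metric.tendsto_nhds.2 fun ε hε => ?_
  have hM : 0 < |C| + ‖x‖ + 1 := by positivity
  obtain ⟨b, hb1, hb2⟩ := hc η (ε / 2 / (|C| + ‖x‖ + 1)) (by positivity)
  filter_upwards [Metric.tendsto_nhds.1 (h b hb1) (ε / 2) (half_pos hε)] with i hi
  rw [dist_eq_norm] at hi ⊢
  have e : a i η - x η = (a i (b ξ) - x (b ξ)) - (a i (b ξ - η) - x (b ξ - η)) := by
    rw [map_sub, map_sub]; abel
  have n1 := (a i).le_of_opNorm_le ((hb i).trans (le_abs_self C)) (b ξ - η)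
  have n2 := x.le_opNorm (b ξ - η)
  have n3 := norm_sub_le (a i (b ξ - η)) (x (b ξ - η))
  have n4 := norm_sub_le (a i (b ξ) - x (b ξ)) (a i (b ξ - η) - x (b ξ - η))
  rw [lt_div_iff₀ hM] at hb2
  rw [e]
  nlinarith [norm_nonneg (b ξ - η)]

theorem nonneg_of_inner {a : Op H} (ha : star a = a) (h0 : ∀ η, 0 ≤ (⟪η, a η⟫_ℂ).re) : 0 ≤ a := by
  refine (ContinuousLinearMap.nonneg_iff_isPositive a).2 ?_
  refine ⟨(ContinuousLinearMap.isSelfAdjoint_iff_isSymmetric).1 ha, fun η => ?_⟩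
  have := h0 η
  rw [← inner_conj_symm, Complex.conj_re] at this
  exact this

theorem inner_of_nonneg {a : Op H} (ha : 0 ≤ a) (η : H) : 0 ≤ (⟪η, a η⟫_ℂ).re :=
  ((ContinuousLinearMap.nonneg_iff_isPositive a).1 ha).re_inner_nonneg_right η

/-- A vector that is cyclic for the commutant is separating. -/
theorem Cyc.sep (h : CP A B) (hc : Cyc B ξ) {x : Op H} (hx : x ∈ A) (h0 : x ξ = 0) : x = 0 := by
  refine hc.ext_op fun b hb => ?_
  rw [h.app hx hb, h0, map_zero, ContinuousLinearMap.zero_apply]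

theorem Cyc.ext (h : CP A B) (hc : Cyc B ξ) {x y : Op H} (hx : x ∈ A) (hy : y ∈ A)
    (h0 : x ξ = y ξ) : x = y := by
  refine hc.ext_op fun b hb => ?_
  rw [h.app hx hb, h0, h.app hy hb]

/-- A separating vector is cyclic for the commutant (use `tl_supp`). -/
theorem cyc_of_sep (h : CP A B) (hs : ∀ x ∈ A, x ξ = 0 → x = 0) : Cyc B ξ := by
  obtain ⟨e, he, h1, h2, h3⟩ := tl_supp {ζ | ∃ b ∈ B, ζ = b ξ}
  have eA : e ∈ A := (h.left e).2 fun y hy => (h3 y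
    (by rintro _ ⟨b, hb, rfl⟩; exact ⟨y * b, mul_mem hy hb, rfl⟩)
    (by rintro _ ⟨b, hb, rfl⟩; exact ⟨star y * b, mul_mem (star_mem hy) hb, rfl⟩)).symm
  have e1 : 1 - e = 0 := hs _ (sub_mem (one_mem _) eA) (by
    rw [ContinuousLinearMap.sub_apply, h1 ξ ⟨1, one_mem _, rfl⟩]; simp)
  intro η ε hε
  have h4 := h2 η
  rw [← sub_eq_zero.1 e1] at h4
  obtain ⟨ζ, h5, h6⟩ := Metric.mem_closure_iff.1 h4 ε hε
  have h7 : ∃ b ∈ B, ζ = b ξ := by
    clear h6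
    induction h5 using Submodule.span_induction with
    | mem v hv => exact hv
    | zero => exact ⟨0, zero_mem _, rfl⟩
    | add _ _ _ _ k1 k2 =>
      obtain ⟨b, hb, rfl⟩ := k1
      obtain ⟨c, hc, rfl⟩ := k2
      exact ⟨b + c, add_mem hb hc, rfl⟩
    | smul c _ _ k1 =>
      obtain ⟨b, hb, rfl⟩ := k1
      exact ⟨c • b, B.smul_mem hb c, rfl⟩
  obtain ⟨b, hb, rfl⟩ := h7
  refine ⟨b, hb, ?_⟩
  rw [dist_comm, dist_eq_norm] at h6
  exact h6

theorem Cyc.inner_zero (hc : Cyc A ξ) {η : H} (h : ∀ a ∈ A, ⟪a ξ, η⟫_ℂ = 0) : η = 0 := by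
  have h1 : ∀ ζ, ⟪ζ, η⟫_ℂ = 0 := fun ζ =>
    hc.closed (p := fun ζ => ⟪ζ, η⟫_ℂ = 0) (isClosed_eq (by fun_prop) continuous_const) h ζ
  exact inner_self_eq_zero.1 (h1 η)

theorem Cyc.mono (hc : Cyc A ξ) (h : A ≤ B) : Cyc B ξ := by
  intro η ε hε
  obtain ⟨x, hx, h1⟩ := hc η ε hε
  exact ⟨x, h hx, h1⟩

/-- Bounded nets converge strongly once they converge on the vectors `b ξ`. -/
theorem Cyc.strong (hc : Cyc B ξ) {ι : Type*} {l : Filter ι} {a : ι → Op H} {x : Op H} {C : ℝ}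
    (hb : ∀ i, ‖a i‖ ≤ C) (h : ∀ b ∈ B, Tendsto (fun i => a i (b ξ)) l (𝓝 (x (b ξ)))) (η : H) :
    Tendsto (fun i => a i η) l (𝓝 (x η)) := by
  exact hc.strong' hb h η

/-- Weak limits stay in the algebra. -/
theorem CP.weak (h : CP A B) {ι : Type*} {l : Filter ι} [l.NeBot] {a : ι → Op H} {x : Op H}
    (ha : ∀ᶠ i in l, a i ∈ A)
    (hx : ∀ ζ η, Tendsto (fun i => ⟪η, a i ζ⟫_ℂ) l (𝓝 ⟪η, x ζ⟫_ℂ)) : x ∈ A := by
  refine (h.left x).2 fun y hy => ContinuousLinearMap.ext fun ζ => ext_inner_left ℂ fun η => ?_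
  have h1 := hx (y ζ) η
  have h2 := hx ζ (star y η)
  rw [tl_inner'] at h2
  refine tendsto_nhds_unique h1 (h2.congr' ?_)
  filter_upwards [ha] with i hi
  rw [tl_inner', h.app hi hy]

theorem norm_le_of_inner {x : Op H} {C : ℝ} (hC : 0 ≤ C)
    (h : ∀ ζ η, ‖⟪η, x ζ⟫_ℂ‖ ≤ C * ‖η‖ * ‖ζ‖) : ‖x‖ ≤ C := by
  refine ContinuousLinearMap.opNorm_le_bound _ hC fun ζ => ?_
  have h1 := h ζ (x ζ)
  rw [inner_self_eq_norm_sq_to_K, norm_pow] at h1
  rcases (norm_nonneg (x ζ)).eq_or_lt with h2 | h2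
  · rw [← h2]; positivity
  · refine le_of_mul_le_mul_left ?_ h2
    simp only [Complex.coe_algebraMap, Complex.norm_real, norm_norm] at h1
    nlinarith

theorem norm_le_of_unit {x : Op H} {C : ℝ} (hC : 0 ≤ C)
    (h : ∀ ζ η : H, ‖ζ‖ ≤ 1 → ‖η‖ ≤ 1 → ‖⟪η, x ζ⟫_ℂ‖ ≤ C) : ‖x‖ ≤ C := by
  refine norm_le_of_inner hC fun ζ η => ?_
  rcases eq_or_ne ζ 0 with rfl | hζ
  · simp
  rcases eq_or_ne η 0 with rfl | hη
  · simp
  have h1 := norm_pos_iff.2 hζ
  have h2 := norm_pos_iff.2 hη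
  have h3 := h ((‖ζ‖⁻¹ : ℂ) • ζ) ((‖η‖⁻¹ : ℂ) • η) (by simp [norm_smul, h1.ne'])
    (by simp [norm_smul, h2.ne'])
  rw [map_smul, inner_smul_right, inner_smul_left, norm_mul, norm_mul] at h3
  simp only [norm_inv, Complex.norm_real, norm_norm, RCLike.norm_conj] at h3
  rw [inv_mul_le_iff₀ h1, inv_mul_le_iff₀ h2] at h3
  linarith

theorem ext_inner_self {x y : Op H} (h : ∀ η, ⟪η, x η⟫_ℂ = ⟪η, y η⟫_ℂ) : x = y := by
  have h1 := (ext_inner_map (x : H →ₗ[ℂ] H) (y : H →ₗ[ℂ] H)).1 fun η => by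
    have := congrArg conj (h η)
    rw [inner_conj_symm, inner_conj_symm] at this
    exact this
  exact ContinuousLinearMap.coe_injective h1

theorem unitary_norm {u : Op H} (hu : u ∈ unitary (Op H)) (η : H) : ‖u η‖ = ‖η‖ := by
  exact ContinuousLinearMap.norm_map_of_mem_unitary hu η

/-- An element whose vector is a limit of central vectors is central.
Proof: `‖z* ξ‖ = ‖z ξ‖` for central (normal) `z`, so `z n * ξ` is Cauchy and tends to `x* ξ`
(pair with `b ξ`); then `⟪x a ξ, b ξ⟫ = lim ⟪z n a ξ, b ξ⟫ = ⟪a x ξ, b ξ⟫`. -/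
theorem central_of_approx (h : CP A B) (hA : Cyc A ξ) (hB : Cyc B ξ) {x : Op H} (hx : x ∈ A)
    (ha : ∀ ε : ℝ, 0 < ε → ∃ z ∈ A, z ∈ B ∧ ‖x ξ - z ξ‖ < ε) : x ∈ B := by
  choose z hzA hzB hz using fun n : ℕ => ha (1 / ((n : ℝ) + 1)) Nat.one_div_pos_of_nat
  have h1 : Tendsto (fun n => z n ξ) atTop (𝓝 (x ξ)) := by
    rw [tendsto_iff_norm_sub_tendsto_zero]
    refine squeeze_zero (fun _ => norm_nonneg _) (fun n => ?_)
      tendsto_one_div_add_atTop_nhds_zero_nat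
    rw [norm_sub_rev]
    exact (hz n).le
  have h2 : ∀ n, ‖innerSL ℂ (star (z n) ξ)‖ ≤ ‖x ξ‖ + 1 := fun n => by
    have e1 : ‖star (z n) ξ‖ ^ 2 = ‖z n ξ‖ ^ 2 := by
      rw [tl_norm_sq, tl_norm_sq, star_star, (h.left _).1 (hzA n) _ (star_mem (hzB n))]
    rw [innerSL_apply_norm, (pow_left_inj₀ (norm_nonneg _) (norm_nonneg _) two_ne_zero).1 e1]
    have k1 := norm_sub_norm_le (z n ξ) (x ξ)
    rw [norm_sub_rev] at k1
    have k2 : 1 / ((n : ℝ) + 1) ≤ 1 := by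
      rw [div_le_one (by positivity)]
      linarith [n.cast_nonneg (α := ℝ)]
    linarith [hz n]
  have h3 := hB.strong' (l := atTop) (x := innerSL ℂ (star x ξ)) h2 fun b hb => by
    simp only [innerSL_apply_apply, tl_inner']
    rw [h.app hx hb]
    refine (tendsto_const_nhds.inner ((b.continuous.tendsto _).comp h1)).congr fun n => ?_
    rw [h.app (hzA n) hb]
    rfl
  refine (h.right x).2 fun a haA => Cyc.ext h hB (mul_mem hx haA) (mul_mem haA hx) ?_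
  refine sub_eq_zero.1 (hB.inner_zero fun b hb => ?_)
  rw [inner_sub_right, sub_eq_zero]
  have h4 := h3 (star b (a ξ))
  simp only [innerSL_apply_apply, tl_inner'] at h4
  rw [h.app hx (star_mem hb), ← tl_inner] at h4
  refine tendsto_nhds_unique h4 ?_
  refine (tendsto_const_nhds.inner ((a.continuous.tendsto _).comp h1)).congr fun n => ?_
  rw [h.app (hzA n) (star_mem hb), ← tl_inner, ← h.app haA (hzB n)]
  rfl

/-- Square roots: for positive `a` and `ε > 0` the operator `(a + ε) ^ (1/2)` and its inverse. -/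
theorem exists_sqrt (a : Op H) (ha : star a = a) (h0 : ∀ η, 0 ≤ (⟪η, a η⟫_ℂ).re) (ε : ℝ)
    (hε : 0 < ε) : ∃ l k : Op H, star l = l ∧ star k = k ∧ l * k = 1 ∧ k * l = 1 ∧
      l * l = a + (ε : ℂ) • 1 ∧ (∀ η, 0 ≤ (⟪η, k η⟫_ℂ).re) ∧ (∀ η, 0 ≤ (⟪η, l η⟫_ℂ).re) ∧
      ∀ y, y * a = a * y → y * l = l * y ∧ y * k = k * y := by
  have hs : IsSelfAdjoint a := ha
  have sp : ∀ t ∈ spectrum ℝ a, 0 ≤ t := fun t ht =>
    spectrum_nonneg_of_nonneg (nonneg_of_inner ha h0) ht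
  have sq : ∀ t ∈ spectrum ℝ a, 0 < √(t + ε) := fun t ht =>
    Real.sqrt_pos.2 (by linarith [sp t ht])
  have c0 : ContinuousOn (fun t : ℝ => √(t + ε)) (spectrum ℝ a) := by fun_prop
  have c1 : ContinuousOn (fun t : ℝ => (√(t + ε))⁻¹) (spectrum ℝ a) :=
    c0.inv₀ fun t ht => (sq t ht).ne'
  refine ⟨cfc (fun t : ℝ => √(t + ε)) a, cfc (fun t : ℝ => (√(t + ε))⁻¹) a,
    IsSelfAdjoint.cfc.star_eq, IsSelfAdjoint.cfc.star_eq, ?_, ?_, ?_,
    inner_of_nonneg (cfc_nonneg fun t _ => by positivity),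
    inner_of_nonneg (cfc_nonneg fun t _ => by positivity), fun y hy => ⟨?_, ?_⟩⟩
  · rw [← cfc_mul _ _ a c0 c1, ← cfc_one ℝ a]
    exact cfc_congr fun t ht => mul_inv_cancel₀ (sq t ht).ne'
  · rw [← cfc_mul _ _ a c1 c0, ← cfc_one ℝ a]
    exact cfc_congr fun t ht => inv_mul_cancel₀ (sq t ht).ne'
  · rw [← cfc_mul _ _ a c0 c0, Complex.coe_smul, ← Algebra.algebraMap_eq_smul_one]
    conv_rhs => enter [1]; rw [← cfc_id' ℝ a]
    rw [← cfc_add_const ε (fun t : ℝ => t) a]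
    exact cfc_congr fun t ht => Real.mul_self_sqrt (by linarith [sp t ht])
  · exact (Commute.cfc_real (show Commute a y from hy.symm) _).eq.symm
  · exact (Commute.cfc_real (show Commute a y from hy.symm) _).eq.symm

/-- Square roots of positive operators. -/
theorem exists_sqrt' (a : Op H) (ha : star a = a) (h0 : ∀ η, 0 ≤ (⟪η, a η⟫_ℂ).re) :
    ∃ l : Op H, star l = l ∧ l * l = a ∧ ∀ y, y * a = a * y → y * l = l * y := by
  have hs : IsSelfAdjoint a := ha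
  have sp : ∀ t ∈ spectrum ℝ a, 0 ≤ t := fun t ht =>
    spectrum_nonneg_of_nonneg (nonneg_of_inner ha h0) ht
  refine ⟨cfc (fun t : ℝ => √t) a, IsSelfAdjoint.cfc.star_eq, ?_, fun y hy => ?_⟩
  · rw [← cfc_mul _ _ a]
    conv_rhs => rw [← cfc_id' ℝ a]
    exact cfc_congr fun t ht => Real.mul_self_sqrt (sp t ht)
  · exact (Commute.cfc_real (show Commute a y from hy.symm) _).eq.symm

/-- The cut-off `(1 + d * d) ^ (-1/2)`. -/
theorem exists_cut (d : Op H) (hd : star d = d) : ∃ p : Op H, star p = p ∧ ‖p‖ ≤ 1 ∧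
    p * (1 + d * d) * p = 1 ∧ (∀ η, ‖p η - η‖ ≤ ‖d η‖) ∧
    ∀ y, y * d = d * y → y * p = p * y := by
  have hs : IsSelfAdjoint d := hd
  have sq : ∀ t : ℝ, 1 ≤ √(1 + t * t) := fun t =>
    Real.le_sqrt_of_sq_le (by nlinarith [mul_self_nonneg t])
  have sq2 : ∀ t : ℝ, √(1 + t * t) * √(1 + t * t) = 1 + t * t := fun t =>
    Real.mul_self_sqrt (by nlinarith [mul_self_nonneg t])
  have c1 : Continuous (fun t : ℝ => (√(1 + t * t))⁻¹) :=
    (by fun_prop : Continuous fun t : ℝ => √(1 + t * t)).inv₀ fun t => by linarith [sq t]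
  have c2 : Continuous (fun t : ℝ => -(√(1 + t * t) * (1 + √(1 + t * t)))⁻¹) :=
    ((by fun_prop : Continuous fun t : ℝ => √(1 + t * t) * (1 + √(1 + t * t))).inv₀ fun t => by
      have := sq t
      positivity).neg
  have e1 : d * d = cfc (fun t : ℝ => t * t) d := by
    rw [cfc_mul _ _ d, cfc_id' ℝ d]
  have e2 : 1 + d * d = cfc (fun t : ℝ => 1 + t * t) d := by
    rw [cfc_const_add 1 (fun t : ℝ => t * t) d, map_one, e1]
  refine ⟨cfc (fun t : ℝ => (√(1 + t * t))⁻¹) d, IsSelfAdjoint.cfc.star_eq,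
    norm_cfc_le zero_le_one fun t _ => ?_, ?_, fun η => ?_, fun y hy => ?_⟩
  · have := sq t
    rw [Real.norm_of_nonneg (by positivity)]
    exact inv_le_one_of_one_le₀ this
  · rw [e2, ← cfc_mul _ _ d c1.continuousOn, ← cfc_mul
      (fun t : ℝ => (√(1 + t * t))⁻¹ * (1 + t * t)) _ d
      (c1.continuousOn.mul (by fun_prop)) c1.continuousOn, ← cfc_one ℝ d]
    refine cfc_congr fun t _ => ?_
    have k1 := sq t
    have k2 := sq2 t
    simp only [Pi.one_apply]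
    generalize √(1 + t * t) = s at k1 k2 ⊢
    rw [← k2]
    field_simp
  · have c3 : Continuous (fun t : ℝ => -(√(1 + t * t) * (1 + √(1 + t * t)))⁻¹ * t) :=
      c2.mul continuous_id
    have e3 : cfc (fun t : ℝ => (√(1 + t * t))⁻¹) d - 1 =
        cfc (fun t : ℝ => -(√(1 + t * t) * (1 + √(1 + t * t)))⁻¹ * t) d * cfc (fun t : ℝ => t) d := by
      rw [← cfc_mul _ _ d c3.continuousOn, ← cfc_const_one ℝ d, ← cfc_sub _ _ d c1.continuousOn]
      refine cfc_congr fun t _ => ?_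
      have k1 := sq t
      have k2 := sq2 t
      generalize √(1 + t * t) = s at k1 k2 ⊢
      field_simp
      linarith
    rw [cfc_id' ℝ d] at e3
    have n1 : ‖cfc (fun t : ℝ => -(√(1 + t * t) * (1 + √(1 + t * t)))⁻¹ * t) d‖ ≤ 1 :=
      norm_cfc_le zero_le_one fun t _ => by
        have k1 := sq t
        have k2 : |t| ≤ √(1 + t * t) := Real.abs_le_sqrt (by nlinarith)
        rw [norm_mul, norm_neg, Real.norm_of_nonneg (by positivity), Real.norm_eq_abs,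
          inv_mul_le_iff₀ (by positivity)]
        nlinarith
    have e4 := congrArg (fun T : Op H => T η) e3
    simp only [sub_apply, one_apply_eq_self, mul_apply_eq_comp] at e4
    rw [e4]
    simpa using ContinuousLinearMap.le_of_opNorm_le _ n1 (d η)
  · exact (Commute.cfc_real (show Commute d y from hy.symm) _).eq.symm

theorem Lift.mono {ε ε' : ℝ} (h : Lift A N ε) (h1 : ε ≤ ε') : Lift A N ε' := by
  obtain ⟨Φ, h2, h3, h4⟩ := h
  exact ⟨Φ, h2, h3, fun x hx => ⟨(h4 x hx).1,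
    (h4 x hx).2.trans (mul_le_mul_of_nonneg_right h1 (norm_nonneg _))⟩⟩

/-- Transfer of a lifting through a conjugation: use `x ↦ Φ (W* x W)`. -/
theorem Lift.of_cj {ε : ℝ} (W : unitary (Op H)) (h : Lift (cj W A) N ε) :
    Lift A N (ε + 2 * ‖(W : Op H) - 1‖) := by
  obtain ⟨Φ, h2, h3, h4⟩ := h
  have u1 : (W : Op H) * star (W : Op H) = 1 := W.2.2
  have hm : ∀ x ∈ A, star (W : Op H) * x * W ∈ cj W A := fun x hx => mem_cj.2 (by
    rwa [← mul_assoc, ← mul_assoc, u1, one_mul, mul_assoc, u1, mul_one])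
  refine ⟨fun x => Φ (star (W : Op H) * x * W), fun x hx y hy => ?_, fun c x hx => ?_,
    fun x hx => ⟨(h4 _ (hm x hx)).1, ?_⟩⟩
  · simp only [mul_add, add_mul]
    exact h2 _ (hm x hx) _ (hm y hy)
  · simp only [mul_smul_comm, smul_mul_assoc]
    exact h3 c _ (hm x hx)
  · have k1 := tl_conj _ (Unitary.star_mem W.2) x
    rw [star_star, ← star_one (Op H), ← star_sub, norm_star] at k1
    have k2 := (h4 _ (hm x hx)).2
    rw [CStarRing.norm_mul_mem_unitary _ W.2,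
      CStarRing.norm_mem_unitary_mul _ (Unitary.star_mem W.2)] at k2
    have k3 := norm_add_le (Φ (star (W : Op H) * x * W) - star (W : Op H) * x * W)
      (star (W : Op H) * x * W - x)
    rw [sub_add_sub_cancel] at k3
    linarith

/-- Transfer of a lifting through a dilation: use `x ↦ j* Φ (π x) j`. -/
theorem Lift.of_dil {K : Type u} [NormedAddCommGroup K] [InnerProductSpace ℂ K] [CompleteSpace K]
    {A' N' : Alg K} {ε : ℝ} (hND : CP N D) (π : Op H →⋆ₐ[ℂ] Op K) (j : H →ₗᵢ[ℂ] K)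
    (hπ : ∀ x η, π x (j η) = j (x η)) (hA : ∀ x ∈ A, π x ∈ A')
    (hN : ∀ n ∈ N', ∀ y ∈ D, n * π y = π y * n) (hε : 0 ≤ ε) (h : Lift A' N' ε) :
    Lift A N ε := by
  obtain ⟨Φ, h2, h3, h4⟩ := h
  let i : H →L[ℂ] K := j.toContinuousLinearMap
  let Ψ : Op K → Op H := fun T => ContinuousLinearMap.adjoint i ∘L (T ∘L i)
  have hΨ : ∀ T ζ η, ⟪η, Ψ T ζ⟫_ℂ = ⟪j η, T (j ζ)⟫_ℂ := fun T ζ η =>
    ContinuousLinearMap.adjoint_inner_right i η (T (j ζ))
  refine ⟨fun x => Ψ (Φ (π x)), fun x hx y hy => ?_, fun c x hx => ?_, fun x hx => ⟨?_, ?_⟩⟩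
  · ext ζ
    refine ext_inner_left ℂ fun η => ?_
    beta_reduce
    rw [map_add, h2 _ (hA x hx) _ (hA y hy), ContinuousLinearMap.add_apply, inner_add_right, hΨ,
      hΨ, hΨ, ContinuousLinearMap.add_apply, inner_add_right]
  · ext ζ
    refine ext_inner_left ℂ fun η => ?_
    beta_reduce
    rw [map_smul, h3 c _ (hA x hx), ContinuousLinearMap.smul_apply, inner_smul_right, hΨ,
      hΨ, ContinuousLinearMap.smul_apply, inner_smul_right]
  · refine (hND.left _).2 fun y hy => ?_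
    ext ζ
    refine ext_inner_left ℂ fun η => ?_
    have k1 := congrArg (fun T : Op K => T (j ζ)) (hN _ (h4 _ (hA x hx)).1 y hy)
    simp only [ContinuousLinearMap.mul_apply] at k1 ⊢
    rw [hΨ, ← tl_inner' y, hΨ, ← hπ, ← hπ, k1, map_star, tl_inner']
  · refine norm_le_of_inner (by positivity) fun ζ η => ?_
    have k1 : ⟪η, (Ψ (Φ (π x)) - x) ζ⟫_ℂ = ⟪j η, (Φ (π x) - π x) (j ζ)⟫_ℂ := by
      rw [ContinuousLinearMap.sub_apply, ContinuousLinearMap.sub_apply, inner_sub_right,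
        inner_sub_right, hΨ, hπ, j.inner_map_map]
    have k2 : ‖Φ (π x) - π x‖ ≤ ε * ‖x‖ := (h4 _ (hA x hx)).2.trans
      (mul_le_mul_of_nonneg_left (NonUnitalStarAlgHom.norm_apply_le π x) hε)
    have k3 := ContinuousLinearMap.le_of_opNorm_le _ k2 (j ζ)
    rw [k1]
    refine (norm_inner_le_norm _ _).trans ?_
    rw [j.norm_map] at k3 ⊢
    calc _ ≤ ‖η‖ * (ε * ‖x‖ * ‖ζ‖) := mul_le_mul_of_nonneg_left k3 (norm_nonneg _)
      _ = _ := by ring

/-- Limits of approximate liftings. -/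
theorem lift_of_lim {ι : Type*} (l : Filter ι) [l.NeBot] (hND : CP N D) {ε C : ℝ} (hε : 0 ≤ ε)
    (Φ : ι → Op H → Op H) (hadd : ∀ i, ∀ x ∈ A, ∀ y ∈ A, Φ i (x + y) = Φ i x + Φ i y)
    (hsmul : ∀ i (c : ℂ), ∀ x ∈ A, Φ i (c • x) = c • Φ i x)
    (hbd : ∀ i, ∀ x ∈ A, ‖Φ i x‖ ≤ C * ‖x‖)
    (hcomm : ∀ x ∈ A, ∀ y ∈ D, ∀ᶠ i in l, Φ i x * y = y * Φ i x)
    (hnear : ∀ x ∈ A, ∀ ζ η, ∀ t : ℝ, 0 < t → ∀ᶠ i in l,
      ‖⟪η, (Φ i x - x) ζ⟫_ℂ‖ ≤ ε * ‖x‖ * ‖η‖ * ‖ζ‖ + t) : Lift A N ε := by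
  have hU : (Ultrafilter.of l : Filter ι) ≤ l := Ultrafilter.of_le l
  generalize Ultrafilter.of l = U at hU
  have h1 : ∀ x : Op H, ∃ S : Op H, x ∈ A →
      ∀ ζ η, Tendsto (fun i => ⟪η, Φ i x ζ⟫_ℂ) U (𝓝 ⟪η, S ζ⟫_ℂ) := fun x => by
    by_cases hx : x ∈ A
    · obtain ⟨S, hS⟩ := tl_ulim U (fun i => Φ i x) _ fun i => hbd i x hx
      exact ⟨S, fun _ => hS⟩
    · exact ⟨0, fun h => absurd h hx⟩
  choose Ψ hΨ using h1
  refine ⟨Ψ, fun x hx y hy => ?_, fun c x hx => ?_, fun x hx => ⟨?_, ?_⟩⟩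
  · ext ζ
    refine ext_inner_left ℂ fun η => tendsto_nhds_unique (hΨ _ (add_mem hx hy) ζ η) ?_
    rw [ContinuousLinearMap.add_apply, inner_add_right]
    refine ((hΨ x hx ζ η).add (hΨ y hy ζ η)).congr fun i => ?_
    rw [hadd i x hx y hy, ContinuousLinearMap.add_apply, inner_add_right]
  · ext ζ
    refine ext_inner_left ℂ fun η => tendsto_nhds_unique (hΨ _ (A.smul_mem hx c) ζ η) ?_
    rw [ContinuousLinearMap.smul_apply, inner_smul_right]
    refine ((hΨ x hx ζ η).const_mul c).congr fun i => ?_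
    rw [hsmul i c x hx, ContinuousLinearMap.smul_apply, inner_smul_right]
  · refine (hND.left _).2 fun y hy => ContinuousLinearMap.ext fun ζ =>
      ext_inner_left ℂ fun η => ?_
    have k1 := hΨ x hx (y ζ) η
    have k2 := hΨ x hx ζ (star y η)
    rw [tl_inner'] at k2
    refine tendsto_nhds_unique k1 (k2.congr' ?_)
    filter_upwards [hU (hcomm x hx y hy)] with i hi
    rw [tl_inner']
    exact congrArg (fun T : Op H => ⟪η, T ζ⟫_ℂ) (Eq.symm hi)
  · refine norm_le_of_inner (by positivity) fun ζ η => le_of_forall_pos_le_add fun t ht => ?_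
    have k1 := ((hΨ x hx ζ η).sub_const ⟪η, x ζ⟫_ℂ).norm
    rw [ContinuousLinearMap.sub_apply, inner_sub_right]
    refine le_of_tendsto k1 ?_
    filter_upwards [hU (hnear x hx ζ η t ht)] with i hi
    simpa only [ContinuousLinearMap.sub_apply, inner_sub_right, Set.mem_setOf_eq] using hi

end Vale.Agent.P096b
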