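import Vale.Agent.P096b.Basic

/-! The bounded functional calculus: spectral measures and consequences. -/

set_option linter.unusedSectionVars false

namespace Vale.Agent.P096b

open Filter Topology Vale.Agent.P096 MeasureTheory
open scoped InnerProductSpace ComplexConjugate

universe u v

variable {H : Type u} [NormedAddCommGroup H] [InnerProductSpace ℂ H] [CompleteSpace H]

section BC

variable {f g : ℝ → ℂ}

theorem BC.of_le (hc : Continuous f) {C : ℝ} (h : ∀ κ, ‖f κ‖ ≤ C) : BC f := ⟨hc, C, h⟩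

theorem BC.const (c : ℂ) : BC fun _ => c := ⟨continuous_const, ‖c‖, fun _ => le_rfl⟩

theorem BC.add (hf : BC f) (hg : BC g) : BC fun κ => f κ + g κ := by
  obtain ⟨h1, C, h2⟩ := hf
  obtain ⟨h3, D, h4⟩ := hg
  exact ⟨h1.add h3, C + D, fun κ => (norm_add_le _ _).trans (add_le_add (h2 κ) (h4 κ))⟩

theorem BC.sub (hf : BC f) (hg : BC g) : BC fun κ => f κ - g κ := by
  obtain ⟨h1, C, h2⟩ := hf
  obtain ⟨h3, D, h4⟩ := hg
  exact ⟨h1.sub h3, C + D, fun κ => (norm_sub_le _ _).trans (add_le_add (h2 κ) (h4 κ))⟩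

theorem BC.mul (hf : BC f) (hg : BC g) : BC fun κ => f κ * g κ := by
  obtain ⟨h1, C, h2⟩ := hf
  obtain ⟨h3, D, h4⟩ := hg
  exact ⟨h1.mul h3, C * D, fun κ => (norm_mul_le _ _).trans
    (mul_le_mul (h2 κ) (h4 κ) (norm_nonneg _) ((norm_nonneg _).trans (h2 κ)))⟩

theorem BC.cmul (c : ℂ) (hf : BC f) : BC fun κ => c * f κ := (BC.const c).mul hf

theorem BC.conj (hf : BC f) : BC fun κ => conj (f κ) := by
  obtain ⟨h1, C, h2⟩ := hf
  exact ⟨Complex.continuous_conj.comp h1, C, fun κ => by simpa using h2 κ⟩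

theorem BC.comp (hf : BC f) {φ : ℝ → ℝ} (hφ : Continuous φ) : BC fun κ => f (φ κ) := by
  obtain ⟨h1, C, h2⟩ := hf
  exact ⟨h1.comp hφ, C, fun κ => h2 _⟩

theorem BC.sum {ι : Type*} (s : Finset ι) {f : ι → ℝ → ℂ} (hf : ∀ i ∈ s, BC (f i)) :
    BC fun κ => ∑ i ∈ s, f i κ := by
  classical
  induction s using Finset.induction_on with
  | empty => simpa using BC.const 0
  | insert a s ha ih =>
    simp only [Finset.sum_insert ha]
    exact (hf a (Finset.mem_insert_self _ _)).add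
      (ih fun i hi => hf i (Finset.mem_insert_of_mem hi))

theorem norm_ex (t κ : ℝ) : ‖ex t κ‖ = 1 := by
  simp [ex, Complex.norm_exp]

theorem ex_add (s t κ : ℝ) : ex (s + t) κ = ex s κ * ex t κ := by
  rw [ex, ex, ex, ← Complex.exp_add]
  congr 1
  push_cast
  ring

theorem ex_add' (t κ κ' : ℝ) : ex t (κ + κ') = ex t κ * ex t κ' := by
  rw [ex, ex, ex, ← Complex.exp_add]
  congr 1
  push_cast
  ring

theorem conj_ex (t κ : ℝ) : conj (ex t κ) = ex (-t) κ := by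
  rw [ex, ex, ← Complex.exp_conj]
  congr 1
  simp

theorem ex_neg (t κ : ℝ) : ex t (-κ) = ex (-t) κ := by
  rw [ex, ex]
  congr 1
  push_cast
  ring

theorem ex_zero (κ : ℝ) : ex 0 κ = 1 := by
  simp [ex]

theorem ex_zero' (t : ℝ) : ex t 0 = 1 := by
  simp [ex]

theorem bc_ex (t : ℝ) : BC (ex t) := by
  refine ⟨?_, 1, fun κ => (norm_ex t κ).le⟩
  unfold ex
  fun_prop

theorem bc_cf : BC cf := by
  refine ⟨?_, 1, fun κ => ?_⟩
  · unfold cf
    refine Complex.continuous_ofReal.comp (Continuous.sqrt (Continuous.inv₀ (by fun_prop)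
      fun κ => ?_))
    positivity
  · rw [cf, Complex.norm_real, Real.norm_of_nonneg (Real.sqrt_nonneg _), Real.sqrt_le_one]
    exact inv_le_one_of_one_le₀ (by linarith [Real.exp_pos κ])

theorem bc_sf : BC sf := bc_cf.comp continuous_neg

theorem cf_ne (κ : ℝ) : cf κ ≠ 0 := by
  rw [cf, Complex.ofReal_ne_zero]
  positivity

theorem sf_ne (κ : ℝ) : sf κ ≠ 0 := cf_ne _

theorem conj_cf (κ : ℝ) : conj (cf κ) = cf κ := Complex.conj_ofReal _

theorem conj_sf (κ : ℝ) : conj (sf κ) = sf κ := Complex.conj_ofReal _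

theorem cf_neg (κ : ℝ) : cf (-κ) = sf κ := rfl

theorem sf_neg (κ : ℝ) : sf (-κ) = cf κ := by
  rw [sf, neg_neg]

theorem cf_sq (κ : ℝ) : cf κ * cf κ = ((1 + Real.exp κ)⁻¹ : ℝ) := by
  rw [cf, ← Complex.ofReal_mul, Real.mul_self_sqrt (by positivity)]

theorem cf_sq_add (κ : ℝ) : cf κ * cf κ + sf κ * sf κ = 1 := by
  rw [sf, cf_sq, cf_sq, ← Complex.ofReal_add, Real.exp_neg, ← Complex.ofReal_one]
  congr 1
  have := Real.exp_pos κ
  field_simp
  ring

theorem sf_eq (κ : ℝ) : sf κ = (Real.exp (κ / 2) : ℝ) * cf κ := by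
  rw [sf, cf, cf, ← Complex.ofReal_mul]
  congr 1
  have h := Real.exp_pos κ
  have e : Real.exp (κ / 2) ^ 2 = Real.exp κ := by
    rw [← Real.exp_nat_mul]
    congr 1
    push_cast
    ring
  rw [← Real.sqrt_sq (Real.exp_pos (κ / 2)).le, ← Real.sqrt_mul (sq_nonneg _), e, Real.exp_neg]
  congr 1
  field_simp
  ring

theorem cf_mul_sf (κ : ℝ) : cf κ * sf κ = ((2 * Real.cosh (κ / 2))⁻¹ : ℝ) := by
  rw [sf_eq, mul_left_comm, cf_sq, ← Complex.ofReal_mul]
  congr 1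
  have h := Real.exp_pos (κ / 2)
  have e : Real.exp κ = Real.exp (κ / 2) * Real.exp (κ / 2) := by
    rw [← Real.exp_add, add_halves]
  rw [Real.cosh_eq, Real.exp_neg, e]
  field_simp
  ring

theorem bc_ft {k : ℝ → ℂ} (hk : Integrable k) : BC (ft k) := by
  have h : ∀ κ t : ℝ, ‖k t * ex t κ‖ = ‖k t‖ := fun κ t => by rw [norm_mul, norm_ex, mul_one]
  refine ⟨continuous_of_dominated (bound := fun t => ‖k t‖) (fun κ => ?_)
    (fun κ => Eventually.of_forall fun t => (h κ t).le) hk.norm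
    (Eventually.of_forall fun t => continuous_const.mul (bc_ex t).1), ∫ t, ‖k t‖, fun κ => ?_⟩
  · refine hk.1.mul (Continuous.aestronglyMeasurable ?_)
    unfold ex
    fun_prop
  · refine (norm_integral_le_integral_norm _).trans (le_of_eq ?_)
    simp only [h]

theorem calc_ofReal {u : ℝ → ℝ} (hc : Continuous u) {C : ℝ} (h : ∀ κ, |u κ| ≤ C) :
    BC fun κ => (u κ : ℂ) :=
  ⟨Complex.continuous_ofReal.comp hc, C, fun κ => by simpa using h κ⟩

theorem calc_bc (u : CompactlySupportedContinuousMap ℝ ℝ) : BC fun κ => (u κ : ℂ) := by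
  obtain ⟨C, hC⟩ := u.continuous.bounded_above_of_compact_support u.hasCompactSupport
  exact calc_ofReal u.continuous hC

theorem calc_integrable (μ : Measure ℝ) [IsFiniteMeasure μ] (hf : BC f) : Integrable f μ := by
  obtain ⟨h1, C, h2⟩ := hf
  exact .of_bound h1.aestronglyMeasurable C (Eventually.of_forall h2)

theorem calc_integrable_sq (μ : Measure ℝ) [IsFiniteMeasure μ] (hf : BC f) :
    Integrable (fun κ => ‖f κ‖ ^ 2) μ := by
  simpa [sq] using (calc_integrable μ (hf.mul hf)).norm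

/-- Cut-off functions. -/
noncomputable def calc_chi (n : ℕ) (κ : ℝ) : ℝ := max 0 (min 1 (n + 1 - |κ|))

theorem calc_chi_mem (n : ℕ) (κ : ℝ) : 0 ≤ calc_chi n κ ∧ calc_chi n κ ≤ 1 :=
  ⟨le_max_left _ _, max_le zero_le_one (min_le_left _ _)⟩

theorem calc_chi_one {n : ℕ} {κ : ℝ} (h : |κ| ≤ n) : calc_chi n κ = 1 := by
  rw [calc_chi, min_eq_left (by linarith), max_eq_right zero_le_one]

theorem calc_chi_zero {n : ℕ} {κ : ℝ} (h : n + 1 ≤ |κ|) : calc_chi n κ = 0 :=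
  max_eq_left ((min_le_right _ _).trans (by linarith))

theorem calc_chi_cont (n : ℕ) : Continuous (calc_chi n) := by
  unfold calc_chi
  fun_prop

/-- The cut-off functions have compact support. -/
noncomputable def calc_chiC (n : ℕ) : CompactlySupportedContinuousMap ℝ ℝ :=
  ⟨⟨calc_chi n, calc_chi_cont n⟩, HasCompactSupport.intro
    (isCompact_Icc (a := -((n : ℝ) + 1)) (b := n + 1)) fun _ hκ =>
      calc_chi_zero (not_le.1 fun h => hκ (abs_le.1 h)).le⟩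

theorem calc_bc_chi (n : ℕ) : BC fun κ => (calc_chi n κ : ℂ) := calc_bc (calc_chiC n)

theorem calc_norm_chi (n : ℕ) (κ : ℝ) : ‖(calc_chi n κ : ℂ)‖ ≤ 1 := by
  rw [Complex.norm_real, Real.norm_of_nonneg (calc_chi_mem n κ).1]
  exact (calc_chi_mem n κ).2

theorem calc_mono : Monotone fun n : ℕ => Set.Icc (-(n : ℝ)) n := fun _ _ h =>
  Set.Icc_subset_Icc (neg_le_neg (Nat.cast_le.2 h)) (Nat.cast_le.2 h)

theorem calc_univ : ⋃ n : ℕ, Set.Icc (-(n : ℝ)) n = Set.univ :=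
  Set.eq_univ_of_forall fun κ => Set.mem_iUnion.2 ⟨⌈|κ|⌉₊, abs_le.1 (Nat.le_ceil _)⟩

end BC

namespace Calc

variable (Φ : Calc H) {f g : ℝ → ℂ}

theorem const (c : ℂ) : Φ.F (fun _ => c) = c • 1 := by
  simpa [Φ.one] using Φ.smul c (BC.const 1)

theorem sub (hf : BC f) (hg : BC g) : Φ.F (fun κ => f κ - g κ) = Φ.F f - Φ.F g := by
  have h := Φ.add hf (hg.cmul (-1))
  rw [Φ.smul _ hg] at h
  simpa [sub_eq_add_neg] using h

theorem sum {ι : Type*} (s : Finset ι) {f : ι → ℝ → ℂ} (hf : ∀ i ∈ s, BC (f i)) :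
    Φ.F (fun κ => ∑ i ∈ s, f i κ) = ∑ i ∈ s, Φ.F (f i) := by
  classical
  induction s using Finset.induction_on with
  | empty => simpa using Φ.const 0
  | insert a s ha ih =>
    simp only [Finset.sum_insert ha]
    have h := fun i hi => hf i (Finset.mem_insert_of_mem hi)
    rw [Φ.add (hf a (Finset.mem_insert_self _ _)) (BC.sum s h), ih h]

theorem comm (hf : BC f) (hg : BC g) : Φ.F f * Φ.F g = Φ.F g * Φ.F f := by
  rw [← Φ.mul hf hg, ← Φ.mul hg hf]
  simp only [mul_comm]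

theorem mul_apply (hf : BC f) (hg : BC g) (η : H) :
    Φ.F f (Φ.F g η) = Φ.F (fun κ => f κ * g κ) η := by
  rw [Φ.mul hf hg]
  rfl

theorem star_real (hf : BC f) (h : ∀ κ, conj (f κ) = f κ) : Star.star (Φ.F f) = Φ.F f := by
  rw [← Φ.star hf]
  simp only [h]

theorem calc_sq (hf : BC f) (η : H) :
    ‖Φ.F f η‖ ^ 2 = (⟪η, Φ.F (fun κ => conj (f κ) * f κ) η⟫_ℂ).re := by
  rw [Φ.mul hf.conj hf, Φ.star hf, tl_norm_sq]

theorem calc_nonneg {u : ℝ → ℝ} (hu : BC fun κ => (u κ : ℂ)) (h : ∀ κ, 0 ≤ u κ) (η : H) :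
    0 ≤ (⟪η, Φ.F (fun κ => (u κ : ℂ)) η⟫_ℂ).re := by
  obtain ⟨h1, C, h2⟩ := hu
  have hc : Continuous u := Complex.continuous_re.comp h1
  have hg : BC fun κ => (√(u κ) : ℂ) := calc_ofReal hc.sqrt (C := √C) fun κ => by
    rw [abs_of_nonneg (Real.sqrt_nonneg _)]
    exact Real.sqrt_le_sqrt ((Complex.re_le_norm _).trans (h2 κ))
  have h3 := Φ.calc_sq hg η
  simp only [Complex.conj_ofReal, ← Complex.ofReal_mul, Real.mul_self_sqrt (h _)] at h3
  rw [← h3]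
  positivity

theorem calc_bound (hf : BC f) {C : ℝ} (h : ∀ κ, ‖f κ‖ ≤ C) (η : H) : ‖Φ.F f η‖ ≤ C * ‖η‖ := by
  have hC : 0 ≤ C := (norm_nonneg _).trans (h 0)
  have e : (fun κ => ((C ^ 2 - ‖f κ‖ ^ 2 : ℝ) : ℂ))
      = fun κ => ((C ^ 2 : ℝ) : ℂ) - conj (f κ) * f κ := funext fun κ => by
    rw [Complex.conj_mul']
    push_cast
    ring
  have hb := (BC.const ((C ^ 2 : ℝ) : ℂ)).sub (hf.conj.mul hf)
  have h1 := Φ.calc_nonneg (u := fun κ => C ^ 2 - ‖f κ‖ ^ 2) (e ▸ hb)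
    (fun κ => sub_nonneg.2 (pow_le_pow_left₀ (norm_nonneg _) (h κ) 2)) η
  rw [e, Φ.sub (BC.const _) (hf.conj.mul hf), _root_.sub_apply, inner_sub_right,
    Complex.sub_re, ← Φ.calc_sq hf, Φ.const, _root_.smul_apply,
    one_apply_eq_self, inner_smul_right, inner_self_eq_norm_sq_to_K] at h1
  refine le_of_sq_le_sq ?_ (by positivity)
  rw [mul_pow]
  norm_cast at h1
  have h2 : (((C ^ 2 : ℝ) : ℂ) * ((‖η‖ ^ 2 : ℝ) : ℂ)).re = C ^ 2 * ‖η‖ ^ 2 := by
    rw [← Complex.ofReal_mul, Complex.ofReal_re]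
  linarith [h2 ▸ h1]

theorem calc_tend (η : H) :
    Tendsto (fun n : ℕ => Φ.F (fun κ => (calc_chi n κ : ℂ)) η) atTop (𝓝 η) := by
  refine Metric.tendsto_atTop.2 fun ε hε => ?_
  obtain ⟨g, hg, hs, h⟩ := Φ.tight η (ε / 2) (half_pos hε)
  obtain ⟨R, hR⟩ := hs.isCompact.isBounded.exists_norm_le
  refine ⟨⌈R⌉₊, fun n hn => ?_⟩
  have e : Φ.F (fun κ => (calc_chi n κ : ℂ)) (Φ.F g η) = Φ.F g η := by
    rw [Φ.mul_apply (calc_bc_chi n) hg]
    congr 2
    funext κ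
    by_cases h0 : g κ = 0
    · rw [h0, mul_zero]
    · rw [calc_chi_one ((hR κ (subset_tsupport _ h0)).trans
        ((Nat.le_ceil R).trans (Nat.cast_le.2 hn))), Complex.ofReal_one, one_mul]
  have h1 := Φ.calc_bound (calc_bc_chi n) (calc_norm_chi n) (η - Φ.F g η)
  rw [map_sub, e, one_mul, norm_sub_rev η] at h1
  rw [dist_eq_norm]
  linarith [norm_sub_le_norm_sub_add_norm_sub (Φ.F (fun κ => (calc_chi n κ : ℂ)) η) (Φ.F g η) η]

/-- The positive functional of a vector. -/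
noncomputable def calc_lam (η : H) : CompactlySupportedContinuousMap ℝ ℝ →ₚ[ℝ] ℝ :=
  PositiveLinearMap.mk₀
    { toFun := fun u => (⟪η, Φ.F (fun κ => (u κ : ℂ)) η⟫_ℂ).re
      map_add' := fun u v => by
        rw [← Complex.add_re, ← inner_add_right, ← _root_.add_apply,
          ← Φ.add (calc_bc u) (calc_bc v)]
        simp
      map_smul' := fun c u => by
        rw [RingHom.id_apply, smul_eq_mul, ← Complex.re_ofReal_mul, ← inner_smul_right,
          ← _root_.smul_apply, ← Φ.smul _ (calc_bc u)]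
        simp }
    fun u hu => Φ.calc_nonneg (calc_bc u) hu η

theorem calc_real (η : H) (u : CompactlySupportedContinuousMap ℝ ℝ) :
    ⟪η, Φ.F (fun κ => (u κ : ℂ)) η⟫_ℂ = (Φ.calc_lam η u : ℝ) := by
  refine (Complex.conj_eq_iff_re.1 ?_).symm
  rw [inner_conj_symm, tl_inner, Φ.star_real (calc_bc u) fun κ => Complex.conj_ofReal _]

/-- The spectral measure of a vector (Riesz-Markov-Kakutani: `RealRMK.rieszMeasure` for the
positive functional `f ↦ re ⟪η, F f η⟫` on `C_c(ℝ, ℝ)`; positivity from `f = √f * √f`;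
use `tight` to pass to all bounded continuous functions). -/
theorem meas (η : H) : ∃ μ : Measure ℝ, IsFiniteMeasure μ ∧
    ∀ f, BC f → ⟪η, Φ.F f η⟫_ℂ = ∫ κ, f κ ∂μ := by
  have hre := fun u : CompactlySupportedContinuousMap ℝ ℝ =>
    RealRMK.integral_rieszMeasure (Φ.calc_lam η) u
  set μ := RealRMK.rieszMeasure (Φ.calc_lam η) with hμ
  have hfin : IsFiniteMeasure μ := by
    refine ⟨lt_of_le_of_lt ?_ (ENNReal.ofReal_lt_top (r := ‖η‖ ^ 2))⟩
    rw [← calc_univ, Monotone.measure_iUnion (calc_mono)]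
    refine iSup_le fun n => (RealRMK.rieszMeasure_le_of_eq_one _ (f := calc_chiC n)
      (fun κ => (calc_chi_mem n κ).1) isCompact_Icc fun κ hκ => calc_chi_one (abs_le.2 hκ)).trans
      (ENNReal.ofReal_le_ofReal ?_)
    refine (Complex.re_le_norm _).trans ((norm_inner_le_norm _ _).trans ?_)
    rw [sq]
    refine mul_le_mul_of_nonneg_left ?_ (norm_nonneg _)
    exact (Φ.calc_bound (calc_bc_chi n) (calc_norm_chi n) η).trans (one_mul _).le
  have hc : ∀ f, BC f → HasCompactSupport f → ⟪η, Φ.F f η⟫_ℂ = ∫ κ, f κ ∂μ := by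
    intro f hf hs
    let u : CompactlySupportedContinuousMap ℝ ℝ :=
      ⟨⟨fun κ => (f κ).re, Complex.continuous_re.comp hf.1⟩, hs.comp_left Complex.zero_re⟩
    let v : CompactlySupportedContinuousMap ℝ ℝ :=
      ⟨⟨fun κ => (f κ).im, Complex.continuous_im.comp hf.1⟩, hs.comp_left Complex.zero_im⟩
    have e : f = fun κ => (u κ : ℂ) + Complex.I * (v κ : ℂ) := funext fun κ => by
      rw [mul_comm]
      exact (Complex.re_add_im _).symm
    have hi := calc_integrable μ hf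
    have e2 := integral_re_add_im hi
    rw [← e2]
    conv_lhs => rw [e]
    rw [Φ.add (calc_bc u) ((calc_bc v).cmul _), Φ.smul _ (calc_bc v),
      _root_.add_apply, _root_.smul_apply, inner_add_right,
      inner_smul_right, Φ.calc_real η u, Φ.calc_real η v, ← hre u, ← hre v, mul_comm]
    rfl
  refine ⟨μ, hfin, fun f hf => ?_⟩
  obtain ⟨C, hC⟩ := hf.2
  have h1 : Tendsto (fun n : ℕ => ⟪η, Φ.F f (Φ.F (fun κ => (calc_chi n κ : ℂ)) η)⟫_ℂ) atTop
      (𝓝 ⟪η, Φ.F f η⟫_ℂ) :=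
    tendsto_const_nhds.inner (((Φ.F f).continuous.tendsto η).comp (Φ.calc_tend η))
  have h2 : Tendsto (fun n : ℕ => ∫ κ, f κ * (calc_chi n κ : ℂ) ∂μ) atTop (𝓝 (∫ κ, f κ ∂μ)) := by
    refine tendsto_integral_of_dominated_convergence (fun _ => C)
      (fun n => (hf.mul (calc_bc_chi n)).1.aestronglyMeasurable) (integrable_const C)
      (fun n => Eventually.of_forall fun κ => ?_) (Eventually.of_forall fun κ => ?_)
    · rw [norm_mul]
      exact (mul_le_of_le_one_right (norm_nonneg _) (calc_norm_chi n κ)).trans (hC κ)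
    · refine tendsto_const_nhds.congr' ?_
      filter_upwards [tendsto_natCast_atTop_atTop.eventually_ge_atTop |κ|] with n hn
      rw [calc_chi_one hn, Complex.ofReal_one, mul_one]
  refine tendsto_nhds_unique h1 (h2.congr fun n => ?_)
  rw [Φ.mul_apply hf (calc_bc_chi n)]
  exact (hc _ (hf.mul (calc_bc_chi n)) (HasCompactSupport.mul_left
    ((calc_chiC n).hasCompactSupport.comp_left Complex.ofReal_zero))).symm

theorem meas' (η : H) : ∃ μ : Measure ℝ, IsFiniteMeasure μ ∧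
    (∀ f, BC f → ⟪η, Φ.F f η⟫_ℂ = ∫ κ, f κ ∂μ) ∧
    ∀ f, BC f → ‖Φ.F f η‖ ^ 2 = ∫ κ, ‖f κ‖ ^ 2 ∂μ := by
  obtain ⟨μ, h1, h2⟩ := Φ.meas η
  refine ⟨μ, h1, h2, fun f hf => ?_⟩
  rw [Φ.calc_sq hf, h2 _ (hf.conj.mul hf)]
  simp only [Complex.conj_mul', ← Complex.ofReal_pow]
  rw [integral_complex_ofReal, Complex.ofReal_re]

theorem norm_le (hf : BC f) {C : ℝ} (h : ∀ κ, ‖f κ‖ ≤ C) : ‖Φ.F f‖ ≤ C :=   ContinuousLinearMap.opNorm_le_bound _ ((norm_nonneg _).trans (h 0)) (Φ.calc_bound hf h)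

theorem norm_mono (hf : BC f) (hg : BC g) (h : ∀ κ, ‖f κ‖ ≤ ‖g κ‖) (η : H) :
    ‖Φ.F f η‖ ≤ ‖Φ.F g η‖ := by
  obtain ⟨μ, h1, -, h2⟩ := Φ.meas' η
  refine le_of_sq_le_sq ?_ (norm_nonneg _)
  rw [h2 f hf, h2 g hg]
  exact integral_mono (calc_integrable_sq μ hf) (calc_integrable_sq μ hg)
    fun κ => pow_le_pow_left₀ (norm_nonneg _) (h κ) 2

theorem sq_le {ι ι' : Type*} [Fintype ι] [Fintype ι'] {f : ι → ℝ → ℂ} {g : ι' → ℝ → ℂ}
    (hf : ∀ i, BC (f i)) (hg : ∀ j, BC (g j))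
    (h : ∀ κ, ∑ i, ‖f i κ‖ ^ 2 ≤ ∑ j, ‖g j κ‖ ^ 2) (η : H) :
    ∑ i, ‖Φ.F (f i) η‖ ^ 2 ≤ ∑ j, ‖Φ.F (g j) η‖ ^ 2 := by
  obtain ⟨μ, h1, -, h2⟩ := Φ.meas' η
  simp only [h2 _ (hf _), h2 _ (hg _)]
  rw [← integral_finsetSum _ fun i _ => calc_integrable_sq μ (hf i),
    ← integral_finsetSum _ fun i _ => calc_integrable_sq μ (hg i)]
  exact integral_mono (integrable_finsetSum _ fun i _ => calc_integrable_sq μ (hf i))
    (integrable_finsetSum _ fun i _ => calc_integrable_sq μ (hg i)) h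

theorem sq_le' {ι : Type*} [Fintype ι] {f : ι → ℝ → ℂ} (hf : ∀ i, BC (f i)) (hg : BC g)
    {a b : ℝ} (h : ∀ κ, ∑ i, ‖f i κ‖ ^ 2 ≤ a + b * ‖g κ‖ ^ 2) (η : H) :
    ∑ i, ‖Φ.F (f i) η‖ ^ 2 ≤ a * ‖η‖ ^ 2 + b * ‖Φ.F g η‖ ^ 2 := by
  obtain ⟨μ, h1, -, h2⟩ := Φ.meas' η
  have h3 := h2 _ (BC.const 1)
  rw [Φ.one, one_apply_eq_self] at h3
  have i1 := (calc_integrable_sq μ (BC.const 1)).const_mul a
  have i2 := (calc_integrable_sq μ hg).const_mul b
  simp only [h2 _ (hf _)]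
  rw [h3, h2 g hg, ← integral_const_mul, ← integral_const_mul, ← integral_add i1 i2,
    ← integral_finsetSum _ fun i _ => calc_integrable_sq μ (hf i)]
  refine integral_mono (integrable_finsetSum _ fun i _ => calc_integrable_sq μ (hf i))
    (i1.add i2) fun κ => ?_
  simpa using h κ

theorem re_le (hf : BC f) (hg : BC g) (h : ∀ κ, (f κ).re ≤ (g κ).re) (η : H) :
    (⟪η, Φ.F f η⟫_ℂ).re ≤ (⟪η, Φ.F g η⟫_ℂ).re := by
  obtain ⟨μ, h1, h2⟩ := Φ.meas η
  have i1 := calc_integrable μ hf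
  have i2 := calc_integrable μ hg
  rw [h2 f hf, h2 g hg]
  exact (integral_re i1).ge.trans ((integral_mono i1.re i2.re h).trans (integral_re i2).le)

/-- Bounded pointwise convergence gives strong convergence. -/
theorem dct {ι : Type*} {l : Filter ι} [l.IsCountablyGenerated] {f : ι → ℝ → ℂ}
    (hf : ∀ i, BC (f i)) (hg : BC g) {C : ℝ} (hb : ∀ i κ, ‖f i κ‖ ≤ C)
    (h : ∀ κ, Tendsto (fun i => f i κ) l (𝓝 (g κ))) (η : H) :
    Tendsto (fun i => Φ.F (f i) η) l (𝓝 (Φ.F g η)) := by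
  obtain ⟨μ, h1, -, h2⟩ := Φ.meas' η
  obtain ⟨D, hD⟩ := hg.2
  rw [tendsto_iff_norm_sub_tendsto_zero]
  have h3 : Tendsto (fun i => ∫ κ, ‖f i κ - g κ‖ ^ 2 ∂μ) l (𝓝 (∫ _κ, (0 : ℝ) ∂μ)) := by
    refine tendsto_integral_filter_of_dominated_convergence (fun _ => (C + D) ^ 2)
      (Eventually.of_forall fun i => (calc_integrable_sq μ ((hf i).sub hg)).1)
      (Eventually.of_forall fun i => Eventually.of_forall fun κ => ?_) (integrable_const _)
      (Eventually.of_forall fun κ => ?_)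
    · rw [Real.norm_of_nonneg (by positivity)]
      exact pow_le_pow_left₀ (norm_nonneg _)
        ((norm_sub_le _ _).trans (add_le_add (hb i κ) (hD κ))) 2
    · simpa using (tendsto_iff_norm_sub_tendsto_zero.1 (h κ)).pow 2
  rw [integral_zero] at h3
  have h4 := h3.sqrt
  rw [Real.sqrt_zero] at h4
  refine h4.congr fun i => ?_
  rw [← h2 _ ((hf i).sub hg), Real.sqrt_sq (norm_nonneg _), Φ.sub (hf i) hg,
    _root_.sub_apply]

theorem calc_null (hf : BC f) {η : H} (h0 : Φ.F f η = 0) (hg : BC g)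
    (h : ∀ κ, f κ = 0 → g κ = 0) : Φ.F g η = 0 := by
  obtain ⟨μ, h1, -, h2⟩ := Φ.meas' η
  have h3 := h2 f hf
  rw [h0, norm_zero, zero_pow two_ne_zero, eq_comm, integral_eq_zero_iff_of_nonneg
    (fun _ => by positivity) (calc_integrable_sq μ hf)] at h3
  refine norm_eq_zero.1 (pow_eq_zero_iff two_ne_zero |>.1 ((h2 g hg).trans
    (integral_eq_zero_of_ae ?_)))
  filter_upwards [h3] with κ hκ
  simp [h κ (by simpa using hκ)]

theorem inj (hf : BC f) (h : ∀ κ, f κ ≠ 0) {η : H} (h0 : Φ.F f η = 0) : η = 0 := by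
  have h1 := Φ.calc_null hf h0 (BC.const 1) fun κ hκ => absurd hκ (h κ)
  rwa [Φ.one] at h1

theorem cancel (hf : BC f) (h : ∀ κ, f κ ≠ 0) {η ζ : H} (h0 : Φ.F f η = Φ.F f ζ) : η = ζ :=   sub_eq_zero.1 (Φ.inj hf h (by rw [map_sub, h0, sub_self]))

theorem dense (hf : BC f) (h : ∀ κ, f κ ≠ 0) (η : H) (ε : ℝ) (hε : 0 < ε) :
    ∃ γ, ‖Φ.F f γ - η‖ < ε := by
  have h1 : (LinearMap.range (Φ.F f : H →ₗ[ℂ] H))ᗮ = ⊥ := by
    rw [Submodule.eq_bot_iff]
    intro ζ hζ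
    refine Φ.inj hf.conj (fun κ => by simpa using h κ) (ext_inner_right ℂ fun γ => ?_)
    rw [Φ.star hf, tl_inner', inner_zero_left, ← inner_conj_symm,
      (Submodule.mem_orthogonal _ _).1 hζ (Φ.F f γ) ⟨γ, rfl⟩, map_zero]
  rw [← Submodule.topologicalClosure_eq_top_iff] at h1
  have h2 : η ∈ closure (LinearMap.range (Φ.F f : H →ₗ[ℂ] H) : Set H) := by
    rw [← Submodule.topologicalClosure_coe, h1]
    trivial
  obtain ⟨_, ⟨γ, rfl⟩, h3⟩ := Metric.mem_closure_iff.1 h2 ε hε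
  exact ⟨γ, by rwa [dist_comm, dist_eq_norm] at h3⟩

theorem at_zero (hf : BC f) (h : ∀ κ, κ ≠ 0 → f κ ≠ 0) {η : H} (h0 : Φ.F f η = 0) (hg : BC g) :
    Φ.F g η = g 0 • η := by
  have h1 := Φ.calc_null hf h0 (hg.sub (BC.const (g 0))) fun κ hκ => by
    rw [not_not.1 fun hk => h κ hk hκ, sub_self]
  rw [Φ.sub hg (BC.const _), Φ.const] at h1
  exact sub_eq_zero.1 h1

theorem pos (hf : BC f) (h : ∀ κ, 0 < (f κ).re) {η : H} (h0 : η ≠ 0) :
    0 < (⟪η, Φ.F f η⟫_ℂ).re := by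
  have hc : Continuous fun κ => √(f κ).re := (Complex.continuous_re.comp hf.1).sqrt
  obtain ⟨C, hC⟩ := hf.2
  have hg : BC fun κ => (√(f κ).re : ℂ) := calc_ofReal hc (C := √C) fun κ => by
    rw [abs_of_nonneg (Real.sqrt_nonneg _)]
    exact Real.sqrt_le_sqrt ((Complex.re_le_norm _).trans (hC κ))
  have h1 : Φ.F (fun κ => (√(f κ).re : ℂ)) η ≠ 0 := fun h2 => h0 (Φ.inj hg (fun κ => by
    rw [Complex.ofReal_ne_zero]
    exact (Real.sqrt_pos.2 (h κ)).ne') h2)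
  refine lt_of_lt_of_le (pow_pos (norm_pos_iff.2 h1) 2) ?_
  rw [Φ.calc_sq hg]
  refine Φ.re_le (hg.conj.mul hg) hf (fun κ => le_of_eq ?_) η
  rw [Complex.conj_ofReal, ← Complex.ofReal_mul, Complex.ofReal_re, Real.mul_self_sqrt (h κ).le]

/-- High frequencies carry little mass. -/
theorem tail {ι : Type*} [Fintype ι] (η : ι → H) (ε : ℝ) (hε : 0 < ε) : ∃ Ω : ℝ, 0 < Ω ∧
    ∃ χ, BC χ ∧ (∀ κ, Ω ≤ |κ| → 1 ≤ ‖χ κ‖) ∧ ∑ i, ‖Φ.F χ (η i)‖ ^ 2 ≤ ε := by
  have h1 : Tendsto (fun n : ℕ => ∑ i, ‖η i - Φ.F (fun κ => (calc_chi n κ : ℂ)) (η i)‖ ^ 2) atTop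
      (𝓝 (∑ i, ‖η i - η i‖ ^ 2)) :=
    tendsto_finsetSum _ fun i _ => (tendsto_const_nhds.sub (Φ.calc_tend (η i))).norm.pow 2
  simp only [sub_self, norm_zero, ne_eq, OfNat.ofNat_ne_zero, not_false_eq_true, zero_pow,
    Finset.sum_const_zero] at h1
  obtain ⟨n, hn⟩ := (h1.eventually_le_const hε).exists
  refine ⟨n + 1, by positivity, fun κ => 1 - (calc_chi n κ : ℂ), (BC.const 1).sub (calc_bc_chi n),
    fun κ hκ => ?_, ?_⟩
  · simp [calc_chi_zero hκ]
  · rw [Φ.sub (BC.const 1) (calc_bc_chi n), Φ.one]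
    exact hn

theorem U_zero : Φ.U 0 = 1 := by
  rw [U, ← Φ.one]
  exact congrArg _ (funext ex_zero)

theorem U_add (s t : ℝ) : Φ.U (s + t) = Φ.U s * Φ.U t := by
  rw [U, U, U, ← Φ.mul (bc_ex s) (bc_ex t)]
  exact congrArg _ (funext (ex_add s t))

theorem star_U (t : ℝ) : Star.star (Φ.U t) = Φ.U (-t) := by
  rw [U, U, ← Φ.star (bc_ex t)]
  exact congrArg _ (funext (conj_ex t))

theorem U_mul_neg (t : ℝ) : Φ.U t * Φ.U (-t) = 1 := by
  rw [← Φ.U_add, add_neg_cancel, Φ.U_zero]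

theorem U_neg_mul (t : ℝ) : Φ.U (-t) * Φ.U t = 1 := by
  rw [← Φ.U_add, neg_add_cancel, Φ.U_zero]

theorem U_mem (t : ℝ) : Φ.U t ∈ unitary (Op H) := by
  rw [Unitary.mem_iff, Φ.star_U]
  exact ⟨Φ.U_neg_mul t, Φ.U_mul_neg t⟩

theorem norm_U (t : ℝ) (η : H) : ‖Φ.U t η‖ = ‖η‖ :=   ContinuousLinearMap.norm_map_of_mem_unitary (Φ.U_mem t) η

theorem U_comm (hf : BC f) (t : ℝ) : Φ.U t * Φ.F f = Φ.F f * Φ.U t := Φ.comm (bc_ex t) hf

theorem U_cont (η : H) : Continuous fun t => Φ.U t η := by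
  refine continuous_iff_continuousAt.2 fun t => Φ.dct (f := ex) (l := 𝓝 t) bc_ex (bc_ex t)
    (C := 1) (fun s κ => (norm_ex s κ).le) (fun κ => Continuous.tendsto ?_ t) η
  unfold ex
  fun_prop

/-- The unitary group as a representation. -/
noncomputable def rep : Multiplicative ℝ →* unitary (Op H) where
  toFun t := ⟨Φ.U t.toAdd, Φ.U_mem _⟩
  map_one' := Subtype.ext Φ.U_zero
  map_mul' s t := Subtype.ext (Φ.U_add _ _)

theorem integrable_U {k : ℝ → ℂ} (hk : Integrable k) (η : H) :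
    Integrable fun t => k t • Φ.U t η := by
  refine (hk.norm.mul_const ‖η‖).mono' (hk.1.smul (Φ.U_cont η).aestronglyMeasurable)
    (Eventually.of_forall fun t => ?_)
  rw [norm_smul, Φ.norm_U]

/-- The integral formula (test on `⟪η, · η⟫` with Fubini, then `ext_inner_self`). -/
theorem integral {k : ℝ → ℂ} (hk : Integrable k) (η : H) :
    Φ.F (ft k) η = ∫ t, k t • Φ.U t η := by
  let y0 : H →ₗ[ℂ] H :=
    { toFun := fun η => ∫ t, k t • Φ.U t η
      map_add' := fun a b => by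
        rw [← integral_add (Φ.integrable_U hk a) (Φ.integrable_U hk b)]
        simp only [map_add, smul_add]
      map_smul' := fun c a => by
        rw [RingHom.id_apply, ← integral_smul]
        simp only [map_smul, smul_comm c] }
  let y : Op H := y0.mkContinuous (∫ t, ‖k t‖) fun a => by
    refine (norm_integral_le_integral_norm _).trans (le_of_eq ?_)
    simp only [norm_smul, Φ.norm_U]
    exact integral_mul_const _ _
  have h : Φ.F (ft k) = y := ext_inner_self fun a => by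
    obtain ⟨μ, h1, h2⟩ := Φ.meas a
    have hi : Integrable (Function.uncurry fun κ t : ℝ => k t * ex t κ) (μ.prod volume) := by
      refine ((hk.norm.comp_snd μ).mono' ((hk.comp_snd μ).1.mul
        (Continuous.aestronglyMeasurable ?_)) (Eventually.of_forall fun z => ?_))
      · unfold ex
        fun_prop
      · exact ((norm_mul _ _).trans (by rw [norm_ex, mul_one])).le
    rw [h2 _ (bc_ft hk)]
    refine (integral_integral_swap hi).trans (Eq.trans ?_ (integral_inner (Φ.integrable_U hk a) a))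
    refine integral_congr_ae (Eventually.of_forall fun t => ?_)
    simp only
    rw [inner_smul_right, U, h2 _ (bc_ex t), integral_const_mul]
  rw [h]
  rfl

theorem σ_zero (x : Op H) : Φ.σ 0 x = x := by
  rw [σ, neg_zero, Φ.U_zero, one_mul, mul_one]

theorem σ_σ (s t : ℝ) (x : Op H) : Φ.σ s (Φ.σ t x) = Φ.σ (s + t) x := by
  rw [σ, σ, σ, neg_add_rev, Φ.U_add, Φ.U_add]
  simp only [mul_assoc]

theorem σ_mul (t : ℝ) (x y : Op H) : Φ.σ t (x * y) = Φ.σ t x * Φ.σ t y := by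
  simp only [σ, mul_assoc]
  rw [← mul_assoc (Φ.U (-t)), Φ.U_neg_mul, one_mul]

theorem σ_add (t : ℝ) (x y : Op H) : Φ.σ t (x + y) = Φ.σ t x + Φ.σ t y := by
  simp only [σ, mul_add, add_mul]

theorem σ_sub (t : ℝ) (x y : Op H) : Φ.σ t (x - y) = Φ.σ t x - Φ.σ t y := by
  simp only [σ, mul_sub, sub_mul]

theorem σ_smul (t : ℝ) (c : ℂ) (x : Op H) : Φ.σ t (c • x) = c • Φ.σ t x := by
  simp only [σ, mul_smul_comm, smul_mul_assoc]

theorem σ_star (t : ℝ) (x : Op H) : Φ.σ t (Star.star x) = Star.star (Φ.σ t x) := by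
  simp only [σ, star_mul, Φ.star_U, neg_neg, mul_assoc]

theorem σ_one (t : ℝ) : Φ.σ t 1 = 1 := by
  rw [σ, mul_one, Φ.U_mul_neg]

theorem norm_σ (t : ℝ) (x : Op H) : ‖Φ.σ t x‖ = ‖x‖ := by
  rw [σ, CStarRing.norm_mul_mem_unitary _ (Φ.U_mem _), CStarRing.norm_mem_unitary_mul _ (Φ.U_mem _)]

theorem σ_fix {t : ℝ} {x : Op H} (h : Φ.U t * x = x * Φ.U t) : Φ.σ t x = x := by
  rw [σ, h, mul_assoc, Φ.U_mul_neg, mul_one]

theorem σ_cont (x : Op H) (η : H) : Continuous fun t => Φ.σ t x η := by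
  refine continuous_iff_continuousAt.2 fun s => ?_
  have h1 : Continuous fun t => x (Φ.U (-t) η) :=
    x.continuous.comp ((Φ.U_cont η).comp continuous_neg)
  have h2 := tendsto_iff_norm_sub_tendsto_zero.1 (h1.tendsto s)
  have h3 := tendsto_iff_norm_sub_tendsto_zero.1 ((Φ.U_cont (x (Φ.U (-s) η))).tendsto s)
  have h4 := h2.add h3
  rw [add_zero] at h4
  refine tendsto_iff_norm_sub_tendsto_zero.2 (squeeze_zero (fun _ => norm_nonneg _)
    (fun t => ?_) h4)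
  rw [← Φ.norm_U t (x (Φ.U (-t) η) - _), map_sub]
  exact norm_sub_le_norm_sub_add_norm_sub _ _ _

/-- The commutant is invariant as well. -/
theorem σ_comm {A B : Alg H} (h : CP A B) (hA : ∀ t, ∀ x ∈ A, Φ.σ t x ∈ A) (t : ℝ) {y : Op H}
    (hy : y ∈ B) : Φ.σ t y ∈ B := by
  refine (h.right _).2 fun x hx => ?_
  have h1 := (h.right y).1 hy _ (hA (-t) x hx)
  have h2 : x = Φ.σ t (Φ.σ (-t) x) := by rw [Φ.σ_σ, add_neg_cancel, Φ.σ_zero]
  rw [h2, ← Φ.σ_mul, ← Φ.σ_mul, h1]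

end Calc

end Vale.Agent.P096b
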