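import Vale.Agent.P096b.Calc

/-! The functional calculus of the logarithm of (1 - R) / R. -/

set_option linter.unusedSectionVars false

namespace Vale.Agent.P096b

open Filter Topology Vale.Agent.P096 MeasureTheory
open scoped InnerProductSpace ComplexConjugate

universe u v

variable {H : Type u} [NormedAddCommGroup H] [InnerProductSpace ℂ H] [CompleteSpace H]

namespace CalcOfX

/-- The continuous functional calculus for complex functions on the line. -/
noncomputable def G (R : Op H) (h : ℝ → ℂ) : Op H := cfc (fun z : ℂ => h z.re) R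

variable {R : Op H} {h k f g : ℝ → ℂ}

theorem G_add (hh : Continuous h) (hk : Continuous k) :
    G R (fun r => h r + k r) = G R h + G R k := cfc_add R _ _

theorem G_sub (hh : Continuous h) (hk : Continuous k) :
    G R (fun r => h r - k r) = G R h - G R k := cfc_sub _ _ R

theorem G_mul (hh : Continuous h) (hk : Continuous k) :
    G R (fun r => h r * k r) = G R h * G R k := cfc_mul _ _ R

theorem G_smul (c : ℂ) (hh : Continuous h) : G R (fun r => c * h r) = c • G R h :=
  cfc_const_mul c _ R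

theorem G_star : G R (fun r => conj (h r)) = star (G R h) := cfc_star (fun z : ℂ => h z.re) R

theorem G_comm (hh : Continuous h) (hk : Continuous k) : G R h * G R k = G R k * G R h := by
  rw [← G_mul hh hk, ← G_mul hk hh]
  simp only [mul_comm]

theorem G_real (hR : star R = R) (u : ℝ → ℝ) : G R (fun r => u r) = cfc u R :=
  (cfc_real_eq_complex u hR).symm

theorem G_norm {C : ℝ} (hC : ∀ r, ‖h r‖ ≤ C) : ‖G R h‖ ≤ C :=
  norm_cfc_le ((norm_nonneg _).trans (hC 0)) fun _ _ => hC _

theorem G_mono (hh : Continuous h) (hk : Continuous k) (hle : ∀ r, ‖h r‖ ≤ ‖k r‖) (η : H) :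
    ‖G R h η‖ ≤ ‖G R k η‖ := by
  set u : ℝ → ℂ := fun r => (√(‖k r‖ ^ 2 - ‖h r‖ ^ 2) : ℝ) with hu
  have hc : Continuous u := by fun_prop
  have e : star (G R k) * G R k = star (G R h) * G R h + star (G R u) * G R u := by
    rw [← G_star, ← G_star, ← G_star, ← G_mul (by fun_prop) hk, ← G_mul (by fun_prop) hh,
      ← G_mul (by fun_prop) hc, ← G_add (by fun_prop) (by fun_prop)]
    congr 1
    funext r
    have h1 : 0 ≤ ‖k r‖ ^ 2 - ‖h r‖ ^ 2 := sub_nonneg.2 (by gcongr; exact hle r)
    rw [Complex.conj_mul', Complex.conj_mul', hu, Complex.conj_ofReal, ← Complex.ofReal_mul,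
      Real.mul_self_sqrt h1]
    push_cast
    ring
  refine (sq_le_sq₀ (norm_nonneg _) (norm_nonneg _)).1 ?_
  rw [tl_norm_sq (G R k), e, add_apply, inner_add_right, Complex.add_re, ← tl_norm_sq,
    ← tl_norm_sq]
  exact le_add_of_nonneg_right (sq_nonneg _)

/-- Conjugation as a real algebra homomorphism. -/
noncomputable def jh (J : H ≃ₗᵢ⋆[ℂ] H) (hJ : ∀ η, J (J η) = η) : Op H →⋆ₐ[ℝ] Op H where
  toFun := jc J
  map_one' := jc_one hJ
  map_mul' := jc_mul hJ
  map_zero' := by ext; simp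
  map_add' := jc_add
  commutes' r := by
    rw [Algebra.algebraMap_eq_smul_one, ← Complex.coe_smul, jc_smul, jc_one hJ,
      Complex.conj_ofReal]
  map_star' := jc_star hJ

theorem jc_cfc (hR : star R = R) {J : H ≃ₗᵢ⋆[ℂ] H} (hJ : ∀ η, J (J η) = η)
    (hJR : jc J R = 1 - R) {u : ℝ → ℝ} (hu : Continuous u) :
    jc J (cfc u R) = cfc (fun r => u (1 - r)) R := by
  have hs : IsSelfAdjoint R := hR
  have hc : Continuous (jh J hJ) :=
    AddMonoidHomClass.continuous_of_bound (jh J hJ) 1 fun x => by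
      rw [one_mul]; exact (jc_norm hJ x).le
  have h1 := (jh J hJ).map_cfc u R hu.continuousOn hc hs (hs.map (jh J hJ))
  change jc J (cfc u R) = cfc u (jc J R) at h1
  rw [h1, hJR, cfc_comp' u (fun r => 1 - r) R, cfc_sub _ _ R, cfc_const_one ℝ R, cfc_id' ℝ R]

theorem jc_G (hR : star R = R) {J : H ≃ₗᵢ⋆[ℂ] H} (hJ : ∀ η, J (J η) = η)
    (hJR : jc J R = 1 - R) (hh : Continuous h) :
    jc J (G R h) = G R fun r => conj (h (1 - r)) := by
  have e1 : G R h = cfc (fun r => (h r).re) R + Complex.I • cfc (fun r => (h r).im) R := by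
    rw [← G_real hR, ← G_real hR, ← G_smul _ (by fun_prop), ← G_add (by fun_prop) (by fun_prop)]
    congr 1
    funext r
    rw [mul_comm, Complex.re_add_im]
  rw [e1, jc_add, jc_smul, jc_cfc hR hJ hJR (by fun_prop), jc_cfc hR hJ hJR (by fun_prop),
    ← G_real hR, ← G_real hR, ← G_smul _ (by fun_prop), ← G_add (by fun_prop) (by fun_prop)]
  congr 1
  funext r
  apply Complex.ext <;> simp

/-- The logarithmic coordinate. -/
noncomputable def kp (r : ℝ) : ℝ := Real.log ((1 - r) / r)

/-- Its inverse. -/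
noncomputable def rh (κ : ℝ) : ℝ := (1 + Real.exp κ)⁻¹

/-- The damping factor. -/
noncomputable def w (r : ℝ) : ℝ := max 0 (r * (1 - r))

/-- The damped function. -/
noncomputable def tf (f : ℝ → ℂ) (r : ℝ) : ℂ := f (kp r) * w r

theorem w_nonneg (r : ℝ) : 0 ≤ w r := le_max_left _ _

@[fun_prop] theorem continuous_w : Continuous w := by unfold w; fun_prop

theorem mem_of_w {r : ℝ} (h : w r ≠ 0) : 0 < r ∧ r < 1 := by
  have h1 : 0 < r * (1 - r) := by
    by_contra h2
    exact h (max_eq_left (not_lt.1 h2))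
  constructor <;> nlinarith [sq_nonneg r, sq_nonneg (1 - r)]

theorem w_sub (r : ℝ) : w (1 - r) = w r := by
  rw [w, w, sub_sub_cancel, mul_comm]

theorem kp_sub (r : ℝ) : kp (1 - r) = -kp r := by
  rw [kp, kp, sub_sub_cancel, ← Real.log_inv, inv_div]

theorem kp_rh (κ : ℝ) : kp (rh κ) = κ := by
  have h := Real.exp_pos κ
  have e : (1 - rh κ) / rh κ = Real.exp κ := by
    unfold rh
    field_simp
    ring
  rw [kp, e, Real.log_exp]

theorem rh_kp {r : ℝ} (h : w r ≠ 0) : rh (kp r) = r := by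
  obtain ⟨h0, h1⟩ := mem_of_w h
  rw [rh, kp, Real.exp_log (div_pos (sub_pos.2 h1) h0)]
  field_simp
  ring

theorem continuous_rh : Continuous rh := by
  unfold rh
  exact Continuous.inv₀ (by fun_prop) fun κ => by positivity

theorem continuousAt_kp {r : ℝ} (h : w r ≠ 0) : ContinuousAt kp r := by
  obtain ⟨h0, h1⟩ := mem_of_w h
  unfold kp
  exact ContinuousAt.log (ContinuousAt.div (by fun_prop) continuousAt_id h0.ne')
    (div_pos (sub_pos.2 h1) h0).ne'

theorem norm_tf {C : ℝ} (hC : ∀ κ, ‖f κ‖ ≤ C) (r : ℝ) : ‖tf f r‖ ≤ C * w r := by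
  rw [tf, norm_mul, Complex.norm_real, Real.norm_of_nonneg (w_nonneg r)]
  exact mul_le_mul_of_nonneg_right (hC _) (w_nonneg r)

theorem continuous_tf (hf : BC f) : Continuous (tf f) := by
  refine continuous_iff_continuousAt.2 fun r => ?_
  by_cases h : w r = 0
  · obtain ⟨C, hC⟩ := hf.2
    have h1 : tf f r = 0 := by rw [tf, h]; simp
    rw [ContinuousAt, h1]
    refine squeeze_zero_norm (norm_tf hC) ?_
    simpa [h] using (continuous_w.tendsto r).const_mul C
  · exact (hf.1.continuousAt.comp (continuousAt_kp h)).mul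
      (Complex.continuous_ofReal.comp continuous_w).continuousAt

/-- The operator `R (1 - R)`. -/
noncomputable def T (R : Op H) : Op H := G R fun r => w r

/-- The bounded calculus. -/
noncomputable def F (R : Op H) (f : ℝ → ℂ) : Op H :=
  (G R (tf f) : H →ₗ[ℂ] H).extendOfNorm (T R : H →ₗ[ℂ] H)

theorem cw : Continuous fun r => (w r : ℂ) := by fun_prop

theorem F_mul_T (hd : DenseRange (T R)) (hf : BC f) : F R f * T R = G R (tf f) := by
  obtain ⟨C, hC⟩ := hf.2
  have h0 : 0 ≤ C := (norm_nonneg _).trans (hC 0)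
  ext η
  refine LinearMap.extendOfNorm_eq (f := (G R (tf f) : H →ₗ[ℂ] H)) (e := (T R : H →ₗ[ℂ] H)) hd
    ⟨C, fun η => ?_⟩ η
  have h1 := G_mono (R := R) (k := fun r => C * (w r : ℂ)) (continuous_tf hf) (by fun_prop)
    (fun r => (norm_tf hC r).trans (le_of_eq (by
      rw [norm_mul, Complex.norm_real, Complex.norm_real, Real.norm_of_nonneg h0,
        Real.norm_of_nonneg (w_nonneg r)]))) η
  rw [G_smul _ cw, smul_apply, norm_smul, Complex.norm_real, Real.norm_of_nonneg h0] at h1
  exact h1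

theorem cancel (hd : DenseRange (T R)) {x y : Op H} (h : x * T R = y * T R) : x = y :=
  DFunLike.coe_injective (hd.equalizer x.continuous y.continuous
    (congrArg (fun z : Op H => (z : H → H)) h))

theorem F_eq (hd : DenseRange (T R)) (hf : BC f) (hh : Continuous h)
    (e : ∀ r, w r ≠ 0 → f (kp r) = h r) : F R f = G R h := by
  refine cancel hd ?_
  rw [F_mul_T hd hf, T, ← G_mul hh cw]
  congr 1
  funext r
  by_cases h0 : w r = 0
  · simp [tf, h0]
  · rw [tf, e r h0]

theorem F_comm (hd : DenseRange (T R)) (hf : BC f) : T R * F R f = F R f * T R := by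
  refine cancel hd ?_
  rw [mul_assoc, F_mul_T hd hf]
  exact G_comm cw (continuous_tf hf)

theorem star_T : star (T R) = T R := by
  rw [T, ← G_star]
  simp only [Complex.conj_ofReal]

theorem tight (hd : DenseRange (T R)) (η : H) (ε : ℝ) (hε : 0 < ε) :
    ∃ f, BC f ∧ HasCompactSupport f ∧ ‖F R f η - η‖ < ε := by
  obtain ⟨γ, hγ⟩ := Metric.denseRange_iff.1 hd η (ε / 3) (by positivity)
  rw [dist_eq_norm] at hγ
  set δ : ℝ := ε / (6 * (‖γ‖ + 1)) with hδ
  have hδ0 : 0 < δ := by positivity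
  set φ : ℝ → ℝ := fun r => min 1 (max 0 (w r / δ - 1)) with hφ
  have hφc : Continuous φ := by fun_prop
  have hφ0 : ∀ r, 0 ≤ φ r := fun r => le_min zero_le_one (le_max_left _ _)
  have hφ1 : ∀ r, ‖(φ r : ℂ)‖ ≤ 1 := fun r => by
    rw [Complex.norm_real, Real.norm_of_nonneg (hφ0 r)]; exact min_le_left _ _
  have hb : BC fun κ => (φ (rh κ) : ℂ) :=
    ⟨Complex.continuous_ofReal.comp (hφc.comp continuous_rh), 1, fun κ => hφ1 _⟩
  refine ⟨_, hb, ?_, ?_⟩
  · have hK : IsCompact {r | δ ≤ w r} :=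
      (isCompact_Icc (a := (0 : ℝ)) (b := 1)).of_isClosed_subset
        (isClosed_le continuous_const continuous_w) fun r hr =>
          ⟨(mem_of_w (hδ0.trans_le hr).ne').1.le, (mem_of_w (hδ0.trans_le hr).ne').2.le⟩
    refine HasCompactSupport.intro (hK.image_of_continuousOn fun r hr =>
      (continuousAt_kp (hδ0.trans_le hr).ne').continuousWithinAt) fun κ hκ => ?_
    have h1 : w (rh κ) / δ - 1 ≤ 0 := by
      by_contra h2
      refine hκ ⟨rh κ, ?_, kp_rh κ⟩
      exact ((one_lt_div hδ0).1 (by linarith)).le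
    simp [hφ, max_eq_left h1]
  · rw [F_eq hd hb (h := fun r => (φ r : ℂ)) (by fun_prop) fun r hr => by rw [rh_kp hr]]
    have h1 : ‖G R fun r => (φ r : ℂ)‖ ≤ 1 := G_norm hφ1
    have h2 : ‖G R (fun r => (φ r : ℂ)) * T R - T R‖ ≤ 2 * δ := by
      rw [T, ← G_mul (by fun_prop) cw, ← G_sub (by fun_prop) cw]
      refine G_norm fun r => ?_
      rw [← Complex.ofReal_mul, ← Complex.ofReal_sub, Complex.norm_real, Real.norm_eq_abs]
      have h3 := w_nonneg r
      rcases le_total (w r) (2 * δ) with h4 | h4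
      · have h5 : φ r ≤ 1 := min_le_left _ _
        have h6 := hφ0 r
        rw [abs_le]
        constructor <;> nlinarith
      · have h5 : φ r = 1 := min_eq_left (le_max_of_le_right (by
          rw [le_sub_iff_add_le, le_div_iff₀ hδ0]; linarith))
        rw [h5, one_mul, sub_self, abs_zero]
        positivity
    generalize G R (fun r => (φ r : ℂ)) = x at h1 h2
    have e : x η - η = x (η - T R γ) + (x * T R - T R) γ - (η - T R γ) := by
      simp only [map_sub, sub_apply, mul_apply_eq_comp]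
      abel
    have h3 : ‖x (η - T R γ)‖ ≤ ‖η - T R γ‖ := by
      simpa using x.le_of_opNorm_le h1 (η - T R γ)
    have h4 := (x * T R - T R).le_of_opNorm_le h2 γ
    have h5 : 2 * δ * ‖γ‖ ≤ ε / 3 := by
      have h6 : δ * (6 * (‖γ‖ + 1)) = ε := by rw [hδ]; field_simp
      nlinarith
    rw [e]
    have h6 := norm_sub_le (x (η - T R γ) + (x * T R - T R) γ) (η - T R γ)
    have h7 := norm_add_le (x (η - T R γ)) ((x * T R - T R) γ)
    linarith

theorem nonneg_of (hR : star R = R) (h0 : ∀ η, 0 ≤ (⟪η, R η⟫_ℂ).re) : 0 ≤ R := by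
  rw [ContinuousLinearMap.nonneg_iff_isPositive, ContinuousLinearMap.isPositive_def']
  refine ⟨hR, fun η => ?_⟩
  rw [ContinuousLinearMap.reApplyInnerSelf_apply, inner_re_symm]
  exact h0 η

theorem T_eq (hR : star R = R) (h0 : ∀ η, 0 ≤ (⟪η, R η⟫_ℂ).re)
    (h1 : ∀ η, (⟪η, R η⟫_ℂ).re ≤ ‖η‖ ^ 2) : T R = R * (1 - R) := by
  have hs : IsSelfAdjoint R := hR
  have p0 := nonneg_of hR h0
  have p1 : R ≤ 1 := by
    rw [← sub_nonneg]
    refine nonneg_of (by rw [star_sub, star_one, hR]) fun η => ?_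
    rw [sub_apply, inner_sub_right, Complex.sub_re, sub_nonneg]
    refine (h1 η).trans (le_of_eq ?_)
    rw [one_apply_eq_self, inner_self_eq_norm_sq_to_K]
    norm_cast
  rw [T, G_real hR, cfc_congr (f := w) (g := fun r => r * (1 - r)) fun r hr => max_eq_right
    (mul_nonneg (spectrum_nonneg_of_nonneg p0 hr) (sub_nonneg.2 ((CFC.le_one_iff R).1 p1 r hr))),
    cfc_mul _ _ R, cfc_sub _ _ R, cfc_const_one ℝ R, cfc_id' ℝ R]

theorem dense_of_inj {x : Op H} (hx : star x = x) (h : ∀ η, x η = 0 → η = 0) : DenseRange x := by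
  have h1 : (LinearMap.range (x : H →ₗ[ℂ] H)).topologicalClosure = ⊤ := by
    rw [Submodule.topologicalClosure_eq_top_iff, Submodule.eq_bot_iff]
    intro η hη
    refine h η (ext_inner_left ℂ fun ζ => ?_)
    rw [inner_zero_right, ← hx, ← tl_inner]
    exact hη _ ⟨ζ, rfl⟩
  exact Submodule.dense_iff_topologicalClosure_eq_top.2 h1

end CalcOfX

open CalcOfX in
/-- For `0 ≤ R ≤ 1` with `R` and `1 - R` injective put `κ r = log ((1 - r) / r)`; the function
`r ↦ f (κ r) * r * (1 - r)` extends continuously to `[0, 1]` by zero, and `F f` is the extension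
by density of `R (1 - R) η ↦ cfc (f (κ r) * r * (1 - r)) R η` (bounded by `sup |f|`).
For the antilinear statement approximate by polynomials, or view `x ↦ jc J (star x)`:
`jc J (cfc h R) = cfc (conj h (1 - ·)) R`. -/
theorem calc_of (R : Op H) (hR : star R = R) (h0 : ∀ η, 0 ≤ (⟪η, R η⟫_ℂ).re)
    (h1 : ∀ η, (⟪η, R η⟫_ℂ).re ≤ ‖η‖ ^ 2) (i0 : ∀ η, R η = 0 → η = 0)
    (i1 : ∀ η, R η = η → η = 0) :
    ∃ Φ : Calc H, Φ.F (fun κ => cf κ * cf κ) = R ∧
      ∀ J : H ≃ₗᵢ⋆[ℂ] H, (∀ η, J (J η) = η) → (∀ η, J (R η) = J η - R (J η)) →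
        ∀ f, BC f → ∀ η, J (Φ.F f η) = Φ.F (fun κ => conj (f (-κ))) (J η) := by
  have hd : DenseRange (T R) := dense_of_inj star_T fun η h => by
    rw [T_eq hR h0 h1] at h
    exact i1 η (sub_eq_zero.1 (i0 _ h)).symm
  refine ⟨⟨F R, ?_, fun {f g} hf hg => ?_, fun {f} c hf => ?_, fun {f g} hf hg => ?_,
    fun {f} hf => ?_, tight hd⟩, ?_, fun J hJ hJR f hf η => ?_⟩
  · refine cancel hd ?_
    rw [F_mul_T hd (BC.const 1), one_mul, T]
    congr 1
    funext r
    rw [tf, one_mul]
  · refine cancel hd ?_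
    rw [add_mul, F_mul_T hd (hf.add hg), F_mul_T hd hf, F_mul_T hd hg,
      ← G_add (continuous_tf hf) (continuous_tf hg)]
    congr 1
    funext r
    simp only [tf, add_mul]
  · refine cancel hd ?_
    rw [smul_mul_assoc, F_mul_T hd (hf.cmul c), F_mul_T hd hf, ← G_smul c (continuous_tf hf)]
    congr 1
    funext r
    simp only [tf, mul_assoc]
  · refine cancel hd (cancel hd ?_)
    have e : F R f * F R g * T R * T R = F R f * T R * (F R g * T R) := by
      rw [mul_assoc (F R f) (F R g), mul_assoc (F R f) (T R), ← mul_assoc (T R), F_comm hd hg,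
        mul_assoc]
    rw [e, F_mul_T hd (hf.mul hg), F_mul_T hd hf, F_mul_T hd hg, T,
      ← G_mul (continuous_tf hf) (continuous_tf hg), ← G_mul (continuous_tf (hf.mul hg)) cw]
    congr 1
    funext r
    simp only [tf]
    ring
  · refine cancel hd ?_
    have e : star (F R f) * T R = star (F R f * T R) := by
      rw [← F_comm hd hf, star_mul, star_T]
    rw [e, F_mul_T hd hf.conj, F_mul_T hd hf, ← G_star]
    congr 1
    funext r
    simp only [tf, map_mul, Complex.conj_ofReal]
  · have hs : IsSelfAdjoint R := hR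
    refine (F_eq hd (bc_cf.mul bc_cf) (h := fun r => (r : ℂ)) (by fun_prop) fun r hr => ?_).trans ?_
    · rw [cf_sq]
      exact congrArg _ (rh_kp hr)
    · rw [G_real hR fun r => r, cfc_id' ℝ R]
  · have e1 : jc J R = 1 - R := by
      ext ζ
      rw [jc_apply, hJR, hJ]
      rfl
    have e2 : jc J (T R) = T R := by
      rw [T, jc_G hR hJ e1 cw]
      simp only [w_sub, Complex.conj_ofReal]
    have e3 : jc J (F R f) = F R fun κ => conj (f (-κ)) := by
      refine cancel hd ?_
      rw [F_mul_T hd (hf.comp continuous_neg).conj, ← e2, ← jc_mul hJ, F_mul_T hd hf,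
        jc_G hR hJ e1 (continuous_tf hf)]
      congr 1
      funext r
      simp only [tf, map_mul, Complex.conj_ofReal, w_sub, kp_sub]
    change J (F R f η) = F R _ (J η)
    rw [← e3, jc_apply, hJ]

end Vale.Agent.P096b
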