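import Vale.Agent.P096b.Mean

/-! Closeness of commutants, of fixed point algebras and of columns. -/

set_option linter.unusedSectionVars false

namespace Vale.Agent.P096b

open Filter Topology Vale.Agent.P096 MeasureTheory
open scoped InnerProductSpace ComplexConjugate

universe u v

variable {H : Type u} [NormedAddCommGroup H] [InnerProductSpace ℂ H] [CompleteSpace H]

/-- An operator that almost commutes with `B` is near `A` (apply `hH` to the inclusion of the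
closed subalgebra `B`, which is a `CStarAlgebra` by `tl_closed`). -/
theorem near_of_comm (hH : HyperStmt.{u}) : ∃ K₀ : ℝ, 1 ≤ K₀ ∧ ∀ (H : Type u)
    [NormedAddCommGroup H] [InnerProductSpace ℂ H] [CompleteSpace H] (A B : Alg H) (x : Op H)
    (t : ℝ), CP A B → 0 ≤ t → (∀ b ∈ B, ‖x * b - b * x‖ ≤ t * ‖b‖) →
    ∃ m ∈ A, ‖x - m‖ ≤ K₀ * t := by
  obtain ⟨K, hK, h⟩ := hH
  refine ⟨K, hK, fun H _ _ _ A B x t hAB ht hx => ?_⟩
  have := tl_closed hAB.symm
  obtain ⟨y, h1, h2⟩ := h B H H B.subtype B.subtype x t ht fun b =>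
    (norm_sub_rev _ _).trans_le (hx b b.2)
  exact ⟨y, (hAB.left y).2 fun b hb => (h1 ⟨b, hb⟩).symm, h2⟩

namespace CloseAux

theorem two {K L : Type u} [NormedAddCommGroup K] [InnerProductSpace ℂ K]
    [NormedAddCommGroup L] [InnerProductSpace ℂ L] {T : K →L[ℂ] L} {a a' : Op L} {b b' : Op K}
    {s C : ℝ} (h : a' ∘L T = T ∘L b') (h1 : ‖a - a'‖ ≤ s) (h2 : ‖b - b'‖ ≤ s) (h3 : ‖T‖ ≤ C) :
    ‖a ∘L T - T ∘L b‖ ≤ 2 * s * C := by
  have e : a ∘L T - T ∘L b = (a - a') ∘L T - T ∘L (b - b') := by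
    rw [ContinuousLinearMap.sub_comp, ContinuousLinearMap.comp_sub, h, sub_sub_sub_cancel_right]
  have h0 := (norm_nonneg _).trans h1
  have h4 := ((a - a').opNorm_comp_le T).trans (mul_le_mul h1 h3 (norm_nonneg _) h0)
  have h5 := (T.opNorm_comp_le (b - b')).trans
    (mul_le_mul h3 h2 (norm_nonneg _) ((norm_nonneg _).trans h3))
  rw [e]
  linarith [norm_sub_le ((a - a') ∘L T) (T ∘L (b - b'))]

theorem sq_norm {ι : Type} [Fintype ι] (f : lp (fun _ : ι => H) 2) :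
    ‖f‖ ^ 2 = ∑ i, ‖f i‖ ^ 2 := by
  simpa [tsum_fintype] using lp.norm_rpow_eq_tsum (p := 2) (by norm_num) f

theorem diag (ι : Type) : ∃ π : Op H →⋆ₐ[ℂ] Op (lp (fun _ : ι => H) 2),
    (∀ x f i, π x f i = x (f i)) ∧ ∀ x, ‖π x‖ ≤ ‖x‖ :=
  ⟨{ toFun := fun x => lp.mapCLM 2 (fun _ => x) (norm_nonneg x) fun _ => le_rfl
     map_one' := by ext; rfl
     map_mul' := fun _ _ => by ext; rfl
     map_zero' := by ext; rfl
     map_add' := fun _ _ => by ext; rfl
     commutes' := fun _ => by ext; rfl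
     map_star' := fun x => (ContinuousLinearMap.eq_adjoint_iff _ _).2 fun f g =>
       tsum_congr fun i => ContinuousLinearMap.adjoint_inner_left x (g i) (f i) },
    fun _ _ _ => rfl, fun x => lp.norm_mapCLM_le 2 _ (norm_nonneg x) fun _ => le_rfl⟩

theorem col {ι : Type} [Fintype ι] (x : ι → Op H) {C : ℝ} (hC : 0 ≤ C)
    (h : ∀ η, ∑ i, ‖x i η‖ ^ 2 ≤ C ^ 2 * ‖η‖ ^ 2) :
    ∃ W : H →L[ℂ] lp (fun _ : ι => H) 2, (∀ η i, W η i = x i η) ∧ ‖W‖ ≤ C := by
  refine ⟨LinearMap.mkContinuous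
    { toFun := fun η => ⟨fun i => x i η, Memℓp.all _⟩
      map_add' := fun _ _ => lp.ext (funext fun i => map_add (x i) _ _)
      map_smul' := fun _ _ => lp.ext (funext fun i => map_smul (x i) _ _) } C fun η => ?_,
    fun _ _ => rfl, LinearMap.mkContinuous_norm_le _ hC _⟩
  refine (pow_le_pow_iff_left₀ (norm_nonneg _) (by positivity) two_ne_zero).1 ?_
  rw [sq_norm, mul_pow]
  exact h η

theorem fix_near {G : Type v} [Group G] (m : Mean G) (ρ : G →* unitary (Op H))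
    {S T : Set (Op H)} {δ : ℝ}
    (hT : ∀ g, ∀ x ∈ cm T, (ρ g : Op H) * x * star (ρ g : Op H) ∈ cm T)
    (h : Near (cm S) (cm T) δ) :
    Near (cm (S ∪ Set.range fun g => (ρ g : Op H))) (cm (T ∪ Set.range fun g => (ρ g : Op H)))
      δ := by
  intro x hx
  obtain ⟨y, hy, h1⟩ := h x (mem_cm.2 fun s hs => mem_cm.1 hx s (Or.inl hs))
  refine ⟨m.av ρ y, mem_cm.2 ?_, ?_⟩
  · rintro s (hs | ⟨g, rfl⟩)
    · exact mem_cm.1 (m.av_mem ρ (cp_cm T) fun g => hT g y hy) s hs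
    · exact ⟨(m.av_comm ρ y g).symm, (mean_star_comm (m.av_comm ρ y g)).symm⟩
  · have h2 := m.av_fix ρ fun g => (mem_cm.1 hx _ (Or.inr ⟨g, rfl⟩)).1.symm
    calc ‖x - m.av ρ y‖ = ‖m.av ρ (x - y)‖ := by rw [m.av_sub, h2]
      _ ≤ _ := (m.av_norm ρ _).trans h1

end CloseAux

/-- Commutants of images of close closed algebras are close. -/
theorem hyp_close (hH : HyperStmt.{u}) : ∃ K₀ : ℝ, 1 ≤ K₀ ∧ ∀ (H K : Type u)
    [NormedAddCommGroup H] [InnerProductSpace ℂ H] [CompleteSpace H]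
    [NormedAddCommGroup K] [InnerProductSpace ℂ K] [CompleteSpace K] (B D : Alg H)
    (π : Op H →ₗ[ℂ] Op K) (δ : ℝ), IsClosed (B : Set (Op H)) → IsClosed (D : Set (Op H)) →
    0 ≤ δ → Close B D δ → (∀ x, ‖π x‖ ≤ ‖x‖) → π 1 = 1 → (∀ x, π (star x) = star (π x)) →
    (∀ x ∈ B, ∀ y ∈ B, π (x * y) = π x * π y) → (∀ x ∈ D, ∀ y ∈ D, π (x * y) = π x * π y) →
    Close (cm (π '' B)) (cm (π '' D)) (K₀ * δ) := by
  obtain ⟨K₀, hK, h⟩ := hH
  refine ⟨2 * K₀, by linarith, fun H K _ _ _ _ _ _ B D π δ hB hD hδ hc hn h1 hs mB mD => ?_⟩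
  have key : ∀ B D : Alg H, IsClosed (D : Set (Op H)) → Near D B δ →
      (∀ x ∈ D, ∀ y ∈ D, π (x * y) = π x * π y) →
      Near (cm (π '' B)) (cm (π '' D)) (2 * K₀ * δ) := by
    intro B D hD hN mD c hc
    let φ : D →⋆ₐ[ℂ] Op K :=
      { toFun := fun d => π d
        map_one' := h1
        map_mul' := fun x y => mD x x.2 y y.2
        map_zero' := map_zero π
        map_add' := fun x y => map_add π _ _
        commutes' := fun z => by
          rw [Algebra.algebraMap_eq_smul_one, Algebra.algebraMap_eq_smul_one, ← h1, ← map_smul]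
          rfl
        map_star' := fun x => hs x }
    obtain ⟨y, h2, h3⟩ := h D K K φ φ c (2 * δ * ‖c‖) (by positivity) fun d => by
      obtain ⟨b, hb, k⟩ := hN d d.2
      have k' : ‖π d - π b‖ ≤ δ * ‖(d : Op H)‖ := by
        rw [← map_sub]
        exact (hn _).trans k
      refine (CloseAux.two (mem_cm.1 hc _ ⟨b, hb, rfl⟩).1.symm k' k' le_rfl).trans_eq ?_
      change _ = _ * ‖(d : Op H)‖
      ring
    refine ⟨y, (mem_cm' ?_).2 ?_, h3.trans_eq (by ring)⟩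
    · rintro _ ⟨d, hd, rfl⟩
      exact ⟨star d, star_mem (s := D) hd, hs d⟩
    · rintro _ ⟨d, hd, rfl⟩
      exact (h2 ⟨d, hd⟩).symm
  exact ⟨key B D hD hc.2 mD, key D B hB hc.1 mB⟩

/-- The version for mutual commutants (this is `CommStmt`). -/
theorem comm_close (hH : HyperStmt.{u}) : CommStmt.{u} := by
  obtain ⟨K, hK, h⟩ := near_of_comm hH
  have key : ∀ (H : Type u) [NormedAddCommGroup H] [InnerProductSpace ℂ H] [CompleteSpace H]
      (A B N D : Alg H) (δ : ℝ), CP A B → CP N D → 0 ≤ δ → Near N A δ → Near B D (2 * K * δ) := by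
    intro H _ _ _ A B N D δ hAB hND hδ hN c hc
    obtain ⟨y, h1, h2⟩ := h H D N c (2 * δ * ‖c‖) hND.symm (by positivity) fun n hn => by
      obtain ⟨a, ha, k⟩ := hN n hn
      rw [norm_sub_rev]
      exact (CloseAux.two ((hAB.left a).1 ha c hc) k k le_rfl).trans_eq (by ring)
    exact ⟨y, h1, h2.trans_eq (by ring)⟩
  exact ⟨2 * K, by linarith, fun H _ _ _ A B N D δ hAB hND hδ hc =>
    ⟨key H A B N D δ hAB hND hδ hc.2, key H N D A B δ hND hAB hδ hc.1⟩⟩

/-- Fixed point algebras: average the approximant with `Mean.av`. -/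
theorem fix_close {G : Type v} [Group G] (m : Mean G) (ρ : G →* unitary (Op H))
    {S T : Set (Op H)} {δ : ℝ}
    (hS : ∀ g, ∀ x ∈ cm S, (ρ g : Op H) * x * star (ρ g : Op H) ∈ cm S)
    (hT : ∀ g, ∀ x ∈ cm T, (ρ g : Op H) * x * star (ρ g : Op H) ∈ cm T)
    (h : Close (cm S) (cm T) δ) :
    Close (cm (S ∪ Set.range fun g => (ρ g : Op H))) (cm (T ∪ Set.range fun g => (ρ g : Op H)))
      δ :=
  ⟨CloseAux.fix_near m ρ hT h.1, CloseAux.fix_near m ρ hS h.2⟩

/-- Columns over `A` are near columns over `N`: view the column as an operator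
`H →L[ℂ] PiLp 2 (fun _ : ι => H)` that almost intertwines the representations of `D`. -/
theorem col_close (hH : HyperStmt.{u}) : ∃ K₀ : ℝ, 1 ≤ K₀ ∧ ∀ (H : Type u)
    [NormedAddCommGroup H] [InnerProductSpace ℂ H] [CompleteSpace H] (A B N D : Alg H) (δ C : ℝ)
    (ι : Type) [Fintype ι] (x : ι → Op H), CP A B → CP N D → 0 ≤ δ → Near D B δ → 0 ≤ C →
    (∀ i, x i ∈ A) → (∀ η, ∑ i, ‖x i η‖ ^ 2 ≤ C ^ 2 * ‖η‖ ^ 2) →
    ∃ y : ι → Op H, (∀ i, y i ∈ N) ∧
      ∀ η, ∑ i, ‖(x i - y i) η‖ ^ 2 ≤ (K₀ * δ * C) ^ 2 * ‖η‖ ^ 2 := by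
  obtain ⟨K, hK, h⟩ := hH
  refine ⟨2 * K, by linarith, fun H _ _ _ A B N D δ C ι _ x hAB hND hδ hN hC hx hb => ?_⟩
  have := tl_closed hND.symm
  obtain ⟨π, hπ, hπ1⟩ := CloseAux.diag (H := H) ι
  obtain ⟨W, hW, hW1⟩ := CloseAux.col x hC hb
  obtain ⟨Y, h1, h2⟩ := h D _ H (π.comp D.subtype) D.subtype W (2 * δ * C) (by positivity)
    fun d => by
      obtain ⟨b, hb, k⟩ := hN d d.2
      have k' : ‖π d - π b‖ ≤ δ * ‖(d : Op H)‖ := by
        rw [← map_sub]
        exact (hπ1 _).trans k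
      have e : π b ∘L W = W ∘L b := ContinuousLinearMap.ext fun η => lp.ext (funext fun i => by
        change π b (W η) i = W (b η) i
        rw [hπ, hW, hW, hAB.app (hx i) hb])
      refine (CloseAux.two e k' k hW1).trans_eq ?_
      change _ = _ * ‖(d : Op H)‖
      ring
  refine ⟨fun i => lp.evalCLM ℂ (fun _ : ι => H) 2 i ∘L Y, fun i => (hND.left _).2 fun d hd => ?_,
    fun η => ?_⟩
  · refine ContinuousLinearMap.ext fun η => ?_
    exact ((hπ d (Y η) i).symm.trans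
      (congrArg (fun T : H →L[ℂ] lp (fun _ : ι => H) 2 => T η i) (h1 ⟨d, hd⟩))).symm
  · have h3 : ∀ i, (x i - lp.evalCLM ℂ (fun _ : ι => H) 2 i ∘L Y) η = (W - Y) η i := fun i => by
      rw [sub_apply, sub_apply, ← hW]
      rfl
    simp only [h3]
    rw [← CloseAux.sq_norm, ← mul_pow]
    exact pow_le_pow_left₀ (norm_nonneg _)
      ((W - Y).le_of_opNorm_le (h2.trans_eq (by ring)) η) 2

end Vale.Agent.P096b
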