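import Vale.Agent.P096b.Lp

/-! The limit of small periods. -/

set_option linter.unusedSectionVars false

namespace Vale.Agent.P096b

open Filter Topology Vale.Agent.P096 MeasureTheory
open scoped InnerProductSpace ComplexConjugate

universe u v

variable {H : Type u} [NormedAddCommGroup H] [InnerProductSpace ℂ H] [CompleteSpace H]

variable {L b : Op (LZ H)}

theorem cross2_amp (x : Op H) : ‖amp x‖ ≤ ‖x‖ := NonUnitalStarAlgHom.norm_apply_le amp x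

theorem cross2_norm (Φ : Calc H) (T t : ℝ) (x : Op H) (v : LZ H) :
    ‖Φ.πT T (Φ.σ t x) v - amp x v‖ ≤ (2 * ‖x‖ + 1) * ‖v‖ := by
  have h1 : ‖Φ.πT T (Φ.σ t x)‖ ≤ ‖x‖ := by
    rw [Calc.πT, CStarRing.norm_mul_mem_unitary _ (Unitary.star_mem (Φ.dU_mem T)),
      CStarRing.norm_mem_unitary_mul _ (Φ.dU_mem T), ← Φ.norm_σ t x]
    exact cross2_amp _
  have h2 := (Φ.πT T (Φ.σ t x)).le_of_opNorm_le h1 v
  have h3 := (amp x).le_of_opNorm_le (cross2_amp x) v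
  have h4 := norm_sub_le (Φ.πT T (Φ.σ t x) v) (amp x v)
  have h5 := norm_nonneg v
  linarith

theorem cross2_emb (Φ : Calc H) (x : Op H) (k : ℤ) (η : H) (ε : ℝ) (hε : 0 < ε) :
    ∀ᶠ T in 𝓝[>] (0 : ℝ), ∀ s ∈ Set.Icc (0 : ℝ) 1,
      ‖Φ.πT T (Φ.σ (s * T) x) (emb k η) - amp x (emb k η)‖ ≤ ε := by
  obtain ⟨δ, hδ, h⟩ := Metric.continuousAt_iff.1 ((Φ.σ_cont x η).continuousAt (x := 0)) ε hε
  have hk : (0 : ℝ) < |(k : ℝ)| + 1 := by positivity
  filter_upwards [Ioo_mem_nhdsGT (div_pos hδ hk)] with T hT s hs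
  have e : Φ.πT T (Φ.σ (s * T) x) (emb k η) = emb k (Φ.σ (-(k * T) + s * T) x η) := by
    refine lp.ext (funext fun l => ?_)
    rw [Φ.πT_apply, emb_apply, emb_apply, Φ.σ_σ]
    split_ifs with h1
    · rw [h1]
    · exact map_zero _
  have h2 : dist (-(k * T) + s * T) 0 < δ := by
    have h3 := (lt_div_iff₀ hk).1 hT.2
    have h4 := le_abs_self (k : ℝ)
    have h5 := neg_abs_le (k : ℝ)
    rw [dist_zero_right, Real.norm_eq_abs, abs_lt]
    constructor <;> nlinarith [hs.1, hs.2, hT.1]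
  rw [e, amp_emb, ← map_sub, LinearIsometry.norm_map, ← dist_eq_norm]
  simpa only [Φ.σ_zero] using (h h2).le

theorem cross2_sum (Φ : Calc H) (x : Op H) (f : ℤ → H) (S : Finset ℤ) :
    ∀ ε : ℝ, 0 < ε → ∀ᶠ T in 𝓝[>] (0 : ℝ), ∀ s ∈ Set.Icc (0 : ℝ) 1,
      ‖Φ.πT T (Φ.σ (s * T) x) (∑ k ∈ S, emb k (f k)) - amp x (∑ k ∈ S, emb k (f k))‖ ≤ ε := by
  induction S using Finset.induction_on with
  | empty => exact fun ε hε => Eventually.of_forall fun T s _ => by simpa using hε.le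
  | insert a S ha ih =>
    intro ε hε
    filter_upwards [cross2_emb Φ x a (f a) _ (half_pos hε), ih _ (half_pos hε)] with T h1 h2 s hs
    rw [Finset.sum_insert ha, map_add, map_add, add_sub_add_comm]
    linarith [norm_add_le (Φ.πT T (Φ.σ (s * T) x) (emb a (f a)) - amp x (emb a (f a)))
      (Φ.πT T (Φ.σ (s * T) x) (∑ k ∈ S, emb k (f k)) - amp x (∑ k ∈ S, emb k (f k))), h1 s hs,
      h2 s hs]

theorem cross2_near (Φ : Calc H) (x : Op H) (T t : ℝ) {v w : LZ H} {ε : ℝ}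
    (h : ‖v - w‖ < ε / 2 / (2 * ‖x‖ + 1)) (h1 : ‖Φ.πT T (Φ.σ t x) w - amp x w‖ ≤ ε / 2) :
    ‖Φ.πT T (Φ.σ t x) v - amp x v‖ ≤ ε := by
  have h2 := cross2_norm Φ T t x (v - w)
  rw [lt_div_iff₀' (by positivity)] at h
  have h3 := norm_add_le (Φ.πT T (Φ.σ t x) (v - w) - amp x (v - w))
    (Φ.πT T (Φ.σ t x) w - amp x w)
  rw [← add_sub_add_comm, ← map_add, ← map_add, sub_add_cancel] at h3
  linarith

theorem cross2_int (Φ : Calc H) (h : Sh L b) {T : ℝ} (hT : T ≠ 0) (x : Op H) (n : ℤ) :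
    Φ.W b T (n * T) * Φ.πT T x = Φ.πT T x * Φ.W b T (n * T) := by
  have h1 : Commute (Φ.W b T T) (Φ.πT T x) := h.W_πT Φ hT x
  have h2 : Φ.W b T T * Φ.W b T (-T) = 1 := by rw [← h.W_add, add_neg_cancel, W_zero]
  have h3 : Φ.W b T (-T) * Φ.W b T T = 1 := by rw [← h.W_add, neg_add_cancel, W_zero]
  have h4 : Commute (Φ.W b T (-T)) (Φ.πT T x) := by
    calc _ = Φ.W b T (-T) * (Φ.πT T x * Φ.W b T T) * Φ.W b T (-T) := by
          rw [mul_assoc, mul_assoc, h2, mul_one]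
      _ = _ := by rw [← h1.eq, ← mul_assoc, h3, one_mul]
  change Commute _ _
  induction n using Int.induction_on with
  | zero => simp [W_zero]
  | succ n ih =>
    rw [Int.cast_add, Int.cast_one, add_one_mul, h.W_add]
    exact ih.mul_left h1
  | pred n ih =>
    rw [Int.cast_sub, Int.cast_one, sub_one_mul, sub_eq_add_neg, h.W_add]
    exact ih.mul_left h4

theorem cross2_conj (Φ : Calc H) (T t : ℝ) (x : Op H) (v : LZ H) :
    Φ.πT T x (amp (Φ.U (-t)) v) - amp (Φ.σ (-t) x) (amp (Φ.U (-t)) v)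
      = amp (Φ.U (-t)) (Φ.πT T (Φ.σ t x) v - amp x v) := by
  have e : ∀ y : Op H, ∀ η, Φ.σ (-t) y (Φ.U (-t) η) = Φ.U (-t) (y η) := fun y η => by
    rw [← mul_apply_eq_comp, Calc.σ, neg_neg, mul_assoc, Φ.U_mul_neg, mul_one, mul_apply_eq_comp]
  refine lp.ext (funext fun k => ?_)
  rw [amp_apply, lp.coeFn_sub, lp.coeFn_sub, Pi.sub_apply, Pi.sub_apply, map_sub, Φ.πT_apply,
    Φ.πT_apply, amp_apply, amp_apply, amp_apply, e, ← e (Φ.σ _ _), Φ.σ_σ, Φ.σ_σ]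
  congr 3
  ring

/-- Strong convergence, uniformly on compact sets of vectors and for `s ∈ [0, 1]`: approximate by
finitely supported vectors (`lz_approx`) and use `σ_cont` at `0`. -/
theorem πT_lim (Φ : Calc H) (x : Op H) {V : Set (LZ H)} (hV : IsCompact V) (ε : ℝ) (hε : 0 < ε) :
    ∀ᶠ T in 𝓝[>] (0 : ℝ), ∀ s ∈ Set.Icc (0 : ℝ) 1, ∀ v ∈ V,
      ‖Φ.πT T (Φ.σ (s * T) x) v - amp x v‖ ≤ ε := by
  have hx : 0 < 2 * ‖x‖ + 1 := by positivity
  obtain ⟨t, ht, hc⟩ := Metric.totallyBounded_iff.1 hV.totallyBounded _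
    (div_pos (half_pos hε) hx)
  have h1 : ∀ w ∈ t, ∀ᶠ T in 𝓝[>] (0 : ℝ), ∀ s ∈ Set.Icc (0 : ℝ) 1,
      ‖Φ.πT T (Φ.σ (s * T) x) w - amp x w‖ ≤ ε / 2 := fun w _ => by
    obtain ⟨S, hS⟩ := lz_approx w _ (div_pos (half_pos (half_pos hε)) hx)
    filter_upwards [cross2_sum Φ x w S _ (half_pos (half_pos hε))] with T hT s hs
    exact cross2_near Φ x T _ hS (hT s hs)
  filter_upwards [(eventually_all_finite ht).2 h1] with T hT s hs v hv
  obtain ⟨w, hw, h2⟩ := Set.mem_iUnion₂.1 (hc hv)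
  exact cross2_near Φ x T _ (mem_ball_iff_norm.1 h2) (hT w hw s hs)

/-- Write `t = n T + s T` with `s ∈ [0, 1)`; by `W_πT` the expression is periodic, and
`W (s T) πT x (W (s T))* = c (-s) πT (σ (s T) x) c s` with `c s = exp (i s b)` unitary and commuting
with `amp x`. The vectors `c s (emb 0 ζ)`, `s ∈ [0, 1]`, form a compact set. -/
theorem cross_lim (Φ : Calc H) (h : Sh L b) (x : Op H) (ζ η : H) (ε : ℝ) (hε : 0 < ε) :
    ∀ᶠ T in 𝓝[>] (0 : ℝ), ∀ t : ℝ,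
      ‖⟪emb 0 η, (Φ.W b T t * Φ.πT T x * star (Φ.W b T t)) (emb 0 ζ)⟫_ℂ - ⟪η, x ζ⟫_ℂ‖ ≤ ε := by
  let _ : NormedAlgebra ℚ (Op (LZ H)) := .restrictScalars ℚ ℂ _
  have hc : Continuous fun s : ℝ =>
      star (NormedSpace.exp ((Complex.I * (-s : ℝ)) • b)) (emb 0 ζ) := by
    refine Continuous.clm_apply (Continuous.star (NormedSpace.exp_continuous.comp ?_))
      continuous_const
    fun_prop
  have hη : 0 < ‖η‖ + 1 := by positivity
  filter_upwards [πT_lim Φ x ((isCompact_Icc (a := (0 : ℝ)) (b := 1)).image hc) _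
    (div_pos hε hη), self_mem_nhdsWithin] with T hT T0 t
  have T1 : T ≠ 0 := ne_of_gt T0
  set s := Int.fract (t / T) with hs
  have hs1 : s ∈ Set.Icc (0 : ℝ) 1 := ⟨Int.fract_nonneg _, (Int.fract_lt_one _).le⟩
  have et : t = s * T + (⌊t / T⌋ : ℤ) * T := by
    rw [← add_mul, hs, Int.fract_add_floor, div_mul_cancel₀ _ T1]
  have e1 : Φ.W b T t * Φ.πT T x * star (Φ.W b T t)
      = Φ.W b T (s * T) * Φ.πT T x * star (Φ.W b T (s * T)) := by
    rw [et, h.W_add, star_mul, mul_assoc (Φ.W b T (s * T)), cross2_int Φ h T1]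
    simp only [mul_assoc]
    rw [← mul_assoc (Φ.W b T (_ * T)) (star _) (star _), (Unitary.mem_iff.1 (h.W_mem Φ T _)).2,
      one_mul]
  have e2 := h.W_amp Φ T (s * T) (Φ.σ (-(s * T)) x)
  rw [Φ.σ_σ, add_neg_cancel, Φ.σ_zero] at e2
  have e3 : ⟪η, x ζ⟫_ℂ = ⟪emb 0 η, amp x (emb 0 ζ)⟫_ℂ := by
    rw [amp_emb, LinearIsometry.inner_map_map]
  have e4 : star (Φ.W b T (s * T)) (emb 0 ζ) = amp (Φ.U (-(s * T)))
      (star (NormedSpace.exp ((Complex.I * (-s : ℝ)) • b)) (emb 0 ζ)) := by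
    rw [Calc.W, star_mul, ← map_star, Φ.star_U, neg_div, mul_div_cancel_right₀ _ T1,
      mul_apply_eq_comp]
  have h5 := hT s hs1 _ ⟨s, hs1, rfl⟩
  rw [e1, e3, ← e2, ← inner_sub_right]
  refine (norm_inner_le_norm _ _).trans ?_
  simp only [mul_apply_eq_comp]
  rw [← map_sub, unitary_norm (h.W_mem Φ T _), e4, cross2_conj, LinearIsometry.norm_map,
    unitary_norm (u := amp (Φ.U _)) (Φ.amp.U_mem _)]
  rw [le_div_iff₀' hη] at h5
  exact le_trans (mul_le_mul_of_nonneg_right (by linarith) (norm_nonneg _)) h5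

end Vale.Agent.P096b
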