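import Vale.Agent.P096b.Cross1
import Vale.Agent.P096b.Cross2
import Vale.Agent.P096b.Close
import Vale.Agent.P096b.Amen

/-! The reduction of Haagerup. -/

set_option linter.unusedSectionVars false

namespace Vale.Agent.P096b

open Filter Topology Vale.Agent.P096 MeasureTheory
open scoped InnerProductSpace ComplexConjugate

universe u v

variable {H : Type u} [NormedAddCommGroup H] [InnerProductSpace ℂ H] [CompleteSpace H]

theorem cross_inv (Φ : Calc H) {L b : Op (LZ H)} (h : Sh L b) (T : ℝ) {B : Alg H}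
    (hB : ∀ t, ∀ y ∈ B, Φ.σ t y ∈ B) (g : Multiplicative ℝ) (X : Op (LZ H))
    (hX : X ∈ cm (amp '' (B : Set (Op H)))) :
    (h.rep Φ T g : Op (LZ H)) * X * star (h.rep Φ T g : Op (LZ H)) ∈
      cm (amp '' (B : Set (Op H))) := by
  have hs : ∀ y ∈ amp '' (B : Set (Op H)), star y ∈ amp '' (B : Set (Op H)) := by
    rintro _ ⟨y, hy, rfl⟩
    exact ⟨star y, star_mem (s := B) hy, map_star _ _⟩
  refine (mem_cm' hs).2 ?_
  rintro _ ⟨y, hy, rfl⟩
  have e := h.W_amp Φ T g.toAdd (Φ.σ (-g.toAdd) y)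
  rw [Φ.σ_σ, add_neg_cancel, Φ.σ_zero] at e
  have h1 := (mem_cm' hs).1 hX _ ⟨_, hB (-g.toAdd) y hy, rfl⟩
  have h2 := (Unitary.mem_iff.1 (h.W_mem Φ T g.toAdd)).1
  change Φ.W b T g.toAdd * X * star (Φ.W b T g.toAdd) * amp y =
    amp y * (Φ.W b T g.toAdd * X * star (Φ.W b T g.toAdd))
  rw [← e]
  generalize Φ.W b T g.toAdd = W at h2 ⊢
  generalize amp (Φ.σ (-g.toAdd) y) = Y at h1 ⊢
  calc W * X * star W * (W * Y * star W) = W * (X * (star W * W) * Y) * star W := by noncomm_ring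
    _ = W * (Y * (star W * W) * X) * star W := by rw [h2, mul_one, mul_one, h1]
    _ = _ := by noncomm_ring

theorem cross_πT (Φ : Calc H) (T : ℝ) {A B : Alg H} (h : CP A B)
    (hA : ∀ t, ∀ x ∈ A, Φ.σ t x ∈ A) {x : Op H} (hx : x ∈ A) :
    Φ.πT T x ∈ cm (amp '' (B : Set (Op H))) := by
  have key : ∀ y ∈ B, Φ.πT T x * amp y = amp y * Φ.πT T x := fun y hy => by
    refine ContinuousLinearMap.ext fun f => lp.ext (funext fun k => ?_)
    rw [mul_apply_eq_comp, mul_apply_eq_comp, Φ.πT_apply, amp_apply, amp_apply, Φ.πT_apply,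
      ← mul_apply_eq_comp, (h.left _).1 (hA _ x hx) y hy, mul_apply_eq_comp]
  refine mem_cm.2 ?_
  rintro _ ⟨y, hy, rfl⟩
  exact ⟨key y hy, by rw [← map_star]; exact key _ (star_mem (s := B) hy)⟩

theorem cross_av (Φ : Calc H) {L b : Op (LZ H)} (h : Sh L b) (T : ℝ) {B : Alg H}
    (hB : ∀ t, ∀ y ∈ B, Φ.σ t y ∈ B) (m : Mean (Multiplicative ℝ)) {X : Op (LZ H)}
    (hX : X ∈ cm (amp '' (B : Set (Op H)))) : m.av (h.rep Φ T) X ∈ h.R Φ T B := by
  refine mem_cm.2 ?_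
  rintro s (hs | ⟨g, rfl⟩)
  · exact mem_cm.1 (m.av_mem _ (cp_cm _) fun g => cross_inv Φ h T hB g X hX) s hs
  · exact ⟨(m.av_comm _ X g).symm, (mean_star_comm (m.av_comm _ X g)).symm⟩

theorem cross_πT_norm (Φ : Calc H) (T : ℝ) (x : Op H) : ‖Φ.πT T x‖ ≤ ‖x‖ := by
  rw [Calc.πT, CStarRing.norm_mul_mem_unitary _ (Unitary.star_mem (Φ.dU_mem T)),
    CStarRing.norm_mem_unitary_mul _ (Φ.dU_mem T)]
  exact cross2_amp _

theorem cross_conj {u E : Op H} (hu : u ∈ unitary (Op H)) {t C : ℝ} (h : ‖u - 1‖ ≤ t)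
    (hE : ‖E‖ ≤ C) : ‖star u * E * u - E‖ ≤ 2 * t * C := by
  have e : star u * E * u - E = star u * (E * (u - 1)) + star (u - 1) * E := by
    rw [star_sub, star_one]
    noncomm_ring
  have h0 := (norm_nonneg _).trans h
  have h1 : ‖E * (u - 1)‖ ≤ C * t :=
    (norm_mul_le _ _).trans (mul_le_mul hE h (norm_nonneg _) ((norm_nonneg _).trans hE))
  have h2 : ‖star (u - 1) * E‖ ≤ t * C :=
    (norm_mul_le _ _).trans (mul_le_mul (by rwa [norm_star]) hE (norm_nonneg _) h0)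
  rw [e]
  refine (norm_add_le _ _).trans ?_
  rw [CStarRing.norm_mem_unitary_mul _ (Unitary.star_mem hu)]
  linarith

theorem cross_ent_add (X Y : Op (LZ H)) (k l : ℤ) : ent (X + Y) k l = ent X k l + ent Y k l := by
  rw [ent, ent, ent, ContinuousLinearMap.add_comp, ContinuousLinearMap.comp_add]

theorem cross_ent_smul (c : ℂ) (X : Op (LZ H)) (k l : ℤ) : ent (c • X) k l = c • ent X k l := by
  rw [ent, ent, ContinuousLinearMap.smul_comp, ContinuousLinearMap.comp_smul]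

/-- For `T > 0` the algebras `h.R μ T D` and `h.R μ T B` are close (`comm_close`, `hyp_close` for
`amp`, `fix_close` with `W_amp`, `Calc.σ_comm` and `mean_comm`; note
`W x W* ∈ cm (amp '' D)` for `x ∈ cm (amp '' D)`). By `cross_fin`, `fin_of_trace` and `hM` there is a
unitary `u T` near `1` with `X ∈ R D ↔ u X u* ∈ R B`. For `x ∈ A`, `πT x` commutes with `amp B`,
so `E x = m.av (h.rep μ T) (πT x) ∈ R B`, and `Φ T x = ent (u* (E x) u) 0 0 ∈ N` (`ent_comm`).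
`cross_lim` and `Mean.op_inner_near` give the hypothesis of `lift_of_lim` along `𝓝[>] 0`. -/
theorem lift_mod (hH : HyperStmt.{u}) (hM : MainStmt.{u}) : LiftMod.{u} := by
  intro ε ε0
  obtain ⟨K₁, hK₁, hC⟩ := comm_close hH
  obtain ⟨K₀, hK₀, hP⟩ := hyp_close hH
  obtain ⟨δ, δ0, hM⟩ := hM (ε / 2) (half_pos ε0)
  refine ⟨δ / K₀ / K₁, by positivity, fun H _ _ _ A B N D hAB hND hAN ⟨ξ, μ, hA⟩ => ?_⟩
  obtain ⟨L, b, h⟩ := exists_sh (H := H)
  obtain ⟨m⟩ := mean_comm (Multiplicative ℝ)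
  have hB : ∀ t, ∀ y ∈ B, μ.σ t y ∈ B := fun t y hy => μ.σ_comm hAB hA t hy
  have hD : ∀ t, ∀ y ∈ D, μ.σ t y ∈ D := fun t y hy => μ.uB t hy
  have hBD := hC H A B N D _ hAB hND (by positivity) hAN
  rw [mul_div_cancel₀ _ (by positivity)] at hBD
  have h1 : Close (cm (amp '' (B : Set (Op H)))) (cm (amp '' (D : Set (Op H))))
      (K₀ * (δ / K₀)) :=
    hP H (LZ H) B D (amp : Op H →⋆ₐ[ℂ] Op (LZ H)).toAlgHom.toLinearMap _
      (tl_closed hAB.symm) (tl_closed hND.symm) (by positivity) hBD cross2_amp (map_one amp)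
      (map_star amp) (fun x _ y _ => map_mul amp x y) fun x _ y _ => map_mul amp x y
  rw [mul_div_cancel₀ _ (by positivity)] at h1
  have h2 : ∀ T : ℝ, ∃ u ∈ unitary (Op (LZ H)), ‖u - 1‖ ≤ ε / 2 ∧ (0 < T → ∀ X,
      X ∈ h.R μ.toCalc T D ↔ u * X * star u ∈ h.R μ.toCalc T B) := fun T => by
    by_cases hT : 0 < T
    · obtain ⟨ζ, z1, z2⟩ := cross_fin μ h hT
      obtain ⟨u, u1, u2, u3⟩ := hM (LZ H) (h.R μ.toCalc T D) _ (h.R μ.toCalc T B) _ (cp_cm _)
        (cp_cm _) (fix_close m (h.rep μ.toCalc T) (cross_inv _ h T hD) (cross_inv _ h T hB)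
          ⟨h1.2, h1.1⟩) (fin_of_trace (cp_cm _) z1 z2)
      exact ⟨u, u1, u2, fun _ => u3⟩
    · exact ⟨1, one_mem _, by rw [sub_self, norm_zero]; positivity, fun h' => absurd h' hT⟩
  choose u u1 u2 u3 using h2
  have h3 : ∀ T x, ‖m.av (h.rep μ.toCalc T) (μ.πT T x)‖ ≤ ‖x‖ := fun T x =>
    (m.av_norm _ _).trans (cross_πT_norm _ T x)
  refine lift_of_lim (C := 1) (𝓝[>] (0 : ℝ)) hND ε0.le
    (fun T x => ent (star (u T) * m.av (h.rep μ.toCalc T) (μ.πT T x) * u T) 0 0)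
    (fun T x _ y _ => ?_) (fun T c x _ => ?_) (fun T x _ => ?_) (fun x hx y hy => ?_)
    fun x hx ζ η t ht => ?_
  · simp only [Calc.πT, map_add, mul_add, add_mul, m.av_add, cross_ent_add]
  · simp only [Calc.πT, map_smul, mul_smul_comm, smul_mul_assoc, m.av_smul, cross_ent_smul]
  · refine (ent_norm _ _ _).trans ?_
    rw [CStarRing.norm_mul_mem_unitary _ (u1 T),
      CStarRing.norm_mem_unitary_mul _ (Unitary.star_mem (u1 T)), one_mul]
    exact h3 T x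
  · filter_upwards [self_mem_nhdsWithin] with T hT
    have h4 := cross_av μ.toCalc h T hB m (cross_πT μ.toCalc T hAB hA hx)
    generalize m.av (h.rep μ.toCalc T) (μ.πT T x) = E at h4 ⊢
    have e : u T * (star (u T) * E * u T) * star (u T) = E := by
      calc _ = u T * star (u T) * E * (u T * star (u T)) := by noncomm_ring
        _ = E := by rw [(Unitary.mem_iff.1 (u1 T)).2, one_mul, mul_one]
    have h5 := (u3 T hT (star (u T) * E * u T)).2 (by rwa [e])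
    exact ent_comm (mem_cm.1 h5 _ (Or.inl ⟨y, hy, rfl⟩)).1 0 0
  · filter_upwards [cross_lim μ.toCalc h x ζ η t ht] with T hT
    have h4 : ‖⟪emb 0 η, m.av (h.rep μ.toCalc T) (μ.πT T x) (emb 0 ζ)⟫_ℂ - ⟪η, x ζ⟫_ℂ‖ ≤ t :=
      m.op_inner_near (mean_av_bd _ _) fun g => hT g.toAdd
    have h5 := cross_conj (u1 T) (u2 T) (h3 T x)
    generalize m.av (h.rep μ.toCalc T) (μ.πT T x) = E at h4 h5 ⊢
    have h6 : ‖⟪emb 0 η, (star (u T) * E * u T - E) (emb 0 ζ)⟫_ℂ‖ ≤ ε * ‖x‖ * ‖η‖ * ‖ζ‖ := by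
      have := mean_inner_le (G := Unit) (T := fun _ => star (u T) * E * u T - E) (fun _ => h5)
        (emb 0 ζ) (emb 0 η) ()
      rw [LinearIsometry.norm_map, LinearIsometry.norm_map, mul_div_cancel₀ _ two_ne_zero] at this
      exact this
    have e : ⟪η, (ent (star (u T) * E * u T) 0 0 - x) ζ⟫_ℂ =
        ⟪emb 0 η, (star (u T) * E * u T - E) (emb 0 ζ)⟫_ℂ +
          (⟪emb 0 η, E (emb 0 ζ)⟫_ℂ - ⟪η, x ζ⟫_ℂ) := by
      rw [sub_apply, sub_apply, inner_sub_right, inner_sub_right, ent_apply, ← inner_emb,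
        sub_add_sub_cancel]
    rw [e]
    exact (norm_add_le _ _).trans (add_le_add h6 h4)

end Vale.Agent.P096b
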