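import Vale.Agent.P096b.Calc

/-! Gaussian kernels and filtered operators. -/

set_option linter.unusedSectionVars false

namespace Vale.Agent.P096b

open Filter Topology Vale.Agent.P096 MeasureTheory
open scoped InnerProductSpace ComplexConjugate

universe u v

variable {H : Type u} [NormedAddCommGroup H] [InnerProductSpace ℂ H] [CompleteSpace H]

section Gauss

variable {ε : ℝ}

theorem gs_bc (hε : 0 < ε) (κ₀ θ : ℝ) : BC (gs ε κ₀ θ) := by
  refine BC.of_le (by unfold gs; fun_prop) (C := Real.exp (θ ^ 2 / (4 * ε))) fun κ => ?_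
  unfold gs
  rw [Complex.norm_real, Real.norm_of_nonneg (Real.exp_pos _).le, Real.exp_le_exp,
    le_div_iff₀ (by positivity)]
  nlinarith [sq_nonneg (2 * ε * (κ - κ₀) - θ)]

theorem gs_ne (ε κ₀ θ κ : ℝ) : gs ε κ₀ θ κ ≠ 0 := by
  exact Complex.ofReal_ne_zero.2 (Real.exp_pos _).ne'

theorem gs_half (ε κ₀ θ κ : ℝ) : (Real.exp (κ / 2) : ℝ) * gs ε κ₀ θ κ =
    (Real.exp (κ₀ / 2) : ℝ) * gs ε κ₀ (θ + 1 / 2) κ := by
  unfold gs
  rw [← Complex.ofReal_mul, ← Complex.ofReal_mul, ← Real.exp_add, ← Real.exp_add]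
  congr 2
  ring

theorem gd_pos (hε : 0 < ε) (t : ℝ) : 0 < gd ε t := by
  unfold gd
  have := Real.pi_pos
  positivity

theorem gd_eq (ε : ℝ) :
    gd ε = fun t => (√(4 * Real.pi * ε))⁻¹ * Real.exp (-(4 * ε)⁻¹ * t ^ 2) := by
  funext t
  unfold gd
  congr 2
  ring

theorem gd_cont (ε : ℝ) : Continuous (gd ε) := by
  unfold gd
  fun_prop

theorem gd_int (hε : 0 < ε) : Integrable (gd ε) := by
  rw [gd_eq]
  exact (integrable_exp_neg_mul_sq (by positivity)).const_mul _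

theorem gd_one (hε : 0 < ε) : ∫ t, gd ε t = 1 := by
  have := Real.pi_pos
  rw [gd_eq, integral_const_mul, integral_gaussian,
    show Real.pi / (4 * ε)⁻¹ = 4 * Real.pi * ε by field_simp]
  exact inv_mul_cancel₀ (by positivity)

theorem gk_cont (ε κ₀ θ : ℝ) : Continuous (gk ε κ₀ θ) := by
  unfold gk
  fun_prop

theorem gk_norm (hε : 0 < ε) (κ₀ θ t : ℝ) :
    ‖gk ε κ₀ θ t‖ = Real.exp (θ ^ 2 / (4 * ε)) * gd ε t := by
  unfold gk gd
  have e : -((t : ℂ) + Complex.I * θ) ^ 2 / (4 * ε) - Complex.I * κ₀ * t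
      = ((θ ^ 2 / (4 * ε) + -t ^ 2 / (4 * ε) : ℝ) : ℂ)
        + ((-(2 * t * θ) / (4 * ε) - κ₀ * t : ℝ) : ℂ) * Complex.I := by
    push_cast
    linear_combination (-(θ : ℂ) ^ 2 / (4 * ε)) * Complex.I_sq
  rw [norm_mul, Complex.norm_real, Real.norm_of_nonneg (by positivity), e, Complex.exp_add,
    norm_mul, Complex.norm_exp_ofReal_mul_I, mul_one, Complex.norm_exp_ofReal, Real.exp_add]
  ring

theorem gk_int (hε : 0 < ε) (κ₀ θ : ℝ) : Integrable (gk ε κ₀ θ) := by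
  refine ((gd_int hε).const_mul (Real.exp (θ ^ 2 / (4 * ε)))).mono'
    (gk_cont ε κ₀ θ).aestronglyMeasurable (ae_of_all _ fun t => (gk_norm hε κ₀ θ t).le)

theorem gk_zero (ε t : ℝ) : gk ε 0 0 t = gd ε t := by
  unfold gk gd
  push_cast
  simp

/-- Use `integral_cexp_quadratic`. -/
theorem ft_gk (hε : 0 < ε) (κ₀ θ : ℝ) : ft (gk ε κ₀ θ) = gs ε κ₀ θ := by
  funext κ
  have hp := Real.pi_pos
  have hε' : (ε : ℂ) ≠ 0 := Complex.ofReal_ne_zero.2 hε.ne'
  have hb : (((-(4 * ε)⁻¹ : ℝ) : ℂ)).re < 0 := by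
    rw [Complex.ofReal_re, neg_lt_zero]
    positivity
  have key := integral_cexp_quadratic hb (Complex.I * (κ - κ₀ - θ / (2 * ε))) (θ ^ 2 / (4 * ε))
  have e1 : ∀ t : ℝ, gk ε κ₀ θ t * ex t κ = (((√(4 * Real.pi * ε))⁻¹ : ℝ) : ℂ) *
      Complex.exp (((-(4 * ε)⁻¹ : ℝ) : ℂ) * t ^ 2 + Complex.I * (κ - κ₀ - θ / (2 * ε)) * t
        + θ ^ 2 / (4 * ε)) := by
    intro t
    unfold gk ex
    rw [mul_assoc, ← Complex.exp_add]
    congr 2
    push_cast
    field_simp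
    linear_combination (-(θ : ℂ) ^ 2 * 2) * Complex.I_sq
  have e2 : ((Real.pi : ℂ) / -((-(4 * ε)⁻¹ : ℝ) : ℂ)) ^ (1 / 2 : ℂ)
      = ((√(4 * Real.pi * ε) : ℝ) : ℂ) := by
    have h2 : (1 / 2 : ℂ) = ((1 / 2 : ℝ) : ℂ) := by push_cast; ring
    have h3 : (Real.pi : ℂ) / -((-(4 * ε)⁻¹ : ℝ) : ℂ) = ((4 * Real.pi * ε : ℝ) : ℂ) := by
      push_cast
      field_simp
    rw [h2, h3, ← Complex.ofReal_cpow (by positivity), Real.sqrt_eq_rpow]
  unfold ft
  simp only [e1]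
  rw [integral_const_mul, key, e2, ← mul_assoc, ← Complex.ofReal_mul,
    inv_mul_cancel₀ (by positivity), Complex.ofReal_one, one_mul]
  unfold gs
  rw [Complex.ofReal_exp]
  congr 1
  push_cast
  field_simp
  linear_combination 4 * (((κ : ℂ) - κ₀) * 2 * ε - θ) ^ 2 * Complex.I_sq

/-- Approximate identity. -/
theorem gd_approx {E : Type*} [NormedAddCommGroup E] [NormedSpace ℂ E] [CompleteSpace E]
    {v : ℝ → E} (hv : Continuous v) {C : ℝ} (hC : ∀ t, ‖v t‖ ≤ C) :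
    Tendsto (fun ε => ∫ t, gd ε t * ‖v t - v 0‖) (𝓝[>] 0) (𝓝 0) := by
  have e : ∀ ε : ℝ, 0 < ε →
      ∫ s, gd 1 s * ‖v (√ε * s) - v 0‖ = ∫ t, gd ε t * ‖v t - v 0‖ := by
    intro ε hε
    have hs : 0 < √ε := Real.sqrt_pos.2 hε
    have h1 := Measure.integral_comp_mul_left (fun t => gd ε t * ‖v t - v 0‖) √ε
    have h2 : ∀ s, gd ε (√ε * s) = (√ε)⁻¹ * gd 1 s := by
      intro s
      unfold gd
      rw [Real.sqrt_mul' _ hε.le, mul_pow, Real.sq_sqrt hε.le,
        show -(ε * s ^ 2) / (4 * ε) = -s ^ 2 / (4 * 1) by field_simp, mul_one (4 * Real.pi)]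
      ring
    simp only [h2, mul_assoc] at h1
    rw [integral_const_mul, abs_of_pos (inv_pos.2 hs), smul_eq_mul] at h1
    exact mul_left_cancel₀ (inv_pos.2 hs).ne' h1
  refine Tendsto.congr' (eventually_mem_nhdsWithin.mono e) ?_
  have h := tendsto_integral_filter_of_dominated_convergence (μ := volume) (l := 𝓝[>] (0 : ℝ))
    (F := fun ε s => gd 1 s * ‖v (√ε * s) - v 0‖) (f := fun _ => (0 : ℝ))
    (fun s => gd 1 s * (C + C))
    (Eventually.of_forall fun ε => Continuous.aestronglyMeasurable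
      ((gd_cont 1).mul (by fun_prop)))
    (Eventually.of_forall fun ε => ae_of_all _ fun s => by
      rw [Real.norm_of_nonneg (mul_nonneg (gd_pos one_pos s).le (norm_nonneg _))]
      exact mul_le_mul_of_nonneg_left ((norm_sub_le _ _).trans (add_le_add (hC _) (hC _)))
        (gd_pos one_pos s).le)
    ((gd_int one_pos).mul_const _)
    (ae_of_all _ fun s => by
      have hc : Continuous fun ε : ℝ => gd 1 s * ‖v (√ε * s) - v 0‖ := by fun_prop
      have := (hc.tendsto 0).mono_left (nhdsWithin_le_nhds (s := Set.Ioi 0))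
      simpa using this)
  simpa using h

theorem gk_const (hε : 0 < ε) (c : H) : ∫ t, gk ε 0 0 t • c = c := by
  simp only [gk_zero]
  rw [integral_smul_const, integral_complex_ofReal, gd_one hε]
  simp

theorem gk_le (hε : 0 < ε) {u : ℝ → H} {b : ℝ → ℝ} (hb : Continuous b) {C D : ℝ}
    (hC : ∀ t, ‖b t‖ ≤ C) (h : ∀ t, ‖u t‖ ≤ b t * D) :
    ‖∫ t, gk ε 0 0 t • u t‖ ≤ (∫ t, gd ε t * b t) * D := by
  rw [← integral_mul_const]
  refine norm_integral_le_of_norm_le (((gd_int hε).mul_bdd hb.aestronglyMeasurable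
    (ae_of_all _ hC)).mul_const D) (ae_of_all _ fun t => ?_)
  rw [norm_smul, gk_zero, Complex.norm_real, Real.norm_of_nonneg (gd_pos hε t).le, mul_assoc]
  exact mul_le_mul_of_nonneg_left (h t) (gd_pos hε t).le

theorem int_smul {k : ℝ → ℂ} (hk : Integrable k) {v : ℝ → H} (hv : Continuous v) {C : ℝ}
    (hC : ∀ t, ‖v t‖ ≤ C) : Integrable fun t => k t • v t := by
  refine (hk.norm.mul_const C).mono' (hk.aestronglyMeasurable.smul hv.aestronglyMeasurable)
    (ae_of_all _ fun t => ?_)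
  rw [norm_smul]
  exact mul_le_mul_of_nonneg_left (hC t) (norm_nonneg _)

theorem gk_approx {v : ℝ → H} (hv : Continuous v) {C : ℝ} (hC : ∀ t, ‖v t‖ ≤ C) :
    Tendsto (fun ε => ∫ t, gk ε 0 0 t • v t) (𝓝[>] 0) (𝓝 (v 0)) := by
  rw [tendsto_iff_norm_sub_tendsto_zero]
  refine squeeze_zero' (Eventually.of_forall fun _ => norm_nonneg _)
    (eventually_mem_nhdsWithin.mono fun ε hε => ?_) (gd_approx hv hC)
  have hk := gk_int hε 0 0
  rw [← gk_const hε (v 0), ← integral_sub (int_smul hk hv hC) (hk.smul_const _), gk_const hε]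
  simp only [← smul_sub]
  simpa using gk_le hε (u := fun t => v t - v 0) (b := fun t => ‖v t - v 0‖) (by fun_prop)
    (C := C + C) (D := 1) (fun t => by
      rw [norm_norm]; exact (norm_sub_le _ _).trans (add_le_add (hC _) (hC _)))
    (fun t => by rw [mul_one])

theorem gk_shift (hε : 0 < ε) (κ₀ θ : ℝ) :
    Tendsto (fun s => ∫ t, ‖gk ε κ₀ θ (t - s) - gk ε κ₀ θ t‖) (𝓝 0) (𝓝 0) := by
  have hc := gk_cont ε κ₀ θ
  have h := tendsto_integral_filter_of_dominated_convergence (μ := volume) (l := 𝓝 (0 : ℝ))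
    (F := fun s t => ‖gk ε κ₀ θ (t - s) - gk ε κ₀ θ t‖) (f := fun _ => (0 : ℝ))
    (fun t => Real.exp (θ ^ 2 / (4 * ε)) * ((√(4 * Real.pi * ε))⁻¹ *
      (Real.exp (1 / (4 * ε)) * Real.exp (-(8 * ε)⁻¹ * t ^ 2))) + ‖gk ε κ₀ θ t‖)
    (Eventually.of_forall fun s => Continuous.aestronglyMeasurable (by fun_prop))
    (by
      filter_upwards [Icc_mem_nhds (show (-1 : ℝ) < 0 by norm_num) one_pos] with s hs
      refine ae_of_all _ fun t => ?_
      rw [norm_norm]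
      refine (norm_sub_le _ _).trans (add_le_add ?_ le_rfl)
      rw [gk_norm hε, gd, ← Real.exp_add]
      gcongr
      have h1 : s ^ 2 ≤ 1 := by nlinarith [hs.1, hs.2]
      rw [show 1 / (4 * ε) + -(8 * ε)⁻¹ * t ^ 2 = (1 - t ^ 2 / 2) / (4 * ε) by field_simp; ring]
      gcongr
      nlinarith [sq_nonneg (t - 2 * s)])
    (((((integrable_exp_neg_mul_sq (by positivity)).const_mul _).const_mul _).const_mul _).add
      (gk_int hε κ₀ θ).norm)
    (ae_of_all _ fun t => by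
      have h2 : Continuous fun s : ℝ => ‖gk ε κ₀ θ (t - s) - gk ε κ₀ θ t‖ := by fun_prop
      simpa using h2.tendsto 0)
  simpa using h

theorem int_cs {g a : ℝ → ℝ} (h0 : ∀ t, 0 ≤ g t) (h1 : Integrable g)
    (h2 : Integrable fun t => g t * a t) (h3 : Integrable fun t => g t * a t ^ 2) :
    (∫ t, g t * a t) ^ 2 ≤ (∫ t, g t) * ∫ t, g t * a t ^ 2 := by
  have key : ∀ x : ℝ, 0 ≤ (∫ t, g t) * (x * x) + (-2 * ∫ t, g t * a t) * x
      + ∫ t, g t * a t ^ 2 := by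
    intro x
    have h4 : Integrable fun t => g t * (x * x) + -2 * (g t * a t) * x :=
      (h1.mul_const _).add ((h2.const_mul _).mul_const _)
    rw [← integral_const_mul, ← integral_mul_const, ← integral_mul_const,
      ← integral_add (h1.mul_const _) ((h2.const_mul _).mul_const _), ← integral_add h4 h3]
    refine integral_nonneg fun t => ?_
    have := mul_nonneg (h0 t) (sq_nonneg (a t - x))
    simp only [Pi.zero_apply]
    linarith
  have := discrim_le_zero key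
  unfold discrim at this
  linarith

end Gauss

namespace Calc

variable (Φ : Calc H) {k : ℝ → ℂ}

theorem σ_le (x : Op H) (η : H) (t : ℝ) : ‖Φ.σ t x η‖ ≤ ‖x‖ * ‖η‖ := by
  rw [← Φ.norm_σ t x]
  exact ContinuousLinearMap.le_opNorm _ _

theorem integrable_σ (hk : Integrable k) (x : Op H) (η : H) :
    Integrable fun t => k t • Φ.σ t x η := by
  exact int_smul hk (Φ.σ_cont x η) (Φ.σ_le x η)

theorem int_le (hk : Integrable k) (x : Op H) (η : H) :
    ‖∫ t, k t • Φ.σ t x η‖ ≤ (∫ t, ‖k t‖) * ‖x‖ * ‖η‖ := by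
  rw [mul_assoc, ← integral_mul_const]
  refine norm_integral_le_of_norm_le (hk.norm.mul_const _) (ae_of_all _ fun t => ?_)
  rw [norm_smul]
  exact mul_le_mul_of_nonneg_left (Φ.σ_le x η t) (norm_nonneg _)

theorem filt_apply (hk : Integrable k) (x : Op H) (η : H) :
    Φ.filt k x η = ∫ t, k t • Φ.σ t x η := by
  have h : ∃ y : Op H, ∀ η, y η = ∫ t, k t • Φ.σ t x η := by
    refine ⟨LinearMap.mkContinuous ⟨⟨fun η => ∫ t, k t • Φ.σ t x η, fun a b => ?_⟩,
      fun c a => ?_⟩ _ (Φ.int_le hk x), fun _ => rfl⟩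
    · rw [← integral_add (Φ.integrable_σ hk x a) (Φ.integrable_σ hk x b)]
      simp only [map_add, smul_add]
    · simp only [map_smul, RingHom.id_apply, smul_comm _ c, integral_smul]
  rw [filt, dif_pos h]
  exact h.choose_spec η

theorem filt_norm (hk : Integrable k) (x : Op H) : ‖Φ.filt k x‖ ≤ (∫ t, ‖k t‖) * ‖x‖ := by
  refine ContinuousLinearMap.opNorm_le_bound _
    (mul_nonneg (integral_nonneg fun _ => norm_nonneg _) (norm_nonneg _)) fun η => ?_
  rw [Φ.filt_apply hk]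
  exact Φ.int_le hk x η

theorem filt_star (hk : Integrable k) (x : Op H) :
    Star.star (Φ.filt k x) = Φ.filt (fun t => conj (k t)) (Star.star x) := by
  have hk' : Integrable fun t => conj (k t) :=
    (Complex.conjCLE : ℂ →L[ℝ] ℂ).integrable_comp hk
  ext η
  refine ext_inner_left ℂ fun ζ => ?_
  rw [ContinuousLinearMap.star_eq_adjoint, ContinuousLinearMap.adjoint_inner_right,
    ← inner_conj_symm, Φ.filt_apply hk, Φ.filt_apply hk',
    ← integral_inner (Φ.integrable_σ hk x ζ), ← integral_inner (Φ.integrable_σ hk' _ η),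
    ← integral_conj]
  refine integral_congr_ae (ae_of_all _ fun t => ?_)
  dsimp only
  rw [inner_smul_right, inner_smul_right, map_mul, inner_conj_symm, Φ.σ_star,
    ContinuousLinearMap.star_eq_adjoint, ContinuousLinearMap.adjoint_inner_right]

theorem filt_comm (hk : Integrable k) {x y : Op H} (h : ∀ t, y * Φ.σ t x = Φ.σ t x * y) :
    y * Φ.filt k x = Φ.filt k x * y := by
  ext η
  rw [mul_apply_eq_comp, mul_apply_eq_comp, Φ.filt_apply hk,
    Φ.filt_apply hk, ← y.integral_comp_comm (Φ.integrable_σ hk x η)]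
  refine integral_congr_ae (ae_of_all _ fun t => ?_)
  dsimp only
  rw [map_smul, ← mul_apply_eq_comp, h t, mul_apply_eq_comp]

theorem filt_mem {A B : Alg H} (h : CP A B) (hk : Integrable k) {x : Op H}
    (hx : ∀ t, Φ.σ t x ∈ A) : Φ.filt k x ∈ A := by
  exact (h.left _).2 fun y hy =>
    (Φ.filt_comm hk fun t => ((h.left _).1 (hx t) y hy).symm).symm

theorem filt_vec (hk : Integrable k) {ξ : H} (hξ : ∀ t, Φ.U t ξ = ξ) (x : Op H) :
    Φ.filt k x ξ = Φ.F (ft k) (x ξ) := by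
  rw [Φ.filt_apply hk, Φ.integral hk]
  simp only [σ, mul_apply_eq_comp, hξ]

theorem σ_filt_apply (hk : Integrable k) (s : ℝ) (x : Op H) (η : H) :
    Φ.σ s (Φ.filt k x) η = ∫ t, k t • Φ.σ (s + t) x η := by
  change Φ.U s (Φ.filt k x (Φ.U (-s) η)) = _
  rw [Φ.filt_apply hk, ← (Φ.U s).integral_comp_comm (Φ.integrable_σ hk x _)]
  refine integral_congr_ae (ae_of_all _ fun t => ?_)
  dsimp only
  rw [map_smul, ← Φ.σ_σ]
  rfl

theorem σ_filt (hk : Integrable k) (s : ℝ) (x : Op H) :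
    Φ.σ s (Φ.filt k x) = Φ.filt k (Φ.σ s x) := by
  ext η
  rw [Φ.σ_filt_apply hk, Φ.filt_apply hk]
  simp only [Φ.σ_σ, add_comm]

/-- Column bound (Cauchy-Schwarz with weight `g`). -/
theorem filt_col {ι : Type*} [Fintype ι] {k : ι → ℝ → ℂ} {g : ℝ → ℝ} (hg : Integrable g)
    (hk : ∀ i, Integrable (k i)) (h : ∀ i t, ‖k i t‖ ≤ g t) (x : ι → Op H) {C : ℝ}
    (hx : ∀ η, ∑ i, ‖x i η‖ ^ 2 ≤ C * ‖η‖ ^ 2) (η : H) :
    ∑ i, ‖Φ.filt (k i) (x i) η‖ ^ 2 ≤ (∫ t, g t) ^ 2 * C * ‖η‖ ^ 2 := by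
  rcases isEmpty_or_nonempty ι with hι | ⟨⟨i0⟩⟩
  · have := hx η
    rw [Finset.sum_of_isEmpty] at this ⊢
    rw [mul_assoc]
    positivity
  have g0 : ∀ t, 0 ≤ g t := fun t => (norm_nonneg _).trans (h i0 t)
  have i1 : ∀ i, Integrable fun t => g t * ‖Φ.σ t (x i) η‖ := fun i =>
    hg.mul_bdd (Φ.σ_cont (x i) η).norm.aestronglyMeasurable
      (ae_of_all _ fun t => by rw [norm_norm]; exact Φ.σ_le _ η t)
  have i2 : ∀ i, Integrable fun t => g t * ‖Φ.σ t (x i) η‖ ^ 2 := fun i =>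
    hg.mul_bdd ((Φ.σ_cont (x i) η).norm.pow 2).aestronglyMeasurable
      (ae_of_all _ fun t => by
        rw [norm_pow, norm_norm]
        exact pow_le_pow_left₀ (norm_nonneg _) (Φ.σ_le _ η t) 2)
  have a1 : ∀ i, ‖Φ.filt (k i) (x i) η‖ ^ 2 ≤ (∫ t, g t) * ∫ t, g t * ‖Φ.σ t (x i) η‖ ^ 2 := by
    intro i
    refine le_trans (pow_le_pow_left₀ (norm_nonneg _) ?_ 2) (int_cs g0 hg (i1 i) (i2 i))
    rw [Φ.filt_apply (hk i)]
    refine norm_integral_le_of_norm_le (i1 i) (ae_of_all _ fun t => ?_)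
    rw [norm_smul]
    exact mul_le_mul_of_nonneg_right (h i t) (norm_nonneg _)
  refine (Finset.sum_le_sum fun i _ => a1 i).trans ?_
  rw [← Finset.mul_sum, ← integral_finsetSum _ fun i _ => i2 i, sq (∫ t, g t), mul_assoc,
    mul_assoc]
  refine mul_le_mul_of_nonneg_left ?_ (integral_nonneg g0)
  rw [← integral_mul_const]
  refine integral_mono (integrable_finsetSum _ fun i _ => i2 i) (hg.mul_const _) fun t => ?_
  dsimp only
  rw [← Finset.mul_sum]
  refine mul_le_mul_of_nonneg_left ?_ (g0 t)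
  simpa only [σ, mul_apply_eq_comp, Φ.norm_U] using hx (Φ.U (-t) η)

/-- Filtered operators have norm continuous orbits: `σ s (filt k x) = filt (k (· - s)) x` and
`s ↦ ∫ ‖k (t - s) - k (t - s₀)‖` tends to `0` (dominated convergence for Gaussians). -/
theorem filt_cont {ε : ℝ} (hε : 0 < ε) (κ₀ θ : ℝ) (x : Op H) :
    Continuous fun s => Φ.σ s (Φ.filt (gk ε κ₀ θ) x) := by
  have hk := gk_int hε κ₀ θ
  have a1 : ∀ s, ‖Φ.σ s (Φ.filt (gk ε κ₀ θ) x) - Φ.filt (gk ε κ₀ θ) x‖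
      ≤ (∫ t, ‖gk ε κ₀ θ (t - s) - gk ε κ₀ θ t‖) * ‖x‖ := by
    intro s
    have hs : Integrable fun t => gk ε κ₀ θ (t - s) := hk.comp_sub_right s
    refine le_trans (le_of_eq ?_) (Φ.filt_norm (hs.sub hk) x)
    congr 1
    ext η
    rw [sub_apply, Φ.σ_filt_apply hk, Φ.filt_apply hk,
      Φ.filt_apply (hs.sub hk), ← integral_sub_right_eq_self _ s]
    simp only [add_sub_cancel, Pi.sub_apply, sub_smul]
    rw [integral_sub (Φ.integrable_σ hs x η) (Φ.integrable_σ hk x η)]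
  refine continuous_iff_continuousAt.2 fun s₀ => ?_
  rw [ContinuousAt, tendsto_iff_norm_sub_tendsto_zero]
  have a2 : Tendsto (fun s : ℝ => s - s₀) (𝓝 s₀) (𝓝 0) := by
    simpa using (continuous_sub_right s₀).tendsto s₀
  have a3 := ((gk_shift hε κ₀ θ).comp a2).mul_const ‖x‖
  rw [zero_mul] at a3
  refine squeeze_zero (fun _ => norm_nonneg _) (fun s => le_trans (le_of_eq ?_) (a1 (s - s₀))) a3
  rw [← Φ.norm_σ s₀ (Φ.σ (s - s₀) _ - _), Φ.σ_sub, Φ.σ_σ, add_sub_cancel]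

theorem filt_strong (x : Op H) (η : H) :
    Tendsto (fun ε => Φ.filt (gk ε 0 0) x η) (𝓝[>] 0) (𝓝 (x η)) := by
  have := gk_approx (Φ.σ_cont x η) (Φ.σ_le x η)
  rw [Φ.σ_zero] at this
  exact this.congr' (eventually_mem_nhdsWithin.mono fun ε hε =>
    (Φ.filt_apply (gk_int hε 0 0) x η).symm)

theorem filt_lim {x : Op H} (hx : Continuous fun s => Φ.σ s x) :
    Tendsto (fun ε => Φ.filt (gk ε 0 0) x) (𝓝[>] 0) (𝓝 x) := by
  rw [tendsto_iff_norm_sub_tendsto_zero]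
  refine squeeze_zero' (Eventually.of_forall fun _ => norm_nonneg _)
    (eventually_mem_nhdsWithin.mono fun ε hε => ?_)
    (gd_approx hx (C := ‖x‖) fun t => (Φ.norm_σ t x).le)
  have hk := gk_int hε 0 0
  refine ContinuousLinearMap.opNorm_le_bound _
    (integral_nonneg fun t => mul_nonneg (gd_pos hε t).le (norm_nonneg _)) fun η => ?_
  rw [sub_apply, Φ.filt_apply hk, ← gk_const hε (x η),
    ← integral_sub (Φ.integrable_σ hk x η) (hk.smul_const _)]
  simp only [← smul_sub]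
  refine gk_le hε (by fun_prop) (C := ‖x‖ + ‖x‖) (fun t => ?_) fun t => ?_
  · rw [norm_norm]
    exact (norm_sub_le _ _).trans (add_le_add (Φ.norm_σ _ x).le (Φ.norm_σ _ x).le)
  · rw [Φ.σ_zero]
    exact (Φ.σ t x - x).le_opNorm η

theorem filt_norm_le {ε : ℝ} (hε : 0 < ε) (κ₀ : ℝ) (x : Op H) :
    ‖Φ.filt (gk ε κ₀ 0) x‖ ≤ ‖x‖ := by
  refine (Φ.filt_norm (gk_int hε κ₀ 0) x).trans (le_of_eq ?_)
  simp [gk_norm hε, gd_one hε]

theorem filt_star0 {ε : ℝ} (hε : 0 < ε) (x : Op H) :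
    Star.star (Φ.filt (gk ε 0 0) x) = Φ.filt (gk ε 0 0) (Star.star x) := by
  rw [Φ.filt_star (gk_int hε 0 0)]
  congr 1
  funext t
  rw [gk_zero, Complex.conj_ofReal]

theorem gs_apply {ε : ℝ} (hε : 0 < ε) (η : H) :
    Φ.F (gs ε 0 0) η = ∫ t, gk ε 0 0 t • Φ.U t η := by
  rw [← ft_gk hε, Φ.integral (gk_int hε 0 0)]

theorem gs_strong (η : H) : Tendsto (fun ε => Φ.F (gs ε 0 0) η) (𝓝[>] 0) (𝓝 η) := by
  have := gk_approx (Φ.U_cont η) fun t => (Φ.norm_U t η).le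
  rw [Φ.U_zero] at this
  exact this.congr' (eventually_mem_nhdsWithin.mono fun ε hε => (Φ.gs_apply hε η).symm)

theorem gs_norm {ε : ℝ} (hε : 0 < ε) : ‖Φ.F (gs ε 0 0)‖ ≤ 1 := by
  refine Φ.norm_le (gs_bc hε 0 0) fun κ => ?_
  unfold gs
  rw [Complex.norm_real, Real.norm_of_nonneg (Real.exp_pos _).le, Real.exp_le_one_iff]
  nlinarith [mul_nonneg hε.le (sq_nonneg (κ - 0))]

theorem gs_star {ε : ℝ} (hε : 0 < ε) : Star.star (Φ.F (gs ε 0 0)) = Φ.F (gs ε 0 0) := by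
  exact Φ.star_real (gs_bc hε 0 0) fun κ => Complex.conj_ofReal _

theorem gs_comm0 {ε : ℝ} (hε : 0 < ε) {y : Op H} (h : ∀ t, Φ.U t * y = y * Φ.U t) :
    Φ.F (gs ε 0 0) * y = y * Φ.F (gs ε 0 0) := by
  ext η
  rw [mul_apply_eq_comp, mul_apply_eq_comp, Φ.gs_apply hε,
    Φ.gs_apply hε, ← y.integral_comp_comm (Φ.integrable_U (gk_int hε 0 0) η)]
  refine integral_congr_ae (ae_of_all _ fun t => ?_)
  dsimp only
  rw [map_smul, ← mul_apply_eq_comp, h t, mul_apply_eq_comp]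

/-- `(F gs a - a F gs) η = ∫ gd t • (σ t a - a) (U t η)`. -/
theorem gs_comm {a : Op H} (ha : Continuous fun s => Φ.σ s a) :
    Tendsto (fun ε => ‖Φ.F (gs ε 0 0) * a - a * Φ.F (gs ε 0 0)‖) (𝓝[>] 0) (𝓝 0) := by
  refine squeeze_zero' (Eventually.of_forall fun _ => norm_nonneg _)
    (eventually_mem_nhdsWithin.mono fun ε hε => ?_)
    (gd_approx ha (C := ‖a‖) fun t => (Φ.norm_σ t a).le)
  have hk := gk_int hε 0 0
  refine ContinuousLinearMap.opNorm_le_bound _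
    (integral_nonneg fun t => mul_nonneg (gd_pos hε t).le (norm_nonneg _)) fun η => ?_
  have i1 := Φ.integrable_U hk η
  rw [sub_apply, mul_apply_eq_comp,
    mul_apply_eq_comp, Φ.gs_apply hε, Φ.gs_apply hε, ← a.integral_comp_comm i1,
    ← integral_sub (Φ.integrable_U hk _) (a.integrable_comp i1)]
  simp only [map_smul, ← smul_sub]
  refine gk_le hε (by fun_prop) (C := ‖a‖ + ‖a‖) (fun t => ?_) fun t => ?_
  · rw [norm_norm]
    exact (norm_sub_le _ _).trans (add_le_add (Φ.norm_σ _ a).le (Φ.norm_σ _ a).le)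
  · have e : Φ.U t (a η) - a (Φ.U t η) = (Φ.σ t a - a) (Φ.U t η) := by
      rw [sub_apply, ← mul_apply_eq_comp (Φ.σ t a), σ, mul_assoc,
        Φ.U_neg_mul, mul_one, mul_apply_eq_comp]
    rw [e, Φ.σ_zero, ← Φ.norm_U t η]
    exact (Φ.σ t a - a).le_opNorm _

end Calc

end Vale.Agent.P096b
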