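import Vale.Agent.P096b.Calc

/-! A Cauchy formula on a strip and a Fourier transform. -/

set_option linter.unusedSectionVars false

namespace Vale.Agent.P096b

open Filter Topology Vale.Agent.P096 MeasureTheory
open scoped InnerProductSpace ComplexConjugate

universe u v

variable {H : Type u} [NormedAddCommGroup H] [InnerProductSpace ℂ H] [CompleteSpace H]

/-- The kernel `1 / (2 cosh (π t))`. -/
noncomputable def kc (t : ℝ) : ℂ := ((2 * Real.cosh (Real.pi * t))⁻¹ : ℝ)

theorem stp_pos (t : ℝ) : 0 < 2 * Real.cosh (Real.pi * t) := by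
  have := Real.cosh_pos (Real.pi * t)
  positivity

theorem stp_cont : Continuous fun t : ℝ => (2 * Real.cosh (Real.pi * t))⁻¹ :=
  Continuous.inv₀ (by fun_prop) fun t => (stp_pos t).ne'

theorem kc_cont : Continuous kc := Complex.continuous_ofReal.comp stp_cont

theorem kc_ne (t : ℝ) : kc t ≠ 0 := Complex.ofReal_ne_zero.2 (inv_ne_zero (stp_pos t).ne')

theorem stp_low (t : ℝ) : 1 + t ^ 2 ≤ 2 * Real.cosh (Real.pi * t) := by
  have h1 := Real.quadratic_le_exp_of_nonneg (abs_nonneg (Real.pi * t))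
  have h2 := Real.exp_pos (-|Real.pi * t|)
  have h3 : 3 ^ 2 ≤ Real.pi ^ 2 := pow_le_pow_left₀ (by norm_num) Real.pi_gt_three.le 2
  rw [← Real.cosh_abs, Real.cosh_eq]
  rw [sq_abs, mul_pow] at h1
  nlinarith [abs_nonneg (Real.pi * t), sq_nonneg t, mul_le_mul_of_nonneg_right h3 (sq_nonneg t)]

theorem stp_int : Integrable fun t : ℝ => (2 * Real.cosh (Real.pi * t))⁻¹ := by
  refine integrable_inv_one_add_sq.mono' stp_cont.aestronglyMeasurable (ae_of_all _ fun t => ?_)
  rw [Real.norm_eq_abs, abs_of_pos (inv_pos.2 (stp_pos t))]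
  exact inv_anti₀ (by positivity) (stp_low t)

theorem kc_int : Integrable kc := stp_int.ofReal

theorem stp_half : ∫ t, kc t = 1 / 2 := by
  have hd : ∀ t : ℝ, HasDerivAt (fun t : ℝ => Real.arctan (Real.exp (Real.pi * t)) / Real.pi)
      (2 * Real.cosh (Real.pi * t))⁻¹ t := by
    intro t
    have h := (((hasDerivAt_id t).const_mul Real.pi).exp.arctan).div_const Real.pi
    refine HasDerivAt.congr_deriv h ?_
    have h1 := Real.exp_pos (Real.pi * t)
    have h2 := Real.pi_pos
    simp only [id, Real.cosh_eq, Real.exp_neg]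
    field_simp
    ring
  have hb : Tendsto (fun t : ℝ => Real.arctan (Real.exp (Real.pi * t)) / Real.pi) atBot
      (𝓝 (Real.arctan 0 / Real.pi)) :=
    ((Real.continuous_arctan.tendsto 0).comp (Real.tendsto_exp_atBot.comp
      (tendsto_id.const_mul_atBot Real.pi_pos))).div_const _
  have ht : Tendsto (fun t : ℝ => Real.arctan (Real.exp (Real.pi * t)) / Real.pi) atTop
      (𝓝 (Real.pi / 2 / Real.pi)) :=
    ((tendsto_nhds_of_tendsto_nhdsWithin Real.tendsto_arctan_atTop).comp
      (Real.tendsto_exp_atTop.comp (tendsto_id.const_mul_atTop Real.pi_pos))).div_const _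
  have h := integral_of_hasDerivAt_of_tendsto hd stp_int hb ht
  have h2 : Real.pi / 2 / Real.pi - Real.arctan 0 / Real.pi = 1 / 2 := by
    have := Real.pi_pos
    rw [Real.arctan_zero]
    field_simp
    ring
  unfold kc
  rw [integral_complex_ofReal, h, h2]
  norm_num

theorem stp_sinh_low (w : ℂ) : |w.re| ≤ ‖Complex.sinh w‖ := by
  have h1 := abs_norm_sub_norm_le (Complex.exp w) (Complex.exp (-w))
  rw [← Complex.two_sinh, norm_mul, Complex.norm_exp, Complex.norm_exp, Complex.neg_re,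
    Complex.norm_two] at h1
  have h2 : Real.exp w.re - Real.exp (-w.re) = 2 * Real.sinh w.re := by
    rw [Real.sinh_eq]; ring
  rw [h2, abs_mul, abs_two, Real.abs_sinh] at h1
  have h3 := Real.self_le_sinh_iff.2 (abs_nonneg w.re)
  linarith

theorem stp_sinh_ne {z : ℂ} (hz : z ≠ 0) (h : |z.im| ≤ 1 / 2) : Complex.sinh (Real.pi * z) ≠ 0 := by
  intro h0
  have h1 := Complex.sin_mul_I (Real.pi * z)
  rw [h0, zero_mul, Complex.sin_eq_zero_iff] at h1
  obtain ⟨k, hk⟩ := h1
  have h2 : z * Complex.I = k :=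
    mul_left_cancel₀ (Complex.ofReal_ne_zero.2 Real.pi_ne_zero) (by linear_combination hk)
  have h3 := congrArg Complex.re h2
  simp only [Complex.mul_re, Complex.I_re, Complex.I_im, mul_zero, mul_one, zero_sub,
    Complex.intCast_re] at h3
  have h4 : |(k : ℝ)| < 1 := by
    rw [← h3, abs_neg]
    linarith
  have h5 : k = 0 := Int.abs_lt_one_iff.1 (by exact_mod_cast h4)
  rw [h5, Int.cast_zero] at h2
  exact hz ((mul_eq_zero.1 h2).resolve_right Complex.I_ne_zero)

/-- The function `(ψ z - ψ 0) / sinh (π z)` with the singularity removed. -/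
noncomputable def stpG (ψ : ℂ → ℂ) (z : ℂ) : ℂ :=
  dslope ψ 0 z / dslope (fun z : ℂ => Complex.sinh (Real.pi * z)) 0 z

theorem stp_den {z : ℂ} (hz : z ≠ 0) : dslope (fun z : ℂ => Complex.sinh (Real.pi * z)) 0 z
    = z⁻¹ * Complex.sinh (Real.pi * z) := by
  rw [dslope_of_ne _ hz, slope_def_module]
  simp

theorem stpG_eq (ψ : ℂ → ℂ) {z : ℂ} (hz : z ≠ 0) :
    stpG ψ z = (ψ z - ψ 0) / Complex.sinh (Real.pi * z) := by
  rw [stpG, stp_den hz, dslope_of_ne _ hz, slope_def_module, sub_zero, smul_eq_mul,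
    mul_div_mul_left _ _ (inv_ne_zero hz)]

theorem stpG_diff {ψ : ℂ → ℂ} (hψ : Differentiable ℂ ψ) :
    DifferentiableOn ℂ (stpG ψ) {z | |z.im| ≤ 1 / 2} := by
  have h1 : DifferentiableOn ℂ (dslope ψ 0) Set.univ :=
    (Complex.differentiableOn_dslope univ_mem).2 hψ.differentiableOn
  have h2 : DifferentiableOn ℂ (dslope (fun z : ℂ => Complex.sinh (Real.pi * z)) 0) Set.univ :=
    (Complex.differentiableOn_dslope univ_mem).2 (Differentiable.differentiableOn (by fun_prop))
  refine (h1.mono (Set.subset_univ _)).div (h2.mono (Set.subset_univ _)) fun z hz => ?_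
  by_cases h0 : z = 0
  · have h3 := (((hasDerivAt_id (0 : ℂ)).const_mul (Real.pi : ℂ)).csinh).deriv
    simp only [id, mul_zero, Complex.cosh_zero, mul_one, one_mul] at h3
    rw [h0, dslope_same, h3]
    exact Complex.ofReal_ne_zero.2 Real.pi_ne_zero
  · rw [stp_den h0]
    exact mul_ne_zero (inv_ne_zero h0) (stp_sinh_ne h0 hz)

theorem stp_kc (t : ℝ) : kc t = (2 * Complex.cosh (Real.pi * t))⁻¹ := by
  rw [kc]
  push_cast
  rfl

theorem stpG_top (ψ : ℂ → ℂ) (t : ℝ) : stpG ψ (t + Complex.I / 2)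
    = -(2 * Complex.I) * (kc t * (ψ (t + Complex.I / 2) - ψ 0)) := by
  have hz : (t : ℂ) + Complex.I / 2 ≠ 0 := fun h => by
    have h1 := congrArg Complex.im h
    simp at h1
  have h1 : (Real.pi : ℂ) * (t + Complex.I / 2) = Real.pi * t + Real.pi / 2 * Complex.I := by ring
  have h2 := kc_ne t
  rw [stp_kc, ne_eq, inv_eq_zero, mul_eq_zero, not_or] at h2
  rw [stpG_eq ψ hz, h1, Complex.sinh_add, Complex.cosh_mul_I, Complex.sinh_mul_I,
    Complex.cos_pi_div_two, Complex.sin_pi_div_two, stp_kc]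
  have h3 := h2.2
  rw [mul_zero, zero_add, one_mul, div_eq_iff (mul_ne_zero h3 Complex.I_ne_zero)]
  generalize ψ (t + Complex.I / 2) - ψ 0 = a
  generalize Complex.cosh (Real.pi * t) = c at h3
  field_simp
  rw [Complex.I_sq]
  ring

theorem stpG_bot (ψ : ℂ → ℂ) (t : ℝ) : stpG ψ (t - Complex.I / 2)
    = (2 * Complex.I) * (kc t * (ψ (t - Complex.I / 2) - ψ 0)) := by
  have hz : (t : ℂ) - Complex.I / 2 ≠ 0 := fun h => by
    have h1 := congrArg Complex.im h
    simp at h1
  have h1 : (Real.pi : ℂ) * (t - Complex.I / 2) = Real.pi * t - Real.pi / 2 * Complex.I := by ring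
  have h2 := kc_ne t
  rw [stp_kc, ne_eq, inv_eq_zero, mul_eq_zero, not_or] at h2
  rw [stpG_eq ψ hz, h1, Complex.sinh_sub, Complex.cosh_mul_I, Complex.sinh_mul_I,
    Complex.cos_pi_div_two, Complex.sin_pi_div_two, stp_kc]
  have h3 := h2.2
  rw [mul_zero, zero_sub, one_mul, div_eq_iff (neg_ne_zero.2 (mul_ne_zero h3 Complex.I_ne_zero))]
  generalize ψ (t - Complex.I / 2) - ψ 0 = a
  generalize Complex.cosh (Real.pi * t) = c at h3
  field_simp
  rw [Complex.I_sq]
  ring

theorem stp_side {ψ : ℂ → ℂ} {C : ℝ} (hb : ∀ z : ℂ, |z.im| ≤ 1 / 2 → ‖ψ z‖ ≤ C) {x : ℝ}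
    (hx : x ≠ 0) :
    ‖∫ y : ℝ in (-(1 / 2) : ℝ)..(1 / 2), stpG ψ (x + y * Complex.I)‖ ≤ 2 * C / Real.pi * |x|⁻¹ := by
  have h := intervalIntegral.norm_integral_le_of_norm_le_const (a := (-(1 / 2) : ℝ)) (b := 1 / 2)
    (C := 2 * C / Real.pi * |x|⁻¹) (f := fun y : ℝ => stpG ψ (x + y * Complex.I)) ?_
  · refine h.trans (le_of_eq ?_)
    norm_num
  intro y hy
  rw [Set.uIoc_of_le (by norm_num)] at hy
  have hz : (x : ℂ) + y * Complex.I ≠ 0 := fun h => hx (by simpa using congrArg Complex.re h)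
  have h1 := hb (x + y * Complex.I) (by
    rw [show ((x : ℂ) + y * Complex.I).im = y by simp]
    exact abs_le.2 ⟨hy.1.le, hy.2⟩)
  have h2 := hb 0 (by norm_num)
  have h3 := stp_sinh_low (Real.pi * (x + y * Complex.I))
  have h4 : ((Real.pi : ℂ) * (x + y * Complex.I)).re = Real.pi * x := by simp
  have h5 := abs_pos.2 hx
  have h6 := Real.pi_pos
  rw [h4, abs_mul, abs_of_pos h6] at h3
  show ‖stpG ψ (x + y * Complex.I)‖ ≤ _
  rw [stpG_eq ψ hz, norm_div, ← div_eq_mul_inv, div_div]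
  refine div_le_div₀ (by linarith [norm_nonneg (ψ 0)]) ((norm_sub_le _ _).trans (by linarith))
    (by positivity) h3

theorem stp_side_lim {ψ : ℂ → ℂ} {C : ℝ} (hb : ∀ z : ℂ, |z.im| ≤ 1 / 2 → ‖ψ z‖ ≤ C) {x : ℝ → ℝ}
    (hx : Tendsto (fun R => |x R|) atTop atTop) :
    Tendsto (fun R => ∫ y : ℝ in (-(1 / 2) : ℝ)..(1 / 2), stpG ψ (x R + y * Complex.I)) atTop
      (𝓝 0) := by
  have h1 := hx.inv_tendsto_atTop.const_mul (2 * C / Real.pi)
  rw [mul_zero] at h1
  refine squeeze_zero_norm' ((hx.eventually_gt_atTop 0).mono fun R hR => ?_) h1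
  exact stp_side hb (abs_pos.1 hR)

theorem stp_int_mul {f : ℝ → ℂ} (hf : Continuous f) {C : ℝ} (hb : ∀ t, ‖f t‖ ≤ C) :
    Integrable fun t => kc t * f t :=
  kc_int.mul_bdd hf.aestronglyMeasurable (ae_of_all _ hb)

/-- Apply the rectangle form of Cauchy's theorem to `(ψ z - ψ 0) / sinh (π z)` (removable
singularity at `0`: `dslope`), note `sinh (π (t ± i/2)) = ± i cosh (π t)`, let the rectangle grow
and use `∫ 1 / cosh (π t) = 1`. -/
theorem strip (ψ : ℂ → ℂ) (hψ : Differentiable ℂ ψ) (C : ℝ)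
    (hb : ∀ z : ℂ, |z.im| ≤ 1 / 2 → ‖ψ z‖ ≤ C) :
    ψ 0 = ∫ t : ℝ, kc t * (ψ (t - Complex.I / 2) + ψ (t + Complex.I / 2)) := by
  have hc := hψ.continuous
  have i1 : Integrable fun t : ℝ => kc t * ψ (t - Complex.I / 2) :=
    stp_int_mul (by fun_prop) fun t => hb _ (by simp)
  have i2 : Integrable fun t : ℝ => kc t * ψ (t + Complex.I / 2) :=
    stp_int_mul (by fun_prop) fun t => hb _ (by simp)
  have i0 : Integrable fun t : ℝ => kc t * ψ 0 := kc_int.mul_const _
  have j1 : Integrable fun t : ℝ => stpG ψ (t - Complex.I / 2) := by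
    simp only [stpG_bot, mul_sub (kc _)]
    exact (i1.sub i0).const_mul _
  have j2 : Integrable fun t : ℝ => stpG ψ (t + Complex.I / 2) := by
    simp only [stpG_top, mul_sub (kc _)]
    exact (i2.sub i0).const_mul _
  have hR : ∀ R : ℝ, (∫ x : ℝ in -R..R, stpG ψ (x - Complex.I / 2))
      - (∫ x : ℝ in -R..R, stpG ψ (x + Complex.I / 2))
      + Complex.I • (∫ y : ℝ in (-(1 / 2) : ℝ)..(1 / 2), stpG ψ (R + y * Complex.I))
      - Complex.I • (∫ y : ℝ in (-(1 / 2) : ℝ)..(1 / 2), stpG ψ ((-R : ℝ) + y * Complex.I))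
      = 0 := by
    intro R
    have h := Complex.integral_boundary_rect_eq_zero_of_differentiableOn (stpG ψ)
      ⟨-R, -(1 / 2)⟩ ⟨R, 1 / 2⟩ ((stpG_diff hψ).mono fun z hz => by
        have h1 := hz.2
        rw [Set.mem_preimage, Set.uIcc_of_le (by norm_num)] at h1
        exact abs_le.2 h1)
    have e1 : ∀ x : ℝ, (x : ℂ) + ((-(1 / 2) : ℝ) : ℂ) * Complex.I = x - Complex.I / 2 := fun x => by
      push_cast; ring
    have e2 : ∀ x : ℝ, (x : ℂ) + ((1 / 2 : ℝ) : ℂ) * Complex.I = x + Complex.I / 2 := fun x => by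
      push_cast; ring
    simp only [e1, e2] at h
    exact h
  have l1 := intervalIntegral_tendsto_integral j1 tendsto_neg_atTop_atBot tendsto_id
  have l2 := intervalIntegral_tendsto_integral j2 tendsto_neg_atTop_atBot tendsto_id
  have l3 := stp_side_lim hb (x := fun R => R) tendsto_abs_atTop_atTop
  have l4 := stp_side_lim hb (x := fun R => -R)
    (tendsto_abs_atBot_atTop.comp tendsto_neg_atTop_atBot)
  have l5 := ((l1.sub l2).add (l3.const_smul Complex.I)).sub (l4.const_smul Complex.I)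
  have l6 := tendsto_nhds_unique l5 (tendsto_const_nhds.congr fun R => (hR R).symm)
  simp only [stpG_bot, stpG_top, mul_sub (kc _), smul_zero, add_zero, sub_zero] at l6
  rw [integral_const_mul, integral_const_mul, integral_sub i1 i0, integral_sub i2 i0,
    integral_mul_const, stp_half] at l6
  simp only [mul_add (kc _)]
  rw [integral_add i1 i2]
  refine mul_left_cancel₀ (mul_ne_zero two_ne_zero Complex.I_ne_zero) ?_
  linear_combination -l6

theorem ft_kc (κ : ℝ) : ft kc κ = ((2 * Real.cosh (κ / 2))⁻¹ : ℝ) := by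
  have h := strip (fun z => Complex.exp (Complex.I * z * κ)) (by fun_prop) (Real.exp (|κ| / 2))
    fun z hz => by
      rw [Complex.norm_exp]
      refine Real.exp_le_exp.2 ?_
      have h1 : (Complex.I * z * κ).re = -(z.im * κ) := by simp
      have h2 := neg_le_abs (z.im * κ)
      rw [abs_mul] at h2
      rw [h1]
      nlinarith [abs_nonneg κ]
  have h1 : ∀ t : ℝ, kc t * (Complex.exp (Complex.I * (t - Complex.I / 2) * κ)
      + Complex.exp (Complex.I * (t + Complex.I / 2) * κ))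
      = kc t * ex t κ * (2 * Complex.cosh (κ / 2)) := by
    intro t
    have e1 : Complex.I * (t - Complex.I / 2) * κ = Complex.I * t * κ + κ / 2 := by
      linear_combination (-(κ : ℂ) / 2) * Complex.I_mul_I
    have e2 : Complex.I * (t + Complex.I / 2) * κ = Complex.I * t * κ + -(κ / 2) := by
      linear_combination ((κ : ℂ) / 2) * Complex.I_mul_I
    rw [e1, e2, Complex.exp_add, Complex.exp_add, Complex.two_cosh, ex]
    ring
  simp only [h1, mul_zero, zero_mul, Complex.exp_zero] at h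
  rw [integral_mul_const] at h
  push_cast
  exact eq_inv_of_mul_eq_one_left h.symm

theorem ft_kc2 (κ : ℝ) :
    ft (fun t => 2 * kc (2 * t)) κ = ((2 * Real.cosh (κ / 4))⁻¹ : ℝ) := by
  have h := Measure.integral_comp_mul_left (fun s => kc s * ex s (κ / 2)) 2
  have h1 : ∀ t : ℝ, 2 * kc (2 * t) * ex t κ = 2 * (kc (2 * t) * ex (2 * t) (κ / 2)) := by
    intro t
    have e : Complex.I * ((2 * t : ℝ) : ℂ) * ((κ / 2 : ℝ) : ℂ) = Complex.I * t * κ := by
      push_cast; ring
    rw [ex, ex, e, mul_assoc]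
  have h2 := ft_kc (κ / 2)
  rw [ft] at h2
  rw [ft]
  simp only [h1]
  rw [integral_const_mul, h, h2, div_div, abs_of_pos (by norm_num), Complex.real_smul,
    show (2 : ℝ) * 2 = 4 by norm_num]
  push_cast
  ring

open scoped FourierTransform in
/-- Injectivity of the Fourier transform (`Continuous.fourier_inversion`). -/
theorem ft_inj {k : ℝ → ℂ} (hc : Continuous k) (hk : Integrable k) (h : ∀ κ, ft k κ = 0) (t : ℝ) :
    k t = 0 := by
  have h1 : 𝓕 k = 0 := by
    funext w
    rw [Real.fourier_real_eq_integral_exp_smul, Pi.zero_apply, ← h (-2 * Real.pi * w), ft]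
    refine integral_congr_ae (ae_of_all _ fun v => ?_)
    have e : ((-2 * Real.pi * v * w : ℝ) : ℂ) * Complex.I
        = Complex.I * v * ((-2 * Real.pi * w : ℝ) : ℂ) := by
      push_cast; ring
    show Complex.exp _ • k v = k v * ex v _
    rw [ex, e, smul_eq_mul, mul_comm]
  have h2 := hk.fourierInv_fourier_eq (by rw [h1]; exact integrable_zero _ _ _)
    (hc.continuousAt (x := t))
  rw [← h2, h1, Real.fourierInv_eq]
  simp

end Vale.Agent.P096b
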