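import Vale.Agent.P096b.PreApi
import Vale.Agent.P096b.Filt
import Vale.Agent.P096b.Strip

/-! Consequences of the theorem of Tomita. -/

set_option linter.unusedSectionVars false

namespace Vale.Agent.P096b

open Filter Topology Vale.Agent.P096 MeasureTheory
open scoped InnerProductSpace ComplexConjugate

universe u v

variable {H : Type u} [NormedAddCommGroup H] [InnerProductSpace ℂ H] [CompleteSpace H]

namespace Mod

variable {A B : Alg H} {ξ : H} (μ : Mod A B ξ)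

theorem uB (t : ℝ) {y : Op H} (hy : y ∈ B) : μ.σ t y ∈ B := by
  exact μ.σ_comm μ.cp μ.uA t hy

include μ in
theorem sepA {x : Op H} (hx : x ∈ A) (h : x ξ = 0) : x = 0 := by
  exact μ.cycB.sep μ.cp hx h

include μ in
theorem sepB {y : Op H} (hy : y ∈ B) (h : y ξ = 0) : y = 0 := by
  exact μ.cycA.sep μ.cp.symm hy h

theorem of_σ {t : ℝ} {x : Op H} (h : μ.σ t x = x) : μ.U t * x = x * μ.U t := by
  conv_rhs => rw [← h]
  rw [Calc.σ, mul_assoc, μ.U_neg_mul, mul_one]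

theorem fixA {t : ℝ} {x : Op H} (hx : x ∈ A) (h : μ.U t (x ξ) = x ξ) :
    μ.U t * x = x * μ.U t :=
  μ.of_σ (μ.cycB.ext μ.cp (μ.uA t x hx) hx (by rw [μ.σ_vec μ.cp, h]))

theorem fixB {t : ℝ} {y : Op H} (hy : y ∈ B) (h : μ.U t (y ξ) = y ξ) :
    μ.U t * y = y * μ.U t :=
  μ.of_σ (μ.cycA.ext μ.cp.symm (μ.uB t hy) hy (by rw [μ.σ_vec μ.cp, h]))

/-- The modular conjugation has the positivity property. -/
noncomputable def toCj : Cj A B ξ where
  J := μ.J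
  JJ := μ.JJ
  fix := μ.J_fix μ.cp
  jA := μ.jA
  jB := μ.jB
  pos x hx h0 := μ.pos hx fun h => h0 (μ.sepA hx h)

/-- Matched unitaries lie in the centralizer: `g ξ = h* ξ`, `g* ξ = h ξ`; use `matched` for
`(g, h*)` and for `(g*, h)`. -/
theorem pair {g h : Op H} (hg : g ∈ A) (hh : h ∈ B) (ug : g ∈ unitary (Op H))
    (uh : h ∈ unitary (Op H)) (e : g (h ξ) = ξ) :
    h = jc μ.J g ∧ (∀ t, μ.U t * g = g * μ.U t) ∧ ∀ t, μ.U t * h = h * μ.U t := by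
  have a1 : ∀ η, star g (g η) = η := fun η => by
    rw [← mul_apply_eq_comp, (Unitary.mem_iff.1 ug).1, one_apply_eq_self]
  have a2 : ∀ η, star h (h η) = η := fun η => by
    rw [← mul_apply_eq_comp, (Unitary.mem_iff.1 uh).1, one_apply_eq_self]
  have e1 : star g ξ = h ξ := by
    conv_lhs => rw [← e]
    exact a1 _
  have e2 : g ξ = star h ξ := by
    conv_rhs => rw [← e, μ.cp.app hg hh]
    exact (a2 _).symm
  obtain ⟨-, m2⟩ := μ.matched μ.cp hg (star_mem hh) e2 (by rw [star_star, e1])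
  obtain ⟨m3, m4⟩ := μ.matched μ.cp (star_mem hg) hh e1 (by rw [star_star, e2])
  rw [star_star] at m3
  refine ⟨μ.cycA.ext μ.cp.symm hh (μ.jA g hg) ?_, fun t => μ.fixA hg ?_, fun t => μ.fixB hh ?_⟩
  · rw [jc_apply, μ.J_fix μ.cp, m3, e1]
  · rw [Calc.U, m2 _ (bc_ex t), ex_zero', one_smul]
  · rw [Calc.U, ← e1, m4 _ (bc_ex t), ex_zero', one_smul]

theorem cen {z : Op H} (hA : z ∈ A) (hB : z ∈ B) (t : ℝ) : μ.U t * z = z * μ.U t := by
  refine μ.fixA hA ?_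
  rw [Calc.U, (μ.matched μ.cp hA hB rfl rfl).2 _ (bc_ex t), ex_zero', one_smul]

theorem cen_vec {z : Op H} (hA : z ∈ A) (hB : z ∈ B) (t : ℝ) : μ.U t (z ξ) = z ξ := by
  rw [Calc.U, (μ.matched μ.cp hA hB rfl rfl).2 _ (bc_ex t), ex_zero', one_smul]

/-- The core property of the commutant: take `y* = J x J` with `x` from `core' (-κ₀) (J γ)`. -/
theorem coreB (κ₀ : ℝ) (γ : H) (ε : ℝ) (hε : 0 < ε) : ∃ y ∈ B,
    ‖star y ξ - μ.F (fun κ => sf (κ - κ₀)) γ‖ < ε ∧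
      ‖((Real.exp (κ₀ / 2) : ℝ) : ℂ) • μ.J (y ξ) - μ.F (fun κ => cf (κ - κ₀)) γ‖ < ε := by
  obtain ⟨x, hx, h1, h2⟩ := μ.core' (-κ₀) (μ.J γ) ε hε
  have b1 : BC fun κ => cf (κ - -κ₀) := bc_cf.comp (by fun_prop)
  have b2 : BC fun κ => sf (κ - -κ₀) := bc_sf.comp (by fun_prop)
  have e1 : (fun κ => conj (cf (-κ - -κ₀))) = fun κ => sf (κ - κ₀) := by
    funext κ
    rw [conj_cf, ← cf_neg]; congr 1; ring
  have e2 : (fun κ => conj (sf (-κ - -κ₀))) = fun κ => cf (κ - κ₀) := by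
    funext κ
    rw [conj_sf, ← sf_neg]; congr 1; ring
  refine ⟨jc μ.J (star x), μ.jA _ (star_mem hx), ?_, ?_⟩
  · rw [← μ.J.norm_map, map_sub, μ.JF b1, μ.JJ, e1] at h1
    rwa [← jc_star μ.JJ, star_star, jc_apply, μ.J_fix μ.cp]
  · rw [← μ.J.norm_map, map_sub, μ.JF b2, μ.JJ, e2, map_smulₛₗ, neg_neg] at h2
    rw [Complex.conj_ofReal] at h2
    rwa [jc_apply, μ.J_fix μ.cp]

theorem filt_ξ {k : ℝ → ℂ} (hk : Integrable k) (x : Op H) :
    μ.filt k x ξ = μ.F (ft k) (x ξ) := by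
  exact μ.filt_vec hk (μ.U_fix μ.cp) x

theorem J_filt {ε : ℝ} (hε : 0 < ε) (κ₀ θ : ℝ) {x : Op H} (hx : x ∈ A) :
    μ.J (star (μ.filt (gk ε κ₀ θ) x) ξ) =
      ((Real.exp (κ₀ / 2) : ℝ) : ℂ) • μ.F (gs ε κ₀ (θ + 1 / 2)) (x ξ) := by
  have hk := gk_int hε κ₀ θ
  have hy : μ.filt (gk ε κ₀ θ) x ∈ A := μ.filt_mem μ.cp hk fun t => μ.uA t x hx
  have h1 : μ.filt (gk ε κ₀ θ) x ξ = μ.F (gs ε κ₀ θ) (x ξ) := by rw [μ.filt_ξ hk, ft_gk hε]
  have b := gs_bc hε κ₀ (θ + 1 / 2)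
  rw [μ.half hy (gs_bc hε κ₀ θ) (b.cmul ((Real.exp (κ₀ / 2) : ℝ) : ℂ))
    (fun κ => (gs_half ε κ₀ θ κ).symm) h1, μ.smul _ b, smul_apply]

theorem partner {ε : ℝ} (hε : 0 < ε) {x : Op H} (hx : x ∈ A) :
    μ.J (μ.filt (gk ε 0 0) x ξ) = μ.filt (gk ε 0 (1 / 2)) (star x) ξ := by
  have h := μ.J_filt hε 0 0 (star_mem hx)
  rw [μ.filt_star0 hε, star_star] at h
  rw [h, μ.filt_ξ (gk_int hε _ _), ft_gk hε]
  simp

/-- Solving `g + g* = P` with `J g ξ = g ξ` approximately. Put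
`g* = filt (2 kc (2 ·)) (filt (gk e 0 (-1/4)) P)`, so `g* ξ = F (G / (1 + e^{κ/2})) (P ξ)` with
`G = gs e 0 0`. By `half`, `J g ξ = F f₂ (P ξ)`, `f₂ = G e^{κ/2} / (1 + e^{κ/2})`; applying `J`,
`JF` and `graph` (write `f₂ (-κ) = f₃ κ * cf κ` with `f₃` bounded) gives `g ξ = F f₂ (P ξ)` too.
So `(g + g*) ξ = F G (P ξ)` and `g + g* = filt (gk e 0 0) P`, which tends to `P` (`filt_lim`). -/
theorem genG {P : Op H} (hP : P ∈ A) (hs : star P = P) (hc : Continuous fun s => μ.σ s P)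
    (ε : ℝ) (hε : 0 < ε) : ∃ g ∈ A, μ.J (g ξ) = g ξ ∧ ‖g + star g - P‖ ≤ ε ∧
      ∀ w : Op H, (∀ t, w * μ.σ t P = μ.σ t P * w) → star w * g = g * star w := by
  obtain ⟨e, he1, he⟩ := (((μ.filt_lim hc).eventually (Metric.closedBall_mem_nhds P hε)).and
    eventually_mem_nhdsWithin).exists
  have he : 0 < e := he
  have k2 : Integrable fun t : ℝ => 2 * kc (2 * t) :=
    (kc_int.comp_mul_left' two_ne_zero).const_mul 2
  have k1 := gk_int he 0 (-1 / 4)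
  have k0 := gk_int he 0 0
  set Q := μ.filt (gk e 0 (-1 / 4)) P with hQ
  have hQA : Q ∈ A := μ.filt_mem μ.cp k1 fun t => μ.uA t P hP
  set h := μ.filt (fun t : ℝ => 2 * kc (2 * t)) Q with hh
  have hA : h ∈ A := μ.filt_mem μ.cp k2 fun t => μ.uA t Q hQA
  set r := ft fun t : ℝ => 2 * kc (2 * t) with hr
  have br : BC r := bc_ft k2
  have b1 := br.mul (gs_bc he 0 (-1 / 4))
  have b2 := br.mul (gs_bc he 0 (1 / 4))
  have i1 : ∀ κ, r κ * gs e 0 (1 / 4) κ =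
      (Real.exp (κ / 2) : ℝ) * (r κ * gs e 0 (-1 / 4) κ) := fun κ => by
    rw [mul_left_comm, gs_half]
    norm_num
  have i2 : (fun κ => conj (r (-κ) * gs e 0 (1 / 4) (-κ))) =
      fun κ => r κ * gs e 0 (-1 / 4) κ := by
    funext κ
    rw [hr, ft_kc2, ft_kc2, gs, gs, ← Complex.ofReal_mul, ← Complex.ofReal_mul,
      Complex.conj_ofReal, neg_div, Real.cosh_neg]
    congr 3
    ring
  have i3 : (fun κ => r κ * gs e 0 (1 / 4) κ + r κ * gs e 0 (-1 / 4) κ) = gs e 0 0 := by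
    funext κ
    rw [hr, ft_kc2, gs, gs, gs, ← Complex.ofReal_mul, ← Complex.ofReal_mul, ← Complex.ofReal_add]
    congr 1
    have hp := Real.cosh_pos (κ / 4)
    rw [← mul_add, inv_mul_eq_iff_eq_mul₀ (by positivity), Real.cosh_eq, Real.exp_add,
      Real.exp_add, Real.exp_add, show 1 / 4 * (κ - 0) = κ / 4 by ring,
      show -1 / 4 * (κ - 0) = -(κ / 4) by ring, zero_mul, Real.exp_zero]
    ring
  have v1 : h ξ = μ.F (fun κ => r κ * gs e 0 (-1 / 4) κ) (P ξ) := by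
    rw [hh, μ.filt_ξ k2, hQ, μ.filt_ξ k1, ft_gk he, μ.mul_apply br (gs_bc he _ _)]
  have v2 := μ.half hA b1 b2 i1 v1
  have v3 : star h ξ = μ.F (fun κ => r κ * gs e 0 (1 / 4) κ) (P ξ) := by
    have w := congrArg μ.J v2
    rw [μ.JJ, μ.JF b2, i2] at w
    have gr := μ.graph P hP
    rw [hs] at gr
    refine μ.cancel bc_cf cf_ne ?_
    have cm := congrArg (fun T : Op H => T (μ.J (P ξ))) (μ.comm bc_cf b1)
    simp only [mul_apply_eq_comp] at cm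
    rw [w, cm, ← gr, μ.mul_apply b1 bc_sf, μ.mul_apply bc_cf b2]
    congr 2
    funext κ
    rw [i1, sf_eq]; ring
  have v4 : star h + h = μ.filt (gk e 0 0) P := by
    refine μ.cycB.ext μ.cp (add_mem (star_mem hA) hA)
      (μ.filt_mem μ.cp k0 fun t => μ.uA t P hP) ?_
    rw [add_apply, v3, v1, ← add_apply, ← μ.add b2 b1, i3, μ.filt_ξ k0, ft_gk he]
  refine ⟨star h, star_mem hA, by rw [v2, v3], ?_, fun w hw => ?_⟩
  · rw [star_star, v4, ← dist_eq_norm]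
    exact he1
  · have c1 : w * h = h * w := by
      refine μ.filt_comm k2 fun t => ?_
      rw [hQ, μ.σ_filt k1]
      refine μ.filt_comm k1 fun s => ?_
      rw [μ.σ_σ]
      exact hw _
    simpa only [star_mul] using (congrArg star c1).symm

end Mod

end Vale.Agent.P096b
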