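import Vale.Agent.P096b.Lp
import Vale.Agent.P096b.ModApi

/-! The centralizer is finite. -/

set_option linter.unusedSectionVars false

namespace Vale.Agent.P096b

open Filter Topology Vale.Agent.P096 MeasureTheory
open scoped InnerProductSpace ComplexConjugate

universe u v

variable {H : Type u} [NormedAddCommGroup H] [InnerProductSpace ℂ H] [CompleteSpace H]

variable {A B N D : Alg H} {ξ : H} {L b : Op (LZ H)}

theorem fin_of_trace (h : CP A B) {ζ : H} (h1 : ∀ X ∈ A, ‖star X ζ‖ = ‖X ζ‖)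
    (h2 : ∀ X ∈ A, X ζ = 0 → X = 0) : ∀ z ∈ A, z ∈ B → IsStarProjection z → z ≠ 0 →
    ∃ p ∈ A, IsStarProjection p ∧ p ≠ 0 ∧ Fin' A p ∧ z * p = p := by
  intro z hz _ hp h0
  have zz : z * z = z := hp.isIdempotentElem.eq
  have zs : star z = z := hp.isSelfAdjoint.star_eq
  refine ⟨z, hz, hp, h0, fun v hv e1 e2 => ?_, zz⟩
  have e3 : v * z = v := by
    have : star (v * z - v) * (v * z - v) = 0 := by
      rw [star_sub, star_mul, zs]
      calc _ = z * (star v * v) * z - z * (star v * v) - (star v * v) * z + star v * v := by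
            noncomm_ring
        _ = 0 := by simp [e1, zz]
    exact sub_eq_zero.1 ((CStarRing.star_mul_self_eq_zero_iff _).1 this)
  have e4 : star v * z = star v := tl_flip hp e2
  have e5 : star (z - v * star v) * (z - v * star v) = star v * v - star (star v) * star v := by
    rw [star_sub, star_mul, star_star, zs]
    calc _ = z * z - z * v * star v - v * (star v * z) + v * (star v * v) * star v := by
          noncomm_ring
      _ = _ := by rw [e1, zz, e2, e4, e3]; abel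
  have e6 := tl_norm_sq (z - v * star v) ζ
  rw [e5, sub_apply (star v * v), inner_sub_right, Complex.sub_re, ← tl_norm_sq, ← tl_norm_sq, h1 v hv,
    sub_self] at e6
  exact (sub_eq_zero.1 (h2 _ (sub_mem hz (mul_mem hv (star_mem hv)))
    (norm_eq_zero.1 (pow_eq_zero_iff two_ne_zero |>.1 e6)))).symm

theorem cross1_step (Φ : Calc H) (h : Sh L b) (T : ℝ) {Y : Op (LZ H)}
    (h2 : Y * (amp (Φ.U (-T)) * L) = amp (Φ.U (-T)) * L * Y) (k l : ℤ) :
    ent Y k (l + 1) = Φ.σ (-T) (ent Y (k - 1) l) := by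
  have e1 : ∀ η, L (emb l η) = emb (l + 1) η := fun η => lp.ext (funext fun j => by
    rw [h.app, emb_apply, emb_apply]
    exact if_congr sub_eq_iff_eq_add rfl rfl)
  have e2 : ent Y k (l + 1) * Φ.U (-T) = Φ.U (-T) * ent Y (k - 1) l := by
    ext η
    have := congrArg (fun Z : Op (LZ H) => Z (emb l η) k) h2
    simp only [mul_apply_eq_comp, e1, amp_emb, amp_apply, h.app] at this
    simpa only [mul_apply_eq_comp, ent_apply] using this
  rw [Calc.σ, ← e2, mul_assoc, Φ.U_mul_neg, mul_one]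

theorem cross1_ent (Φ : Calc H) (h : Sh L b) (T : ℝ) {Y : Op (LZ H)}
    (h2 : Y * (amp (Φ.U (-T)) * L) = amp (Φ.U (-T)) * L * Y) (l k : ℤ) :
    ent Y k l = Φ.σ (-(l * T)) (ent Y (k - l) 0) := by
  induction l using Int.induction_on generalizing k with
  | zero => simp [Φ.σ_zero]
  | succ l ih =>
    rw [cross1_step Φ h T h2, ih, Φ.σ_σ]
    congr 2
    · push_cast; ring
    · ring
  | pred l ih =>
    have e := cross1_step Φ h T h2 (k + 1) (-(l : ℤ) - 1)
    rw [sub_add_cancel, add_sub_cancel_right, ih] at e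
    have e2 := congrArg (Φ.σ T) e
    rw [Φ.σ_σ, Φ.σ_σ, add_neg_cancel, Φ.σ_zero] at e2
    rw [← e2]
    congr 2
    · push_cast; ring
    · ring

/-- Elements of the crossed product: `Y` commutes with `amp D` and with `M = amp (U (-T)) * L`.
The entries lie in `N` (`ent_comm`) and `ent Y k (l + 1) = σ (-T) (ent Y (k - 1) l)`. -/
theorem cross_ent (μ : Mod N D ξ) (h : Sh L b) (T : ℝ) {Y : Op (LZ H)}
    (h1 : ∀ y ∈ D, Y * amp y = amp y * Y)
    (h2 : Y * (amp (μ.U (-T)) * L) = amp (μ.U (-T)) * L * Y) :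
    (∀ k l, ent Y k l ∈ N) ∧ (Y (emb 0 ξ) = 0 → Y = 0) ∧
      HasSum (fun k => ‖star (ent Y k 0) ξ‖ ^ 2) (‖star Y (emb 0 ξ)‖ ^ 2) := by
  have hN : ∀ k l, ent Y k l ∈ N := fun k l =>
    (μ.cp.left _).2 fun y hy => ent_comm (h1 y hy) k l
  refine ⟨hN, fun h0 => ent_zero fun k l => ?_, ?_⟩
  · rw [cross1_ent μ.toCalc h T h2, μ.sepA (hN (k - l) 0) (by rw [ent_apply, h0]; rfl), Calc.σ,
      mul_zero, zero_mul]
  · refine (Equiv.neg ℤ).hasSum_iff.1 ?_
    convert lz_norm (star Y (emb 0 ξ)) using 2 with k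
    rw [← ent_apply, ent_star, cross1_ent μ.toCalc h T h2 k 0, ← Calc.σ_star, μ.σ_vec μ.cp,
      Calc.norm_U, zero_sub]
    rfl

theorem cross1_add {x y : Op H} (h : Commute x y) :
    NormedSpace.exp (x + y) = NormedSpace.exp x * NormedSpace.exp y := by
  let _ : NormedAlgebra ℚ (Op H) := NormedAlgebra.restrictScalars ℚ ℂ _
  exact NormedSpace.exp_add_of_commute h

theorem cross1_conj {w : Op H} (hw : w ∈ unitary (Op H)) (x : Op H) :
    NormedSpace.exp (w * x * star w) = w * NormedSpace.exp x * star w := by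
  let _ : NormedAlgebra ℚ (Op H) := NormedAlgebra.restrictScalars ℚ ℂ _
  exact NormedSpace.exp_units_conj ⟨w, star w, hw.2, hw.1⟩ x

theorem cross1_inv (x : Op H) (s : ℂ) :
    NormedSpace.exp (s • x) * NormedSpace.exp (-s • x) = 1 := by
  rw [← cross1_add (((Commute.refl x).smul_left _).smul_right _), ← add_smul, add_neg_cancel,
    zero_smul, NormedSpace.exp_zero]

theorem cross1_star {w y : Op H} (hw : w ∈ unitary (Op H)) (h : Commute y w) :
    Commute y (star w) := by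
  have e : star w * (y * w) * star w = star w * (w * y) * star w := by rw [h.eq]
  rw [← mul_assoc, mul_assoc _ w, hw.2, mul_one, ← mul_assoc, hw.1, one_mul] at e
  exact e.symm

theorem cross1_exp {x y : Op H} (h : Commute y x) (s : ℂ) : Commute y (NormedSpace.exp (s • x)) :=
  (h.smul_right s).exp_right

/-- The conjugated logarithm. -/
theorem cross1_log (μ : Mod N D ξ) (h : Sh L b) (T : ℝ) : ∃ b' : Op (LZ H), star b' = b' ∧
    (∀ y, Commute y (amp (μ.U (-T)) * L) → Commute y b') ∧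
    ∀ s : ℂ, NormedSpace.exp (s • b') (emb 0 ξ) = NormedSpace.exp (s • b) (emb 0 ξ) := by
  have hw := μ.dU_mem T
  refine ⟨μ.dU T * b * star (μ.dU T), by rw [star_mul, star_mul, star_star, h.sa, mul_assoc],
    fun y hy => ?_, fun s => ?_⟩
  · rw [← h.dU_conj] at hy
    obtain ⟨w, hwe⟩ : ∃ w, w = μ.dU T := ⟨_, rfl⟩
    rw [← hwe] at hw hy ⊢
    have w1 : ∀ x, star w * (w * x) = x := fun x => by rw [← mul_assoc, hw.1, one_mul]
    have w2 : ∀ x, w * (star w * x) = x := fun x => by rw [← mul_assoc, hw.2, one_mul]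
    have e1 : Commute (star w * y * w) L := by
      have := congrArg (fun Z => star w * Z * w) hy.eq
      simpa only [mul_assoc, w1, hw.1, mul_one, Commute, SemiconjBy] using this
    have e2 := congrArg (fun Z => w * Z * star w) (h.comm _ e1.eq (cross1_star h.uni e1).eq)
    simpa only [mul_assoc, w2, hw.2, mul_one, Commute, SemiconjBy] using e2
  · have f1 : ∀ (S : ℝ) (v : LZ H), (∀ t, amp (μ.U t) v = v) → μ.dU S v = v := fun S v hv =>
      lp.ext (funext fun k => by rw [Calc.dU_apply, ← amp_apply, hv])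
    have f2 : ∀ t, amp (μ.U t) (emb 0 ξ) = emb 0 ξ := fun t => by rw [amp_emb, μ.U_fix μ.cp]
    rw [← smul_mul_assoc, ← mul_smul_comm, cross1_conj hw, mul_apply_eq_comp, mul_apply_eq_comp,
      Calc.star_dU, f1 _ _ f2]
    refine f1 _ _ fun t => ?_
    rw [← mul_apply_eq_comp, (cross1_exp (h.amp_comm' _) s).eq, mul_apply_eq_comp, f2]

/-- The trace vector is `ζ = exp (-β/2) ξ'` with `β = b / T`, `ξ' = emb 0 ξ`. Let
`β' = dU β dU*`; it commutes with everything that commutes with `M = amp (U (-T)) L` and `M*`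
(`dU_conj`), in particular with `X ∈ R` (`W_period`), `β`, `amp (F f)`. For every complex `s`,
`exp (s β') ξ' = exp (s β) ξ'`, because `v = exp (s β) ξ'` is fixed by all `amp (U t)`, hence by
`dU`. For `Y = exp (-β/2) X` and `η = Y ξ'` one gets
`amp (U t) η = exp (i t β) Y exp (-i t β) ξ' = exp (i t (β - β')) η`, so `Calc.eig` for `μ.amp` gives
`F sf (η k) = F cf ((X ζ) k)`, since `exp ((β - β')/2) Y ξ' = X exp (-β'/2) ξ' = X ζ`. By `graph` and
cancellation `J (ent Y k 0)* ξ = (X ζ) k`, and `Y* ξ' = X* ζ`; use `cross_ent`. -/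
theorem cross_fin (μ : Mod N D ξ) (h : Sh L b) {T : ℝ} (hT : 0 < T) : ∃ ζ : LZ H,
    (∀ X ∈ h.R μ.toCalc T D, ‖star X ζ‖ = ‖X ζ‖) ∧ ∀ X ∈ h.R μ.toCalc T D, X ζ = 0 → X = 0 := by
  obtain ⟨b', hs, hc, he⟩ := cross1_log μ h T
  obtain ⟨M, hM⟩ : ∃ M, M = amp (μ.U (-T)) * L := ⟨_, rfl⟩
  obtain ⟨c, hcd⟩ : ∃ c : ℂ, c = ((T⁻¹ / 2 : ℝ) : ℂ) := ⟨_, rfl⟩
  obtain ⟨E, hE⟩ : ∃ E : ℂ → Op (LZ H), ∀ s, E s = NormedSpace.exp (s • b) := ⟨_, fun _ => rfl⟩
  obtain ⟨E', hE'⟩ : ∃ E' : ℂ → Op (LZ H), ∀ s, E' s = NormedSpace.exp (s • b') :=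
    ⟨_, fun _ => rfl⟩
  simp only [← hE, ← hE', ← hM] at hc he
  have bM : Commute b M := hM ▸ Commute.mul_right (h.amp_comm' _).symm
    (h.comm L rfl (h.uni.2.trans h.uni.1.symm)).symm
  have bb : Commute b b' := hc b bM
  have EM : ∀ s, Commute (E s) M := fun s => hE s ▸ (cross1_exp bM.symm s).symm
  have Ea : ∀ s y, Commute (E s) (amp y) := fun s y => hE s ▸ (cross1_exp (h.amp_comm' y) s).symm
  have EE : ∀ s s', Commute (E s) (E' s') := fun s s' =>
    hE' s' ▸ cross1_exp (hc _ (EM s)) s'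
  have E2 : ∀ s s', Commute (E s) (E s') := fun s s' =>
    hE s' ▸ cross1_exp (hE s ▸ (cross1_exp (Commute.refl b) s).symm) s'
  have Ei : ∀ s, E s * E (-s) = 1 := fun s => by rw [hE, hE, cross1_inv]
  have hγ : ∀ s : ℂ, NormedSpace.exp (s • (((T⁻¹ : ℝ) : ℂ) • (b - b'))) =
      E (s * ((T⁻¹ : ℝ) : ℂ)) * E' (-(s * ((T⁻¹ : ℝ) : ℂ))) := fun s => by
    rw [hE, hE', ← cross1_add ((bb.smul_left _).smul_right _), smul_smul, smul_sub, neg_smul,
      sub_eq_add_neg]
  have f2 : ∀ t, amp (μ.U t) (emb 0 ξ) = emb 0 ξ := fun t => by rw [amp_emb, μ.U_fix μ.cp]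
  have hW : ∀ t : ℝ, μ.W b T t = E (-(Complex.I * t * ((T⁻¹ : ℝ) : ℂ))) * amp (μ.U t) :=
    fun t => by
      rw [hE, Calc.W]
      congr 3
      push_cast
      ring
  have hX : ∀ X ∈ h.R μ.toCalc T D, (∀ y ∈ D, Commute X (amp y)) ∧
      (∀ t, Commute X (μ.W b T t)) ∧ Commute X M := fun X hX => by
    have a1 : ∀ t, Commute X (μ.W b T t) := fun t =>
      (mem_cm.1 hX _ (Or.inr ⟨Multiplicative.ofAdd t, rfl⟩)).1
    refine ⟨fun y hy => (mem_cm.1 hX _ (Or.inl ⟨y, hy, rfl⟩)).1, a1, ?_⟩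
    have a2 := a1 (-T)
    rwa [← h.W_star, h.W_period _ hT.ne', star_mul, star_star, ← map_star, Calc.star_U,
      ← hM] at a2
  refine ⟨E (-c) (emb 0 ξ), fun X hXR => ?_, fun X hXR h0 => ?_⟩
  · obtain ⟨x1, x2, x3⟩ := hX X hXR
    have XE : ∀ s, Commute X (E' s) := fun s => hE' s ▸ cross1_exp (hc _ x3) s
    have XE' : ∀ s, X (E s (emb 0 ξ)) = E' s (X (emb 0 ξ)) := fun s => by
      rw [← he, ← mul_apply_eq_comp, (XE s).eq, mul_apply_eq_comp]
    obtain ⟨y1, -, y3⟩ := cross_ent μ h T (Y := E (-c) * X)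
      (fun y hy => ((Ea _ y).mul_left (x1 y hy)).eq) (hM ▸ ((EM _).mul_left x3).eq)
    have eig := μ.toCalc.amp.eig (c := ((T⁻¹ : ℝ) : ℂ) • (b - b')) (η := (E (-c) * X) (emb 0 ξ))
      (by rw [star_smul, star_sub, h.sa, hs, Complex.star_def, Complex.conj_ofReal])
      (fun f hf => by
        refine (Commute.smul_left (Commute.sub_left (h.amp_comm' _).symm (hc _ ?_).symm) _).eq
        rw [hM]
        refine Commute.mul_right ?_ (h.amp_comm _)
        exact (Commute.symm (μ.U_comm hf _)).map amp)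
      (fun t => by
        obtain ⟨s, hs'⟩ : ∃ s : ℂ, s = Complex.I * t * ((T⁻¹ : ℝ) : ℂ) := ⟨_, rfl⟩
        have a1 : amp (μ.U t) = E s * μ.W b T t := by
          rw [hW, ← hs', ← mul_assoc, Ei, one_mul]
        have a2 : μ.W b T t (X (emb 0 ξ)) = E' (-s) (X (emb 0 ξ)) := by
          rw [← mul_apply_eq_comp, ← (x2 t).eq, mul_apply_eq_comp, hW, ← hs', mul_apply_eq_comp,
            f2, XE']
        change amp (μ.U t) _ = _
        rw [hγ, ← hs', ← mul_apply_eq_comp, ← mul_assoc, ← (Ea _ _).eq, a1,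
          ← mul_apply_eq_comp (E s * E' (-s)), ← mul_assoc (E s * E' (-s)),
          ← ((E2 (-c) s).mul_right (EE (-c) (-s))).eq]
        simp only [mul_apply_eq_comp, a2])
    have a3 : (1 / 2 : ℂ) * ((T⁻¹ : ℝ) : ℂ) = c := by
      rw [hcd]
      push_cast
      ring
    have a4 : (E c * E' (-c)) ((E (-c) * X) (emb 0 ξ)) = X (E (-c) (emb 0 ξ)) := by
      rw [XE', ← mul_apply_eq_comp, ← mul_assoc, (EE c (-c)).eq, mul_assoc (E' (-c)), Ei, mul_one,
        mul_apply_eq_comp]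
    rw [hγ, a3, a4] at eig
    have a5 : ∀ k, ‖star (ent (E (-c) * X) k 0) ξ‖ = ‖X (E (-c) (emb 0 ξ)) k‖ := fun k => by
      have a6 : μ.F sf (ent (E (-c) * X) k 0 ξ) = μ.F cf (X (E (-c) (emb 0 ξ)) k) :=
        congrArg (fun v : LZ H => v k) eig
      rw [μ.graph _ (y1 k 0)] at a6
      rw [← μ.cancel bc_cf cf_ne a6, μ.J.norm_map]
    simp only [a5] at y3
    have a7 : star (E (-c)) = E (-c) := by
      rw [hE, NormedSpace.star_exp, star_smul, h.sa, star_neg, hcd, Complex.star_def,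
        Complex.conj_ofReal]
    have a8 := y3.unique (lz_norm _)
    rw [star_mul, a7, mul_apply_eq_comp] at a8
    exact (pow_left_inj₀ (norm_nonneg _) (norm_nonneg _) two_ne_zero).1 a8
  · obtain ⟨x1, -, x3⟩ := hX X hXR
    obtain ⟨-, y2, -⟩ := cross_ent μ h T (Y := X * E (-c))
      (fun y hy => ((x1 y hy).mul_left (Ea _ y)).eq) (hM ▸ (x3.mul_left (EM _)).eq)
    rw [← mul_one X, ← Ei (-c), ← mul_assoc, y2 h0, zero_mul]

end Vale.Agent.P096b
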