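import Vale.Agent.P096b.Calc

/-! Windows from the discrete Fourier transform. -/

set_option linter.unusedSectionVars false

namespace Vale.Agent.P096b

open Filter Topology Vale.Agent.P096 MeasureTheory
open scoped InnerProductSpace ComplexConjugate

universe u v

variable {H : Type u} [NormedAddCommGroup H] [InnerProductSpace ℂ H] [CompleteSpace H]

/-- Parseval's identity for the windows. -/
theorem parseval {E : Type*} [NormedAddCommGroup E] [InnerProductSpace ℂ E] {n : ℕ}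
    {p : Fin n → ℝ} {c : Fin n → Fin n → ℂ}
    (h : ∀ j j', ∑ r, conj (c r j) * c r j' = if j = j' then (p j : ℂ) else 0) (v w : Fin n → E) :
    ∑ r, ⟪∑ j, c r j • v j, ∑ j, c r j • w j⟫_ℂ = ∑ j, (p j : ℂ) * ⟪v j, w j⟫_ℂ := by
  simp only [sum_inner]
  simp only [inner_sum, inner_smul_left, inner_smul_right]
  rw [Finset.sum_comm]
  refine Finset.sum_congr rfl fun j _ => ?_
  rw [Finset.sum_comm]
  have : ∀ j', ∑ r, c r j' * (conj (c r j) * ⟪v j, w j'⟫_ℂ) =
      (∑ r, conj (c r j) * c r j') * ⟪v j, w j'⟫_ℂ := fun j' => by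
    rw [Finset.sum_mul]; exact Finset.sum_congr rfl fun r _ => by ring
  simp only [this, h, ite_mul, zero_mul, Finset.sum_ite_eq, Finset.mem_univ, if_true]

theorem parseval_sq {E : Type*} [NormedAddCommGroup E] [InnerProductSpace ℂ E] {n : ℕ}
    {p : Fin n → ℝ} {c : Fin n → Fin n → ℂ}
    (h : ∀ j j', ∑ r, conj (c r j) * c r j' = if j = j' then (p j : ℂ) else 0) (v : Fin n → E) :
    ∑ r, ‖∑ j, c r j • v j‖ ^ 2 = ∑ j, p j * ‖v j‖ ^ 2 := by
  have h := congrArg Complex.re (parseval h v v)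
  simpa only [Complex.re_sum, inner_self_eq_norm_sq_to_K, Complex.coe_algebraMap,
    ← Complex.ofReal_pow, ← Complex.ofReal_mul, Complex.ofReal_re] using h

/-- The total mass of the windows is one. -/
theorem parseval_ex {n : ℕ} {p s : Fin n → ℝ} {c : Fin n → Fin n → ℂ} (h1 : ∑ j, p j = 1)
    (h : ∀ j j', ∑ r, conj (c r j) * c r j' = if j = j' then (p j : ℂ) else 0) (x : ℝ) :
    ∑ r, ‖∑ j, c r j * ex (s j) x‖ ^ 2 = 1 := by
  have h := parseval_sq h fun j => ex (s j) x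
  simpa only [smul_eq_mul, norm_ex, one_pow, mul_one, h1] using h

namespace DftX

theorem ex_pow (τ y : ℝ) (j : ℕ) : ex (j * τ) y = ex τ y ^ j := by
  rw [ex, ex, ← Complex.exp_nat_mul]; congr 1; push_cast; ring

theorem ex_sub (τ y : ℝ) (h : |τ * y| ≤ 3 * Real.pi / 2) :
    (τ * y) ^ 2 ≤ 25 * ‖ex τ y - 1‖ ^ 2 := by
  have e : ex τ y = Complex.exp (Complex.I * ((τ * y : ℝ) : ℂ)) := by
    rw [ex]; congr 1; push_cast; ring
  rw [e, Complex.norm_exp_I_mul_ofReal_sub_one, Real.norm_eq_abs, sq_abs, mul_pow 2]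
  generalize τ * y = t at h
  have p3 := Real.pi_gt_three
  have p4 := Real.pi_lt_d2
  have key : ∀ u : ℝ, 0 ≤ u → u ≤ 3 * Real.pi / 4 → u / 5 ≤ Real.sin u := by
    intro u u0 u1
    rcases le_total u (Real.pi / 2) with a | a
    · have := Real.mul_le_sin u0 a
      refine le_trans ?_ this
      rw [div_mul_eq_mul_div, div_le_div_iff₀ (by norm_num) (by linarith)]
      nlinarith
    · have := Real.mul_le_sin (x := Real.pi - u) (by linarith) (by linarith)
      rw [Real.sin_pi_sub] at this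
      refine le_trans ?_ this
      rw [div_mul_eq_mul_div, div_le_div_iff₀ (by norm_num) (by linarith)]
      nlinarith
  have a := key (|t| / 2) (by positivity) (by linarith)
  have b : Real.sin (t / 2) ^ 2 = Real.sin (|t| / 2) ^ 2 := by
    rcases le_total 0 t with c | c
    · rw [abs_of_nonneg c]
    · rw [abs_of_nonpos c, neg_div, Real.sin_neg, neg_sq]
  have c := pow_le_pow_left₀ (by positivity) a 2
  rw [b, ← sq_abs t]
  nlinarith

theorem orth (n : ℕ) (a : ℝ) (j j' : Fin n) :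
    ∑ r : Fin n, ex ((j : ℝ) - j') (2 * Real.pi * (r - a) / n) = if j = j' then (n : ℂ) else 0 := by
  have n0 : (0 : ℝ) < n := by exact_mod_cast j.pos
  split_ifs with h
  · subst h; simp [ex_zero]
  set d : ℤ := (j : ℤ) - j' with hd
  have d1 : (j : ℝ) - j' = d := by rw [hd]; push_cast; ring
  set ζ := Complex.exp (2 * Real.pi * Complex.I * d / n) with hζ
  have nc : (n : ℂ) ≠ 0 := by exact_mod_cast n0.ne'
  have e : ∀ r : ℕ, ex (d : ℝ) (2 * Real.pi * (r - a) / n) =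
      ex (d : ℝ) (2 * Real.pi * (-a) / n) * ζ ^ r := by
    intro r
    rw [hζ, ex, ex, ← Complex.exp_nat_mul, ← Complex.exp_add]; congr 1; push_cast; ring
  have z1 : ζ ≠ 1 := by
    intro z
    obtain ⟨k, hk⟩ := Complex.exp_eq_one_iff.1 z
    have hpi : (Real.pi : ℂ) ≠ 0 := by exact_mod_cast Real.pi_ne_zero
    have h2 : (d : ℂ) = k * n := by
      rw [div_eq_iff nc] at hk
      have h3 : (2 * Real.pi * Complex.I) * ((d : ℂ) - k * n) = 0 := by linear_combination hk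
      rcases mul_eq_zero.1 h3 with h4 | h4
      · exact absurd h4 (by simp [hpi, Complex.I_ne_zero])
      · exact sub_eq_zero.1 h4
    have h5 : d = k * n := by exact_mod_cast h2
    have h6 : |d| < n := by have := j.2; have := j'.2; rw [abs_lt]; omega
    have h7 : d = 0 := Int.eq_zero_of_abs_lt_dvd ⟨k, by rw [h5, mul_comm]⟩ h6
    exact h (Fin.ext (by omega))
  have zn : ζ ^ n = 1 := by
    rw [hζ, ← Complex.exp_nat_mul, Complex.exp_eq_one_iff]
    exact ⟨d, by field_simp⟩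
  rw [d1, Fin.sum_univ_eq_sum_range (fun r => ex (d : ℝ) (2 * Real.pi * (r - a) / n)) n]
  simp only [e]
  rw [← Finset.mul_sum, geom_sum_eq z1, zn]; simp

/-- The tent. -/
def tent (M j : ℕ) : ℝ := ((min j (2 * M - j) : ℕ) : ℝ)

theorem cube (M : ℕ) : (M : ℝ) ^ 3 / 3 ≤ ∑ j ∈ Finset.range (M + 1), (j : ℝ) ^ 2 := by
  induction M with
  | zero => simp
  | succ M ih =>
    rw [Finset.sum_range_succ]; push_cast
    nlinarith [Nat.cast_nonneg (α := ℝ) M]

theorem tent_sum (M : ℕ) : (M : ℝ) ^ 3 / 3 ≤ ∑ j : Fin (2 * M + 1), tent M j ^ 2 := by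
  rw [Fin.sum_univ_eq_sum_range (fun j => tent M j ^ 2)]
  refine (cube M).trans (le_trans (le_of_eq (Finset.sum_congr rfl fun j hj => ?_))
    (Finset.sum_le_sum_of_subset_of_nonneg (Finset.range_subset_range.2 (by omega : M + 1 ≤ _))
      fun _ _ _ => sq_nonneg _))
  have := Finset.mem_range.1 hj
  rw [tent, min_eq_left (by omega)]

theorem tent_diff (M j : ℕ) : (tent M (j - 1) - tent M j) ^ 2 ≤ 1 := by
  have : (min (j - 1) (2 * M - (j - 1)) : ℕ) ≤ min j (2 * M - j) + 1 ∧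
      (min j (2 * M - j) : ℕ) ≤ min (j - 1) (2 * M - (j - 1)) + 1 := by omega
  have a : tent M (j - 1) ≤ tent M j + 1 := by unfold tent; exact_mod_cast this.1
  have b : tent M j ≤ tent M (j - 1) + 1 := by unfold tent; exact_mod_cast this.2
  nlinarith

theorem tele (k : ℕ → ℂ) (z : ℂ) (h0 : k 0 = 0) (n : ℕ) :
    (z - 1) * ∑ j ∈ Finset.range (n + 1), k j * z ^ j =
      ∑ j ∈ Finset.range (n + 1), (k (j - 1) - k j) * z ^ j + k n * z ^ (n + 1) := by
  induction n with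
  | zero => simp [h0]
  | succ n ih =>
    rw [Finset.sum_range_succ, mul_add, ih, Finset.sum_range_succ _ (n + 1), Nat.add_sub_cancel]
    ring

end DftX

open DftX

/-- Windows from tent weights and the characters of a cyclic group. -/
theorem dft (β : ℝ) (hβ : 0 < β) : ∃ S : ℝ, 0 < S ∧ ∀ Ω : ℝ, 0 < Ω →
    ∃ (n : ℕ) (s p κ : Fin n → ℝ) (c : Fin n → Fin n → ℂ), (∀ j, 0 ≤ p j) ∧ ∑ j, p j = 1 ∧
      (∀ j, s j ∈ Set.Icc 0 S) ∧
      (∀ j j', ∑ r, conj (c r j) * c r j' = if j = j' then (p j : ℂ) else 0) ∧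
      ∀ x : ℝ, |x| ≤ Ω → ∑ r, (x - κ r) ^ 2 * ‖∑ j, c r j * ex (s j) x‖ ^ 2 ≤ β := by
  obtain ⟨L, L0, hL⟩ : ∃ L : ℝ, 0 < L ∧ 225 ≤ β * L ^ 2 :=
    ⟨15 / √β, by positivity, by rw [div_pow, Real.sq_sqrt hβ.le]; field_simp; norm_num⟩
  refine ⟨2 * L, by positivity, fun Ω hΩ => ?_⟩
  obtain ⟨M, M1, M2⟩ : ∃ M : ℕ, (1 : ℝ) ≤ M ∧ Ω * L ≤ M :=
    ⟨⌈Ω * L⌉₊, by exact_mod_cast Nat.ceil_pos.2 (by positivity), Nat.le_ceil _⟩
  obtain ⟨τ, τ0, hτ⟩ : ∃ τ : ℝ, 0 < τ ∧ M * τ = L := ⟨L / M, by positivity, by field_simp⟩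
  have τ1 : Ω * τ ≤ 1 := by nlinarith
  set T := ∑ j : Fin (2 * M + 1), tent M j ^ 2 with hT
  have T1 : (M : ℝ) ^ 3 / 3 ≤ T := tent_sum M
  have T0 : 0 < T := lt_of_lt_of_le (by positivity) T1
  set n := 2 * M + 1 with hn
  have n1 : (n : ℝ) = 2 * M + 1 := by rw [hn]; push_cast; ring
  have n0 : (0 : ℝ) < n := by linarith
  set κ : Fin n → ℝ := fun r => 2 * Real.pi * (r - M) / n / τ with hκ
  set u : Fin n → Fin n → ℂ := fun r j => ((√n)⁻¹ : ℝ) * ex (j * τ) (-κ r) with hu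
  have ho : ∀ j j', ∑ r, conj (u r j) * u r j' = if j = j' then ((1 : ℝ) : ℂ) else 0 := by
    intro j j'
    have e : ∀ r, conj (u r j) * u r j' =
        (n : ℂ)⁻¹ * ex ((j : ℝ) - j') (2 * Real.pi * (r - M) / n) := by
      intro r
      have e1 : (((√n)⁻¹ : ℝ) : ℂ) * ((√n)⁻¹ : ℝ) = (n : ℂ)⁻¹ := by
        rw [← Complex.ofReal_mul, ← mul_inv, Real.mul_self_sqrt n0.le]; simp
      have e2 : ex (-(j * τ)) (-κ r) * ex (j' * τ) (-κ r) =
          ex ((j : ℝ) - j') (2 * Real.pi * (r - M) / n) := by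
        have e3 : (-(j * τ) + j' * τ) * (-κ r) = ((j : ℝ) - j') * (2 * Real.pi * (r - M) / n) := by
          simp only [hκ]; field_simp; ring
        rw [← ex_add, ex, ex, mul_assoc, mul_assoc, ← Complex.ofReal_mul, ← Complex.ofReal_mul, e3]
      simp only [hu, map_mul, Complex.conj_ofReal, conj_ex]
      rw [← e1, ← e2]; ring
    simp only [e]
    rw [← Finset.mul_sum, orth]
    split_ifs
    · rw [inv_mul_cancel₀ (by exact_mod_cast n0.ne')]; simp
    · simp
  have sT : ((√T)⁻¹) ^ 2 = T⁻¹ := by rw [inv_pow, Real.sq_sqrt T0.le]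
  refine ⟨n, fun j => j * τ, fun j => tent M j ^ 2 / T, κ,
    fun r j => u r j * ((√T)⁻¹ * tent M j : ℝ), fun j => by positivity, ?_, fun j => ⟨by positivity, ?_⟩,
    fun j j' => ?_, fun x hx => ?_⟩
  · rw [← Finset.sum_div, div_self T0.ne']
  · have : (j : ℝ) ≤ 2 * M := by exact_mod_cast Nat.lt_succ_iff.1 j.2
    nlinarith
  · have e : ∀ r, conj (u r j * ((√T)⁻¹ * tent M j : ℝ)) * (u r j' * ((√T)⁻¹ * tent M j' : ℝ)) =
        (conj (u r j) * u r j') * (((√T)⁻¹ * tent M j * ((√T)⁻¹ * tent M j') : ℝ) : ℂ) := by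
      intro r; rw [map_mul, Complex.conj_ofReal, Complex.ofReal_mul _ (_ * _)]; ring
    simp only [e]
    rw [← Finset.sum_mul, ho]
    split_ifs with h
    · subst h
      rw [← Complex.ofReal_mul]; congr 1
      rw [div_eq_mul_inv, ← sT]; ring
    · simp
  · have hp := parseval_sq (p := fun _ => 1) ho fun j : Fin n =>
      (((√T)⁻¹ * (tent M (j - 1) - tent M j) : ℝ) : ℂ) * ex (j * τ) x
    have h2 : ∑ j : Fin n, 1 * ‖(((√T)⁻¹ * (tent M (j - 1) - tent M j) : ℝ) : ℂ) *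
        ex (j * τ) x‖ ^ 2 ≤ ∑ j : Fin n, T⁻¹ := by
      refine Finset.sum_le_sum fun j _ => ?_
      rw [one_mul, norm_mul, norm_ex, mul_one, Complex.norm_real, Real.norm_eq_abs, sq_abs, mul_pow,
        sT]
      exact mul_le_of_le_one_right (by positivity) (tent_diff M j)
    rw [← hp, Finset.sum_const, Finset.card_univ, Fintype.card_fin, nsmul_eq_mul] at h2
    have h3 : ∀ r : Fin n, (ex τ (x - κ r) - 1) *
        ∑ j : Fin n, u r j * ((√T)⁻¹ * tent M j : ℝ) * ex (j * τ) x =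
        ∑ j : Fin n, u r j • ((((√T)⁻¹ * (tent M (j - 1) - tent M j) : ℝ) : ℂ) * ex (j * τ) x) := by
      intro r
      have e : ∀ j : ℕ, ex (j * τ) (-κ r) * ex (j * τ) x = ex τ (x - κ r) ^ j := fun j => by
        rw [← ex_add', ← ex_pow]; congr 1; ring
      have t := tele (fun j => (tent M j : ℂ)) (ex τ (x - κ r)) (by simp [tent]) (2 * M)
      rw [show ((tent M (2 * M) : ℝ) : ℂ) = 0 by simp [tent], zero_mul, add_zero, ← hn,
        ← Fin.sum_univ_eq_sum_range (fun j => (tent M j : ℂ) * ex τ (x - κ r) ^ j),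
        ← Fin.sum_univ_eq_sum_range
          (fun j => ((tent M (j - 1) : ℂ) - tent M j) * ex τ (x - κ r) ^ j)] at t
      have a : ∑ j : Fin n, u r j * ((√T)⁻¹ * tent M j : ℝ) * ex (j * τ) x =
          ((√n)⁻¹ : ℝ) * ((√T)⁻¹ : ℝ) * ∑ j : Fin n, (tent M j : ℂ) * ex τ (x - κ r) ^ (j : ℕ) := by
        rw [Finset.mul_sum]
        refine Finset.sum_congr rfl fun j _ => ?_
        rw [← e, Complex.ofReal_mul]; simp only [hu]; ring
      rw [a, mul_left_comm, t, Finset.mul_sum]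
      refine Finset.sum_congr rfl fun j _ => ?_
      rw [← e, Complex.ofReal_mul, Complex.ofReal_sub]; simp only [hu, smul_eq_mul]; ring
    have h4 : ∀ r : Fin n, τ ^ 2 * ((x - κ r) ^ 2 *
        ‖∑ j : Fin n, u r j * ((√T)⁻¹ * tent M j : ℝ) * ex (j * τ) x‖ ^ 2) ≤
        25 * ‖∑ j : Fin n, u r j •
          ((((√T)⁻¹ * (tent M (j - 1) - tent M j) : ℝ) : ℂ) * ex (j * τ) x)‖ ^ 2 := by
      intro r
      rw [← h3, norm_mul, mul_pow, ← mul_assoc, ← mul_assoc, ← mul_pow]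
      refine mul_le_mul_of_nonneg_right (ex_sub τ _ ?_) (by positivity)
      have p3 := Real.pi_gt_three
      have r1 : (r : ℝ) ≤ 2 * M := by exact_mod_cast Nat.lt_succ_iff.1 r.2
      have r0 : (0 : ℝ) ≤ r := Nat.cast_nonneg _
      have e : τ * κ r = 2 * Real.pi * (r - M) / n := by simp only [hκ]; field_simp
      have k1 : τ * κ r ≤ Real.pi := by rw [e, div_le_iff₀ n0, n1]; nlinarith
      have k2 : -Real.pi ≤ τ * κ r := by rw [e, le_div_iff₀ n0, n1]; nlinarith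
      rw [abs_le] at hx ⊢
      constructor <;> nlinarith [hx.1, hx.2]
    have h5 := Finset.sum_le_sum fun r (_ : r ∈ Finset.univ) => h4 r
    rw [← Finset.mul_sum, ← Finset.mul_sum] at h5
    have h6 : 25 * ((n : ℝ) * T⁻¹) ≤ τ ^ 2 * β := by
      rw [← div_eq_mul_inv, ← mul_div_assoc, div_le_iff₀ T0, n1]
      rw [← hτ] at hL
      have : τ ^ 2 * β * ((M : ℝ) ^ 3 / 3) ≤ τ ^ 2 * β * T :=
        mul_le_mul_of_nonneg_left T1 (by positivity)
      nlinarith
    exact le_of_mul_le_mul_left (by linarith) (pow_pos τ0 2)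

end Vale.Agent.P096b
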