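import Vale.Agent.P096b.Adm

/-! The ergodic lemma. -/

set_option linter.unusedSectionVars false

namespace Vale.Agent.P096b

open Filter Topology Vale.Agent.P096 MeasureTheory
open scoped InnerProductSpace ComplexConjugate

universe u v

variable {H : Type u} [NormedAddCommGroup H] [InnerProductSpace ℂ H] [CompleteSpace H]

variable {A B C C' : Alg H} {ξ : H}

theorem erg_weak {ι : Type*} {l : Filter ι} [l.NeBot] {v : H} {u : ι → H} {b : ι → ℝ} {c : ℝ}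
    (h1 : Tendsto (fun i => ⟪v, u i⟫_ℂ) l (𝓝 ⟪v, v⟫_ℂ)) (h2 : Tendsto b l (𝓝 c))
    (h3 : ∀ i, ‖u i‖ ^ 2 ≤ b i) : ‖v‖ ^ 2 ≤ c := by
  have h4 := ((Complex.continuous_re.tendsto _).comp h1).const_mul 2
  have h5 := le_of_tendsto_of_tendsto' h4 (h2.const_add (‖v‖ ^ 2)) fun i => by
    have h6 : (⟪v, u i⟫_ℂ).re ≤ ‖v‖ * ‖u i‖ :=
      (Complex.re_le_norm _).trans (norm_inner_le_norm _ _)
    have h7 := h3 i
    simp only [Function.comp]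
    nlinarith [sq_nonneg (‖v‖ - ‖u i‖)]
  have h6 : (⟪v, v⟫_ℂ).re = ‖v‖ ^ 2 := by
    rw [inner_self_eq_norm_sq_to_K]
    norm_cast
  linarith

theorem erg_sq (u v : H) : ‖u + v‖ ^ 2 ≤ 2 * ‖u‖ ^ 2 + 2 * ‖v‖ ^ 2 := by
  nlinarith [pow_le_pow_left₀ (norm_nonneg _) (norm_add_le u v) 2, sq_nonneg (‖u‖ - ‖v‖)]

/-- A minimizing sequence. -/
theorem erg_min (C B : Alg H) (ξ : H) {L : ℕ} (η : Fin L → H) {K : ℝ} (hK : 0 ≤ K) :
    ∃ (w : ℕ → Op H) (d : ℕ → ℝ), ∀ n, IsAdm C B ξ (w n) (d n) ∧ ∀ w' d', IsAdm C B ξ w' d' →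
      ∑ l, ‖w n (η l)‖ ^ 2 + K * d n ≤ ∑ l, ‖w' (η l)‖ ^ 2 + K * d' + 1 / ((n : ℝ) + 1) := by
  have hb : BddBelow {v : ℝ | ∃ w d, IsAdm C B ξ w d ∧ ∑ l, ‖w (η l)‖ ^ 2 + K * d = v} :=
    ⟨0, by
      rintro _ ⟨w, d, h, rfl⟩
      have := h.nonneg
      positivity⟩
  have h1 := fun n : ℕ => Real.lt_sInf_add_pos
    (s := {v : ℝ | ∃ w d, IsAdm C B ξ w d ∧ ∑ l, ‖w (η l)‖ ^ 2 + K * d = v})
    ⟨_, 1, 0, isAdm_one, rfl⟩ (Nat.one_div_pos_of_nat (n := n))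
  choose v h2 h3 using h1
  choose w d h4 h5 using h2
  refine ⟨w, d, fun n => ⟨h4 n, fun w' d' h => ?_⟩⟩
  have h6 := csInf_le hb ⟨w', d', h, rfl⟩
  have h7 := h3 n
  rw [h5]
  linarith

/-- Finitely many vectors. Minimize `∑ ‖w (a l ξ)‖ ^ 2 + K d` over `IsAdm C B ξ w d`; let
`(w n, d n)` be a minimizing sequence (`d n ≤ (L + 1) / K` by comparison with `isAdm_one`),
`w n (a l ξ) = c n l ξ` (`IsAdm.vec`), `c l` the weak limit along an ultrafilter (`tl_ulim`,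
`CP.weak`). Composing with a generator gives `s ∑ ‖(m - m') (c n l ξ)‖ ^ 2 ≤ K t s + o(1)`, so
`(m - m') (c l ξ) = [m, c l] ξ = 0`; hence `c l` commutes with all filtered elements of `C`,
with `C` (`filt_strong`), and is central by `dbl`. -/
theorem erg_fin (μ : Mod A B ξ) (hξ : ‖ξ‖ = 1) (hC : CP C C') (hle : C ≤ A)
    (hσ : ∀ t, ∀ x ∈ C, μ.σ t x ∈ C) (dbl : ∀ x ∈ C, (∀ c ∈ C, x * c = c * x) → x ∈ B)
    {L : ℕ} (a : Fin L → Op H) (ha : ∀ l, a l ∈ C) (h1 : ∀ l, ‖a l‖ ≤ 1) (ε : ℝ) (hε : 0 < ε) :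
    ∃ w, IsAdm C B ξ w ε ∧ ∀ l, ∃ z ∈ A, z ∈ B ∧ ‖z ξ‖ ≤ ‖a l ξ‖ ∧
      (⟪a l ξ, w (a l ξ)⟫_ℂ).re ≤ (⟪a l ξ, z ξ⟫_ℂ).re + ε := by
  obtain ⟨K, hK⟩ : ∃ K : ℝ, K = (L + 1) / ε := ⟨_, rfl⟩
  have hK0 : 0 < K := by rw [hK]; positivity
  obtain ⟨w, d, hw⟩ := erg_min C B ξ (fun l => a l ξ) hK0.le
  have hd : ∀ n, IsAdm C B ξ (w n) ε := fun n => by
    obtain ⟨ι, _, m, m', h2, h3, h4⟩ := (hw n).1
    refine ⟨ι, _, m, m', h2, h3, h4.trans (le_of_mul_le_mul_left ?_ hK0)⟩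
    have h5 := (hw n).2 1 0 isAdm_one
    have h6 : ∑ l, ‖(1 : Op H) (a l ξ)‖ ^ 2 ≤ L := by
      refine (Finset.sum_le_card_nsmul _ _ 1 fun l _ => pow_le_one₀ (norm_nonneg _) ?_).trans
        (by simp)
      simpa [hξ] using (a l).le_of_opNorm_le (h1 l) ξ
    have h7 : 0 ≤ ∑ l, ‖w n (a l ξ)‖ ^ 2 := by positivity
    have h8 : 1 / ((n : ℝ) + 1) ≤ 1 := by
      rw [div_le_one (by positivity)]
      exact le_add_of_nonneg_left (Nat.cast_nonneg n)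
    have h9 : K * ε = L + 1 := by rw [hK]; field_simp
    linarith
  choose c hc hc1 hc2 using fun l n => (hd n).vec μ.cp hle (ha l)
  choose z hz using fun l => tl_ulim (hyperfilter ℕ) (c l) _ (hc1 l)
  have hzC : ∀ l, z l ∈ C := fun l => CP.weak hC (Eventually.of_forall (hc l)) (hz l)
  have hf : ∀ l x, x ∈ C → ∀ e, 0 < e →
      z l * μ.filt (gk e 0 0) x = μ.filt (gk e 0 0) x * z l := fun l x hx e he => by
    obtain ⟨m', hm', h2, h3⟩ := μ.generator hξ hC hle hσ hx he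
    have hm := μ.filt_mem hC (gk_int he 0 0) fun t => hσ t x hx
    generalize μ.filt (gk e 0 0) x = m at h2 h3 hm
    have h4 : ‖(m - m') (z l ξ)‖ ^ 2 ≤ 0 := le_of_forall_pos_le_add fun t ht => by
      obtain ⟨s, hs, w', h4, h5⟩ := h3 (t / K) (by positivity)
      refine erg_weak (l := hyperfilter ℕ) (u := fun n => (m - m') (c l n ξ))
        (b := fun n => 1 / ((n : ℝ) + 1) / s + t) ?_ ?_ fun n => ?_
      · simp only [← tl_inner' (m - m')]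
        exact hz l _ _
      · have h6 := ((tendsto_one_div_add_atTop_nhds_zero_nat (𝕜 := ℝ)).div_const s).add_const t
        rw [zero_div] at h6
        exact h6.mono_left Nat.hyperfilter_le_atTop
      · have h6 := (hw n).2 _ _ ((hw n).1.mul μ.cp hle h4)
        have h7 : ∑ l, ‖(w' * w n) (a l ξ)‖ ^ 2 ≤
            ∑ l, ‖w n (a l ξ)‖ ^ 2 - s * ∑ l, ‖(m - m') (c l n ξ)‖ ^ 2 := by
          rw [Finset.mul_sum, ← Finset.sum_sub_distrib]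
          refine Finset.sum_le_sum fun l _ => ?_
          rw [← hc2]
          exact h5 _
        have h8 : ‖(m - m') (c l n ξ)‖ ^ 2 ≤ ∑ l, ‖(m - m') (c l n ξ)‖ ^ 2 :=
          Finset.single_le_sum (f := fun l => ‖(m - m') (c l n ξ)‖ ^ 2) (fun _ _ => sq_nonneg _)
            (Finset.mem_univ l)
        have h9 : K * (t / K * s) = t * s := by field_simp
        refine h8.trans (le_of_mul_le_mul_left ?_ hs)
        rw [mul_add, mul_div_cancel₀ _ hs.ne']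
        linarith
    have h5 : m (z l ξ) = m' (z l ξ) :=
      sub_eq_zero.1 (norm_eq_zero.1 (pow_eq_zero_iff two_ne_zero |>.1 (h4.antisymm (sq_nonneg _))))
    refine Cyc.ext μ.cp μ.cycB (hle (mul_mem (hzC l) hm)) (hle (mul_mem hm (hzC l))) ?_
    rw [mul_apply_eq_comp, mul_apply_eq_comp, h5, ← h2, μ.cp.app (hle (hzC l)) hm']
  have hzB : ∀ l, z l ∈ B := fun l => dbl _ (hzC l) fun x hx => ContinuousLinearMap.ext fun η => by
    refine tendsto_nhds_unique (((z l).continuous.tendsto _).comp (μ.filt_strong x η))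
      ((μ.filt_strong x (z l η)).congr' (eventually_mem_nhdsWithin.mono fun e he => ?_))
    exact (congrArg (fun T : Op H => T η) (hf l x hx e he)).symm
  have h2 : ∀ᶠ n in (hyperfilter ℕ : Filter ℕ), ∀ l,
      (⟪a l ξ, c l n ξ⟫_ℂ).re ≤ (⟪a l ξ, z l ξ⟫_ℂ).re + ε := eventually_all.2 fun l =>
    ((Complex.continuous_re.tendsto _).comp (hz l ξ (a l ξ))).eventually
      (eventually_le_nhds (lt_add_of_pos_right _ hε))
  obtain ⟨n, hn⟩ := h2.exists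
  refine ⟨w n, hd n, fun l => ⟨z l, hle (hzC l), hzB l, ?_, by rw [hc2]; exact hn l⟩⟩
  refine (abs_le_of_sq_le_sq' (erg_weak (hz l ξ (z l ξ)) tendsto_const_nhds fun n => ?_)
    (norm_nonneg _)).2
  rw [← hc2]
  exact pow_le_pow_left₀ (norm_nonneg _)
    (((w n).le_of_opNorm_le (hd n).norm_le _).trans_eq (one_mul _)) 2

/-- Apply `erg_fin` to `σ (-s l) a` for a fine net `s l` of `[0, S]`. If `η = U (-s) (a ξ)` has
distance at least `V` from all `z ξ` (`cen_vec`) then `re ⟪η, z ξ⟫ ≤ ‖η‖ ^ 2 - V ^ 2 / 2` when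
`‖z ξ‖ ≤ ‖η‖`; `Adm.gain` gives the lower bound `V ^ 2 / 3` for the square root on the net, and
the square root is `2`-Lipschitz in the vector. -/
theorem erg (μ : Mod A B ξ) (hξ : ‖ξ‖ = 1) (hC : CP C C') (hle : C ≤ A)
    (hσ : ∀ t, ∀ x ∈ C, μ.σ t x ∈ C) (dbl : ∀ x ∈ C, (∀ c ∈ C, x * c = c * x) → x ∈ B)
    {a : Op H} (ha : a ∈ C) (h1 : ‖a‖ ≤ 1) {V : ℝ} (V0 : 0 < V)
    (hV : ∀ z ∈ A, z ∈ B → V ≤ ‖a ξ - z ξ‖) (S : ℝ) :
    ∃ (ι : Type) (_ : Fintype ι) (m m' : ι → Op H), Adm C B ξ m m' ∧ ∀ s ∈ Set.Icc 0 S,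
      V ^ 4 / 100 ≤ ∑ i, ‖m i (μ.U (-s) (a ξ)) - m' i (μ.U (-s) (a ξ))‖ ^ 2 := by
  have hf : Continuous fun s => μ.U (-s) (a ξ) := (μ.U_cont (a ξ)).comp continuous_neg
  obtain ⟨T, hT, hfin, hcov⟩ := finite_cover_balls_of_compact
    ((isCompact_Icc (a := 0) (b := S)).image hf) (e := V ^ 2 / 10) (by positivity)
  obtain ⟨L, g, -, hg⟩ := hfin.fin_param
  choose s _ hs using fun l => hT (hg ▸ Set.mem_range_self l)
  obtain ⟨w, ⟨ι, _, m, m', h2, rfl, h3⟩, h4⟩ := erg_fin μ hξ hC hle hσ dbl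
    (fun l => μ.σ (-s l) a) (fun l => hσ _ a ha) (fun l => (μ.norm_σ _ a).trans_le h1)
    (V ^ 2 / 12) (by positivity)
  refine ⟨ι, inferInstance, m, m', h2, fun r hr => ?_⟩
  obtain ⟨η, hη, h5⟩ := Set.mem_iUnion₂.1 (hcov (Set.mem_image_of_mem _ hr))
  obtain ⟨l, rfl⟩ := hg.ge hη
  obtain ⟨z, hzA, hzB, h6, h7⟩ := h4 l
  have h8 := h2.gain μ.cp hξ (hle (hσ (-s l) a ha)) ((μ.norm_σ _ a).trans_le h1)
  have h9 : V ≤ ‖g l - z ξ‖ := by
    rw [← hs, ← μ.cen_vec hzA hzB (-s l), ← map_sub, μ.norm_U]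
    exact hV z hzA hzB
  simp only [μ.σ_vec μ.cp, hs] at h6 h7 h8
  have h10 := pow_le_pow_left₀ V0.le h9 2
  rw [norm_sub_sq (𝕜 := ℂ), RCLike.re_to_complex] at h10
  have h11 := pow_le_pow_left₀ (norm_nonneg _) h6 2
  have h12 : (V ^ 2 / 3) ^ 2 ≤ ∑ i, ‖m i (g l) - m' i (g l)‖ ^ 2 :=
    (Real.le_sqrt' (by positivity)).1 (by linarith)
  rw [Metric.mem_ball, dist_comm, dist_eq_norm] at h5
  have h13 := pow_le_pow_left₀ (norm_nonneg _) h5.le 2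
  generalize μ.U (-r) (a ξ) = ζ at h13 ⊢
  have h14 : ∑ i, ‖m i (g l) - m' i (g l)‖ ^ 2 ≤ 2 * ∑ i, ‖m i ζ - m' i ζ‖ ^ 2 +
      (4 * ∑ i, ‖m i (g l - ζ)‖ ^ 2 + 4 * ∑ i, ‖m' i (g l - ζ)‖ ^ 2) := by
    simp only [Finset.mul_sum, ← Finset.sum_add_distrib]
    refine Finset.sum_le_sum fun i _ => ?_
    have e : m i (g l) - m' i (g l) = (m i ζ - m' i ζ) + (m i (g l - ζ) + -m' i (g l - ζ)) := by
      rw [map_sub, map_sub]
      abel
    have k1 := erg_sq (m i (g l - ζ)) (-m' i (g l - ζ))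
    rw [norm_neg] at k1
    rw [e]
    linarith [erg_sq (m i ζ - m' i ζ) (m i (g l - ζ) + -m' i (g l - ζ))]
  have h15 := h2.col (g l - ζ)
  have h16 := h2.col' (g l - ζ)
  nlinarith [pow_pos V0 4]

end Vale.Agent.P096b
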