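import Vale.Agent.P096b.Defs

/-! The inequality at all scales. -/

set_option linter.unusedSectionVars false

namespace Vale.Agent.P096b

open Filter Topology Vale.Agent.P096 MeasureTheory
open scoped InnerProductSpace ComplexConjugate

universe u v

variable {H : Type u} [NormedAddCommGroup H] [InnerProductSpace ℂ H] [CompleteSpace H]

/-- The algebras `A` and `D` almost commute at `ξ` at all scales. -/
def Scale (A D : Alg H) (ξ : H) (η : ℝ) : Prop := ∀ x ∈ A, ∀ y ∈ D, ∀ t : ℝ, 0 < t →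
  ‖⟪star x ξ, y ξ⟫_ℂ - ⟪star y ξ, x ξ⟫_ℂ‖ ≤
    η * √(‖x ξ‖ ^ 2 + t * ‖star x ξ‖ ^ 2) * √(‖star y ξ‖ ^ 2 + ‖y ξ‖ ^ 2 / t)

end Vale.Agent.P096b
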