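import Vale.Agent.P096b.ModApi
import Vale.Agent.P096b.Dft
import Vale.Agent.P096b.Scale

/-! Closeness of resolvents and the averaged positivity. -/

set_option linter.unusedSectionVars false

namespace Vale.Agent.P096b

open Filter Topology Vale.Agent.P096 MeasureTheory
open scoped InnerProductSpace ComplexConjugate

universe u v

variable {H : Type u} [NormedAddCommGroup H] [InnerProductSpace ℂ H] [CompleteSpace H]

variable {A B N D : Alg H} {ξ : H}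

theorem res_bc (κ₀ : ℝ) : BC fun κ => cf (κ - κ₀) := bc_cf.comp (continuous_sub_right κ₀)

theorem res_bs (κ₀ : ℝ) : BC fun κ => sf (κ - κ₀) := bc_sf.comp (continuous_sub_right κ₀)

theorem res_one (Φ : Calc H) (κ₀ : ℝ) : Φ.F (fun κ => sf (κ - κ₀) * sf (κ - κ₀)) =
    1 - Φ.F (fun κ => cf (κ - κ₀) * cf (κ - κ₀)) := by
  rw [eq_sub_iff_add_eq', ← Φ.add ((res_bc κ₀).mul (res_bc κ₀)) ((res_bs κ₀).mul (res_bs κ₀))]
  simp only [cf_sq_add, Φ.one]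

theorem res_pyth (Φ : Calc H) (κ₀ : ℝ) (γ : H) : ‖Φ.F (fun κ => cf (κ - κ₀)) γ‖ ^ 2 +
    ‖Φ.F (fun κ => sf (κ - κ₀)) γ‖ ^ 2 = ‖γ‖ ^ 2 := by
  rw [Φ.calc_sq (res_bc κ₀), Φ.calc_sq (res_bs κ₀)]
  simp only [conj_cf, conj_sf]
  rw [res_one, ← Complex.add_re, ← inner_add_right, ← add_apply,
    add_sub_cancel, one_apply_eq_self, inner_self_eq_norm_sq_to_K]
  norm_cast

theorem res_J (J : H ≃ₗᵢ⋆[ℂ] H) (hJ : ∀ η, J (J η) = η) (E : ℝ) (v : H) :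
    J ((E : ℂ) • J v) = (E : ℂ) • v := by
  rw [LinearIsometryEquiv.map_smulₛₗ, hJ, Complex.conj_ofReal]

theorem res_nJ (J : H ≃ₗᵢ⋆[ℂ] H) (E : ℝ) (v : H) : ‖(E : ℂ) • J v‖ ^ 2 = E ^ 2 * ‖v‖ ^ 2 := by
  rw [norm_smul, J.norm_map, Complex.norm_real, mul_pow, Real.norm_eq_abs, sq_abs]

/-- The inequality on the closures of the graphs (`core'` for `μ`, `coreB` for `ν`,
`t = exp (-κ₀)`); here `c = cf (· - κ₀)`, `s = sf (· - κ₀)`, and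
`‖F c γ‖² + ‖F s γ‖² = ‖γ‖²`. -/
theorem scale_graph (μ : Mod A B ξ) (ν : Mod N D ξ) {η : ℝ} (η0 : 0 ≤ η) (h : Scale A D ξ η)
    (κ₀ : ℝ) (γ γ' : H) :
    ‖⟪μ.J (μ.F (fun κ => sf (κ - κ₀)) γ), ν.J (ν.F (fun κ => cf (κ - κ₀)) γ')⟫_ℂ -
      ⟪ν.F (fun κ => sf (κ - κ₀)) γ', μ.F (fun κ => cf (κ - κ₀)) γ⟫_ℂ‖ ≤ η * ‖γ‖ * ‖γ'‖ := by
  have hS : IsClosed {z : (H × H) × H × H | ‖⟪μ.J z.1.2, ν.J z.2.2⟫_ℂ - ⟪z.2.1, z.1.1⟫_ℂ‖ ≤
      η * √(‖z.1.1‖ ^ 2 + ‖z.1.2‖ ^ 2) * √(‖z.2.1‖ ^ 2 + ‖z.2.2‖ ^ 2)} := by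
    have c1 := μ.J.continuous
    have c2 := ν.J.continuous
    exact isClosed_le (by fun_prop) (by fun_prop)
  have hm := hS.closure_subset (a := ((μ.F (fun κ => cf (κ - κ₀)) γ, μ.F (fun κ => sf (κ - κ₀)) γ),
    ν.F (fun κ => sf (κ - κ₀)) γ', ν.F (fun κ => cf (κ - κ₀)) γ'))
    (Metric.mem_closure_iff.2 fun ε hε => ?_)
  · simp only [Set.mem_ofPred_eq] at hm
    rwa [res_pyth, add_comm, res_pyth, Real.sqrt_sq (norm_nonneg _),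
      Real.sqrt_sq (norm_nonneg _)] at hm
  obtain ⟨x, hx, a1, a2⟩ := μ.core' κ₀ γ ε hε
  obtain ⟨y, hy, b1, b2⟩ := ν.coreB κ₀ γ' ε hε
  refine ⟨((x ξ, ((Real.exp (-κ₀ / 2) : ℝ) : ℂ) • μ.J (star x ξ)), star y ξ,
    ((Real.exp (κ₀ / 2) : ℝ) : ℂ) • ν.J (y ξ)), ?_, ?_⟩
  · have h1 := h x hx y hy (Real.exp (-κ₀)) (Real.exp_pos _)
    have e1 : Real.exp (-κ₀ / 2) ^ 2 = Real.exp (-κ₀) := by
      rw [sq, ← Real.exp_add, add_halves]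
    have e2 : Real.exp (κ₀ / 2) ^ 2 = (Real.exp (-κ₀))⁻¹ := by
      rw [sq, ← Real.exp_add, add_halves, Real.exp_neg, inv_inv]
    have e3 : ((Real.exp (κ₀ / 2) : ℝ) : ℂ) * ((Real.exp (-κ₀ / 2) : ℝ) : ℂ) = 1 := by
      rw [← Complex.ofReal_mul, ← Real.exp_add, ← add_div, add_neg_cancel, zero_div, Real.exp_zero,
        Complex.ofReal_one]
    simp only [Set.mem_ofPred_eq]
    rwa [res_J _ μ.JJ, res_J _ ν.JJ, res_nJ, res_nJ, e1, e2, inner_smul_right, inner_smul_left,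
      Complex.conj_ofReal, ← mul_assoc, e3, one_mul, ← div_eq_inv_mul]
  · simp only [Prod.dist_eq, max_lt_iff]
    simp only [dist_eq_norm']
    exact ⟨⟨a1, a2⟩, b1, b2⟩

/-- Use `scale_graph μ ν` with `γ = μ.F c b`, `γ' = ν.F s a`, and `scale_graph ν μ` with
`γ = ν.F c a`, `γ' = μ.F s b`; the terms with the conjugations are complex conjugates of each other
and `⟪(1 - R') a, R b⟫ - ⟪R' a, (1 - R) b⟫ = ⟪a, (R - R') b⟫`. -/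
theorem res_close (μ : Mod A B ξ) (ν : Mod N D ξ) {η : ℝ} (η0 : 0 ≤ η) (h1 : Scale A D ξ η)
    (h2 : Scale N B ξ η) (κ₀ : ℝ) :
    ‖μ.F (fun κ => cf (κ - κ₀) * cf (κ - κ₀)) - ν.F (fun κ => cf (κ - κ₀) * cf (κ - κ₀))‖ ≤
      2 * η := by
  refine norm_le_of_inner (by positivity) fun b a => ?_
  have g1 := scale_graph μ ν η0 h1 κ₀ (μ.F (fun κ => cf (κ - κ₀)) b) (ν.F (fun κ => sf (κ - κ₀)) a)
  have g2 := scale_graph ν μ η0 h2 κ₀ (ν.F (fun κ => cf (κ - κ₀)) a) (μ.F (fun κ => sf (κ - κ₀)) b)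
  have n1 : ∀ (Φ : Calc H) (v : H), ‖Φ.F (fun κ => cf (κ - κ₀)) v‖ ≤ ‖v‖ := fun Φ v =>
    le_of_sq_le_sq (by linarith [res_pyth Φ κ₀ v, sq_nonneg ‖Φ.F (fun κ => sf (κ - κ₀)) v‖])
      (norm_nonneg _)
  have n2 : ∀ (Φ : Calc H) (v : H), ‖Φ.F (fun κ => sf (κ - κ₀)) v‖ ≤ ‖v‖ := fun Φ v =>
    le_of_sq_le_sq (by linarith [res_pyth Φ κ₀ v, sq_nonneg ‖Φ.F (fun κ => cf (κ - κ₀)) v‖])
      (norm_nonneg _)
  have g3 := g1.trans (mul_le_mul (mul_le_mul_of_nonneg_left (n1 _ _) η0) (n2 _ _) (norm_nonneg _)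
    (by positivity))
  have g4 := g2.trans (mul_le_mul (mul_le_mul_of_nonneg_left (n1 _ _) η0) (n2 _ _) (norm_nonneg _)
    (by positivity))
  simp only [Calc.mul_apply _ (res_bc κ₀) (res_bc κ₀), Calc.mul_apply _ (res_bs κ₀) (res_bs κ₀),
    Calc.mul_apply _ (res_bc κ₀) (res_bs κ₀), Calc.mul_apply _ (res_bs κ₀) (res_bc κ₀), res_one,
    mul_comm (sf _) (cf _)] at g3 g4
  have hs := ν.star_real ((res_bc κ₀).mul (res_bc κ₀)) fun κ => by rw [map_mul, conj_cf]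
  generalize μ.F (fun κ => cf (κ - κ₀) * cf (κ - κ₀)) = R at g3 g4 ⊢
  generalize ν.F (fun κ => cf (κ - κ₀) * cf (κ - κ₀)) = R' at g3 g4 hs ⊢
  rw [← Complex.norm_conj, map_sub, inner_conj_symm, inner_conj_symm] at g4
  generalize ⟪μ.J (μ.F (fun κ => cf (κ - κ₀) * sf (κ - κ₀)) b),
    ν.J (ν.F (fun κ => cf (κ - κ₀) * sf (κ - κ₀)) a)⟫_ℂ = X at g3 g4
  have e : ⟪a, (R - R') b⟫_ℂ = (X - ⟪R' a, (1 - R) b⟫_ℂ) - (X - ⟪(1 - R') a, R b⟫_ℂ) := by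
    simp only [sub_apply, one_apply_eq_self, inner_sub_left,
      inner_sub_right]
    rw [tl_inner R' a b, hs]
    ring
  rw [e]
  refine (norm_sub_le _ _).trans ?_
  linarith

/-- The function `tanh (y / 2)`. -/
noncomputable def res_th (y : ℝ) : ℝ := 1 - 2 * (1 + Real.exp y)⁻¹

theorem res_th_neg (y : ℝ) : res_th (-y) = -res_th y := by
  have := Real.exp_pos y
  rw [res_th, res_th, Real.exp_neg]
  field_simp
  ring

theorem res_th_pos {y : ℝ} (hy : 0 ≤ y) :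
    min 2 y ≤ 4 * res_th y ∧ res_th y ≤ y ∧ res_th y ≤ 1 := by
  have h0 := Real.exp_pos y
  have h1 := Real.add_one_le_exp y
  have h2 := Real.add_one_le_exp (-y)
  have h3 : (1 + Real.exp y)⁻¹ ≤ (2 + y)⁻¹ := inv_anti₀ (by positivity) (by linarith)
  have h4 : 0 < (1 + Real.exp y)⁻¹ := by positivity
  refine ⟨?_, ?_, by rw [res_th]; linarith⟩
  · have h5 : min 2 y ≤ 4 * (1 - 2 * (2 + y)⁻¹) := by
      have e : 4 * (1 - 2 * (2 + y)⁻¹) = 4 * y / (2 + y) := by field_simp; ring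
      rw [e, le_div_iff₀ (by positivity)]
      rcases le_total 2 y with h | h
      · rw [min_eq_left h]; linarith
      · rw [min_eq_right h]; nlinarith
    rw [res_th]
    linarith
  · have h5 : Real.exp (-y) ≤ 2 * (1 + Real.exp y)⁻¹ := by
      rw [Real.exp_neg, ← div_eq_mul_inv, inv_eq_one_div, div_le_div_iff₀ h0 (by positivity)]
      linarith
    rw [res_th]
    linarith

theorem res_th_abs (y : ℝ) : min 2 |y| ≤ 4 * |res_th y| ∧ |res_th y| ≤ |y| ∧ |res_th y| ≤ 1 := by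
  have h := res_th_pos (abs_nonneg y)
  have h0 : 0 ≤ res_th |y| := by
    have := le_min (show (0 : ℝ) ≤ 2 by norm_num) (abs_nonneg y)
    linarith [h.1]
  have e : |res_th y| = res_th |y| := by
    rcases abs_cases y with h1 | h1
    · rw [h1.1] at h0 ⊢
      exact abs_of_nonneg h0
    · rw [h1.1] at h0 ⊢
      rw [← abs_neg, ← res_th_neg]
      exact abs_of_nonneg h0
  rwa [e]

theorem res_th_eq (y : ℝ) : (res_th y : ℂ) = 1 - 2 * (cf y * cf y) := by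
  rw [cf_sq, res_th]
  push_cast
  ring

theorem res_bt (κ₀ : ℝ) : BC fun κ => (res_th (κ - κ₀) : ℂ) := by
  simp only [res_th_eq]
  exact (BC.const 1).sub (((res_bc κ₀).mul (res_bc κ₀)).cmul 2)

theorem res_Ft (Φ : Calc H) (κ₀ : ℝ) : Φ.F (fun κ => (res_th (κ - κ₀) : ℂ)) =
    1 - (2 : ℂ) • Φ.F (fun κ => cf (κ - κ₀) * cf (κ - κ₀)) := by
  simp only [res_th_eq]
  rw [Φ.sub (BC.const 1) (((res_bc κ₀).mul (res_bc κ₀)).cmul 2), Φ.one,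
    Φ.smul 2 ((res_bc κ₀).mul (res_bc κ₀))]

theorem res_ex {ρ : ℝ} (hρ : |ρ| ≤ 1) (κ κ₀ : ℝ) :
    ‖ex ρ κ - ex ρ κ₀‖ ≤ ‖4 * (res_th (κ - κ₀) : ℂ)‖ := by
  have e : ex ρ κ - ex ρ κ₀ = ex ρ κ₀ * (Complex.exp (Complex.I * (ρ * (κ - κ₀) : ℝ)) - 1) := by
    rw [mul_sub, mul_one, ex, ex, ← Complex.exp_add]
    congr 2
    push_cast
    ring
  rw [norm_mul, Complex.norm_real, Real.norm_eq_abs, Complex.norm_ofNat]
  refine le_trans (le_min ?_ ?_) (res_th_abs (κ - κ₀)).1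
  · refine (norm_sub_le _ _).trans (le_of_eq ?_)
    rw [norm_ex, norm_ex]
    norm_num
  · rw [e, norm_mul, norm_ex, one_mul]
    refine Real.norm_exp_I_mul_ofReal_sub_one_le.trans ?_
    rw [Real.norm_eq_abs, abs_mul]
    exact mul_le_of_le_one_left (abs_nonneg _) hρ

theorem res_U (Φ : Calc H) {ρ : ℝ} (hρ : |ρ| ≤ 1) (κ₀ : ℝ) (v : H) :
    ‖Φ.U ρ v - ex ρ κ₀ • v‖ ≤ 4 * ‖Φ.F (fun κ => (res_th (κ - κ₀) : ℂ)) v‖ := by
  have h := Φ.norm_mono ((bc_ex ρ).sub (BC.const (ex ρ κ₀))) ((res_bt κ₀).cmul 4)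
    (fun κ => res_ex hρ κ κ₀) v
  rw [Φ.sub (bc_ex ρ) (BC.const _), Φ.const, Φ.smul 4 (res_bt κ₀),
    smul_apply, norm_smul, Complex.norm_ofNat] at h
  exact h

theorem res_one_vec (Φ Ψ : Calc H) {ρ : ℝ} (hρ : |ρ| ≤ 1) (κ₀ : ℝ)
    (h : ‖Φ.F (fun κ => cf (κ - κ₀) * cf (κ - κ₀)) -
      Ψ.F (fun κ => cf (κ - κ₀) * cf (κ - κ₀))‖ ≤ 1 / 16) (v : H) :
    3 / 4 * ‖v‖ ^ 2 - 64 * ‖Φ.F (fun κ => (res_th (κ - κ₀) : ℂ)) v‖ ^ 2 ≤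
      (⟪v, (Ψ.U (-ρ) * Φ.U ρ) v⟫_ℂ).re := by
  have h1 := res_U Φ hρ κ₀ v
  have h2 := res_U Ψ hρ κ₀ v
  have h3 : ‖Ψ.F (fun κ => (res_th (κ - κ₀) : ℂ)) v - Φ.F (fun κ => (res_th (κ - κ₀) : ℂ)) v‖
      ≤ 1 / 8 * ‖v‖ := by
    rw [← sub_apply, res_Ft, res_Ft, sub_sub_sub_cancel_left, ← smul_sub]
    refine (ContinuousLinearMap.le_opNorm _ _).trans (mul_le_mul_of_nonneg_right ?_ (norm_nonneg _))
    rw [norm_smul, Complex.norm_ofNat]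
    linarith
  have h4 := norm_le_norm_sub_add (Ψ.F (fun κ => (res_th (κ - κ₀) : ℂ)) v)
    (Φ.F (fun κ => (res_th (κ - κ₀) : ℂ)) v)
  have h5 := norm_sub_le_norm_sub_add_norm_sub (Ψ.U ρ v) (ex ρ κ₀ • v) (Φ.U ρ v)
  rw [norm_sub_rev (ex ρ κ₀ • v)] at h5
  have h6 := norm_sub_sq (𝕜 := ℂ) (Ψ.U ρ v) (Φ.U ρ v)
  rw [Ψ.norm_U, Φ.norm_U, tl_inner, Ψ.star_U, RCLike.re_to_complex] at h6
  rw [mul_apply_eq_comp]
  have h7 : ‖Ψ.U ρ v - Φ.U ρ v‖ ≤ 8 * ‖Φ.F (fun κ => (res_th (κ - κ₀) : ℂ)) v‖ + 1 / 2 * ‖v‖ := by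
    linarith
  have h8 := pow_le_pow_left₀ (norm_nonneg _) h7 2
  nlinarith [sq_nonneg (8 * ‖Φ.F (fun κ => (res_th (κ - κ₀) : ℂ)) v‖ - 1 / 2 * ‖v‖)]

theorem res_gs {ε : ℝ} (hε : 0 < ε) (x : ℝ) : ‖gs ε 0 0 x‖ ^ 2 ≤ 1 ∧
    (3200 / ε + 1 ≤ |x| → ‖gs ε 0 0 x‖ ^ 2 ≤ 1 / 6400) := by
  have e : ‖gs ε 0 0 x‖ ^ 2 = (Real.exp (2 * ε * x ^ 2))⁻¹ := by
    rw [gs, Complex.norm_real, Real.norm_eq_abs, sq_abs, sq, ← Real.exp_add, ← Real.exp_neg]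
    congr 1
    ring
  have h1 := Real.add_one_le_exp (2 * ε * x ^ 2)
  have h2 : 0 ≤ 2 * ε * x ^ 2 := by positivity
  rw [e]
  refine ⟨inv_le_one_of_one_le₀ (by linarith), fun h => ?_⟩
  rw [one_div]
  refine inv_anti₀ (by norm_num) ?_
  have h3 : 0 ≤ 3200 / ε := by positivity
  have h4 : 3200 / ε ≤ x ^ 2 := by
    rw [← sq_abs]
    nlinarith
  rw [div_le_iff₀ hε] at h4
  linarith

/-- Take `S` from `dft β`; given `ε` choose `Ω` with `exp (-2 ε Ω²)` small. For `ζ = F (gs ε 0 0) η`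
and `ζ r = ∑ j, c r j • U (s j) ζ`, `parseval` turns the right side into
`∑ r, re ⟪ζ r, Y (ζ r)⟫ = ‖ζ‖² - (1/2) ∑ r, ‖Ψ.U ρ (ζ r) - Φ.U ρ (ζ r)‖²`. With
`T r = 1 - 4 c² s² = tanh² ((κ - κ r) / 2)` one has `‖ex ρ κ - ex ρ (κ r)‖² ≤ 8 T r` for
`|ρ| ≤ 1` (any constant), the operators `F (T r) = 1 - 4 R (1 - R)` for `Φ`, `Ψ` differ by at most
`12 η₀`, and `∑ r, T r |w r|² gs² ≤ β / 4 + exp (-2 ε Ω²)` (`parseval_ex`, `Calc.re_le`,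
`Calc.sq_le'`). -/
theorem avg_of_res : ∃ η₀ : ℝ, 0 < η₀ ∧ ∀ (H : Type u) [NormedAddCommGroup H]
    [InnerProductSpace ℂ H] [CompleteSpace H] (Φ Ψ : Calc H),
    (∀ κ₀, ‖Φ.F (fun κ => cf (κ - κ₀) * cf (κ - κ₀)) -
      Ψ.F (fun κ => cf (κ - κ₀) * cf (κ - κ₀))‖ ≤ η₀) →
    ∀ ρ : ℝ, |ρ| ≤ 1 → Avg Φ (Ψ.U (-ρ) * Φ.U ρ) := by
  refine ⟨1 / 16, by norm_num, fun H _ _ _ Φ Ψ h ρ hρ => ?_⟩
  obtain ⟨S, -, hS⟩ := dft (1 / 6400) (by norm_num)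
  refine ⟨S, fun ε hε => ?_⟩
  obtain ⟨n, s, p, κ, c, p0, p1, hs, hc, hw⟩ := hS (3200 / ε + 1) (by positivity)
  refine ⟨n, p, s, p0, p1, hs, fun η => ?_⟩
  have bw : ∀ r, BC fun x => ∑ j, c r j * ex (s j) x := fun r =>
    BC.sum _ fun j _ => (bc_ex _).cmul _
  have bg := gs_bc hε 0 0
  have e1 : ∀ r (v : H), ∑ j, c r j • Φ.U (s j) v = Φ.F (fun x => ∑ j, c r j * ex (s j) x) v :=
    fun r v => by
      rw [Φ.sum _ fun j _ => (bc_ex _).cmul _, sum_apply]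
      exact Finset.sum_congr rfl fun j _ => by rw [Φ.smul _ (bc_ex _)]; rfl
  have h1 := Φ.sq_le' (f := fun r x => (res_th (x - κ r) : ℂ) *
      ((∑ j, c r j * ex (s j) x) * gs ε 0 0 x)) (fun r => (res_bt _).mul ((bw r).mul bg)) bg
    (a := 1 / 6400) (b := 0) (fun x => ?_) η
  · simp only [← Φ.mul_apply (res_bt _) ((bw _).mul bg), ← Φ.mul_apply (bw _) bg, ← e1] at h1
    generalize Φ.F (gs ε 0 0) η = ζ at h1 ⊢
    generalize hY : Ψ.U (-ρ) * Φ.U ρ = Y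
    have h2 := parseval_sq hc fun j => Φ.U (s j) ζ
    simp only [Φ.norm_U, ← Finset.sum_mul, p1, one_mul] at h2
    have h3 := congrArg Complex.re (parseval hc (fun j => Φ.U (s j) ζ) fun j => Y (Φ.U (s j) ζ))
    simp only [Complex.re_sum, Complex.re_ofReal_mul, ← map_smul, ← map_sum] at h3
    have e2 : ∀ j, ⟪ζ, Φ.σ (-s j) Y ζ⟫_ℂ = ⟪Φ.U (s j) ζ, Y (Φ.U (s j) ζ)⟫_ℂ := fun j => by
      rw [tl_inner, Φ.star_U, Calc.σ, neg_neg]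
      rfl
    have h4 := Finset.sum_le_sum fun r (_ : r ∈ Finset.univ) =>
      res_one_vec Φ Ψ hρ (κ r) (h _) (∑ j, c r j • Φ.U (s j) ζ)
    rw [Finset.sum_sub_distrib, ← Finset.mul_sum, ← Finset.mul_sum, h2, hY] at h4
    simp only [e2, ← h3]
    simp only [map_smul] at h4 ⊢
    linarith
  · simp only [norm_mul, mul_pow, Complex.norm_real, Real.norm_eq_abs, zero_mul, add_zero]
    obtain ⟨g1, g2⟩ := res_gs hε x
    rcases le_total |x| (3200 / ε + 1) with hx | hx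
    · refine le_trans (Finset.sum_le_sum fun r _ => ?_) (hw x hx)
      rw [← sq_abs (x - κ r)]
      exact mul_le_mul (pow_le_pow_left₀ (abs_nonneg _) (res_th_abs _).2.1 2)
        (mul_le_of_le_one_right (sq_nonneg _) g1) (by positivity) (sq_nonneg _)
    · refine (Finset.sum_le_sum fun r _ => mul_le_of_le_one_left (by positivity)
        (pow_le_one₀ (abs_nonneg _) (res_th_abs _).2.2)).trans ?_
      rw [← Finset.sum_mul, parseval_ex p1 hc, one_mul]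
      exact g2 hx

theorem avg_of_near (Φ : Calc H) {Y : Op H} (h : ‖Y - 1‖ ≤ 1 / 4) : Avg Φ Y := by
  refine ⟨0, fun ε _ => ⟨1, fun _ => 1, fun _ => 0, fun _ => zero_le_one, by simp,
    fun _ => ⟨le_rfl, le_rfl⟩, fun η => ?_⟩⟩
  generalize Φ.F (gs ε 0 0) η = ζ
  have e : ⟪ζ, Y ζ⟫_ℂ = ⟪ζ, ζ⟫_ℂ + ⟪ζ, (Y - 1) ζ⟫_ℂ := by
    rw [← inner_add_right, sub_apply, one_apply_eq_self,
      add_sub_cancel]
  have h1 : ‖⟪ζ, (Y - 1) ζ⟫_ℂ‖ ≤ ‖ζ‖ * (1 / 4 * ‖ζ‖) :=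
    (norm_inner_le_norm _ _).trans (mul_le_mul_of_nonneg_left ((ContinuousLinearMap.le_opNorm _ _).trans
      (mul_le_mul_of_nonneg_right h (norm_nonneg _))) (norm_nonneg _))
  have h2 := (abs_le.1 (Complex.abs_re_le_norm ⟪ζ, (Y - 1) ζ⟫_ℂ)).1
  have h3 : (⟪ζ, ζ⟫_ℂ).re = ‖ζ‖ ^ 2 := by
    rw [inner_self_eq_norm_sq_to_K]
    norm_cast
  simp only [neg_zero, Φ.σ_zero, Fin.sum_univ_one, one_mul, e, Complex.add_re, h3]
  nlinarith [sq_nonneg ‖η‖]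

end Vale.Agent.P096b
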