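import Vale.Agent.P096b.GT
import Vale.Agent.P096b.Scale

/-! Spreading by the pinning group. -/

set_option linter.unusedSectionVars false

namespace Vale.Agent.P096b

open Filter Topology Vale.Agent.P096 MeasureTheory
open scoped InnerProductSpace ComplexConjugate

universe u v

variable {H : Type u} [NormedAddCommGroup H] [InnerProductSpace ℂ H] [CompleteSpace H]

variable {A B N D : Alg H} {ξ : H} {Γ : ℕ → Subgroup (UU H)}

/-- The average over a finite group. -/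
noncomputable def favg (K : Subgroup (UU H)) (x : Op H) : Op H :=
  ((Nat.card K : ℂ)⁻¹) • ∑ᶠ γ : K, (γ.1.1 : Op H) * x * star (γ.1.1 : Op H)

section Fin

variable {K : Subgroup (UU H)}

theorem favg_eq [Fintype K] (x : Op H) : favg K x =
    ((Fintype.card K : ℂ)⁻¹) • ∑ γ : K, (γ.1.1 : Op H) * x * star (γ.1.1 : Op H) := by
  rw [favg, finsum_eq_sum_of_fintype, Nat.card_eq_fintype_card]

theorem spr_card [Fintype K] : (Fintype.card K : ℂ) ≠ 0 :=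
  Nat.cast_ne_zero.2 Fintype.card_ne_zero

theorem spr_const [Fintype K] {E : Type*} [AddCommGroup E] [Module ℂ E] (a : E) :
    ((Fintype.card K : ℂ)⁻¹) • ∑ _γ : K, a = a := by
  rw [Finset.sum_const, Finset.card_univ, ← Nat.cast_smul_eq_nsmul ℂ, smul_smul,
    inv_mul_cancel₀ spr_card, one_smul]

theorem favg_mem [Finite K] (hK : ∀ γ ∈ K, (γ.1 : Op H) ∈ A) {x : Op H} (hx : x ∈ A) :
    favg K x ∈ A := by
  have := Fintype.ofFinite K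
  rw [favg_eq]
  exact A.smul_mem (sum_mem fun γ _ =>
    mul_mem (mul_mem (hK _ γ.2) hx) (star_mem (hK _ γ.2))) _

theorem favg_norm [Finite K] (x : Op H) : ‖favg K x‖ ≤ ‖x‖ := by
  have := Fintype.ofFinite K
  have h0 : (0 : ℝ) < Fintype.card K := Nat.cast_pos.2 Fintype.card_pos
  have h1 : ∀ γ : K, ‖(γ.1.1 : Op H) * x * star (γ.1.1 : Op H)‖ = ‖x‖ := fun γ => by
    rw [← Unitary.coe_star, CStarRing.norm_mul_coe_unitary, CStarRing.norm_coe_unitary_mul]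
  rw [favg_eq, norm_smul, norm_inv, Complex.norm_natCast, inv_mul_le_iff₀ h0]
  refine (norm_sum_le _ _).trans ?_
  simp [h1]

theorem favg_star [Finite K] (x : Op H) : star (favg K x) = favg K (star x) := by
  have := Fintype.ofFinite K
  simp [favg_eq, star_sum, mul_assoc]

theorem favg_comm [Finite K] (x : Op H) {γ₀ : UU H} (h : γ₀ ∈ K) :
    (γ₀.1 : Op H) * favg K x = favg K x * γ₀.1 := by
  have := Fintype.ofFinite K
  rw [favg_eq, mul_smul_comm, smul_mul_assoc, Finset.mul_sum, Finset.sum_mul,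
    ← Equiv.sum_comp (Equiv.mulLeft (⟨γ₀, h⟩ : K))
      (fun γ : K => (γ.1.1 : Op H) * x * star (γ.1.1 : Op H) * γ₀.1)]
  congr 1
  refine Finset.sum_congr rfl fun γ _ => ?_
  simp [mul_assoc]

theorem favg_cen [Finite K] {k : Op H} (hk : ∀ γ ∈ K, (γ.1 : Op H) * k = k * γ.1)
    (hk' : ∀ γ ∈ K, star (γ.1 : Op H) * k = k * star (γ.1 : Op H)) (x : Op H) :
    favg K (k * x * k) = k * favg K x * k := by
  have := Fintype.ofFinite K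
  rw [favg_eq, favg_eq, mul_smul_comm, smul_mul_assoc, Finset.mul_sum, Finset.sum_mul]
  congr 1
  refine Finset.sum_congr rfl fun γ _ => ?_
  calc (γ.1.1 : Op H) * (k * x * k) * star (γ.1.1 : Op H)
      = (γ.1.1 * k) * x * (k * star (γ.1.1 : Op H)) := by simp only [mul_assoc]
    _ = _ := by rw [hk _ γ.2, ← hk' _ γ.2]; simp only [mul_assoc]

theorem favg_inner [Fintype K] (a : Op H) (ζ : H) :
    ∑ γ : K, ‖a (star (γ.1.1 : Op H) ζ)‖ ^ 2 =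
      Fintype.card K * (⟪ζ, favg K (star a * a) ζ⟫_ℂ).re := by
  have h1 : (Fintype.card K : ℂ) * ⟪ζ, favg K (star a * a) ζ⟫_ℂ =
      ∑ γ : K, ⟪ζ, ((γ.1.1 : Op H) * (star a * a) * star (γ.1.1 : Op H)) ζ⟫_ℂ := by
    rw [favg_eq, smul_apply, inner_smul_right, ← mul_assoc,
      mul_inv_cancel₀ spr_card, one_mul, sum_apply, inner_sum]
  have h2 := congrArg Complex.re h1
  rw [Complex.re_sum] at h2
  simp only [Complex.mul_re, Complex.natCast_re, Complex.natCast_im, zero_mul, sub_zero] at h2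
  rw [h2]
  refine Finset.sum_congr rfl fun γ _ => ?_
  rw [tl_norm_sq, tl_inner']
  rfl

/-- The average of the products. -/
noncomputable def favP (K : Subgroup (UU H)) : Op H :=
  ((Nat.card K : ℂ)⁻¹) • ∑ᶠ γ : K, (γ.1.1 : Op H) * (γ.1.2 : Op H)

theorem favP_eq [Fintype K] : favP K =
    ((Fintype.card K : ℂ)⁻¹) • ∑ γ : K, (γ.1.1 : Op H) * (γ.1.2 : Op H) := by
  rw [favP, finsum_eq_sum_of_fintype, Nat.card_eq_fintype_card]

theorem favP_left [Finite K]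
    (hc : ∀ γ ∈ K, ∀ γ' ∈ K, (γ.1 : Op H) * γ'.2 = γ'.2 * γ.1) {γ₀ : UU H} (h : γ₀ ∈ K) :
    (γ₀.1 : Op H) * γ₀.2 * favP K = favP K := by
  have := Fintype.ofFinite K
  rw [favP_eq, mul_smul_comm, Finset.mul_sum,
    ← Equiv.sum_comp (Equiv.mulLeft (⟨γ₀, h⟩ : K))
      (fun γ : K => (γ.1.1 : Op H) * (γ.1.2 : Op H))]
  congr 1
  refine Finset.sum_congr rfl fun γ _ => ?_
  calc (γ₀.1 : Op H) * γ₀.2 * (γ.1.1 * γ.1.2) = γ₀.1 * (γ₀.2 * γ.1.1) * γ.1.2 := by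
        simp only [mul_assoc]
    _ = _ := by
      rw [← hc _ γ.2 _ h]
      simp [mul_assoc]

theorem favP_mul {K' : Subgroup (UU H)} [Finite K] [Finite K'] (hle : K ≤ K')
    (hc : ∀ γ ∈ K', ∀ γ' ∈ K', (γ.1 : Op H) * γ'.2 = γ'.2 * γ.1) :
    favP K * favP K' = favP K' := by
  have := Fintype.ofFinite K
  rw [favP_eq (K := K), smul_mul_assoc, Finset.sum_mul,
    Finset.sum_congr rfl fun (γ : K) _ => favP_left hc (hle γ.2), spr_const]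

theorem favP_proj [Finite K]
    (hc : ∀ γ ∈ K, ∀ γ' ∈ K, (γ.1 : Op H) * γ'.2 = γ'.2 * γ.1) :
    IsStarProjection (favP K) := by
  refine ⟨favP_mul le_rfl hc, ?_⟩
  have := Fintype.ofFinite K
  rw [IsSelfAdjoint, favP_eq, star_smul, star_sum, ← Equiv.sum_comp (Equiv.inv K)
      (fun γ : K => (γ.1.1 : Op H) * (γ.1.2 : Op H))]
  congr 1
  · simp
  · refine Finset.sum_congr rfl fun γ _ => ?_
    rw [← hc _ γ.2 _ γ.2 |>.symm, star_mul]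
    rfl

end Fin

theorem spr_fix {g h : unitary (Op H)} {ξ : H} (hf : (g : Op H) ((h : Op H) ξ) = ξ) :
    star (g : Op H) ξ = (h : Op H) ξ := by
  conv_lhs => rw [← hf]
  rw [← mul_apply_eq_comp, Unitary.coe_star_mul_self]
  rfl

theorem Pin.favg_vec (h : Pin A B ξ Γ) {x : Op H} (hx : x ∈ A) (n : ℕ) :
    favg (Γ n) x ξ = favP (Γ n) (x ξ) := by
  have := h.fin n
  have := Fintype.ofFinite (Γ n)
  rw [favg_eq, favP_eq]
  simp only [smul_apply, sum_apply,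
    mul_apply_eq_comp]
  congr 1
  refine Finset.sum_congr rfl fun γ _ => ?_
  rw [spr_fix (h.fix n _ γ.2), h.cp.app hx (h.memB n _ γ.2)]

theorem Pin.favg_state (h : Pin A B ξ Γ) {x : Op H} (hx : x ∈ A) (n : ℕ) :
    ⟪ξ, favg (Γ n) x ξ⟫_ℂ = ⟪ξ, x ξ⟫_ℂ := by
  have := h.fin n
  have := Fintype.ofFinite (Γ n)
  have h1 : ∀ γ : Γ n, ⟪ξ, ((γ.1.1 : Op H) * x * star (γ.1.1 : Op H)) ξ⟫_ℂ = ⟪ξ, x ξ⟫_ℂ := by
    intro γ
    rw [mul_apply_eq_comp, mul_apply_eq_comp, ← tl_inner',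
      spr_fix (h.fix n _ γ.2), h.cp.app hx (h.memB n _ γ.2), tl_inner,
      ← mul_apply_eq_comp, Unitary.coe_star_mul_self]
    rfl
  rw [favg_eq, smul_apply, inner_smul_right, sum_apply,
    inner_sum, Finset.sum_congr rfl fun γ _ => h1 γ, ← smul_eq_mul, spr_const]

/-- The averages converge strongly to a central element. `favg (Γ n) x ξ = P n (x ξ)` where the
averages `P n` of the `γ.1 γ.2` are decreasing projections (`tl_decr` with `A = ⊤`, or a direct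
Cauchy argument); a weak limit point `z` (`tl_ulim`) lies in `A`, commutes with all `γ.1` and has
`z ξ = lim P n (x ξ)`; use `Cyc.strong`. -/
theorem Pin.expect (h : Pin A B ξ Γ) {x : Op H} (hx : x ∈ A) : ∃ z ∈ A, z ∈ B ∧
    ⟪ξ, z ξ⟫_ℂ = ⟪ξ, x ξ⟫_ℂ ∧ ∀ η, Tendsto (fun n => favg (Γ n) x η) atTop (𝓝 (z η)) := by
  have hf := h.fin
  have hc : ∀ n, ∀ γ ∈ Γ n, ∀ γ' ∈ Γ n, (γ.1 : Op H) * γ'.2 = γ'.2 * γ.1 := fun n γ hγ γ' hγ' =>
    (h.cp.left _).1 (h.memA n γ hγ) _ (h.memB n γ' hγ')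
  obtain ⟨e, -, -, -, he⟩ := tl_decr (cp_cm (∅ : Set (Op H))) (fun n => favP (Γ n))
    (fun n => favP_proj (hc n)) (fun n => mem_cm.2 fun y hy => hy.elim)
    (fun n => favP_mul (h.mono (Nat.le_succ n)) (hc (n + 1)))
  obtain ⟨z, hz⟩ := tl_ulim (Ultrafilter.of (atTop : Filter ℕ)) (fun n => favg (Γ n) x) ‖x‖
    fun n => favg_norm x
  have hle : (Ultrafilter.of (atTop : Filter ℕ) : Filter ℕ) ≤ atTop := Ultrafilter.of_le _
  have hA : ∀ n, favg (Γ n) x ∈ A := fun n => favg_mem (h.memA n) hx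
  have zA : z ∈ A := CP.weak h.cp (Eventually.of_forall hA) hz
  have zB : z ∈ B := by
    refine h.irrA z zA fun m γ hγ => ?_
    have h1 : z ∈ cm {(γ.1 : Op H)} := by
      refine CP.weak (cp_cm _) (hle ?_) hz
      filter_upwards [eventually_ge_atTop m] with n hn
      refine mem_cm.2 fun y hy => ?_
      rw [Set.mem_singleton_iff.1 hy]
      exact ⟨(favg_comm x (h.mono hn hγ)).symm,
        (favg_comm x (inv_mem (h.mono hn hγ))).symm⟩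
    exact (mem_cm.1 h1 _ rfl).1.symm
  have h1 : Tendsto (fun n => favg (Γ n) x ξ) atTop (𝓝 (e (x ξ))) := by
    simp only [h.favg_vec hx]
    exact he _
  have h2 : e (x ξ) = z ξ := ext_inner_left ℂ fun η =>
    tendsto_nhds_unique ((tendsto_const_nhds.inner h1).mono_left hle) (hz ξ η)
  rw [h2] at h1
  refine ⟨z, zA, zB, ?_, Cyc.strong h.cycB (fun n => favg_norm x) fun b hb => ?_⟩
  · have h3 : Tendsto (fun n => ⟪ξ, favg (Γ n) x ξ⟫_ℂ) atTop (𝓝 ⟪ξ, z ξ⟫_ℂ) :=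
      tendsto_const_nhds.inner h1
    simp only [h.favg_state hx] at h3
    exact tendsto_nhds_unique h3 tendsto_const_nhds
  · simp only [h.cp.app (hA _) hb, h.cp.app zA hb]
    exact (b.continuous.tendsto _).comp h1

theorem Pin.expect_pos (h : Pin A B ξ Γ) {a : Op H} (ha : a ∈ A) : ∃ z ∈ A, z ∈ B ∧ star z = z ∧
    (∀ ζ, 0 ≤ (⟪ζ, z ζ⟫_ℂ).re) ∧ (⟪ξ, z ξ⟫_ℂ).re = ‖a ξ‖ ^ 2 ∧
    ∀ η, Tendsto (fun n => favg (Γ n) (star a * a) η) atTop (𝓝 (z η)) := by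
  have hf := h.fin
  obtain ⟨z, zA, zB, h1, h2⟩ := h.expect (mul_mem (star_mem ha) ha)
  refine ⟨z, zA, zB, ?_, fun ζ => ?_, by rw [h1, tl_norm_sq], h2⟩
  · ext ζ
    refine ext_inner_left ℂ fun η => ?_
    have h3 : Tendsto (fun n => ⟪favg (Γ n) (star a * a) η, ζ⟫_ℂ) atTop (𝓝 ⟪z η, ζ⟫_ℂ) :=
      (h2 η).inner tendsto_const_nhds
    have h4 : Tendsto (fun n => ⟪η, favg (Γ n) (star a * a) ζ⟫_ℂ) atTop (𝓝 ⟪η, z ζ⟫_ℂ) :=
      tendsto_const_nhds.inner (h2 ζ)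
    simp only [tl_inner, favg_star, star_mul, star_star] at h3
    exact tendsto_nhds_unique h3 h4
  · have h4 : Tendsto (fun n => (⟪ζ, favg (Γ n) (star a * a) ζ⟫_ℂ).re) atTop
        (𝓝 (⟪ζ, z ζ⟫_ℂ).re) :=
      (Complex.continuous_re.tendsto _).comp (tendsto_const_nhds.inner (h2 ζ))
    refine ge_of_tendsto' h4 fun n => ?_
    have := Fintype.ofFinite (Γ n)
    have h0 : (0 : ℝ) < Fintype.card (Γ n) := Nat.cast_pos.2 Fintype.card_pos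
    refine nonneg_of_mul_nonneg_right ?_ h0
    rw [← favg_inner]
    positivity

theorem Pin.cut (h : Pin A B ξ Γ) {a z : Op H} (ha : a ∈ A) (zA : z ∈ A) (zB : z ∈ B)
    (zs : star z = z) {s : ℝ} (hz : ∀ ζ, (⟪ζ, z ζ⟫_ℂ).re ≤ ‖ζ‖ ^ 2)
    (hl : ∀ ζ, Tendsto (fun n => ((s : ℂ) • favg (Γ n) (star a * a)) ζ) atTop (𝓝 (z ζ))) :
    ∃ q : ℕ → Op H, (∀ n, q n ∈ A ∧ star (q n) = q n ∧ ‖q n‖ ≤ 1 ∧
      (∀ γ ∈ Γ n, (γ.1 : Op H) * q n = q n * γ.1) ∧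
      ∀ ζ, s * (⟪q n ζ, favg (Γ n) (star a * a) (q n ζ)⟫_ℂ).re ≤ 2 * ‖ζ‖ ^ 2) ∧
      ∀ ζ, Tendsto (fun n => q n ζ) atTop (𝓝 ζ) := by
  have hf := h.fin
  obtain ⟨d, hd⟩ : ∃ d : ℕ → Op H, ∀ n, d n = (s : ℂ) • favg (Γ n) (star a * a) - z :=
    ⟨_, fun _ => rfl⟩
  have ds : ∀ n, star (d n) = d n := fun n => by
    simp [hd, favg_star, zs]
  have dA : ∀ n, d n ∈ A := fun n => hd n ▸ sub_mem
    (A.smul_mem (favg_mem (h.memA n) (mul_mem (star_mem ha) ha)) _) zA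
  choose q q1 q2 q3 q4 q5 using fun n => exists_cut (d n) (ds n)
  refine ⟨q, fun n => ⟨?_, q1 n, q2 n, fun γ hγ => q5 n _ ?_, fun ζ => ?_⟩, fun ζ => ?_⟩
  · exact (h.cp.left _).2 fun y hy => (q5 n y ((h.cp.right _).1 hy _ (dA n))).symm
  · rw [hd, mul_sub, sub_mul, mul_smul_comm, smul_mul_assoc, favg_comm _ hγ,
      (h.cp.left _).1 (h.memA n γ hγ) z zB]
  · have e1 : ‖q n ζ‖ ^ 2 + ‖d n (q n ζ)‖ ^ 2 = ‖ζ‖ ^ 2 := by
      have h1 : ⟪ζ, (q n * (1 + d n * d n) * q n) ζ⟫_ℂ = ⟪ζ, ζ⟫_ℂ := by rw [q3]; rfl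
      rw [mul_apply_eq_comp, mul_apply_eq_comp, ← tl_inner', q1, add_apply, inner_add_right]
        at h1
      have h2 := congrArg Complex.re h1
      rw [Complex.add_re] at h2
      rw [tl_norm_sq (d n), ds, ← inner_self_eq_norm_sq (𝕜 := ℂ),
        ← inner_self_eq_norm_sq (𝕜 := ℂ)]
      exact h2
    have e2 : s * (⟪q n ζ, favg (Γ n) (star a * a) (q n ζ)⟫_ℂ).re =
        (⟪q n ζ, d n (q n ζ)⟫_ℂ).re + (⟪q n ζ, z (q n ζ)⟫_ℂ).re := by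
      rw [hd, sub_apply, inner_sub_right, Complex.sub_re, sub_add_cancel, smul_apply,
        inner_smul_right, Complex.re_ofReal_mul]
    have e3 : (⟪q n ζ, d n (q n ζ)⟫_ℂ).re ≤ ‖q n ζ‖ * ‖d n (q n ζ)‖ :=
      (Complex.re_le_norm _).trans (norm_inner_le_norm _ _)
    nlinarith [hz (q n ζ), sq_nonneg (‖q n ζ‖ - ‖d n (q n ζ)‖), sq_nonneg ‖d n (q n ζ)‖]
  · rw [tendsto_iff_norm_sub_tendsto_zero]
    refine squeeze_zero (fun _ => norm_nonneg _) (fun n => q4 n ζ) ?_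
    simp only [hd, sub_apply]
    exact tendsto_iff_norm_sub_tendsto_zero.1 (hl ζ)

theorem spr_sand {K : Subgroup (UU H)} [Finite K] {p q : Op H} (a : Op H) (hp : ‖p‖ ≤ 1)
    (hq : ∀ γ ∈ K, (γ.1 : Op H) * q = q * γ.1) (ζ : H) :
    (⟪ζ, favg K (star (p * a * q) * (p * a * q)) ζ⟫_ℂ).re ≤
      (⟪q ζ, favg K (star a * a) (q ζ)⟫_ℂ).re := by
  have := Fintype.ofFinite K
  have h0 : (0 : ℝ) < Fintype.card K := Nat.cast_pos.2 Fintype.card_pos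
  refine le_of_mul_le_mul_left ?_ h0
  rw [← favg_inner, ← favg_inner]
  refine Finset.sum_le_sum fun γ _ => pow_le_pow_left₀ (norm_nonneg _) ?_ 2
  have h1 : star (γ.1.1 : Op H) * q = q * star (γ.1.1 : Op H) := hq _ (inv_mem γ.2)
  have h2 : star (γ.1.1 : Op H) (q ζ) = q (star (γ.1.1 : Op H) ζ) := by
    rw [← mul_apply_eq_comp, h1, mul_apply_eq_comp]
  rw [h2, mul_apply_eq_comp, mul_apply_eq_comp]
  exact (p.le_opNorm _).trans (mul_le_of_le_one_left (norm_nonneg _) hp)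

/-- The conclusion of the inequality of Grothendieck type. -/
def SprG (A N D : Alg H) (ξ : H) (η : ℝ) : Prop :=
  ∀ (ι : Type) [Fintype ι] (x y : ι → Op H) (c r : ℝ) (l : Op H),
    0 < c → 0 < r → (∀ i, x i ∈ A) → (∀ i, y i ∈ D) → l ∈ N →
    l ∈ D → star l = l → (∀ ζ, ∑ i, ‖x i ζ‖ ^ 2 ≤ c * ‖ζ‖ ^ 2) →
    (∀ ζ, ∑ i, ‖star (x i) ζ‖ ^ 2 ≤ r * ‖ζ‖ ^ 2) →
    ‖∑ i, (⟪star (x i) (l ξ), y i ξ⟫_ℂ - ⟪star (y i) ξ, x i (l ξ)⟫_ℂ)‖ ≤
      η * ‖l ξ‖ * (√r * √(∑ i, ‖y i ξ‖ ^ 2) + √c * √(∑ i, ‖star (y i) ξ‖ ^ 2))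

theorem SprG.univ {η : ℝ} (hg : SprG A N D ξ η) (ι : Type u) [Fintype ι] (x y : ι → Op H)
    {c r : ℝ} {l : Op H} (hc : 0 < c) (hr : 0 < r) (hx : ∀ i, x i ∈ A) (hy : ∀ i, y i ∈ D)
    (lN : l ∈ N) (lD : l ∈ D) (ls : star l = l) (col : ∀ ζ, ∑ i, ‖x i ζ‖ ^ 2 ≤ c * ‖ζ‖ ^ 2)
    (row : ∀ ζ, ∑ i, ‖star (x i) ζ‖ ^ 2 ≤ r * ‖ζ‖ ^ 2) :
    ‖∑ i, (⟪star (x i) (l ξ), y i ξ⟫_ℂ - ⟪star (y i) ξ, x i (l ξ)⟫_ℂ)‖ ≤
      η * ‖l ξ‖ * (√r * √(∑ i, ‖y i ξ‖ ^ 2) + √c * √(∑ i, ‖star (y i) ξ‖ ^ 2)) := by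
  have e := (Fintype.equivFin ι).symm
  have h := hg _ (fun i => x (e i)) (fun i => y (e i)) c r l hc hr (fun _ => hx _) (fun _ => hy _)
    lN lD ls (fun ζ => by rw [e.sum_comp fun i => ‖x i ζ‖ ^ 2]; exact col ζ)
    (fun ζ => by rw [e.sum_comp fun i => ‖star (x i) ζ‖ ^ 2]; exact row ζ)
  rwa [e.sum_comp fun i => ⟪star (x i) (l ξ), y i ξ⟫_ℂ - ⟪star (y i) ξ, x i (l ξ)⟫_ℂ,
    e.sum_comp fun i => ‖y i ξ‖ ^ 2, e.sum_comp fun i => ‖star (y i) ξ‖ ^ 2] at h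

theorem spr_left (h : Pin A B ξ Γ) {X l : Op H} (hX : X ∈ A) (lA : l ∈ A) (lB : l ∈ B) {n : ℕ}
    {γ : UU H} (hγ : γ ∈ Γ n) : ((γ.1 : Op H) * X * star (γ.1 : Op H)) (l ξ) =
      (γ.1 : Op H) ((γ.2 : Op H) (X (l ξ))) := by
  rw [mul_apply_eq_comp, mul_apply_eq_comp, h.cp.app (star_mem (h.memA n γ hγ)) lB,
    spr_fix (h.fix n γ hγ), h.cp.app lA (h.memB n γ hγ), h.cp.app hX (h.memB n γ hγ)]

theorem spr_right (h : Pin N D ξ Γ) {y : Op H} (hy : y ∈ D) {n : ℕ}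
    {γ : UU H} (hγ : γ ∈ Γ n) : ((γ.2 : Op H) * y * star (γ.2 : Op H)) ξ =
      (γ.1 : Op H) ((γ.2 : Op H) (y ξ)) := by
  have h1 : (γ.2 : Op H) ((γ.1 : Op H) ξ) = ξ := by
    rw [← h.cp.app (h.memA n γ hγ) (h.memB n γ hγ), h.fix n γ hγ]
  rw [mul_apply_eq_comp, mul_apply_eq_comp, spr_fix h1, ← h.cp.app (h.memA n γ hγ) hy,
    h.cp.app (h.memA n γ hγ) (h.memB n γ hγ)]

theorem spr_inner (g : unitary (Op H)) (ζ η : H) :
    ⟪(g : Op H) ζ, (g : Op H) η⟫_ℂ = ⟪ζ, η⟫_ℂ := by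
  rw [tl_inner, ← mul_apply_eq_comp, Unitary.coe_star_mul_self]
  rfl

theorem spr_fin (h : Pin2 A B N D ξ Γ) {η : ℝ} (hg : SprG A N D ξ η) {X y l : Op H}
    (hX : X ∈ A) (hy : y ∈ D) (lA : l ∈ A) (lB : l ∈ B) (ls : star l = l) (n : ℕ) {c r : ℝ}
    (hc : 0 < c) (hr : 0 < r)
    (col : ∀ ζ, (⟪ζ, favg (Γ n) (star X * X) ζ⟫_ℂ).re ≤ c * ‖ζ‖ ^ 2)
    (row : ∀ ζ, (⟪ζ, favg (Γ n) (star (star X) * star X) ζ⟫_ℂ).re ≤ r * ‖ζ‖ ^ 2) :
    ‖⟪star X (l ξ), y ξ⟫_ℂ - ⟪star y ξ, X (l ξ)⟫_ℂ‖ ≤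
      η * ‖l ξ‖ * (√r * ‖y ξ‖ + √c * ‖star y ξ‖) := by
  have := h.left.fin n
  have := Fintype.ofFinite (Γ n)
  have h0 : (0 : ℝ) < Fintype.card (Γ n) := Nat.cast_pos.2 Fintype.card_pos
  have hs : ∀ (g : unitary (Op H)) (x : Op H), star ((g : Op H) * x * star (g : Op H)) =
      (g : Op H) * star x * star (g : Op H) := fun g x => by simp [mul_assoc]
  have hn : ∀ (g : unitary (Op H)) (x : Op H) (ζ : H), ‖((g : Op H) * x * star (g : Op H)) ζ‖ =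
      ‖x (star (g : Op H) ζ)‖ := fun g x ζ => by
    rw [mul_apply_eq_comp, mul_apply_eq_comp, unitary_norm g.2]
  have key := hg.univ (Γ n) (fun γ => (γ.1.1 : Op H) * X * star (γ.1.1 : Op H))
    (fun γ => (γ.1.2 : Op H) * y * star (γ.1.2 : Op H)) (mul_pos h0 hc) (mul_pos h0 hr)
    (fun γ => mul_mem (mul_mem (h.left.memA n _ γ.2) hX) (star_mem (h.left.memA n _ γ.2)))
    (fun γ => mul_mem (mul_mem (h.right.memB n _ γ.2) hy) (star_mem (h.right.memB n _ γ.2)))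
    ((h.cen l).1 ⟨lA, lB⟩).1 ((h.cen l).1 ⟨lA, lB⟩).2 ls
    (fun ζ => by
      simp only [hn]
      rw [favg_inner, mul_assoc]
      exact mul_le_mul_of_nonneg_left (col ζ) h0.le)
    (fun ζ => by
      simp only [hs, hn]
      rw [favg_inner, mul_assoc]
      exact mul_le_mul_of_nonneg_left (row ζ) h0.le)
  have e1 : ∀ γ : Γ n, ⟪star ((γ.1.1 : Op H) * X * star (γ.1.1 : Op H)) (l ξ),
      ((γ.1.2 : Op H) * y * star (γ.1.2 : Op H)) ξ⟫_ℂ -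
      ⟪star ((γ.1.2 : Op H) * y * star (γ.1.2 : Op H)) ξ,
      ((γ.1.1 : Op H) * X * star (γ.1.1 : Op H)) (l ξ)⟫_ℂ =
      ⟪star X (l ξ), y ξ⟫_ℂ - ⟪star y ξ, X (l ξ)⟫_ℂ := fun γ => by
    rw [hs, hs, spr_left h.left (star_mem hX) lA lB γ.2, spr_left h.left hX lA lB γ.2,
      spr_right h.right hy γ.2, spr_right h.right (star_mem hy) γ.2]
    simp only [spr_inner]
  have e2 : ∀ γ : Γ n, ‖((γ.1.2 : Op H) * y * star (γ.1.2 : Op H)) ξ‖ = ‖y ξ‖ := fun γ => by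
    rw [spr_right h.right hy γ.2, unitary_norm γ.1.1.2, unitary_norm γ.1.2.2]
  have e3 : ∀ γ : Γ n, ‖star ((γ.1.2 : Op H) * y * star (γ.1.2 : Op H)) ξ‖ = ‖star y ξ‖ :=
    fun γ => by
    rw [hs, spr_right h.right (star_mem hy) γ.2, unitary_norm γ.1.1.2, unitary_norm γ.1.2.2]
  simp only [e1, e2, e3, Finset.sum_const, Finset.card_univ, nsmul_eq_mul, norm_mul,
    Complex.norm_natCast, Real.sqrt_mul h0.le, Real.sqrt_sq (norm_nonneg _)] at key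
  refine le_of_mul_le_mul_left (key.trans (le_of_eq ?_)) h0
  have e4 := Real.mul_self_sqrt h0.le
  linear_combination η * ‖l ξ‖ * (√r * ‖y ξ‖ + √c * ‖star y ξ‖) * e4

theorem spr_lim {p : ℕ → Op H} {v : ℕ → H} {w : H} (h1 : ∀ n, ‖p n‖ ≤ 1)
    (h2 : ∀ ζ, Tendsto (fun n => p n ζ) atTop (𝓝 ζ)) (h3 : Tendsto v atTop (𝓝 w)) :
    Tendsto (fun n => p n (v n)) atTop (𝓝 w) := by
  have h4 : Tendsto (fun n => p n (v n - w)) atTop (𝓝 0) :=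
    squeeze_zero_norm (fun n => ((p n).le_opNorm _).trans
      (mul_le_of_le_one_left (norm_nonneg _) (h1 n))) (tendsto_iff_norm_sub_tendsto_zero.1 h3)
  simpa using h4.add (h2 w)

theorem spr_eps (h : Pin2 A B N D ξ Γ) {η : ℝ} (hg : SprG A N D ξ η) {x y : Op H} (hx : x ∈ A)
    (hy : y ∈ D) {t ε : ℝ} (ht : 0 < t) (hε : 0 < ε) :
    ‖⟪star x ξ, y ξ⟫_ℂ - ⟪star y ξ, x ξ⟫_ℂ‖ ≤ η * √(‖x ξ‖ ^ 2 + t * ‖star x ξ‖ ^ 2 + ε) *
      (√(2 / t) * ‖y ξ‖ + √2 * ‖star y ξ‖) := by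
  have hf := h.left.fin
  have cp := h.left.cp
  obtain ⟨z₁, zA₁, zB₁, zs₁, zp₁, ze₁, zl₁⟩ := h.left.expect_pos hx
  obtain ⟨z₂, zA₂, zB₂, zs₂, zp₂, ze₂, zl₂⟩ := h.left.expect_pos (star_mem hx)
  have hre : ∀ ζ, (⟪ζ, (z₁ + (t : ℂ) • z₂) ζ⟫_ℂ).re =
      (⟪ζ, z₁ ζ⟫_ℂ).re + t * (⟪ζ, z₂ ζ⟫_ℂ).re := fun ζ => by
    rw [add_apply, inner_add_right, Complex.add_re, smul_apply, inner_smul_right,
      Complex.re_ofReal_mul]
  obtain ⟨l, k, ls, ks, lk, kl, ll, -, -, hc⟩ := exists_sqrt (z₁ + (t : ℂ) • z₂)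
    (by simp [zs₁, zs₂]) (fun ζ => by
      rw [hre]; exact add_nonneg (zp₁ ζ) (mul_nonneg ht.le (zp₂ ζ))) ε hε
  have aA : z₁ + (t : ℂ) • z₂ ∈ A := add_mem zA₁ (A.smul_mem zA₂ _)
  have aB : z₁ + (t : ℂ) • z₂ ∈ B := add_mem zB₁ (B.smul_mem zB₂ _)
  have lA : l ∈ A := (cp.left _).2 fun b hb => (hc b ((cp.right _).1 hb _ aA)).1.symm
  have kA : k ∈ A := (cp.left _).2 fun b hb => (hc b ((cp.right _).1 hb _ aA)).2.symm
  have lB : l ∈ B := (cp.right _).2 fun b hb => (hc b ((cp.left _).1 hb _ aB)).1.symm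
  have kB : k ∈ B := (cp.right _).2 fun b hb => (hc b ((cp.left _).1 hb _ aB)).2.symm
  have nl : ∀ ζ, ‖l ζ‖ ^ 2 = (⟪ζ, z₁ ζ⟫_ℂ).re + t * (⟪ζ, z₂ ζ⟫_ℂ).re + ε * ‖ζ‖ ^ 2 := fun ζ => by
    rw [tl_norm_sq, ls, ll, add_apply, inner_add_right, Complex.add_re, hre, smul_apply,
      inner_smul_right, Complex.re_ofReal_mul, ← inner_self_eq_norm_sq (𝕜 := ℂ)]
    rfl
  have nk : ∀ ζ, (⟪ζ, (k * z₁ * k) ζ⟫_ℂ).re + t * (⟪ζ, (k * z₂ * k) ζ⟫_ℂ).re ≤ ‖ζ‖ ^ 2 :=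
    fun ζ => by
    have h1 := nl (k ζ)
    rw [← mul_apply_eq_comp, lk, tl_inner k, tl_inner k, ks] at h1
    exact (le_add_of_nonneg_right (by positivity)).trans h1.ge
  have pk : ∀ z : Op H, (∀ ζ, 0 ≤ (⟪ζ, z ζ⟫_ℂ).re) → ∀ ζ, 0 ≤ (⟪ζ, (k * z * k) ζ⟫_ℂ).re :=
    fun z hz ζ => by
    have h1 := hz (k ζ)
    rwa [tl_inner, ks] at h1
  have cen : ∀ n a, favg (Γ n) (k * a * k) = k * favg (Γ n) a * k := fun n a =>
    favg_cen (fun γ hγ => (cp.left _).1 (h.left.memA n γ hγ) _ kB)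
      (fun γ hγ => (cp.left _).1 (star_mem (h.left.memA n γ hγ)) _ kB) a
  have x1 : x * k ∈ A := mul_mem hx kA
  have e1 : star (x * k) * (x * k) = k * (star x * x) * k := by
    rw [star_mul, ks]; simp only [mul_assoc]
  have e2 : star (star (x * k)) * star (x * k) = k * (star (star x) * star x) * k := by
    rw [(cp.left _).1 hx _ kB, star_star, star_star, star_mul, ks]; simp only [mul_assoc]
  obtain ⟨q, hq, ql⟩ := h.left.cut (z := k * z₁ * k) (s := 1) x1 (mul_mem (mul_mem kA zA₁) kA)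
    (mul_mem (mul_mem kB zB₁) kB) (by simp [ks, zs₁, mul_assoc])
    (fun ζ => le_trans (le_add_of_nonneg_right (mul_nonneg ht.le (pk _ zp₂ ζ))) (nk ζ))
    (fun ζ => by
      simp only [e1, cen, Complex.ofReal_one, one_smul, mul_apply_eq_comp]
      exact (k.continuous.tendsto _).comp (zl₁ _))
  obtain ⟨p, hp, pl⟩ := h.left.cut (z := (t : ℂ) • (k * z₂ * k)) (s := t) (star_mem x1)
    (A.smul_mem (mul_mem (mul_mem kA zA₂) kA) _) (B.smul_mem (mul_mem (mul_mem kB zB₂) kB) _)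
    (by simp [ks, zs₂, mul_assoc])
    (fun ζ => by
      rw [smul_apply, inner_smul_right, Complex.re_ofReal_mul]
      exact le_trans (le_add_of_nonneg_left (pk _ zp₁ ζ)) (nk ζ))
    (fun ζ => by
      simp only [e2, cen, smul_apply, mul_apply_eq_comp]
      exact ((k.continuous.tendsto _).comp (zl₂ _)).const_smul _)
  have hs : ∀ n, star (p n * (x * k) * q n) = q n * star (x * k) * p n := fun n => by
    rw [star_mul, star_mul (p n), (hp n).2.1, (hq n).2.1, mul_assoc]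
  have key : ∀ n, ‖⟪q n (star (x * k) (p n (l ξ))), y ξ⟫_ℂ -
      ⟪star y ξ, p n ((x * k) (q n (l ξ)))⟫_ℂ‖ ≤
      η * ‖l ξ‖ * (√(2 / t) * ‖y ξ‖ + √2 * ‖star y ξ‖) := fun n => by
    have h1 := spr_fin h hg (mul_mem (mul_mem (hp n).1 x1) (hq n).1) hy lA lB ls n two_pos
      (div_pos two_pos ht) (fun ζ => by
        refine (spr_sand _ (hp n).2.2.1 (hq n).2.2.2.1 ζ).trans ?_
        simpa using (hq n).2.2.2.2 ζ)
      (fun ζ => by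
        rw [hs]
        refine (spr_sand _ (hq n).2.2.1 (hp n).2.2.2.1 ζ).trans ?_
        rw [div_mul_eq_mul_div, le_div_iff₀' ht]
        exact (hp n).2.2.2.2 ζ)
    rwa [hs] at h1
  have l1 : Tendsto (fun n => q n (star (x * k) (p n (l ξ)))) atTop (𝓝 (star x ξ)) := by
    have h1 : star (x * k) (l ξ) = star x ξ := by
      rw [(cp.left _).1 hx _ kB, star_mul, ks, mul_apply_eq_comp, ← mul_apply_eq_comp k, kl]
      rfl
    rw [← h1]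
    exact spr_lim (fun n => (hq n).2.2.1) ql (((star (x * k)).continuous.tendsto _).comp (pl _))
  have l2 : Tendsto (fun n => p n ((x * k) (q n (l ξ)))) atTop (𝓝 (x ξ)) := by
    have h1 : (x * k) (l ξ) = x ξ := by
      rw [mul_apply_eq_comp, ← mul_apply_eq_comp k, kl]
      rfl
    rw [← h1]
    exact spr_lim (fun n => (hp n).2.2.1) pl (((x * k).continuous.tendsto _).comp (ql _))
  have e3 : √(‖x ξ‖ ^ 2 + t * ‖star x ξ‖ ^ 2 + ε) = ‖l ξ‖ := by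
    rw [← Real.sqrt_sq (norm_nonneg (l ξ)), nl, ze₁, ze₂, h.left.norm, one_pow, mul_one]
  rw [e3]
  exact le_of_tendsto' ((l1.inner tendsto_const_nhds).sub (tendsto_const_nhds.inner l2)).norm key

theorem spr_num {a b t : ℝ} (ht : 0 < t) :
    √(2 / t) * a + √2 * b ≤ 2 * √(b ^ 2 + a ^ 2 / t) := by
  have h1 : √(2 / t) ^ 2 = 2 / t := Real.sq_sqrt (by positivity)
  have h2 : √2 ^ 2 = 2 := Real.sq_sqrt (by positivity)
  have h3 : √(b ^ 2 + a ^ 2 / t) ^ 2 = b ^ 2 + a ^ 2 / t := Real.sq_sqrt (by positivity)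
  refine le_of_sq_le_sq ?_ (by positivity)
  have h4 : (√(2 / t) * a) ^ 2 = 2 * (a ^ 2 / t) := by rw [mul_pow, h1]; ring
  have h5 : (√2 * b) ^ 2 = 2 * b ^ 2 := by rw [mul_pow, h2]
  nlinarith [sq_nonneg (√(2 / t) * a - √2 * b)]

/-- Let `z₁, z₂` be the limits for `x* x` and `t x x*`, `l = (z₁ + z₂ + ε) ^ (1/2)`, `k = l⁻¹`
(`exists_sqrt`, central for both pairs), `x₁ = x k`. The limits for `x₁* x₁` and `t x₁ x₁*` are
`k z₁ k ≤ 1`, `k z₂ k ≤ 1`. For `K = Γ n` let `q`, `p` be the cut-offs (`exists_cut`) of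
`favg K (x₁* x₁) - k z₁ k` and `favg K (t x₁ x₁*) - k z₂ k`; they commute with the `γ.1`, `γ ∈ K`,
lie in `A` and tend strongly to `1`. Since `d ≤ 1/4 + d d`, the family
`|K| ^ (-1/2) γ.1 (p x₁ q) γ.1*` has column bound `5/4` and row bound `5 / (4 t)`. Apply `gt` with
`y γ = |K| ^ (-1/2) γ.2 y γ.2*`; conjugating by `w = γ.1 γ.2`, which fixes `ξ` and `l ξ`, every
term equals `|K|⁻¹ (⟪q x₁* p l ξ, y ξ⟫ - ⟪y* ξ, p x₁ q l ξ⟫)`. Let `n → ∞`, `ε → 0`. -/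
theorem spread (hH : HyperStmt.{u}) (η : ℝ) (hη : 0 < η) : ∃ δ : ℝ, 0 < δ ∧
    ∀ (H : Type u) [NormedAddCommGroup H] [InnerProductSpace ℂ H] [CompleteSpace H]
      (A B N D : Alg H) (ξ : H) (Γ : ℕ → Subgroup (UU H)), Pin2 A B N D ξ Γ → Near D B δ →
      Scale A D ξ η := by
  obtain ⟨δ, δ0, hδ⟩ := gt hH (η / 2) (half_pos hη)
  refine ⟨δ, δ0, fun H _ _ _ A B N D ξ Γ h hn x hx y hy t ht => ?_⟩
  have hg : SprG A N D ξ (η / 2) := fun ι _ x y c r l =>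
    hδ H A B N D ι x y c r l ξ h.left.cp h.right.cp hn
  have h1 : ∀ ε : ℝ, 0 < ε → ‖⟪star x ξ, y ξ⟫_ℂ - ⟪star y ξ, x ξ⟫_ℂ‖ ≤
      η * √(‖x ξ‖ ^ 2 + t * ‖star x ξ‖ ^ 2 + ε) * √(‖star y ξ‖ ^ 2 + ‖y ξ‖ ^ 2 / t) := by
    intro ε hε
    refine (spr_eps h hg hx hy ht hε).trans
      ((mul_le_mul_of_nonneg_left (spr_num ht) (by positivity)).trans (le_of_eq ?_))
    ring
  have h2 : Continuous fun ε : ℝ =>
      η * √(‖x ξ‖ ^ 2 + t * ‖star x ξ‖ ^ 2 + ε) * √(‖star y ξ‖ ^ 2 + ‖y ξ‖ ^ 2 / t) := by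
    fun_prop
  have h3 := (h2.tendsto 0).mono_left (nhdsWithin_le_nhds (s := Set.Ioi 0))
  rw [add_zero] at h3
  exact ge_of_tendsto h3 (eventually_mem_nhdsWithin.mono h1)

end Vale.Agent.P096b
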