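import Vale.Agent.P096b.CalcOf

/-! The construction of Rieffel and van Daele. -/

set_option linter.unusedSectionVars false

namespace Vale.Agent.P096b

open Filter Topology Vale.Agent.P096 MeasureTheory
open scoped InnerProductSpace ComplexConjugate

universe u v

variable {H : Type u} [NormedAddCommGroup H] [InnerProductSpace ℂ H] [CompleteSpace H]

namespace PreExX

open Complex (I)

theorem exists_proj (K : Submodule ℝ H) (hK : IsClosed (K : Set H)) : ∃ P : H →L[ℝ] H,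
    (∀ η, P η ∈ K) ∧ ∀ η, ∀ ζ ∈ K, (⟪η - P η, ζ⟫_ℂ).re = 0 := by
  let _ : InnerProductSpace ℝ H := InnerProductSpace.complexToReal
  have : CompleteSpace K := hK.completeSpace_coe
  exact ⟨K.starProjection, fun η => K.starProjection_apply_mem η,
    fun η ζ hζ => K.starProjection_inner_eq_zero η ζ hζ⟩

theorem smul_split (c : ℂ) (x : H) : c • x = c.re • x + c.im • I • x := by
  rw [← Complex.coe_smul, ← Complex.coe_smul, smul_smul, ← add_smul, Complex.re_add_im]

theorem II (x : H) : I • I • x = -x := by rw [smul_smul, Complex.I_mul_I, neg_one_smul]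

theorem re_symm (x y : H) : (⟪x, y⟫_ℂ).re = (⟪y, x⟫_ℂ).re := inner_re_symm (𝕜 := ℂ) x y

theorem re_self (x : H) : (⟪x, x⟫_ℂ).re = ‖x‖ ^ 2 := inner_self_eq_norm_sq (𝕜 := ℂ) x

theorem re_I (x y : H) : (⟪I • x, y⟫_ℂ).re = -(⟪x, I • y⟫_ℂ).re := by
  simp

theorem half {x y : H} (h : x + x = y + y) : x = y := by
  rw [← two_smul ℂ, ← two_smul ℂ] at h
  exact smul_right_injective H two_ne_zero h

/-- The complex linear and the antilinear part of a real orthogonal projection. -/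
structure RL (K : Set H) (R : Op H) (L : H →L⋆[ℂ] H) : Prop where
  sR : star R = R
  sL : ∀ x y, (⟪L x, y⟫_ℂ).re = (⟪x, L y⟫_ℂ).re
  LL : ∀ x, L (L x) = R x - R (R x)
  LR : ∀ x, L (R x) = L x - R (L x)
  mem : ∀ x, x ∈ K ↔ R x + L x = x

theorem exists_RL (K : Submodule ℝ H) (hK : IsClosed (K : Set H)) :
    ∃ (R : Op H) (L : H →L⋆[ℂ] H), RL K R L := by
  obtain ⟨P, h1, h2⟩ := exists_proj K hK
  have h3 : ∀ x ∈ K, P x = x := by
    intro x hx
    have h4 := h2 x _ (K.sub_mem hx (h1 x))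
    rw [re_self] at h4
    exact (sub_eq_zero.1 (norm_eq_zero.1 (pow_eq_zero_iff two_ne_zero |>.1 h4))).symm
  have h4 : ∀ x y, (⟪P x, y⟫_ℂ).re = (⟪x, P y⟫_ℂ).re := by
    intro x y
    have h5 := h2 x _ (h1 y)
    have h6 := h2 y _ (h1 x)
    rw [inner_sub_left, Complex.sub_re] at h5 h6
    rw [re_symm (P x) y]
    linarith [re_symm (P x) (P y)]
  let R : Op H :=
    { toFun := fun x => (2⁻¹ : ℝ) • (P x - I • P (I • x))
      map_add' := fun x y => by simp only [smul_add, map_add, smul_sub]; abel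
      map_smul' := fun c x => by
        rw [RingHom.id_apply, smul_split c x, smul_split c]
        simp only [smul_add, map_add, map_smul, smul_comm I (_ : ℝ), II, map_neg, smul_sub, smul_neg]
        module
      cont := by fun_prop }
  let L : H →L⋆[ℂ] H :=
    { toFun := fun x => (2⁻¹ : ℝ) • (P x + I • P (I • x))
      map_add' := fun x y => by simp only [smul_add, map_add]; abel
      map_smul' := fun c x => by
        rw [smul_split c x, smul_split (starRingEnd ℂ c), Complex.conj_re, Complex.conj_im]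
        simp only [smul_add, map_add, map_smul, smul_comm I (_ : ℝ), II, map_neg, smul_neg]
        module
      cont := by fun_prop }
  have eR : ∀ x, R x = (2⁻¹ : ℝ) • (P x - I • P (I • x)) := fun _ => rfl
  have eL : ∀ x, L x = (2⁻¹ : ℝ) • (P x + I • P (I • x)) := fun _ => rfl
  have eP : ∀ x, R x + L x = P x := fun x => by rw [eR, eL]; module
  have h5 : ∀ x y, (⟪I • P (I • x), y⟫_ℂ).re = (⟪x, I • P (I • y)⟫_ℂ).re := by
    intro x y
    rw [re_I, h4, re_I, neg_neg]
  have sR : ∀ x y, (⟪R x, y⟫_ℂ).re = (⟪x, R y⟫_ℂ).re := by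
    intro x y
    simp only [eR, ← Complex.coe_smul, inner_smul_left, inner_smul_right, Complex.conj_ofReal,
      Complex.re_ofReal_mul, inner_sub_left, inner_sub_right, Complex.sub_re, h4] at h5 ⊢
    rw [h5]
  have e1 : ∀ x, R (R x) + R (L x) + (L (R x) + L (L x)) = R x + L x := by
    intro x
    rw [← map_add, ← map_add, eP, eP, h3 _ (h1 x)]
  have e2 : ∀ x, R (R x) - R (L x) - (L (R x) - L (L x)) = R x - L x := by
    intro x
    have e3 := e1 (I • x)
    simp only [map_smul, map_smulₛₗ, Complex.conj_I, map_neg, neg_smul, neg_neg] at e3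
    refine smul_right_injective H Complex.I_ne_zero ?_
    simp only [smul_sub]
    linear_combination (norm := abel) e3
  refine ⟨R, L, ?_, fun x y => ?_, fun x => half ?_, fun x => half ?_, fun x => ?_⟩
  · rw [ContinuousLinearMap.star_eq_adjoint]
    refine ((ContinuousLinearMap.eq_adjoint_iff R R).2 fun x y => Complex.ext (sR x y) ?_).symm
    have e3 := sR (I • x) y
    simpa [inner_smul_left] using e3
  · simp only [eL, ← Complex.coe_smul, inner_smul_left, inner_smul_right, Complex.conj_ofReal,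
      Complex.re_ofReal_mul, inner_add_left, inner_add_right, Complex.add_re, h4] at h5 ⊢
    rw [h5]
  · linear_combination (norm := abel) e1 x + e2 x
  · linear_combination (norm := abel) e1 x - e2 x
  · rw [eP]
    exact ⟨h3 x, fun h => h ▸ h1 x⟩

variable {K : Set H} {R : Op H} {L : H →L⋆[ℂ] H}

theorem RL.normL (h : RL K R L) (x : H) : ‖L x‖ ^ 2 = (⟪x, R x⟫_ℂ).re - ‖R x‖ ^ 2 := by
  rw [← re_self, h.sL, h.LL, inner_sub_right, Complex.sub_re, tl_norm_sq R, h.sR]
  rfl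

theorem RL.nonneg (h : RL K R L) (x : H) : 0 ≤ (⟪x, R x⟫_ℂ).re := by
  linarith [h.normL x, sq_nonneg ‖L x‖, sq_nonneg ‖R x‖]

theorem RL.le (h : RL K R L) (x : H) : (⟪x, R x⟫_ℂ).re ≤ ‖x‖ ^ 2 := by
  have h1 := norm_sub_sq (𝕜 := ℂ) x (R x)
  change _ = _ - 2 * (⟪x, R x⟫_ℂ).re + _ at h1
  linarith [h.normL x, sq_nonneg ‖L x‖, sq_nonneg ‖x - R x‖]

theorem RL.orth (h : RL K R L) {x y : H} (hx : R x = 0) (hy : y ∈ K) : ⟪y, x⟫_ℂ = 0 := by
  have h1 : L x = 0 := by
    have h2 := h.normL x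
    rw [hx] at h2
    simpa using h2
  have key : ∀ z, R z = 0 → L z = 0 → (⟪y, z⟫_ℂ).re = 0 := by
    intro z h3 h4
    rw [← (h.mem y).1 hy, inner_add_left, Complex.add_re, h.sL, tl_inner, h.sR, h3, h4]
    simp
  have h3 := key (I • x) (by rw [map_smul, hx, smul_zero]) (by rw [map_smulₛₗ, h1, smul_zero])
  exact Complex.ext (key x hx h1) (by simpa using h3)

theorem RL.both (h : RL K R L) {x : H} (hx : R x = x) : x ∈ K ∧ I • x ∈ K := by
  have h1 : L x = 0 := by
    have h2 := h.normL x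
    rw [hx, re_self] at h2
    simpa using h2
  exact ⟨(h.mem _).2 (by rw [hx, h1, add_zero]),
    (h.mem _).2 (by rw [map_smul, map_smulₛₗ, hx, h1, smul_zero, add_zero])⟩

/-- Extension of an antilinear map which is isometric with respect to `T`. -/
theorem exists_J {T : Op H} (hT : DenseRange T) (hn : ∀ x, ‖L x‖ = ‖T x‖)
    (hL : ∀ x, L (L x) = T (T x)) : ∃ J : H ≃ₗᵢ⋆[ℂ] H, ∀ x, J (T x) = L x := by
  set J₀ : H →L⋆[ℂ] H := (L : H →ₗ⋆[ℂ] H).extendOfNorm (T : H →ₗ[ℂ] H) with hJ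
  have h1 : ∀ x, J₀ (T x) = L x := fun x =>
    LinearMap.extendOfNorm_eq (f := (L : H →ₗ⋆[ℂ] H)) (e := (T : H →ₗ[ℂ] H)) hT
      ⟨1, fun x => by rw [one_mul]; exact (hn x).le⟩ x
  have h2 : ∀ x, ‖J₀ x‖ = ‖x‖ := fun x =>
    hT.induction_on x (isClosed_eq (by fun_prop) continuous_norm) fun y => by rw [h1, hn]
  let J₁ : H →ₗᵢ⋆[ℂ] H := ⟨J₀, h2⟩
  have h3 : Function.Surjective J₁ := by
    have h4 : Dense (Set.range J₁) := by
      refine (hT.comp hT T.continuous).mono ?_
      rintro _ ⟨x, rfl⟩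
      exact ⟨T (L x), (h1 _).trans (hL x)⟩
    rw [← Set.range_eq_univ, ← J₁.isometry.isClosedEmbedding.isClosed_range.closure_eq]
    exact h4.closure_eq
  exact ⟨LinearIsometryEquiv.ofSurjective J₁ h3, h1⟩

theorem RL.polar (h : RL K R L) {T : Op H} (hT : DenseRange T) (sT : star T = T)
    (pT : ∀ x, 0 ≤ (⟪x, T x⟫_ℂ).re) (hTT : ∀ x, T (T x) = R x - R (R x))
    (hTR : ∀ x, T (R x) = R (T x)) : ∃ J : H ≃ₗᵢ⋆[ℂ] H, (∀ x, J (J x) = x) ∧
      (∀ x, J (R x) = J x - R (J x)) ∧ ∀ x, L x = T (J x) := by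
  have hL : ∀ x, L (L x) = T (T x) := fun x => (h.LL x).trans (hTT x).symm
  obtain ⟨J, hJ⟩ := exists_J (L := L) hT (fun x => by
    refine (sq_eq_sq₀ (norm_nonneg _) (norm_nonneg _)).1 ?_
    rw [← re_self, h.sL, hL, tl_norm_sq, sT]
    rfl) hL
  have h1 : ∀ x, J (R x) = J x - R (J x) := fun x =>
    hT.induction_on x (isClosed_eq (by fun_prop) (by fun_prop)) fun y => by
      rw [← hTR, hJ, hJ, h.LR]
  let S : Op H := (J.toContinuousLinearEquiv : H →L⋆[ℂ] H).comp
    (T.comp (J.symm.toContinuousLinearEquiv : H →L⋆[ℂ] H))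
  have eS : ∀ x, S (J x) = J (T x) := fun x => congrArg (fun y => J (T y)) (J.symm_apply_apply x)
  have h2 : S * S = T * T := by
    ext y
    obtain ⟨x, rfl⟩ := J.surjective y
    rw [mul_apply_eq_comp, mul_apply_eq_comp, eS, eS, hTT, hTT, map_sub, h1 (R x), h1 x, map_sub]
    abel
  have h3 : 0 ≤ S := by
    refine CalcOfX.nonneg_of ?_ fun y => ?_
    · rw [ContinuousLinearMap.star_eq_adjoint]
      refine ((ContinuousLinearMap.eq_adjoint_iff S S).2 fun y z => ?_).symm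
      obtain ⟨y, rfl⟩ := J.surjective y
      obtain ⟨z, rfl⟩ := J.surjective z
      rw [eS, eS, J_inner, J_inner, tl_inner, sT]
    · obtain ⟨y, rfl⟩ := J.surjective y
      rw [eS, J_inner, re_symm]
      exact pT y
  have h4 : S = T := by
    rw [← CFC.sqrt_unique h2 h3, CFC.sqrt_unique rfl (CalcOfX.nonneg_of sT pT)]
  have h5 : ∀ x, T (J x) = J (T x) := fun x => by rw [← eS, h4]
  refine ⟨J, fun x => ?_, h1, fun x => by rw [h5, hJ]⟩
  refine (hT.comp hT T.continuous).induction_on x (isClosed_eq (by fun_prop) (by fun_prop))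
    fun y => ?_
  rw [Function.comp_apply, ← h5, hJ, hJ, hL]

/-- The real subspace of the vectors `h ξ` with `h` self-adjoint. -/
def sa (A : Alg H) (ξ : H) : Submodule ℝ H where
  carrier := {η | ∃ a ∈ A, star a = a ∧ a ξ = η}
  zero_mem' := ⟨0, zero_mem _, star_zero _, rfl⟩
  add_mem' := by
    rintro _ _ ⟨a, ha, ha', rfl⟩ ⟨b, hb, hb', rfl⟩
    exact ⟨a + b, add_mem ha hb, by rw [star_add, ha', hb'], rfl⟩
  smul_mem' := by
    rintro r _ ⟨a, ha, ha', rfl⟩
    exact ⟨(r : ℂ) • a, A.smul_mem ha _, by rw [star_smul, ha', Complex.star_def,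
      Complex.conj_ofReal], rfl⟩

variable {A B : Alg H} {ξ : H}

theorem mem_re {x : Op H} (hx : x ∈ A) : x ξ + star x ξ ∈ sa A ξ :=
  ⟨x + star x, add_mem hx (star_mem hx), by rw [star_add, star_star, add_comm], rfl⟩

theorem mem_im {x : Op H} (hx : x ∈ A) : I • (x ξ - star x ξ) ∈ sa A ξ :=
  ⟨I • (x - star x), A.smul_mem (sub_mem hx (star_mem hx)) _, by
    rw [star_smul, star_sub, star_star, Complex.star_def, Complex.conj_I, neg_smul, ← smul_neg,
      neg_sub], rfl⟩

theorem zero_of_sa (hA : Cyc A ξ) {η : H} (h : ∀ ζ ∈ sa A ξ, ⟪ζ, η⟫_ℂ = 0) : η = 0 := by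
  refine hA.inner_zero fun a ha => ?_
  have h1 := h _ (mem_re ha)
  have h2 := h _ (mem_im ha)
  rw [inner_smul_left, inner_sub_left, Complex.conj_I, mul_eq_zero,
    or_iff_right (neg_ne_zero.2 Complex.I_ne_zero)] at h2
  rw [inner_add_left] at h1
  linear_combination (h1 + h2) / 2

theorem im_zero (h : CP A B) {ζ η : H} (hζ : ζ ∈ sa B ξ) (hη : η ∈ closure (sa A ξ : Set H)) :
    (⟪ζ, η⟫_ℂ).im = 0 := by
  refine closure_minimal (t := {η | (⟪ζ, η⟫_ℂ).im = 0}) ?_
    (isClosed_eq (by fun_prop) continuous_const) hη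
  obtain ⟨b, hb, hb', rfl⟩ := hζ
  rintro _ ⟨a, ha, ha', rfl⟩
  refine Complex.conj_eq_iff_im.1 ?_
  rw [inner_conj_symm, tl_inner, tl_inner, ha', hb', h.app ha hb]

end PreExX

open PreExX in
/-- Let `K` be the closure of the real subspace `{x ξ : x ∈ A, x* = x}`, `P`, `Q` the real
orthogonal projections (real inner product `re ⟪,⟫`, `InnerProductSpace.rclikeToReal`) onto `K`
and `i K`; `Q η = i P (-i η)`. `R = (P + Q) / 2` is complex linear, self-adjoint, `0 ≤ R ≤ 1`;
`L = (P - Q) / 2` is antilinear, real-symmetric, `L L = R (1 - R)`, `L R = (1 - R) L`.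
`R η = 0` gives `η ⊥ K + i K`, dense by `cycA`; `R η = η` gives `η ∈ K ∩ i K = 0`
(for `y ∈ B` self-adjoint `⟪x ξ, y ξ⟫` is real; use `cycB`).
With `Φ` from `calc_of` and `T = F (cf * sf)` (injective, dense range, `T T = R (1 - R)`) define
`J (T η) = L η` and extend by density (`‖L η‖ = ‖T η‖`); `L` commutes with `T` (a continuous
function of `R (1 - R)`; `T` is the positive square root, or use polynomial approximation over the
reals), which gives `J J = 1`, `J R = (1 - R) J`.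
`ζ ∈ K ↔ P ζ = ζ ↔ F sf ζ = F cf (J ζ)` since `P = R + J T`; this gives `graph`; for `core` write
`F cf γ = ζ₁ + i ζ₂`, `F sf γ = J ζ₁ + i J ζ₂` with `ζ₁ = (F cf γ + J (F sf γ)) / 2`,
`i ζ₂ = (F cf γ - J (F sf γ)) / 2`, both `ζ` in `K`. -/
theorem pre_exists {A B : Alg H} {ξ : H} (h : CP A B) (hA : Cyc A ξ) (hB : Cyc B ξ) :
    Nonempty (Pre A ξ) := by
  obtain ⟨R, L, hR⟩ := exists_RL (sa A ξ).topologicalClosure (sa A ξ).isClosed_topologicalClosure
  rw [Submodule.topologicalClosure_coe] at hR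
  obtain ⟨Φ, h1, h2⟩ := calc_of R hR.sR hR.nonneg hR.le
    (fun η hη => zero_of_sa hA fun ζ hζ => hR.orth hη (subset_closure hζ))
    (fun η hη => zero_of_sa hB fun ζ hζ => Complex.ext
      (by simpa using im_zero h hζ (hR.both hη).2) (im_zero h hζ (hR.both hη).1))
  rw [Φ.mul bc_cf bc_cf] at h1
  have h3 : Φ.F cf * Φ.F cf + Φ.F sf * Φ.F sf = 1 := by
    rw [← Φ.mul bc_cf bc_cf, ← Φ.mul bc_sf bc_sf, ← Φ.add (bc_cf.mul bc_cf) (bc_sf.mul bc_sf),
      ← Φ.one]
    simp only [cf_sq_add]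
  have h4 := Φ.comm bc_cf bc_sf
  have cs : ∀ x, Φ.F cf (Φ.F sf x) = Φ.F sf (Φ.F cf x) := fun x =>
    congrArg (fun T : Op H => T x) h4
  have eR : ∀ x, R x = Φ.F cf (Φ.F cf x) := fun x => by rw [← h1]; rfl
  have eS : ∀ x, Φ.F sf (Φ.F sf x) = x - R x := fun x => by
    rw [eR, eq_sub_iff_add_eq']
    exact congrArg (fun T : Op H => T x) h3
  have hb := bc_cf.mul bc_sf
  have eT : ∀ x, Φ.F (fun κ => cf κ * sf κ) x = Φ.F cf (Φ.F sf x) := fun x =>
    (Φ.mul_apply bc_cf bc_sf x).symm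
  obtain ⟨J, hJ, hJR, hL⟩ := hR.polar (T := Φ.F fun κ => cf κ * sf κ)
    (Metric.denseRange_iff.2 fun η ε hε => by
      obtain ⟨γ, hγ⟩ := Φ.dense hb (fun κ => mul_ne_zero (cf_ne κ) (sf_ne κ)) η ε hε
      exact ⟨γ, by rwa [dist_comm, dist_eq_norm]⟩)
    (Φ.star_real hb fun κ => by rw [map_mul, conj_cf, conj_sf])
    (fun x => by
      have h5 := Φ.re_le (BC.const 0) hb (fun κ => by
        rw [cf_mul_sf, Complex.ofReal_re, Complex.zero_re]
        positivity) x
      simpa [Φ.const] using h5)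
    (fun x => by rw [eT, eT, ← cs, eS, ← eR, map_sub])
    (fun x => by simp only [eT, eR, cs])
  have Jc : ∀ x, J (Φ.F cf x) = Φ.F sf (J x) := fun x => by
    rw [h2 J hJ hJR cf bc_cf]
    simp only [cf_neg, conj_sf]
  have Js : ∀ x, J (Φ.F sf x) = Φ.F cf (J x) := fun x => by
    rw [h2 J hJ hJR sf bc_sf]
    simp only [sf_neg, conj_cf]
  have hK : ∀ x, x ∈ closure (sa A ξ : Set H) ↔ Φ.F sf x = Φ.F cf (J x) := by
    intro x
    rw [hR.mem, hL, eT, cs, ← eq_sub_iff_add_eq', ← eS]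
    exact ⟨fun e => (Φ.cancel bc_sf sf_ne e).symm, fun e => by rw [e]⟩
  refine ⟨⟨Φ, J, hJ, fun hf => h2 J hJ hJR _ hf, fun x hx => half ?_, fun γ ε hε => ?_⟩⟩
  · have e1 := (hK _).1 (subset_closure (mem_re hx))
    have e2 := (hK _).1 (subset_closure (mem_im hx))
    rw [map_smul, map_smulₛₗ, map_smul, Complex.conj_I, neg_smul, ← smul_neg] at e2
    have e3 := smul_right_injective H Complex.I_ne_zero e2
    simp only [map_add, map_sub] at e1 e3
    linear_combination (norm := abel) e1 + e3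
  · obtain ⟨γ, rfl⟩ : ∃ γ', γ = γ' + γ' := ⟨(2⁻¹ : ℂ) • γ, by module⟩
    have e1 : Φ.F cf γ + J (Φ.F sf γ) ∈ closure (sa A ξ : Set H) := by
      rw [hK]
      simp only [map_add, Jc, Js, hJ, cs]
      abel
    have e2 : -Complex.I • (Φ.F cf γ - J (Φ.F sf γ)) ∈ closure (sa A ξ : Set H) := by
      rw [hK]
      simp only [map_smul, map_smulₛₗ, map_sub, Jc, Js, hJ, cs, map_neg, Complex.conj_I, neg_neg]
      module
    obtain ⟨_, ⟨a, ha, ha', rfl⟩, e3⟩ := Metric.mem_closure_iff.1 e1 (ε / 2) (by positivity)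
    obtain ⟨_, ⟨b, hb, hb', rfl⟩, e4⟩ := Metric.mem_closure_iff.1 e2 (ε / 2) (by positivity)
    rw [dist_comm, dist_eq_norm] at e3 e4
    set u := a ξ - (Φ.F cf γ + J (Φ.F sf γ)) with hu
    set v := b ξ - -Complex.I • (Φ.F cf γ - J (Φ.F sf γ)) with hv
    have e5 : ‖Complex.I • v‖ = ‖v‖ := by rw [norm_smul, Complex.norm_I, one_mul]
    have e6 : Complex.I • v = Complex.I • b ξ - (Φ.F cf γ - J (Φ.F sf γ)) := by
      rw [hv, neg_smul, sub_neg_eq_add, smul_add, II, sub_eq_add_neg (Complex.I • b ξ)]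
    refine ⟨a + Complex.I • b, add_mem ha (A.smul_mem hb _), ?_, ?_⟩
    · have e7 : (a + Complex.I • b) ξ - Φ.F cf (γ + γ) = u + Complex.I • v := by
        rw [e6, hu, map_add, add_apply, smul_apply]
        abel
      rw [e7]
      linarith [norm_add_le u (Complex.I • v)]
    · have e7 : J (star (a + Complex.I • b) ξ) - Φ.F sf (γ + γ) = J (u - Complex.I • v) := by
        rw [← hJ (Φ.F sf (γ + γ)), ← map_sub, e6, hu, map_add, map_add, star_add, star_smul, ha', hb',
          Complex.star_def, Complex.conj_I, add_apply, smul_apply, neg_smul]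
        congr 1
        abel
      rw [e7, J.norm_map]
      linarith [norm_sub_le u (Complex.I • v)]

end Vale.Agent.P096b
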