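import Vale.Agent.P096b.Calc

/-! Entire operator valued functions built from Gaussian symbols. -/

set_option linter.unusedSectionVars false

namespace Vale.Agent.P096b

open Filter Topology Vale.Agent.P096 MeasureTheory
open scoped InnerProductSpace ComplexConjugate

universe u v

variable {H : Type u} [NormedAddCommGroup H] [InnerProductSpace ℂ H] [CompleteSpace H]

theorem tom_sq (b κ : ℝ) : -κ ^ 2 + b * |κ| ≤ b ^ 2 / 4 := by
  rw [← sq_abs κ]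
  nlinarith [sq_nonneg (|κ| - b / 2)]

theorem tom_norm_exp (z : ℂ) (κ : ℝ) :
    ‖Complex.exp (Complex.I * z * κ)‖ ≤ Real.exp (|z.im| * |κ|) := by
  rw [Complex.norm_exp, Real.exp_le_exp, ← abs_mul]
  have : (Complex.I * z * κ).re = -(z.im * κ) := by simp
  rw [this]
  exact neg_le_abs _

variable {g : ℝ → ℂ}

theorem tom_bd (hb : ∀ κ, ‖g κ‖ ≤ Real.exp (-κ ^ 2)) (z : ℂ) (κ : ℝ) :
    ‖g κ * Complex.exp (Complex.I * z * κ)‖ ≤ Real.exp (-κ ^ 2 + |z.im| * |κ|) := by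
  rw [norm_mul, Real.exp_add]
  exact mul_le_mul (hb κ) (tom_norm_exp z κ) (norm_nonneg _) (Real.exp_pos _).le

theorem tom_bd' (hb : ∀ κ, ‖g κ‖ ≤ Real.exp (-κ ^ 2)) (z : ℂ) (κ : ℝ) :
    ‖g κ * Complex.exp (Complex.I * z * κ)‖ ≤ Real.exp (|z.im| ^ 2 / 4) :=
  (tom_bd hb z κ).trans (Real.exp_le_exp.2 (tom_sq _ _))

theorem tom_bc (hc : Continuous g) (hb : ∀ κ, ‖g κ‖ ≤ Real.exp (-κ ^ 2)) (z : ℂ) :
    BC fun κ => g κ * Complex.exp (Complex.I * z * κ) :=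
  BC.of_le (by fun_prop) (tom_bd' hb z)

theorem tom_abs_le (κ : ℝ) : |κ| ≤ Real.exp |κ| := by
  linarith [Real.add_one_le_exp |κ|]

theorem tom_bc' (hc : Continuous g) (hb : ∀ κ, ‖g κ‖ ≤ Real.exp (-κ ^ 2)) (z : ℂ) :
    BC fun κ => g κ * Complex.exp (Complex.I * z * κ) * (Complex.I * κ) := by
  refine BC.of_le (C := Real.exp ((|z.im| + 1) ^ 2 / 4)) (by fun_prop) fun κ => ?_
  rw [norm_mul]
  have h1 : ‖Complex.I * κ‖ ≤ Real.exp |κ| := by
    simpa using tom_abs_le κ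
  refine (mul_le_mul (tom_bd hb z κ) h1 (norm_nonneg _) (Real.exp_pos _).le).trans ?_
  rw [← Real.exp_add, Real.exp_le_exp]
  have := tom_sq (|z.im| + 1) κ
  linarith

theorem tom_rem (hb : ∀ κ, ‖g κ‖ ≤ Real.exp (-κ ^ 2)) (z h : ℂ) (hh : ‖h‖ ≤ 1) (κ : ℝ) :
    ‖g κ * Complex.exp (Complex.I * (z + h) * κ) - g κ * Complex.exp (Complex.I * z * κ) -
      h * (g κ * Complex.exp (Complex.I * z * κ) * (Complex.I * κ))‖ ≤
      Real.exp ((|z.im| + 3) ^ 2 / 4) * ‖h‖ ^ 2 := by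
  have e : g κ * Complex.exp (Complex.I * (z + h) * κ) - g κ * Complex.exp (Complex.I * z * κ) -
      h * (g κ * Complex.exp (Complex.I * z * κ) * (Complex.I * κ)) =
      g κ * Complex.exp (Complex.I * z * κ) *
        (Complex.exp (Complex.I * h * κ) - ∑ m ∈ Finset.range 2,
          (Complex.I * h * κ) ^ m / (m.factorial : ℂ)) := by
    rw [show Complex.I * (z + h) * κ = Complex.I * z * κ + Complex.I * h * κ by ring,
      Complex.exp_add]
    simp [Finset.sum_range_succ]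
    ring
  rw [e, norm_mul]
  have n1 : ‖Complex.I * h * κ‖ = ‖h‖ * |κ| := by simp
  have h1 := Complex.norm_exp_sub_sum_le_norm_mul_exp (Complex.I * h * κ) 2
  rw [n1] at h1
  have h2 : (‖h‖ * |κ|) ^ 2 * Real.exp (‖h‖ * |κ|) ≤ ‖h‖ ^ 2 * Real.exp (3 * |κ|) := by
    have a1 : Real.exp (‖h‖ * |κ|) ≤ Real.exp |κ| :=
      Real.exp_le_exp.2 (mul_le_of_le_one_left (abs_nonneg _) hh)
    have a2 : |κ| ^ 2 ≤ Real.exp |κ| ^ 2 :=
      pow_le_pow_left₀ (abs_nonneg _) (tom_abs_le κ) 2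
    have a3 : Real.exp (3 * |κ|) = Real.exp |κ| ^ 2 * Real.exp |κ| := by
      rw [← pow_succ, ← Real.exp_nat_mul]; norm_num
    rw [a3, mul_pow, mul_assoc]
    exact mul_le_mul_of_nonneg_left
      (mul_le_mul a2 a1 (Real.exp_pos _).le (sq_nonneg _)) (sq_nonneg _)
  refine (mul_le_mul (tom_bd hb z κ) (h1.trans h2) (norm_nonneg _) (Real.exp_pos _).le).trans ?_
  rw [mul_left_comm, ← Real.exp_add, mul_comm]
  refine mul_le_mul_of_nonneg_right (Real.exp_le_exp.2 ?_) (sq_nonneg _)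
  have := tom_sq (|z.im| + 3) κ
  linarith

theorem tom_diff (Φ : Calc H) (hc : Continuous g) (hb : ∀ κ, ‖g κ‖ ≤ Real.exp (-κ ^ 2)) :
    Differentiable ℂ fun z : ℂ => Φ.F fun κ => g κ * Complex.exp (Complex.I * z * κ) := by
  intro z
  refine HasDerivAt.differentiableAt
    (f' := Φ.F fun κ => g κ * Complex.exp (Complex.I * z * κ) * (Complex.I * κ)) ?_
  rw [hasDerivAt_iff_isLittleO_nhds_zero]
  refine Asymptotics.IsBigO.trans_isLittleO ?_ (Asymptotics.isLittleO_pow_id (𝕜 := ℂ) one_lt_two)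
  refine Asymptotics.IsBigO.of_bound (Real.exp ((|z.im| + 3) ^ 2 / 4)) ?_
  filter_upwards [Metric.closedBall_mem_nhds (0 : ℂ) one_pos] with h hh
  rw [mem_closedBall_zero_iff] at hh
  rw [← Φ.sub (tom_bc hc hb _) (tom_bc hc hb _), ← Φ.smul h (tom_bc' hc hb z),
    ← Φ.sub ((tom_bc hc hb _).sub (tom_bc hc hb _)) ((tom_bc' hc hb z).cmul h), norm_pow]
  exact Φ.norm_le (((tom_bc hc hb _).sub (tom_bc hc hb _)).sub ((tom_bc' hc hb z).cmul h))
    (tom_rem hb z h hh)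

theorem tom_norm (Φ : Calc H) (hc : Continuous g) (hb : ∀ κ, ‖g κ‖ ≤ Real.exp (-κ ^ 2)) (z : ℂ)
    (hz : |z.im| ≤ 1 / 2) :
    ‖Φ.F fun κ => g κ * Complex.exp (Complex.I * z * κ)‖ ≤ Real.exp 1 := by
  refine Φ.norm_le (tom_bc hc hb z) fun κ => (tom_bd' hb z κ).trans (Real.exp_le_exp.2 ?_)
  nlinarith [abs_nonneg z.im]

theorem tom_cf_le (κ : ℝ) : ‖cf κ‖ ≤ 1 := by
  have h : ‖cf κ‖ * ‖cf κ‖ ≤ 1 := by
    rw [← norm_mul, cf_sq, Complex.norm_real, Real.norm_eq_abs,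
      abs_of_pos (by positivity)]
    exact inv_le_one_of_one_le₀ (by linarith [Real.exp_pos κ])
  nlinarith [norm_nonneg (cf κ)]

end Vale.Agent.P096b
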