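import Vale.Agent.P096b.RN
import Vale.Agent.P096b.Strip
import Vale.Agent.P096b.Filt
import Vale.Agent.P096b.PreEx
import Vale.Agent.P096b.Tom1

/-! The theorem of Tomita. -/

set_option linter.unusedSectionVars false

namespace Vale.Agent.P096b

open Filter Topology Vale.Agent.P096 MeasureTheory
open scoped InnerProductSpace ComplexConjugate

universe u v

variable {H : Type u} [NormedAddCommGroup H] [InnerProductSpace ℂ H] [CompleteSpace H]

variable {A B : Alg H} {ξ : H}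

theorem tom_gc : Continuous fun κ => gs 1 0 0 κ * (cf κ * sf κ) :=
  (gs_bc one_pos 0 0).1.mul (bc_cf.1.mul bc_sf.1)

theorem tom_gb (κ : ℝ) : ‖gs 1 0 0 κ * (cf κ * sf κ)‖ ≤ Real.exp (-κ ^ 2) := by
  have h1 : ‖gs 1 0 0 κ‖ = Real.exp (-κ ^ 2) := by
    rw [gs, Complex.norm_real, Real.norm_eq_abs, abs_of_pos (Real.exp_pos _)]
    congr 1
    ring
  rw [norm_mul, norm_mul, h1]
  exact mul_le_of_le_one_right (Real.exp_pos _).le
    (mul_le_one₀ (tom_cf_le κ) (norm_nonneg _) (tom_cf_le (-κ)))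

theorem tom_eup (t κ : ℝ) : gs 1 0 0 κ * (cf κ * sf κ) *
    Complex.exp (Complex.I * (t - Complex.I / 2) * κ) =
      gs 1 0 0 κ * (ex t κ * (sf κ * sf κ)) := by
  have e : Complex.I * (t - Complex.I / 2) * κ = Complex.I * t * κ + ((κ / 2 : ℝ) : ℂ) := by
    push_cast
    linear_combination (-(κ : ℂ) / 2) * Complex.I_mul_I
  rw [e, Complex.exp_add, ← Complex.ofReal_exp, ex]
  conv_rhs => rw [sf_eq κ]
  rw [sf_eq κ]
  ring

theorem tom_edown (t κ : ℝ) : gs 1 0 0 κ * (cf κ * sf κ) *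
    Complex.exp (Complex.I * (t + Complex.I / 2) * κ) =
      gs 1 0 0 κ * (ex t κ * (cf κ * cf κ)) := by
  have e : Complex.I * (t + Complex.I / 2) * κ = Complex.I * t * κ + ((-(κ / 2) : ℝ) : ℂ) := by
    push_cast
    linear_combination ((κ : ℂ) / 2) * Complex.I_mul_I
  have e2 : ((Real.exp (κ / 2) : ℝ) : ℂ) * ((Real.exp (-(κ / 2)) : ℝ) : ℂ) = 1 := by
    rw [← Complex.ofReal_mul, ← Real.exp_add]
    simp
  rw [e, Complex.exp_add, ← Complex.ofReal_exp, ex, sf_eq κ]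
  linear_combination (gs 1 0 0 κ * cf κ * cf κ * Complex.exp (Complex.I * t * κ)) * e2

theorem tom_Fup (Φ : Calc H) (t : ℝ) : (Φ.F fun κ => gs 1 0 0 κ * (cf κ * sf κ) *
    Complex.exp (Complex.I * (t - Complex.I / 2) * κ)) =
      Φ.F (gs 1 0 0) * (Φ.U t * Φ.F fun κ => sf κ * sf κ) := by
  rw [Calc.U, ← Φ.mul (bc_ex t) (bc_sf.mul bc_sf),
    ← Φ.mul (gs_bc one_pos 0 0) ((bc_ex t).mul (bc_sf.mul bc_sf))]
  exact congrArg Φ.F (funext (tom_eup t))

theorem tom_Fdown (Φ : Calc H) (t : ℝ) : (Φ.F fun κ => gs 1 0 0 κ * (cf κ * sf κ) *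
    Complex.exp (Complex.I * (t + Complex.I / 2) * κ)) =
      Φ.F (gs 1 0 0) * (Φ.U t * Φ.F fun κ => cf κ * cf κ) := by
  rw [Calc.U, ← Φ.mul (bc_ex t) (bc_cf.mul bc_cf),
    ← Φ.mul (gs_bc one_pos 0 0) ((bc_ex t).mul (bc_cf.mul bc_cf))]
  exact congrArg Φ.F (funext (tom_edown t))

theorem tom_rev (Φ : Calc H) (t : ℝ) {f : ℝ → ℂ} (hf : BC f) :
    Φ.F (gs 1 0 0) * (Φ.U t * Φ.F f) = Φ.F f * (Φ.U t * Φ.F (gs 1 0 0)) := by
  rw [Φ.U_comm hf, Φ.U_comm (gs_bc one_pos 0 0), ← mul_assoc, ← mul_assoc,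
    Φ.comm (gs_bc one_pos 0 0) hf]

/-- The two boundary values. -/
theorem tom_bdry (Φ : Calc H) (θ : ℝ) {x y : Op H}
    (h : Φ.F (fun κ => cf κ * sf κ) * y * Φ.F (fun κ => cf κ * sf κ) =
      ((Real.exp (-θ / 2) : ℝ) : ℂ) •
          (Φ.F (fun κ => sf κ * sf κ) * x * Φ.F (fun κ => cf κ * cf κ)) +
        ((Real.exp (θ / 2) : ℝ) : ℂ) •
          (Φ.F (fun κ => cf κ * cf κ) * x * Φ.F (fun κ => sf κ * sf κ))) (t : ℝ) :
    Complex.exp (-(Complex.I * θ * (t - Complex.I / 2))) •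
      ((Φ.F fun κ => gs 1 0 0 κ * (cf κ * sf κ) *
          Complex.exp (Complex.I * (t - Complex.I / 2) * κ)) * x *
        Φ.F fun κ => gs 1 0 0 κ * (cf κ * sf κ) *
          Complex.exp (Complex.I * (-(t - Complex.I / 2)) * κ)) +
    Complex.exp (-(Complex.I * θ * (t + Complex.I / 2))) •
      ((Φ.F fun κ => gs 1 0 0 κ * (cf κ * sf κ) *
          Complex.exp (Complex.I * (t + Complex.I / 2) * κ)) * x *
        Φ.F fun κ => gs 1 0 0 κ * (cf κ * sf κ) *
          Complex.exp (Complex.I * (-(t + Complex.I / 2)) * κ)) =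
    ex (-θ) t • ((Φ.F fun κ => gs 1 0 0 κ * (cf κ * sf κ)) * Φ.σ t y *
      Φ.F fun κ => gs 1 0 0 κ * (cf κ * sf κ)) := by
  have n1 : -((t : ℂ) - Complex.I / 2) = ((-t : ℝ) : ℂ) + Complex.I / 2 := by
    push_cast
    ring
  have n2 : -((t : ℂ) + Complex.I / 2) = ((-t : ℝ) : ℂ) - Complex.I / 2 := by
    push_cast
    ring
  have s1 : Complex.exp (-(Complex.I * θ * (t - Complex.I / 2))) =
      ex (-θ) t * ((Real.exp (-θ / 2) : ℝ) : ℂ) := by
    rw [ex, Complex.ofReal_exp, ← Complex.exp_add]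
    congr 1
    push_cast
    linear_combination ((θ : ℂ) / 2) * Complex.I_mul_I
  have s2 : Complex.exp (-(Complex.I * θ * (t + Complex.I / 2))) =
      ex (-θ) t * ((Real.exp (θ / 2) : ℝ) : ℂ) := by
    rw [ex, Complex.ofReal_exp, ← Complex.exp_add]
    congr 1
    push_cast
    linear_combination (-(θ : ℂ) / 2) * Complex.I_mul_I
  have hcs : BC fun κ => cf κ * sf κ := bc_cf.mul bc_sf
  rw [n1, n2, s1, s2, tom_Fup, tom_Fup, tom_Fdown, tom_Fdown,
    tom_rev Φ (-t) (bc_cf.mul bc_cf), tom_rev Φ (-t) (bc_sf.mul bc_sf),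
    Φ.mul (gs_bc one_pos 0 0) hcs, mul_smul, mul_smul, ← smul_add]
  congr 1
  have e : Φ.F (gs 1 0 0) * Φ.F (fun κ => cf κ * sf κ) * Φ.σ t y *
      (Φ.F (gs 1 0 0) * Φ.F fun κ => cf κ * sf κ) = Φ.F (gs 1 0 0) * Φ.U t *
        (Φ.F (fun κ => cf κ * sf κ) * y * Φ.F (fun κ => cf κ * sf κ)) *
          (Φ.U (-t) * Φ.F (gs 1 0 0)) := by
    calc _ = Φ.F (gs 1 0 0) * (Φ.F (fun κ => cf κ * sf κ) * Φ.U t) * y *
          (Φ.U (-t) * (Φ.F (gs 1 0 0) * Φ.F fun κ => cf κ * sf κ)) := by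
          simp only [Calc.σ, mul_assoc]
      _ = _ := by
          rw [← Φ.U_comm hcs t, Φ.comm (gs_bc one_pos 0 0) hcs, ← mul_assoc (Φ.U (-t)),
            Φ.U_comm hcs (-t)]
          simp only [mul_assoc]
  rw [e, h]
  simp only [mul_add, add_mul, mul_smul_comm, smul_mul_assoc, mul_assoc]

theorem tom_kint (θ : ℝ) : Integrable fun t => kc t * ex θ t := by
  refine kc_int.norm.mono' (kc_cont.mul (bc_ex θ).1).aestronglyMeasurable
    (Eventually.of_forall fun t => ?_)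
  rw [norm_mul, norm_ex, mul_one]

/-- Solving the operator equation. For `G = gs 1 0 0` the function
`ψ z = exp (-i θ z) ⟪η', F (G cs e^{i z κ}) x F (G cs e^{-i z κ}) η⟫` is entire and bounded on the
strip (both factors are entire functions with values in `H`: bound
`|e^{i h κ} - 1 - i h κ| ≤ |h κ|² e^{|h κ|}` and use `Calc.norm_le`). At `z = t - i/2` the symbols
are `G sf sf ex t` and `G cf cf ex (-t)` and the scalar is `ex (-θ) t * exp (-θ/2)`.
Apply `strip`, use the equation and cancel `F (G cs)` on both sides (`inj`, `dense`). -/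
theorem Calc.solve (Φ : Calc H) (θ : ℝ) {x y : Op H}
    (h : Φ.F (fun κ => cf κ * sf κ) * y * Φ.F (fun κ => cf κ * sf κ) =
      ((Real.exp (-θ / 2) : ℝ) : ℂ) •
          (Φ.F (fun κ => sf κ * sf κ) * x * Φ.F (fun κ => cf κ * cf κ)) +
        ((Real.exp (θ / 2) : ℝ) : ℂ) •
          (Φ.F (fun κ => cf κ * cf κ) * x * Φ.F (fun κ => sf κ * sf κ))) :
    x = Φ.filt (fun t => kc t * ex (-θ) t) y := by
  set g : ℝ → ℂ := fun κ => gs 1 0 0 κ * (cf κ * sf κ) with hg
  have hgb : BC g := (gs_bc one_pos 0 0).mul (bc_cf.mul bc_sf)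
  have hg0 : ∀ κ, g κ ≠ 0 := fun κ =>
    mul_ne_zero (gs_ne _ _ _ _) (mul_ne_zero (cf_ne κ) (sf_ne κ))
  let E : ℂ → Op H := fun z => Φ.F fun κ => g κ * Complex.exp (Complex.I * z * κ)
  have hE : Differentiable ℂ E := tom_diff Φ tom_gc tom_gb
  have main : ∀ η' η : H, ⟪η', Φ.F g (x (Φ.F g η))⟫_ℂ =
      ⟪η', Φ.F g (Φ.filt (fun t => kc t * ex (-θ) t) y (Φ.F g η))⟫_ℂ := by
    intro η' η
    let L : Op H →L[ℂ] ℂ := (innerSL ℂ η').comp (ContinuousLinearMap.apply ℂ H η)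
    have hL : ∀ T : Op H, L T = ⟪η', T η⟫_ℂ := fun T => rfl
    have hd : Differentiable ℂ fun z : ℂ =>
        L (Complex.exp (-(Complex.I * θ * z)) • (E z * x * E (-z))) := by
      have d1 : Differentiable ℂ fun z : ℂ => Complex.exp (-(Complex.I * θ * z)) := by fun_prop
      exact L.differentiable.comp
        (d1.smul ((hE.mul_const x).mul (hE.comp differentiable_neg)))
    have hb : ∀ z : ℂ, |z.im| ≤ 1 / 2 →
        ‖L (Complex.exp (-(Complex.I * θ * z)) • (E z * x * E (-z)))‖ ≤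
          ‖L‖ * (Real.exp (|θ| / 2) * (Real.exp 1 * ‖x‖ * Real.exp 1)) := by
      intro z hz
      refine (L.le_opNorm _).trans (mul_le_mul_of_nonneg_left ?_ (norm_nonneg _))
      rw [norm_smul]
      refine mul_le_mul ?_ ?_ (norm_nonneg _) (Real.exp_pos _).le
      · rw [Complex.norm_exp, Real.exp_le_exp]
        have : (-(Complex.I * θ * z)).re = θ * z.im := by simp
        rw [this]
        refine (le_abs_self _).trans ?_
        rw [abs_mul]
        nlinarith [abs_nonneg θ]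
      · have a1 := tom_norm Φ tom_gc tom_gb z hz
        have a2 := tom_norm Φ tom_gc tom_gb (-z) (by simpa using hz)
        refine (norm_mul_le _ _).trans (mul_le_mul ((norm_mul_le _ _).trans ?_) a2
          (norm_nonneg _) (by positivity))
        exact mul_le_mul_of_nonneg_right a1 (norm_nonneg _)
    have hs := strip _ hd _ hb
    have e0 : E 0 = Φ.F g := by simp [E]
    simp only [mul_zero, neg_zero, Complex.exp_zero, one_smul, e0] at hs
    have e1 : ∀ t : ℝ, kc t * (L (Complex.exp (-(Complex.I * θ * (t - Complex.I / 2))) •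
        (E (t - Complex.I / 2) * x * E (-(t - Complex.I / 2)))) +
        L (Complex.exp (-(Complex.I * θ * (t + Complex.I / 2))) •
          (E (t + Complex.I / 2) * x * E (-(t + Complex.I / 2))))) =
        ((innerSL ℂ η').comp (Φ.F g)) ((kc t * ex (-θ) t) • Φ.σ t y (Φ.F g η)) := by
      intro t
      rw [← map_add, tom_bdry Φ θ h t, map_smul, map_smul, smul_eq_mul, smul_eq_mul,
        mul_assoc (kc t)]
      rfl
    simp only [e1] at hs
    rw [ContinuousLinearMap.integral_comp_comm _ (Φ.integrable_σ (tom_kint _) y _),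
      ← Φ.filt_apply (tom_kint _)] at hs
    exact hs
  ext η
  have h1 : ∀ γ, x (Φ.F g γ) = Φ.filt (fun t => kc t * ex (-θ) t) y (Φ.F g γ) := fun γ =>
    Φ.cancel hgb hg0 (ext_inner_left ℂ fun η' => main η' γ)
  refine eq_of_forall_dist_le fun ε hε => ?_
  set T := Φ.filt (fun t => kc t * ex (-θ) t) y
  obtain ⟨γ, hγ⟩ := Φ.dense hgb hg0 η (ε / (‖x - T‖ + 1)) (by positivity)
  have e : x η - T η = -((x - T) (Φ.F g γ - η)) := by
    simp [h1 γ]
  rw [dist_eq_norm, e, norm_neg]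
  refine ((x - T).le_opNorm _).trans ?_
  rw [lt_div_iff₀ (by positivity)] at hγ
  nlinarith [norm_nonneg (Φ.F g γ - η), norm_nonneg (x - T)]

/-- For `b ∈ B` the continuous integrable function `t ↦ kc t * ⟪η', [σ t (J y J), b] η⟫` has
vanishing Fourier transform by `opeq` and `solve`. -/
theorem Pre.key (μ : Pre A ξ) (h : CP A B) (hB : Cyc B ξ) {y : Op H} (hy : y ∈ B) (t : ℝ) :
    μ.σ t (jc μ.J y) ∈ A := by
  refine (h.left _).2 fun b hb => ?_
  ext η
  refine ext_inner_left ℂ fun η' => ?_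
  let L : Op H →L[ℂ] ℂ := (innerSL ℂ η').comp (ContinuousLinearMap.apply ℂ H (b η)) -
    (innerSL ℂ (star b η')).comp (ContinuousLinearMap.apply ℂ H η)
  have hL : ∀ T : Op H, L T = ⟪η', T (b η)⟫_ℂ - ⟪star b η', T η⟫_ℂ := fun T => rfl
  have hc : Continuous fun s => L (μ.σ s (jc μ.J y)) := by
    simp only [hL]
    exact (continuous_const.inner (μ.σ_cont _ _)).sub (continuous_const.inner (μ.σ_cont _ _))
  have hi : Integrable fun s => kc s * L (μ.σ s (jc μ.J y)) := by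
    refine (kc_int.norm.mul_const (‖L‖ * ‖jc μ.J y‖)).mono'
      (kc_cont.mul hc).aestronglyMeasurable (Eventually.of_forall fun s => ?_)
    rw [norm_mul]
    refine mul_le_mul_of_nonneg_left ((L.le_opNorm _).trans ?_) (norm_nonneg _)
    rw [μ.norm_σ]
  have hz : ∀ κ, ft (fun s => kc s * L (μ.σ s (jc μ.J y))) κ = 0 := by
    intro κ
    obtain ⟨x, hx, he⟩ := μ.opeq h hB hy (Real.exp_pos (-(-κ) / 2)) (Real.exp_pos (-κ / 2))
    have hs := μ.toCalc.solve (-κ) he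
    rw [neg_neg] at hs
    have h0 : L x = 0 := by
      rw [hL, tl_inner', h.app hx hb, sub_self]
    rw [hL, hs, μ.filt_apply (tom_kint _), μ.filt_apply (tom_kint _),
      ← integral_inner (μ.integrable_σ (tom_kint _) _ _),
      ← integral_inner (μ.integrable_σ (tom_kint _) _ _),
      ← integral_sub ((μ.integrable_σ (tom_kint _) _ _).const_inner _)
        ((μ.integrable_σ (tom_kint _) _ _).const_inner _)] at h0
    rw [← h0, ft]
    congr 1
    funext s
    rw [inner_smul_right, inner_smul_right, hL, ex, ex]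
    rw [show Complex.I * s * κ = Complex.I * κ * s by ring]
    ring
  have h1 := ft_inj (kc_cont.mul hc) hi hz t
  have h2 : L (μ.σ t (jc μ.J y)) = 0 := (mul_eq_zero.1 h1).resolve_left (kc_ne t)
  rw [hL, tl_inner', sub_eq_zero] at h2
  exact h2

/-- Apply `sym` to `x * jc J b`: `⟪ξ, [y, jc J x] b ξ⟫ = 0` for all `b ∈ B`, `x y ∈ A`. Hence
`jc J x* (y* ξ) = y* (jc J x* ξ)`, so `jc J x*` commutes with `A` on the vectors `y* ξ`. -/
theorem Pre.jA (μ : Pre A ξ) (h : CP A B) (hA : Cyc A ξ) (hB : Cyc B ξ) {x : Op H} (hx : x ∈ A) :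
    jc μ.J x ∈ B := by
  have h0 : ∀ b ∈ B, jc μ.J b ∈ A := fun b hb => by
    simpa [μ.σ_zero] using μ.key h hB hb 0
  have h1 : ∀ y ∈ A, jc μ.J x (y ξ) = y (jc μ.J x ξ) := by
    intro y hy
    rw [← sub_eq_zero]
    refine hB.inner_zero fun b hb => ?_
    have hs := μ.sym (mul_mem (star_mem hx) (h0 b hb)) (star_mem hy)
    rw [star_star, star_mul, star_star, ← jc_star μ.JJ] at hs
    simp only [mul_apply_eq_comp, jc_apply, μ.J_fix h, μ.JJ] at hs
    have e1 : ⟪μ.J (star x (μ.J (b ξ))), y ξ⟫_ℂ = ⟪b ξ, jc μ.J x (y ξ)⟫_ℂ := by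
      rw [← tl_inner' (jc μ.J x), ← jc_star μ.JJ]
      rfl
    have e2 : ⟪star y ξ, star b (μ.J (x ξ))⟫_ℂ = ⟪b ξ, y (jc μ.J x ξ)⟫_ℂ := by
      rw [← tl_inner, ← h.app (star_mem hy) hb, tl_inner', jc_apply, μ.J_fix h]
    rw [inner_sub_right, ← e1, ← e2, hs, sub_self]
  refine (h.right _).2 fun a ha => hA.ext_op fun y hy => ?_
  have h2 := h1 _ (mul_mem ha hy)
  simp only [mul_apply_eq_comp] at h2 ⊢
  rw [h2, h1 y hy]

theorem tomita (h : CP A B) (hA : Cyc A ξ) (hB : Cyc B ξ) : Nonempty (Mod A B ξ) := by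
  obtain ⟨μ⟩ := pre_exists h hA hB
  refine ⟨{ μ with
    cp := h
    cycA := hA
    cycB := hB
    jA := fun x hx => μ.jA h hA hB hx
    jB := fun y hy => by simpa [μ.σ_zero] using μ.key h hB hy 0
    uA := fun t x hx => ?_ }⟩
  have := μ.key h hB (μ.jA h hA hB hx) t
  rwa [jc_jc μ.JJ] at this

end Vale.Agent.P096b
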