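import Vale.Agent.P096b.Gap
import Vale.Agent.P096b.Spread
import Vale.Agent.P096b.Res
import Vale.Agent.P096b.Tom
import Vale.Agent.P096b.Amen

/-! The modular groups are uniformly close. -/

set_option linter.unusedSectionVars false

namespace Vale.Agent.P096b

open Filter Topology Vale.Agent.P096 MeasureTheory
open scoped InnerProductSpace ComplexConjugate

universe u v

variable {H : Type u} [NormedAddCommGroup H] [InnerProductSpace ℂ H] [CompleteSpace H]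

theorem flow_near {A B N D : Alg H} {ξ : H} (μ : Mod A B ξ) (ν : Mod N D ξ) {κ : ℝ}
    (h0 : 0 ≤ κ) (h1 : κ ≤ 1) (h : Close B D κ) (t : ℝ) {b : Op H} (hb : b ∈ B) :
    ∃ b' ∈ B, ‖star (ν.U (-t) * μ.U t) * b * (ν.U (-t) * μ.U t) - b'‖ ≤ 3 * κ * ‖b‖ := by
  obtain ⟨d, hd, e1⟩ := h.1 b hb
  obtain ⟨c, hc, e2⟩ := h.2 _ (ν.uB t hd)
  refine ⟨μ.σ (-t) c, μ.uB _ hc, ?_⟩
  have e3 : star (ν.U (-t) * μ.U t) * b * (ν.U (-t) * μ.U t) = μ.σ (-t) (ν.σ t b) := by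
    simp only [Calc.σ, star_mul, Calc.star_U, neg_neg, mul_assoc]
  rw [e3, ← Calc.σ_sub, Calc.norm_σ]
  rw [Calc.norm_σ] at e2
  have e4 : ‖ν.σ t b - ν.σ t d‖ ≤ κ * ‖b‖ := by rwa [← Calc.σ_sub, Calc.norm_σ]
  have e5 : ‖d‖ ≤ 2 * ‖b‖ := by
    have := norm_sub_norm_le d b
    rw [norm_sub_rev] at this
    nlinarith [norm_nonneg b]
  have e6 := norm_sub_le_norm_sub_add_norm_sub (ν.σ t b) (ν.σ t d) c
  nlinarith [mul_le_mul_of_nonneg_left e5 h0]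

theorem flow_data {A B N D : Alg H} {ξ : H} {Γ : ℕ → Subgroup (UU H)} (μ : Mod A B ξ)
    (ν : Mod N D ξ) (h : Pin2 A B N D ξ Γ) {κ δ : ℝ} (h0 : 0 ≤ κ) (h1 : κ ≤ 1) (h2 : 3 * κ ≤ δ)
    (hc : Close B D κ) (t : ℝ) :
    GapData μ ((MonoidHom.fst _ _).comp (⨆ n, Γ n).subtype)
      ((MonoidHom.snd _ _).comp (⨆ n, Γ n).subtype) (ν.U (-t) * μ.U t) δ := by
  have hm : ∀ g : ↥(⨆ n, Γ n), ∃ n, g.1 ∈ Γ n := fun g =>
    (Subgroup.mem_iSup_of_directed h.left.mono.directed_le).1 g.2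
  have hc2 : ∀ x : Op H, (∀ s, μ.U s * x = x * μ.U s) → (∀ s, ν.U s * x = x * ν.U s) →
      ν.U (-t) * μ.U t * x = x * (ν.U (-t) * μ.U t) := fun x e1 e2 => by
    rw [mul_assoc, e1, ← mul_assoc, e2, mul_assoc]
  have p1 := fun (g : ↥(⨆ n, Γ n)) n (hn : g.1 ∈ Γ n) => (μ.pair (h.left.memA n _ hn)
    (h.left.memB n _ hn) g.1.1.2 g.1.2.2 (h.left.fix n _ hn)).2
  have p2 := fun (g : ↥(⨆ n, Γ n)) n (hn : g.1 ∈ Γ n) => (ν.pair (h.right.memA n _ hn)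
    (h.right.memB n _ hn) g.1.1.2 g.1.2.2 (h.right.fix n _ hn)).2
  refine ⟨h.left.norm, fun g => (hm g).elim fun n hn => h.left.memA n _ hn,
    fun g => (hm g).elim fun n hn => h.left.memB n _ hn,
    fun g => (hm g).elim fun n hn => h.left.fix n _ hn,
    fun x hx hg => h.left.irrA x hx fun n γ hγ => hg ⟨γ, Subgroup.mem_iSup_of_mem n hγ⟩,
    mul_mem (ν.U_mem _) (μ.U_mem _), ?_,
    fun g => (hm g).elim fun n hn => hc2 _ (p1 g n hn).1 (p2 g n hn).1,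
    fun g => (hm g).elim fun n hn => hc2 _ (p1 g n hn).2 (p2 g n hn).2,
    fun z hA hB => hc2 _ (μ.cen hA hB) (ν.cen ((h.cen z).1 ⟨hA, hB⟩).1 ((h.cen z).1 ⟨hA, hB⟩).2),
    fun b hb => ?_⟩
  · change ν.U (-t) (μ.U t ξ) = ξ
    rw [μ.U_fix μ.cp, ν.U_fix ν.cp]
  · obtain ⟨b', hb', e⟩ := flow_near μ ν h0 h1 hc t hb
    exact ⟨b', hb', e.trans (mul_le_mul_of_nonneg_right h2 (norm_nonneg _))⟩

theorem flow_double (Φ Ψ : Calc H) (s : ℝ) :
    ‖Ψ.U (-(s + s)) * Φ.U (s + s) - 1‖ ≤ 2 * ‖Ψ.U (-s) * Φ.U s - 1‖ := by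
  have e : Ψ.U (-(s + s)) * Φ.U (s + s) - 1 =
      Ψ.U (-s) * (Ψ.U (-s) * Φ.U s - 1) * Φ.U s + (Ψ.U (-s) * Φ.U s - 1) := by
    rw [neg_add, Ψ.U_add, Φ.U_add]
    noncomm_ring
  rw [e, two_mul]
  refine (norm_add_le _ _).trans (add_le_add (le_of_eq ?_) le_rfl)
  rw [CStarRing.norm_mul_mem_unitary _ (Φ.U_mem _), CStarRing.norm_mem_unitary_mul _ (Ψ.U_mem _)]

/-- `Y t = ν.U (-t) * μ.U t` satisfies `GapData` for `G = ⨆ n, Γ n` (`Mod.pair`, `Mod.cen` for both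
structures; `near` from `comm_close` and invariance). `spread` (twice, `Pin2.symm`), `res_close`,
`avg_of_res` and `gap` give `‖Y t - 1‖ ≤ θ` for `|t| ≤ 1`. Since
`Y (2 t) - 1 = ν.U (-t) (Y t - 1) μ.U t + (Y t - 1)`, `avg_of_near` and `gap` propagate the bound
when `θ ≤ 1/8`. -/
theorem flow_close (hH : HyperStmt.{u}) (ε : ℝ) (hε : 0 < ε) : ∃ δ : ℝ, 0 < δ ∧
    ∀ (H : Type u) [NormedAddCommGroup H] [InnerProductSpace ℂ H] [CompleteSpace H]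
      (A B N D : Alg H) (ξ : H) (Γ : ℕ → Subgroup (UU H)) (μ : Mod A B ξ) (ν : Mod N D ξ),
      Pin2 A B N D ξ Γ → Close A N δ → ∀ t, ‖μ.U t - ν.U t‖ ≤ ε := by
  obtain ⟨δ₁, d1, hgap⟩ := gap hH (min ε (1 / 8)) (lt_min hε (by norm_num))
  obtain ⟨η₀, e0, hres⟩ := avg_of_res.{u}
  obtain ⟨δ₂, d2, hspr⟩ := spread hH (η₀ / 2) (by positivity)
  obtain ⟨K, hK, hcomm⟩ := comm_close hH
  have K0 : 0 < K := by linarith
  obtain ⟨κ, k0, k1, k2, k3⟩ : ∃ κ : ℝ, 0 < κ ∧ κ ≤ 1 ∧ 3 * κ ≤ δ₁ ∧ κ ≤ δ₂ :=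
    ⟨min 1 (min (δ₁ / 3) δ₂), by positivity, min_le_left _ _,
      by linarith [(min_le_right 1 _).trans (min_le_left (δ₁ / 3) δ₂)],
      (min_le_right _ _).trans (min_le_right _ _)⟩
  refine ⟨κ / K, by positivity, fun H _ _ _ A B N D ξ Γ μ ν hP hC => ?_⟩
  have hc := hcomm H A B N D _ μ.cp ν.cp (by positivity) hC
  rw [mul_div_cancel₀ _ K0.ne'] at hc
  obtain ⟨m⟩ := mean_lf Γ hP.left.mono hP.left.fin
  have hg := fun t => hgap H A B ξ μ _ m _ _ _ (flow_data μ ν hP k0.le k1 k2 hc t)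
  have s1 := hspr H A B N D ξ Γ hP (hc.2.mono k3)
  have s2 := hspr H N D A B ξ Γ hP.symm (hc.1.mono k3)
  have hav := hres H μ.toCalc ν.toCalc fun κ₀ =>
    (res_close μ ν (by positivity) s1 s2 κ₀).trans (le_of_eq (by ring))
  have key : ∀ (n : ℕ) (t : ℝ), |t| ≤ 2 ^ n → ‖ν.U (-t) * μ.U t - 1‖ ≤ min ε (1 / 8) := by
    intro n
    induction n with
    | zero => exact fun t ht => hg t (hav t (by simpa using ht))
    | succ n ih =>
      intro t ht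
      refine hg t (avg_of_near _ ?_)
      have h1 := flow_double μ.toCalc ν.toCalc (t / 2)
      have h2 := ih (t / 2) (by rw [abs_div, abs_two, div_le_iff₀ two_pos, ← pow_succ]; exact ht)
      rw [add_halves] at h1
      linarith [min_le_right ε (1 / 8)]
  intro t
  obtain ⟨n, hn⟩ := pow_unbounded_of_one_lt |t| (one_lt_two (α := ℝ))
  have e : μ.U t - ν.U t = ν.U t * (ν.U (-t) * μ.U t - 1) := by
    rw [mul_sub, ← mul_assoc, Calc.U_mul_neg, one_mul, mul_one]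
  rw [e, CStarRing.norm_mem_unitary_mul _ (ν.U_mem _)]
  exact (key n t hn.le).trans (min_le_left _ _)

/-- `Mean.intertwine` for the representations `μ.rep`, `ν.rep` of `Multiplicative ℝ` gives `W` with
`W μ.U t = ν.U t W`; the algebra `cj (star W) A` is invariant under `ν.σ`. Use `Lift.of_cj`. -/
theorem lift_pin2 (hH : HyperStmt.{u}) (h : LiftMod.{u}) : LiftPin2.{u} := by
  intro ε hε
  obtain ⟨δ₀, d0, h⟩ := h (ε / 2) (by positivity)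
  obtain ⟨t, t0, t1, t2, t3⟩ : ∃ t : ℝ, 0 < t ∧ t ≤ 1 / 10 ∧ t ≤ ε / 32 ∧ t ≤ δ₀ / 64 :=
    ⟨min (1 / 10) (min (ε / 32) (δ₀ / 64)), by positivity, min_le_left _ _,
      (min_le_right _ _).trans (min_le_left _ _), (min_le_right _ _).trans (min_le_right _ _)⟩
  obtain ⟨δ₁, d1, hf⟩ := flow_close hH t t0
  obtain ⟨δ, e0, e1, e2, e3⟩ : ∃ δ : ℝ, 0 < δ ∧ δ ≤ 1 ∧ δ ≤ δ₁ ∧ δ ≤ δ₀ / 2 :=
    ⟨min 1 (min δ₁ (δ₀ / 2)), by positivity, min_le_left _ _,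
      (min_le_right _ _).trans (min_le_left _ _), (min_le_right _ _).trans (min_le_right _ _)⟩
  refine ⟨δ, e0, fun H _ _ _ A B N D hAB hND hC ⟨ξ, Γ, hP⟩ => ?_⟩
  obtain ⟨μ⟩ := tomita hAB hP.left.cycA hP.left.cycB
  obtain ⟨ν⟩ := tomita hND hP.right.cycA hP.right.cycB
  obtain ⟨m⟩ := mean_comm (Multiplicative ℝ)
  obtain ⟨W, w1, w2⟩ := m.intertwine μ.rep ν.rep t1 fun g => by
    rw [norm_sub_rev]
    exact hf H A B N D ξ Γ μ ν hP (hC.mono e2) _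
  have w3 : ∀ s, (W : Op H) * μ.U s = ν.U s * W := fun s => w2 (Multiplicative.ofAdd s)
  have w4 : ∀ s, star (W : Op H) * ν.U s = μ.U s * star (W : Op H) := fun s => by
    have := congrArg star (w3 (-s))
    rw [star_mul, star_mul, Calc.star_U, Calc.star_U, neg_neg] at this
    exact this.symm
  have w5 : ‖((star W : unitary (Op H)) : Op H) - 1‖ ≤ 8 * t := by
    rw [Unitary.coe_star, ← star_one, ← star_sub, norm_star]
    exact w1
  have c1 := tl_cjClose (star W) δ ⟨hC.2, hC.1⟩ e0.le e1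
  have c2 : Close (cj (star W) A) N δ₀ := Close.mono ⟨c1.2, c1.1⟩ (by linarith)
  refine (Lift.of_cj (star W) (h H _ _ N D (tools.cjCP (star W) hAB) hND c2
    ⟨ξ, ν, fun s x hx => ?_⟩)).mono (by linarith)
  rw [mem_cj, Unitary.coe_star, star_star] at hx ⊢
  have e : star (W : Op H) * ν.σ s x * W = μ.σ s (star (W : Op H) * x * W) := by
    rw [Calc.σ, Calc.σ, ← mul_assoc, ← mul_assoc, w4, mul_assoc _ (ν.U (-s)), ← w3]
    simp only [mul_assoc]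
  rw [e]
  exact μ.uA s _ hx

end Vale.Agent.P096b
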