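import Vale.Agent.P096b.Khin
import Vale.Agent.P096b.Close

/-! An inequality of Grothendieck type. -/

set_option linter.unusedSectionVars false

namespace Vale.Agent.P096b

open Filter Topology Vale.Agent.P096 MeasureTheory
open scoped InnerProductSpace ComplexConjugate

universe u v

variable {H : Type u} [NormedAddCommGroup H] [InnerProductSpace ℂ H] [CompleteSpace H]

open scoped BigOperators

namespace GTX

/-- The form in question. -/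
noncomputable def Q {ι : Type} [Fintype ι] (l : Op H) (ξ : H) (x y : ι → Op H) : ℂ :=
  ∑ i, (⟪star (x i) (l ξ), y i ξ⟫_ℂ - ⟪star (y i) ξ, x i (l ξ)⟫_ℂ)

theorem le_of_sq {a b : ℝ} (h : a ^ 2 ≤ b ^ 2) (hb : 0 ≤ b) : a ≤ b :=
  (le_abs_self a).trans (abs_le_of_sq_le_sq h hb)

variable {ι : Type} [Fintype ι] {l : Op H} {ξ : H} {A B N D : Alg H}

theorem Q_add (x x' y : ι → Op H) : Q l ξ (fun i => x i + x' i) y = Q l ξ x y + Q l ξ x' y := by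
  simp only [Q, star_add, ContinuousLinearMap.add_apply, inner_add_left, inner_add_right,
    ← Finset.sum_add_distrib]
  exact Finset.sum_congr rfl fun i _ => by ring

theorem Q_zero (hND : CP N D) {x y : ι → Op H} (hx : ∀ i, x i ∈ N) (hy : ∀ i, y i ∈ D)
    (lN : l ∈ N) (lD : l ∈ D) (ls : star l = l) : Q l ξ x y = 0 := by
  refine Finset.sum_eq_zero fun i _ => sub_eq_zero.2 ?_
  rw [tl_inner', tl_inner', tl_inner, ls]
  have e : l * (x i * y i) = y i * (x i * l) := by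
    rw [← mul_assoc, (hND.right l).1 lD _ (hx i), ← (hND.left _).1 (mul_mem (hx i) lN) _ (hy i)]
  exact congrArg (fun T : Op H => ⟪ξ, T ξ⟫_ℂ) e

theorem Q_le (x y : ι → Op H) : ‖Q l ξ x y‖ ≤
    √(∑ i, ‖star (x i) (l ξ)‖ ^ 2) * √(∑ i, ‖y i ξ‖ ^ 2) +
      √(∑ i, ‖x i (l ξ)‖ ^ 2) * √(∑ i, ‖star (y i) ξ‖ ^ 2) := by
  refine (norm_sum_le _ _).trans (le_trans ?_ (add_le_add
    (Real.sum_mul_le_sqrt_mul_sqrt _ _ _) (Real.sum_mul_le_sqrt_mul_sqrt _ _ _)))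
  rw [← Finset.sum_add_distrib]
  refine Finset.sum_le_sum fun i _ => (norm_sub_le _ _).trans
    (add_le_add (norm_inner_le_norm _ _) ((norm_inner_le_norm _ _).trans_eq (mul_comm _ _)))

theorem Q_star (x y : ι → Op H) :
    ‖Q l ξ (fun i => star (x i)) (fun i => star (y i))‖ = ‖Q l ξ x y‖ := by
  rw [← norm_neg, ← Complex.norm_conj]
  congr 1
  simp only [Q, star_star, map_sum, map_sub, inner_conj_symm, ← Finset.sum_neg_distrib,
    neg_sub]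

theorem col_eq (h : ι → Op H) (ζ : H) :
    ∑ k, ‖h k ζ‖ ^ 2 = (⟪ζ, (∑ k, star (h k) * h k) ζ⟫_ℂ).re := by
  simp only [tl_norm_sq, ContinuousLinearMap.sum_apply, inner_sum, Complex.re_sum]

theorem cut (hAB : CP A B) (h : ι → Op H) (hA : ∀ k, h k ∈ A) {L : ℝ} (L0 : 0 < L) :
    ∃ p ∈ A, star p = p ∧ (∀ ζ, ∑ k, ‖(h k * p) ζ‖ ^ 2 ≤ L ^ 2 * ‖ζ‖ ^ 2) ∧
      (∀ ζ, ∑ k, ‖(h k * (1 - p)) ζ‖ ^ 2 ≤ (‖∑ k, (star (h k) * h k) ζ‖ / L) ^ 2) ∧
      ∀ ζ, ‖(1 - p) ζ‖ ^ 2 ≤ (∑ k, ‖h k ζ‖ ^ 2) / L ^ 2 := by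
  set T := ∑ k, star (h k) * h k with hT
  have TA : T ∈ A := sum_mem fun k _ => mul_mem (star_mem (hA k)) (hA k)
  have Ts : star T = T := by simp only [hT, star_sum, star_mul, star_star]
  obtain ⟨s, s1, s2, s3⟩ := exists_sqrt' T Ts fun η => by
    rw [hT, ← col_eq]; exact Finset.sum_nonneg fun _ _ => by positivity
  set d : Op H := ((L⁻¹ : ℝ) : ℂ) • s with hd
  have d1 : star d = d := by rw [hd, star_smul, s1, RCLike.star_def, Complex.conj_ofReal]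
  have d2 : ∀ ζ, ‖d ζ‖ = ‖s ζ‖ / L := fun ζ => by
    rw [hd, ContinuousLinearMap.smul_apply, norm_smul, Complex.norm_real,
      Real.norm_of_nonneg (by positivity), div_eq_inv_mul]
  have d3 : ∀ ζ, ∑ k, ‖h k ζ‖ ^ 2 = L ^ 2 * ‖d ζ‖ ^ 2 := fun ζ => by
    rw [col_eq, ← hT, d2, div_pow, tl_norm_sq s, s1, s2]; field_simp
  obtain ⟨p, p1, p2, p3, p4, p5⟩ := exists_cut d d1
  have p6 : ∀ ζ, ‖(1 - p) ζ‖ ≤ ‖d ζ‖ := fun ζ => by
    rw [ContinuousLinearMap.sub_apply, ContinuousLinearMap.one_apply, norm_sub_rev]; exact p4 ζ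
  refine ⟨p, (hAB.left p).2 fun y hy => (p5 y ?_).symm, p1, fun ζ => ?_, fun ζ => ?_, fun ζ => ?_⟩
  · rw [hd, mul_smul_comm, smul_mul_assoc, s3 y ((hAB.right y).1 hy T TA)]
  · simp only [ContinuousLinearMap.mul_apply]
    rw [d3]
    refine mul_le_mul_of_nonneg_left ?_ (by positivity)
    have e : star (d * p) * (d * p) + star p * p = 1 := by
      rw [star_mul, p1, d1, ← p3]; noncomm_ring
    have a := tl_norm_sq (d * p) ζ
    have b := tl_norm_sq p ζ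
    have c := tl_norm_sq (1 : Op H) ζ
    rw [star_one, mul_one, ← e] at c
    nth_rw 1 [e] at c
    rw [ContinuousLinearMap.add_apply, inner_add_right, Complex.add_re, ← a, ← b,
      ContinuousLinearMap.one_apply, ContinuousLinearMap.mul_apply] at c
    nlinarith [sq_nonneg ‖p ζ‖]
  · simp only [ContinuousLinearMap.mul_apply (h _) (1 - p)]
    rw [d3]
    have e : d ((1 - p) ζ) = (1 - p) (d ζ) := by
      have : d * (1 - p) = (1 - p) * d := by rw [mul_sub, sub_mul, p5 d rfl, mul_one, one_mul]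
      exact congrArg (fun T : Op H => T ζ) this
    have e2 : ‖d (d ζ)‖ = ‖∑ k, (star (h k) * h k) ζ‖ / L / L := by
      rw [d2, ← ContinuousLinearMap.sum_apply, ← hT, ← s2, hd, ContinuousLinearMap.smul_apply,
        map_smul, norm_smul, Complex.norm_real, Real.norm_of_nonneg (by positivity),
        ContinuousLinearMap.mul_apply, ← div_eq_inv_mul]
    have a := pow_le_pow_left₀ (norm_nonneg _) (p6 (d ζ)) 2
    rw [e2, div_pow, le_div_iff₀ (by positivity)] at a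
    rw [e]; linarith
  · rw [d3, le_div_iff₀ (by positivity), mul_comm]
    exact mul_le_mul_of_nonneg_left (pow_le_pow_left₀ (norm_nonneg _) (p6 ζ) 2) (by positivity)

theorem det (hAB : CP A B) (hND : CP N D) {θ L : ℝ} (θ0 : 0 ≤ θ) (L0 : 0 < L) {n : ℕ}
    (cc : ∀ x : Fin n → Op H, (∀ i, x i ∈ A) → (∀ η, ∑ i, ‖x i η‖ ^ 2 ≤ L ^ 2 * ‖η‖ ^ 2) →
      ∃ y : Fin n → Op H, (∀ i, y i ∈ N) ∧ ∀ η, ∑ i, ‖(x i - y i) η‖ ^ 2 ≤ (θ * L) ^ 2 * ‖η‖ ^ 2)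
    (h g : Fin n → Op H) (hA : ∀ k, h k ∈ A) (gD : ∀ k, g k ∈ D) (lN : l ∈ N) (lD : l ∈ D)
    (ls : star l = l) : ‖Q l ξ h g‖ ≤
      θ * L * ‖l ξ‖ * √n * √(∑ k, ‖g k ξ‖ ^ 2) + θ * L * ‖l ξ‖ * √(∑ k, ‖star (g k) ξ‖ ^ 2) +
      L⁻¹ * (√(∑ k, ∑ k', ‖(h k' * star (h k)) (l ξ)‖ ^ 2) * √(∑ k, ‖g k ξ‖ ^ 2)) +
      L⁻¹ * (‖∑ k, (star (h k) * h k) (l ξ)‖ * √(∑ k, ‖star (g k) ξ‖ ^ 2)) := by
  obtain ⟨p, pA, ps, c1, c2, c3⟩ := cut hAB h hA L0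
  obtain ⟨z, zN, hz⟩ := cc (fun k => h k * p) (fun k => mul_mem (hA k) pA) c1
  have e : h = fun k => ((h k * p - z k) + h k * (1 - p)) + z k := by
    funext k; noncomm_ring
  have e2 : Q l ξ h g = Q l ξ (fun k => h k * p - z k) g + Q l ξ (fun k => h k * (1 - p)) g := by
    nth_rw 1 [e]
    rw [Q_add, Q_add, Q_zero hND zN gD lN lD ls, add_zero]
  have t0 : 0 ≤ θ * L := by positivity
  have a1 : √(∑ k, ‖star (h k * p - z k) (l ξ)‖ ^ 2) ≤ θ * L * ‖l ξ‖ * √n := by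
    have b : ∀ k, ‖star (h k * p - z k) (l ξ)‖ ≤ θ * L * ‖l ξ‖ := fun k => by
      refine ContinuousLinearMap.le_of_opNorm_le _ ?_ _
      rw [norm_star]
      refine ContinuousLinearMap.opNorm_le_bound _ t0 fun η => ?_
      refine le_of_sq ?_ (by positivity)
      rw [mul_pow]
      exact (Finset.single_le_sum (f := fun i => ‖(h i * p - z i) η‖ ^ 2)
        (fun _ _ => by positivity) (Finset.mem_univ k)).trans (hz η)
    refine Real.sqrt_le_iff.2 ⟨by positivity, ?_⟩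
    refine (Finset.sum_le_sum fun k _ => pow_le_pow_left₀ (norm_nonneg _) (b k) 2).trans_eq ?_
    rw [mul_pow _ √n, Real.sq_sqrt (Nat.cast_nonneg _)]
    simp [mul_comm]
  have a2 : √(∑ k, ‖(h k * p - z k) (l ξ)‖ ^ 2) ≤ θ * L * ‖l ξ‖ :=
    Real.sqrt_le_iff.2 ⟨by positivity, by rw [mul_pow _ ‖l ξ‖]; exact hz _⟩
  have a3 : √(∑ k, ‖star (h k * (1 - p)) (l ξ)‖ ^ 2) ≤
      L⁻¹ * √(∑ k, ∑ k', ‖(h k' * star (h k)) (l ξ)‖ ^ 2) := by
    refine Real.sqrt_le_iff.2 ⟨by positivity, ?_⟩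
    rw [mul_pow, Real.sq_sqrt (by positivity), Finset.mul_sum]
    refine Finset.sum_le_sum fun k _ => ?_
    rw [star_mul, star_sub, star_one, ps, ContinuousLinearMap.mul_apply, inv_pow, ← div_eq_inv_mul]
    exact c3 _
  have a4 : √(∑ k, ‖(h k * (1 - p)) (l ξ)‖ ^ 2) ≤ L⁻¹ * ‖∑ k, (star (h k) * h k) (l ξ)‖ :=
    Real.sqrt_le_iff.2 ⟨by positivity, by rw [← div_eq_inv_mul]; exact c2 _⟩
  have b1 := Q_le (l := l) (ξ := ξ) (fun k => h k * p - z k) g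
  have b2 := Q_le (l := l) (ξ := ξ) (fun k => h k * (1 - p)) g
  have g1 := Real.sqrt_nonneg (∑ k, ‖g k ξ‖ ^ 2)
  have g2 := Real.sqrt_nonneg (∑ k, ‖star (g k) ξ‖ ^ 2)
  have f1 := mul_le_mul_of_nonneg_right a1 g1
  have f2 := mul_le_mul_of_nonneg_right a2 g2
  have f3 := mul_le_mul_of_nonneg_right a3 g1
  have f4 := mul_le_mul_of_nonneg_right a4 g2
  rw [e2]
  refine (norm_add_le _ _).trans ?_
  rw [mul_assoc L⁻¹] at f3 f4
  linarith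

theorem marg {M Ω : Type} [AddCommMonoid M] [Module ℚ≥0 M] [Fintype Ω] [Nonempty Ω] {n : ℕ}
    (k : Fin n) (F : Ω → M) : 𝔼 e : Fin n → Ω, F (e k) = 𝔼 a, F a := by
  rw [Fintype.expect_equiv (Equiv.funSplitAt k Ω) (fun e => F (e k)) (fun q => F q.1) fun _ => rfl,
    ← Finset.univ_product_univ, Finset.expect_product]
  simp only [Fintype.expect_const]

theorem cs {Ω : Type} [Fintype Ω] (f g : Ω → ℝ) {F G : ℝ} (F0 : 0 ≤ F) (G0 : 0 ≤ G)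
    (hf : 𝔼 e, f e ^ 2 ≤ F ^ 2) (hg : 𝔼 e, g e ^ 2 ≤ G ^ 2) : 𝔼 e, f e * g e ≤ F * G := by
  refine le_of_sq ?_ (by positivity)
  rw [mul_pow]
  exact (Finset.expect_mul_sq_le_sq_mul_sq _ f g).trans
    (mul_le_mul hf hg (Finset.expect_nonneg fun _ _ => sq_nonneg _) (sq_nonneg _))

theorem main (hAB : CP A B) (hND : CP N D) {θ Λ c r : ℝ} (θ0 : 0 ≤ θ) (Λ0 : 0 < Λ) (c0 : 0 < c)
    (cr : c ≤ r) (cc : ∀ (n : ℕ) (L : ℝ) (x : Fin n → Op H), 0 ≤ L → (∀ i, x i ∈ A) →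
      (∀ η, ∑ i, ‖x i η‖ ^ 2 ≤ L ^ 2 * ‖η‖ ^ 2) →
      ∃ y : Fin n → Op H, (∀ i, y i ∈ N) ∧ ∀ η, ∑ i, ‖(x i - y i) η‖ ^ 2 ≤ (θ * L) ^ 2 * ‖η‖ ^ 2)
    (x y : ι → Op H) (xA : ∀ i, x i ∈ A) (yD : ∀ i, y i ∈ D) (lN : l ∈ N) (lD : l ∈ D)
    (ls : star l = l) (hc : ∀ ζ, ∑ i, ‖x i ζ‖ ^ 2 ≤ c * ‖ζ‖ ^ 2)
    (hr : ∀ ζ, ∑ i, ‖star (x i) ζ‖ ^ 2 ≤ r * ‖ζ‖ ^ 2) : ‖Q l ξ x y‖ ≤
      (2 * θ * Λ + 2 / Λ) * ‖l ξ‖ *
        (√r * √(∑ i, ‖y i ξ‖ ^ 2) + √c * √(∑ i, ‖star (y i) ξ‖ ^ 2)) := by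
  classical
  have r0 : 0 < r := by linarith
  obtain ⟨n, n1, n2, n3⟩ : ∃ n : ℕ, (1 : ℝ) ≤ n ∧ r ≤ n * c ∧ n * c ≤ 4 * r := by
    refine ⟨⌈r / c⌉₊, by exact_mod_cast Nat.ceil_pos.2 (by positivity),
      (div_le_iff₀ c0).1 (Nat.le_ceil _), ?_⟩
    have := mul_le_mul_of_nonneg_right (Nat.ceil_lt_add_one (by positivity : 0 ≤ r / c)).le c0.le
    rw [add_mul, div_mul_cancel₀ _ c0.ne'] at this
    linarith
  obtain ⟨m, m0, hm⟩ : ∃ m : ℝ, 0 < m ∧ m ^ 2 = n := ⟨√n, by positivity, Real.sq_sqrt (by linarith)⟩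
  have hm' : √(n : ℝ) = m := by rw [← hm, Real.sqrt_sq m0.le]
  have sc := Real.sq_sqrt c0.le
  have sr := Real.sq_sqrt r0.le
  have sc0 := Real.sqrt_pos.2 c0
  have sr0 := Real.sqrt_pos.2 r0
  have sa := Real.sq_sqrt (show 0 ≤ ∑ i, ‖y i ξ‖ ^ 2 by positivity)
  have sb := Real.sq_sqrt (show 0 ≤ ∑ i, ‖star (y i) ξ‖ ^ 2 by positivity)
  have a0 := Real.sqrt_nonneg (∑ i, ‖y i ξ‖ ^ 2)
  have b0 := Real.sqrt_nonneg (∑ i, ‖star (y i) ξ‖ ^ 2)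
  generalize √(∑ i, ‖y i ξ‖ ^ 2) = a at sa a0
  generalize √(∑ i, ‖star (y i) ξ‖ ^ 2) = b at sb b0
  generalize √c = u at sc sc0
  generalize √r = v at sr sr0
  have uv : m * u ≤ 2 * v := le_of_sq (by rw [mul_pow, mul_pow, hm, sc, sr]; linarith)
    (by positivity)
  set h : (Fin n → ι → Bool) → Fin n → Op H := fun e k => ∑ i, sg (e k i) • x i with hh
  set g : (Fin n → ι → Bool) → Fin n → Op H := fun e k => ∑ i, sg (e k i) • y i with hg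
  have L0 : 0 < Λ * m * u := by positivity
  have E0 : 𝔼 e, Q l ξ (h e) (g e) = n * Q l ξ x y := by
    simp only [Q, hh, hg, Finset.expect_sum_comm, Finset.expect_sub_distrib, KhinX.star_eq,
      ContinuousLinearMap.sum_apply, ContinuousLinearMap.smul_apply]
    have k1 := fun k : Fin n => marg k fun e : ι → Bool =>
      ⟪∑ i, sg (e i) • star (x i) (l ξ), ∑ i, sg (e i) • y i ξ⟫_ℂ
    have k2 := fun k : Fin n => marg k fun e : ι → Bool =>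
      ⟪∑ i, sg (e i) • star (y i) ξ, ∑ i, sg (e i) • x i (l ξ)⟫_ℂ
    simp only [k1, k2, khin_inner, Finset.sum_const, Finset.card_univ, Fintype.card_fin,
      nsmul_eq_mul, Finset.sum_sub_distrib, mul_sub]
  have G1 : 𝔼 e, √(∑ k, ‖g e k ξ‖ ^ 2) ^ 2 ≤ (m * a) ^ 2 := by
    have : ∀ e, √(∑ k, ‖g e k ξ‖ ^ 2) ^ 2 = ∑ k, ‖∑ i, sg (e k i) • y i ξ‖ ^ 2 := fun e => by
      rw [Real.sq_sqrt (by positivity)]
      simp only [hg, ContinuousLinearMap.sum_apply, ContinuousLinearMap.smul_apply]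
    have k1 := fun k : Fin n => marg k fun e : ι → Bool => ‖∑ i, sg (e i) • y i ξ‖ ^ 2
    simp only [this, Finset.expect_sum_comm, k1, khin_sq, Finset.sum_const, Finset.card_univ,
      Fintype.card_fin, nsmul_eq_mul]
    rw [mul_pow, hm, sa]
  have G2 : 𝔼 e, √(∑ k, ‖star (g e k) ξ‖ ^ 2) ^ 2 ≤ (m * b) ^ 2 := by
    have : ∀ e, √(∑ k, ‖star (g e k) ξ‖ ^ 2) ^ 2 =
        ∑ k, ‖∑ i, sg (e k i) • star (y i) ξ‖ ^ 2 := fun e => by
      rw [Real.sq_sqrt (by positivity)]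
      simp only [hg, KhinX.star_eq, ContinuousLinearMap.sum_apply, ContinuousLinearMap.smul_apply]
    have k1 := fun k : Fin n => marg k fun e : ι → Bool => ‖∑ i, sg (e i) • star (y i) ξ‖ ^ 2
    simp only [this, Finset.expect_sum_comm, k1, khin_sq, Finset.sum_const, Finset.card_univ,
      Fintype.card_fin, nsmul_eq_mul]
    rw [mul_pow, hm, sb]
  have z0 := norm_nonneg (l ξ)
  have R1 : 𝔼 e, √(∑ k, ∑ k', ‖(h e k' * star (h e k)) (l ξ)‖ ^ 2) ^ 2 ≤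
      (2 * m ^ 2 * u * v * ‖l ξ‖) ^ 2 := by
    have : ∀ e, √(∑ k, ∑ k', ‖(h e k' * star (h e k)) (l ξ)‖ ^ 2) ^ 2 =
        ∑ k, ∑ k', ‖(h e k' * star (h e k)) (l ξ)‖ ^ 2 := fun e => Real.sq_sqrt (by positivity)
    simp only [this]
    refine (khin_mix x hc hr c0.le r0.le n (l ξ)).trans ?_
    rw [mul_pow _ ‖l ξ‖, mul_pow, mul_pow, mul_pow, hm, sc, sr]
    refine mul_le_mul_of_nonneg_right ?_ (by positivity)
    have p1 : 0 ≤ n * r * (n * c - r) := mul_nonneg (by positivity) (by linarith)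
    have p2 : 0 ≤ n * c * r * (n - 1) := mul_nonneg (by positivity) (by linarith)
    nlinarith
  have R2 : 𝔼 e, ‖∑ k, (star (h e k) * h e k) (l ξ)‖ ^ 2 ≤ (2 * m ^ 2 * u ^ 2 * ‖l ξ‖) ^ 2 := by
    refine (khin_col x hc hr c0.le r0.le n (l ξ)).trans ?_
    rw [mul_pow _ ‖l ξ‖, mul_pow, mul_pow, hm, sc]
    refine mul_le_mul_of_nonneg_right ?_ (by positivity)
    have p1 : 0 ≤ n * c * (n * c - r) := mul_nonneg (by positivity) (by linarith)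
    have p2 : 0 ≤ n * c * c * (n - 1) := mul_nonneg (by positivity) (by linarith)
    nlinarith
  have O : 𝔼 _e : Fin n → ι → Bool, (1 : ℝ) ^ 2 ≤ 1 ^ 2 := (Fintype.expect_const _).le
  have S1 := cs _ _ zero_le_one (by positivity) O G1
  have S2 := cs _ _ zero_le_one (by positivity) O G2
  have S3 := cs _ _ (by positivity) (by positivity) R1 G1
  have S4 := cs _ _ (by positivity) (by positivity) R2 G2
  simp only [one_mul] at S1 S2
  have D := Finset.expect_le_expect fun e (_ : e ∈ Finset.univ) =>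
    det (l := l) (ξ := ξ) hAB hND θ0 L0 (fun z => cc n _ z L0.le) (h e) (g e)
      (fun k => sum_mem fun i _ => SMulMemClass.smul_mem _ (xA i))
      (fun k => sum_mem fun i _ => SMulMemClass.smul_mem _ (yD i)) lN lD ls
  simp only [Finset.expect_add_distrib, ← Finset.mul_expect, hm'] at D
  have D2 := (RCLike.norm_expect_le (K := ℂ)).trans D
  rw [E0, norm_mul, Complex.norm_natCast, ← hm] at D2
  have T1 := mul_le_mul_of_nonneg_left S1 (show 0 ≤ θ * (Λ * m * u) * ‖l ξ‖ * m by positivity)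
  have T2 := mul_le_mul_of_nonneg_left S2 (show 0 ≤ θ * (Λ * m * u) * ‖l ξ‖ by positivity)
  have T3 := mul_le_mul_of_nonneg_left S3 (show 0 ≤ (Λ * m * u)⁻¹ by positivity)
  have T4 := mul_le_mul_of_nonneg_left S4 (show 0 ≤ (Λ * m * u)⁻¹ by positivity)
  have U3 : (Λ * m * u)⁻¹ * (2 * m ^ 2 * u * v * ‖l ξ‖ * (m * a)) =
      m ^ 2 * (2 / Λ * ‖l ξ‖ * (v * a)) := by field_simp
  have U4 : (Λ * m * u)⁻¹ * (2 * m ^ 2 * u ^ 2 * ‖l ξ‖ * (m * b)) =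
      m ^ 2 * (2 / Λ * ‖l ξ‖ * (u * b)) := by field_simp
  have U1 := mul_le_mul_of_nonneg_left uv (show 0 ≤ θ * Λ * ‖l ξ‖ * m ^ 2 * a by positivity)
  have U2 : 0 ≤ θ * Λ * ‖l ξ‖ * m ^ 2 * u * b := by positivity
  refine le_of_mul_le_mul_left ?_ (pow_pos m0 2)
  rw [U3] at T3
  rw [U4] at T4
  linarith

end GTX

/-- By passing to adjoints assume `c ≤ r`; let `n = ⌈r / c⌉`, `X k = n ^ (-1/2) ∑ e k i x i` and
`Y k` likewise, with independent signs; the mean of the expression `Q X Y` for the columns is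
the given one (`khin_inner`). Let `d = √(X* X) / L` and `p` from `exists_cut`; the column `X p` has
norm at most `L`, so `col_close` gives a column `X'` over `N` within `K δ L`, and `Q X' Y = 0`.
`|Q (X p - X') Y| ≤ K δ L ‖l ξ‖ (√n √(∑ ‖Y k ξ‖²) + √(∑ ‖(Y k)* ξ‖²))`. For `X (1 - p)` use
`∑ ‖X k (1 - p) ζ‖² = L² ‖(1 - p) d ζ‖² ≤ ‖X* X ζ‖² / L²` (`khin_col`: mean `≤ 4 c² ‖ζ‖² / L²`)
and `∑ ‖(1 - p) (X k)* ζ‖² ≤ ∑ ∑ ‖X k' (X k)* ζ‖² / L²` (`khin_mix`: mean `≤ 4 c r ‖ζ‖² / L²`).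
Take `L = Λ √c` with `Λ` large, then `δ` small; Cauchy-Schwarz for the mean. -/
theorem gt (hH : HyperStmt.{u}) (η : ℝ) (hη : 0 < η) : ∃ δ : ℝ, 0 < δ ∧
    ∀ (H : Type u) [NormedAddCommGroup H] [InnerProductSpace ℂ H] [CompleteSpace H]
      (A B N D : Alg H) (ι : Type) [Fintype ι] (x y : ι → Op H) (c r : ℝ) (l : Op H) (ξ : H),
      CP A B → CP N D → Near D B δ → 0 < c → 0 < r → (∀ i, x i ∈ A) → (∀ i, y i ∈ D) → l ∈ N →
      l ∈ D → star l = l → (∀ ζ, ∑ i, ‖x i ζ‖ ^ 2 ≤ c * ‖ζ‖ ^ 2) →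
      (∀ ζ, ∑ i, ‖star (x i) ζ‖ ^ 2 ≤ r * ‖ζ‖ ^ 2) →
      ‖∑ i, (⟪star (x i) (l ξ), y i ξ⟫_ℂ - ⟪star (y i) ξ, x i (l ξ)⟫_ℂ)‖ ≤
        η * ‖l ξ‖ * (√r * √(∑ i, ‖y i ξ‖ ^ 2) + √c * √(∑ i, ‖star (y i) ξ‖ ^ 2)) := by
  obtain ⟨K, K1, hK⟩ := col_close hH
  refine ⟨η ^ 2 / (16 * K), by positivity, ?_⟩
  intro H _ _ _ A B N D ι _ x y c r l ξ hAB hND hn c0 r0 xA yD lN lD ls hc hr
  have e : 2 * (K * (η ^ 2 / (16 * K))) * (4 / η) + 2 / (4 / η) = η := by field_simp; ring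
  have cc := fun (n : ℕ) (L : ℝ) (z : Fin n → Op H) (L0 : 0 ≤ L) =>
    hK H A B N D _ L (Fin n) z hAB hND (by positivity) hn L0
  change ‖GTX.Q l ξ x y‖ ≤ _
  rcases le_total c r with h | h
  · have := GTX.main (ξ := ξ) (Λ := 4 / η) hAB hND (by positivity) (by positivity) c0 h cc x y xA yD
      lN lD ls hc hr
    rwa [e] at this
  · have := GTX.main (ξ := ξ) (Λ := 4 / η) hAB hND (by positivity) (by positivity) r0 h cc
      (fun i => star (x i)) (fun i => star (y i)) (fun i => star_mem (xA i))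
      (fun i => star_mem (yD i)) lN lD ls hr (by simpa only [star_star] using hc)
    simp only [star_star] at this
    rwa [e, GTX.Q_star, add_comm] at this

end Vale.Agent.P096b
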