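import Vale.Agent.P096b.Gap2

/-! The gap lemma. -/

set_option linter.unusedSectionVars false

namespace Vale.Agent.P096b

open Filter Topology Vale.Agent.P096 MeasureTheory
open scoped InnerProductSpace ComplexConjugate

universe u v

variable {H : Type u} [NormedAddCommGroup H] [InnerProductSpace ℂ H] [CompleteSpace H]

section Aux

variable {A B : Alg H} {ξ : H} {Φ : Calc H}

theorem gap_iter_mk {T : Op H → Op H} (h : Mk Φ B T) (n : ℕ) : Mk Φ B T^[n] := by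
  induction n with
  | zero => exact Mk.id
  | succ n ih => exact ih.comp h

/-- Iterating a block contracts the corner. -/
theorem gap_iter {T : Op H → Op H} (h : Mk Φ B T) {Y X z z₀ q : Op H} {γ t : ℝ}
    (hz : z ∈ B) (hz₀ : z₀ ∈ B) (hq : q ∈ B) (hqq : IsStarProjection q) (c1 : q * z = z * q)
    (c2 : q * z₀ = z₀ * q) (h1 : ‖q * z‖ ≤ γ) (hγ : γ ≤ 1) (h2 : ‖z₀‖ ≤ 2)
    (h3 : ‖T Y - z * Y‖ ≤ 2 * t) (h4 : ‖X - z₀ * Y‖ ≤ t) (n : ℕ) :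
    ∃ w ∈ B, w * q = w ∧ ‖w‖ ≤ 2 * γ ^ n ∧ ‖q * T^[n] X - w * Y‖ ≤ (4 * n + 1) * t := by
  have hγ0 : 0 ≤ γ := (norm_nonneg _).trans h1
  have hq1 := hqq.norm_le
  induction n with
  | zero =>
    refine ⟨q * z₀, mul_mem hq hz₀, by rw [c2, mul_assoc, hqq.isIdempotentElem.eq], ?_, ?_⟩
    · refine (norm_mul_le _ _).trans ?_
      rw [pow_zero, mul_one]
      nlinarith [norm_nonneg q, norm_nonneg z₀]
    · rw [Function.iterate_zero_apply, mul_assoc, ← mul_sub]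
      refine (norm_mul_le _ _).trans ?_
      have := norm_nonneg (X - z₀ * Y)
      simp only [Nat.cast_zero, mul_zero, zero_add, one_mul]
      nlinarith [norm_nonneg q]
  | succ n ih =>
    obtain ⟨w, hw, e, n1, n2⟩ := ih
    have hw2 : ‖w‖ ≤ 2 := n1.trans (by linarith [pow_le_one₀ (n := n) hγ0 hγ])
    refine ⟨w * z, mul_mem hw hz, by rw [mul_assoc, ← c1, ← mul_assoc, e], ?_, ?_⟩
    · rw [← e, mul_assoc, pow_succ, ← mul_assoc 2]
      exact (norm_mul_le _ _).trans (mul_le_mul n1 h1 (norm_nonneg _) (by positivity))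
    · have e2 : q * T^[n + 1] X - w * z * Y = T (q * T^[n] X - w * Y) + w * (T Y - z * Y) := by
        rw [Function.iterate_succ_apply', h.sub, h.left q hq, h.left w hw, mul_sub, mul_assoc]
        abel
      rw [e2]
      refine (norm_add_le _ _).trans ?_
      have k1 := (h.norm _).trans n2
      have k2 : ‖w * (T Y - z * Y)‖ ≤ 2 * (2 * t) :=
        (norm_mul_le _ _).trans (mul_le_mul hw2 h3 (norm_nonneg _) two_pos.le)
      push_cast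
      linarith

theorem gap_av_σ {G : Type v} [Group G] (m : Mean G) (ρ : G →* unitary (Op H))
    (hU : ∀ g t, Φ.U t * ρ g = ρ g * Φ.U t) (s : ℝ) (x : Op H) :
    m.av ρ (Φ.σ s x) = Φ.σ s (m.av ρ x) := by
  rw [Calc.σ, Calc.σ, m.av_mul_right ρ fun g => (hU g _).symm, m.av_mul_left ρ fun g => (hU g _).symm]

theorem gap_sandwich (a b Y : Op H) (hY : ‖Y‖ ≤ 1) (hab : ‖b‖ = ‖a‖) :
    ‖star a * Y * a - star b * Y * b‖ ≤ 2 * (‖a‖ * ‖a - b‖) := by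
  have e : star a * Y * a - star b * Y * b = star (a - b) * Y * a + star b * Y * (a - b) := by
    rw [star_sub]
    noncomm_ring
  have k : ∀ x y : Op H, ‖star x * Y * y‖ ≤ ‖x‖ * ‖y‖ := fun x y => by
    refine (norm_mul_le _ _).trans (mul_le_mul_of_nonneg_right ?_ (norm_nonneg _))
    refine (norm_mul_le _ _).trans ?_
    rw [norm_star]
    exact mul_le_of_le_one_right (norm_nonneg _) hY
  rw [e]
  refine (norm_add_le _ _).trans ?_
  have k1 := k (a - b) a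
  have k2 := k b (a - b)
  rw [hab] at k2
  linarith

/-- The translated block acts on nearby points of the orbit. -/
theorem gap_shift {G : Type v} [Group G] (m : Mean G) (ρ : G →* unitary (Op H))
    (hU : ∀ g t, Φ.U t * ρ g = ρ g * Φ.U t) {a r z Y : Op H} (hY : ‖Y‖ ≤ 1)
    (hr : ∀ t, Φ.U t * r = r * Φ.U t) (hz : ∀ t, Φ.U t * z = z * Φ.U t) {t s s₀ : ℝ}
    (h : ‖(1 / 2 : ℂ) • (Y + m.av ρ (star a * Y * a + star r * Y * r)) - z * Y‖ ≤ t)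
    (h1 : ‖a‖ * ‖Φ.σ (s - s₀) a - a‖ ≤ t) :
    ‖(1 / 2 : ℂ) • (Φ.σ (-s) Y + m.av ρ (star (Φ.σ (-s₀) a) * Φ.σ (-s) Y * Φ.σ (-s₀) a +
      star r * Φ.σ (-s) Y * r)) - z * Φ.σ (-s) Y‖ ≤ 2 * t := by
  have e1 : Φ.σ (-s₀) a = Φ.σ (-s) (Φ.σ (s - s₀) a) := by
    rw [Φ.σ_σ]
    ring_nf
  have e2 : (1 / 2 : ℂ) • (Φ.σ (-s) Y + m.av ρ (star (Φ.σ (-s₀) a) * Φ.σ (-s) Y * Φ.σ (-s₀) a +
      star r * Φ.σ (-s) Y * r)) - z * Φ.σ (-s) Y =
      Φ.σ (-s) (((1 / 2 : ℂ) • (Y + m.av ρ (star a * Y * a + star r * Y * r)) - z * Y) +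
        (1 / 2 : ℂ) • m.av ρ (star (Φ.σ (s - s₀) a) * Y * Φ.σ (s - s₀) a - star a * Y * a)) := by
    rw [e1]
    generalize Φ.σ (s - s₀) a = b
    simp only [Φ.σ_add, Φ.σ_sub, Φ.σ_smul, Φ.σ_mul, Φ.σ_star, ← gap_av_σ m ρ hU, m.av_add,
      m.av_sub, Φ.σ_fix (hr _), Φ.σ_fix (hz _)]
    module
  rw [e2, Φ.norm_σ]
  refine (norm_add_le _ _).trans ?_
  have k1 := (m.av_norm ρ _).trans (gap_sandwich (Φ.σ (s - s₀) a) a Y hY (Φ.norm_σ _ _).symm)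
  rw [Φ.norm_σ] at k1
  rw [norm_smul, show ‖(1 / 2 : ℂ)‖ = 1 / 2 by simp]
  linarith

theorem gap_cover {Y q : Op H} (hq : q ∈ B) {η : ℝ} (hη : 0 < η)
    (h : ∀ s₀, ∃ T', Mk Φ B T' ∧ ∀ T, Mk Φ B T → ∀ s, |s - s₀| < η →
      ‖q * T' (T (Φ.σ (-s) Y))‖ ≤ 1 / 2) (S : ℝ) :
    ∃ T, Mk Φ B T ∧ ∀ s ∈ Set.Icc 0 S, ‖q * T (Φ.σ (-s) Y)‖ ≤ 1 / 2 := by
  have key : ∀ N : ℕ, ∃ T, Mk Φ B T ∧ ∀ s, 0 ≤ s → s < N * η → ‖q * T (Φ.σ (-s) Y)‖ ≤ 1 / 2 := by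
    intro N
    induction N with
    | zero => exact ⟨_, Mk.id, fun s h0 h1 => absurd h1 (by simpa using h0)⟩
    | succ N ih =>
      obtain ⟨T, hT, h1⟩ := ih
      obtain ⟨T', hT', h2⟩ := h (N * η)
      refine ⟨_, hT'.comp hT, fun s h0 hs => ?_⟩
      rcases lt_or_ge s (N * η) with h3 | h3
      · rw [← hT'.left q hq]
        exact (hT'.norm _).trans (h1 s h0 h3)
      · refine h2 T hT s ?_
        rw [abs_of_nonneg (sub_nonneg.2 h3)]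
        push_cast at hs
        linarith
  obtain ⟨N, hN⟩ := exists_nat_gt (S / η)
  obtain ⟨T, hT, h1⟩ := key N
  exact ⟨T, hT, fun s hs => h1 s hs.1 (hs.2.trans_lt ((div_lt_iff₀ hη).1 hN))⟩

end Aux

/-- Suppose `‖Y - 1‖ > θ` and take `a, r, z, q` from `gap_block`; let `γ = 1 - θ²/32`, `k` with
`γ ^ k ≤ 1/8`, `δ` with `K₀ δ ≤ θ²/32` and `(2 k + 4) K₀ δ ≤ 1/8`. For `a' = σ (-s₀) a` let
`T₀ x = (x + av (a'* x a' + r* x r)) / 2` (`Mk.half`, `mk_block`; `av` commutes with `σ`). For `s`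
near `s₀`, `Y s = σ (-s) Y` satisfies `‖T₀ (Y s) - z (Y s)‖ ≤ 2 K₀ δ` (apply `σ s`, continuity of
the orbit of `a`, uniformly: the neighbourhood has a radius independent of `s₀`). For any `Mk`
map `T`, `av (T (Y s)) = z₀ Y s + e` with `z₀` central (`mk_mod`, `gap_central`,
`GapData.flow`), and by induction `‖q T₀ ^ k (av (T (Y s)))‖ ≤ 2 γ ^ k + (4 k + 1) K₀ δ`, since
`T₀` is a contraction commuting with central multiplications. The bound `‖q T (Y s)‖ ≤ 1/2`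
survives further composition (`q T' X = T' (q X)`). Cover `[0, S]` by finitely many
neighbourhoods and apply `mk_contra`. -/
theorem gap (hH : HyperStmt.{u}) (θ : ℝ) (hθ : 0 < θ) : ∃ δ : ℝ, 0 < δ ∧ ∀ (H : Type u)
    [NormedAddCommGroup H] [InnerProductSpace ℂ H] [CompleteSpace H] (A B : Alg H) (ξ : H)
    (μ : Mod A B ξ) (G : Type u) [Group G] (_ : Mean G) (ρ ρ' : G →* unitary (Op H)) (Y : Op H),
    GapData μ ρ ρ' Y δ → Avg μ.toCalc Y → ‖Y - 1‖ ≤ θ := by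
  obtain ⟨K₁, hK₁, hb⟩ := gap_block hH
  obtain ⟨K₂, hK₂, hm⟩ := mk_mod hH
  obtain ⟨k, hk⟩ := exists_pow_lt_of_lt_one (x := (1 / 8 : ℝ)) (y := 1 - θ ^ 2 / 32) (by norm_num)
    (by linarith [pow_pos hθ 2])
  obtain ⟨t, ht, t1, t2⟩ : ∃ t : ℝ, 0 < t ∧ t ≤ θ ^ 2 / 32 ∧ (4 * k + 1) * t ≤ 1 / 4 := by
    refine ⟨min (θ ^ 2 / 32) (1 / 4 / (4 * k + 1)), by positivity, min_le_left _ _, ?_⟩
    rw [mul_comm, ← le_div_iff₀ (by positivity)]
    exact min_le_right _ _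
  have t3 : t ≤ 1 := by nlinarith [mul_nonneg (Nat.cast_nonneg (α := ℝ) k) ht.le]
  have hδ : 0 < t / (K₁ + K₂) := by positivity
  have hKt : (K₁ + K₂) * (t / (K₁ + K₂)) = t := by field_simp
  refine ⟨t / (K₁ + K₂), hδ, ?_⟩
  generalize t / (K₁ + K₂) = δ at hδ hKt
  have d1 : K₁ * δ ≤ t := by nlinarith
  have d2 : K₂ * δ ≤ t := by nlinarith
  intro H _ _ _ A B ξ μ G _ m ρ ρ' Y h hav
  by_contra hn
  obtain ⟨a, r, z, q, ha, hrA, hrB, hc, h1, hzA, hzB, hq, q0, hqA, hqB, n1, n2⟩ :=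
    hb H A B ξ μ G m ρ ρ' Y δ θ h hδ.le (d1.trans t3) hθ (not_le.1 hn)
  have hU : ∀ g t, μ.U t * ρ g = ρ g * μ.U t := fun g =>
    (μ.pair (h.memA g) (h.memB g) (ρ g).2 (ρ' g).2 (h.fix g)).2.1
  have hY : ‖Y‖ ≤ 1 := by
    rw [← mul_one Y, CStarRing.norm_mem_unitary_mul _ h.uni]
    exact ContinuousLinearMap.norm_id_le
  obtain ⟨η, hη, hc2⟩ : ∃ η > 0, ∀ u : ℝ, |u| < η → ‖a‖ * ‖μ.σ u a - a‖ ≤ t := by
    have c : Continuous fun u => ‖a‖ * ‖μ.σ u a - a‖ := by fun_prop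
    obtain ⟨η, hη, h2⟩ := Metric.continuous_iff.1 c 0 t ht
    refine ⟨η, hη, fun u hu => ?_⟩
    have := h2 u (by simpa using hu)
    rw [μ.σ_zero, sub_self, norm_zero, mul_zero, Real.dist_0_eq_abs] at this
    exact (le_abs_self _).trans this.le
  refine mk_contra (B := B) hY hq q0 (μ.cen hqA hqB) hav (gap_cover hqB hη fun s₀ => ?_)
  have hT₀ := (mk_block m ρ μ.cp h.memA hU (μ.uA (-s₀) a ha) hrA
    (by
      simp only [Calc.σ_σ]
      exact hc.comp (by fun_prop))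
    (μ.cen hrA hrB) (by
      have := gap_av_σ m ρ hU (-s₀) (star a * a + star r * r)
      rwa [h1, Calc.σ_one, Calc.σ_add, Calc.σ_mul, Calc.σ_mul, Calc.σ_star, Calc.σ_star,
        Calc.σ_fix _ (μ.cen hrA hrB _)] at this)).half
  refine ⟨_, (gap_iter_mk hT₀ k).comp (mk_av m ρ μ.cp h.memA hU), fun T hT s hs => ?_⟩
  have hs' := h.flow (-s)
  have hYs : ‖μ.σ (-s) Y‖ ≤ 1 := by rwa [Calc.norm_σ]
  obtain ⟨x, hx, n3⟩ := hm H A B _ T _ δ μ.cp hT hs'.uni hδ.le hs'.near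
  obtain ⟨z₀, hz₀A, hz₀B, n4⟩ := gap_central m hs' hx (n3.trans d2)
  have n5 : ‖z₀‖ ≤ 2 := by
    rw [← CStarRing.norm_mul_mem_unitary z₀ hs'.uni]
    have k1 := ((m.av_norm ρ _).trans (hT.norm _)).trans hYs
    have k2 := norm_sub_norm_le (z₀ * μ.σ (-s) Y) (m.av ρ (T (μ.σ (-s) Y)))
    rw [norm_sub_rev] at k2
    linarith
  obtain ⟨w, -, -, n6, n7⟩ := gap_iter hT₀ (γ := 1 - θ ^ 2 / 32) hzB hz₀B hqB hq
    ((μ.cp.left q).1 hqA z hzB) ((μ.cp.left q).1 hqA z₀ hz₀B) (by linarith)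
    (by linarith [pow_pos hθ 2]) n5
    (gap_shift m ρ hU hY (μ.cen hrA hrB) (μ.cen hzA hzB) (n2.trans d1) (hc2 _ hs)) n4 k
  refine (norm_le_norm_sub_add _ (w * μ.σ (-s) Y)).trans ?_
  rw [CStarRing.norm_mul_mem_unitary w hs'.uni]
  linarith

end Vale.Agent.P096b
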