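import Vale.Agent.P096b.Basic

/-! Operator valued means. -/

set_option linter.unusedSectionVars false

namespace Vale.Agent.P096b

open Filter Topology Vale.Agent.P096 MeasureTheory
open scoped InnerProductSpace ComplexConjugate

universe u v

variable {H : Type u} [NormedAddCommGroup H] [InnerProductSpace ℂ H] [CompleteSpace H]

variable {G : Type v} [Group G] (m : Mean G)

theorem Mean.add' (f g : G → ℂ) : m.m (fun a => f a + g a) = m.m f + m.m g := m.m.map_add f g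

theorem Mean.sub' (f g : G → ℂ) : m.m (fun a => f a - g a) = m.m f - m.m g := m.m.map_sub f g

theorem Mean.mul' (c : ℂ) (f : G → ℂ) : m.m (fun a => c * f a) = c * m.m f := m.m.map_smul c f

theorem Mean.const (c : ℂ) : m.m (fun _ => c) = c := by
  have := m.mul' c fun _ => 1
  rwa [m.one, mul_one] at this

theorem Mean.re_nonneg {f : G → ℂ} {C : ℝ} (hf : ∀ a, ‖f a‖ ≤ C) (h : ∀ a, 0 ≤ (f a).re) :
    0 ≤ (m.m f).re := by
  have key : ∀ t : ℝ, 0 ≤ t → -(2 * t * (m.m f).re) ≤ C ^ 2 := fun t ht => by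
    have h1 : ∀ a, ‖(t : ℂ) - f a‖ ≤ √(t ^ 2 + C ^ 2) := fun a => by
      refine Real.le_sqrt_of_sq_le ?_
      have h2 : ‖f a‖ ^ 2 ≤ C ^ 2 := pow_le_pow_left₀ (norm_nonneg _) (hf a) 2
      rw [Complex.sq_norm, Complex.normSq_apply] at h2 ⊢
      simp only [Complex.sub_re, Complex.sub_im, Complex.ofReal_re, Complex.ofReal_im]
      nlinarith [mul_nonneg ht (h a)]
    have h3 := m.le _ _ h1
    rw [m.sub', m.const] at h3
    have h4 := pow_le_pow_left₀ (norm_nonneg _) h3 2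
    rw [Real.sq_sqrt (by positivity), Complex.sq_norm, Complex.normSq_apply] at h4
    simp only [Complex.sub_re, Complex.sub_im, Complex.ofReal_re, Complex.ofReal_im] at h4
    nlinarith [mul_self_nonneg (m.m f).re, mul_self_nonneg (m.m f).im]
  by_contra hn
  have h1 : 0 < -(m.m f).re := by linarith [not_le.1 hn]
  have h2 := key ((C ^ 2 + 1) / -(m.m f).re) (by positivity)
  have h3 : -(2 * ((C ^ 2 + 1) / -(m.m f).re) * (m.m f).re) = 2 * (C ^ 2 + 1) := by
    have : (m.m f).re ≠ 0 := (not_le.1 hn).ne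
    field_simp
  nlinarith [sq_nonneg C]

/-- Positivity. Hint: `‖C - f‖` type trick applied to `f + i t`, or to `exp`-free form:
for real `f` with `0 ≤ f ≤ C` bound `‖m (f - C/2 + i t)‖ ^ 2 ≤ C ^ 2 / 4 + t ^ 2`. -/
theorem Mean.re_mono {f g : G → ℂ} {C : ℝ} (hf : ∀ a, ‖f a‖ ≤ C) (hg : ∀ a, ‖g a‖ ≤ C)
    (h : ∀ a, (f a).re ≤ (g a).re) : (m.m f).re ≤ (m.m g).re := by
  have := m.re_nonneg (f := fun a => g a - f a) (C := C + C)
    (fun a => (norm_sub_le _ _).trans (add_le_add (hg a) (hf a))) fun a => by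
      simpa using h a
  rw [m.sub', Complex.sub_re] at this
  linarith

theorem Mean.re_congr {f g : G → ℂ} {C : ℝ} (hf : ∀ a, ‖f a‖ ≤ C) (hg : ∀ a, ‖g a‖ ≤ C)
    (h : ∀ a, (f a).re = (g a).re) : (m.m f).re = (m.m g).re :=
  le_antisymm (m.re_mono hf hg fun a => (h a).le) (m.re_mono hg hf fun a => (h a).ge)

theorem Mean.conj {f : G → ℂ} {C : ℝ} (hf : ∀ a, ‖f a‖ ≤ C) :
    m.m (fun a => conj (f a)) = conj (m.m f) := by
  refine Complex.ext ?_ ?_
  · rw [Complex.conj_re]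
    exact m.re_congr (fun a => by simpa using hf a) hf fun a => by simp
  · have := m.re_congr (f := fun a => Complex.I * conj (f a)) (g := fun a => -Complex.I * f a)
      (C := C) (fun a => by simpa using hf a) (fun a => by simpa using hf a) fun a => by simp
    rw [m.mul', m.mul'] at this
    simp only [Complex.mul_re, Complex.I_re, Complex.I_im, Complex.neg_re, Complex.neg_im] at this
    rw [Complex.conj_im]
    linarith

theorem Mean.norm_le_re {f : G → ℂ} {g : G → ℝ} {C : ℝ} (hg : ∀ a, g a ≤ C)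
    (h : ∀ a, ‖f a‖ ≤ g a) : ‖m.m f‖ ≤ (m.m fun a => g a).re := by
  obtain ⟨c, hc, e⟩ := Complex.exists_norm_eq_mul_self (m.m f)
  have h1 : ∀ a, ‖c * f a‖ ≤ g a := fun a => by rw [norm_mul, hc, one_mul]; exact h a
  have := m.re_mono (f := fun a => c * f a) (g := fun a => g a) (C := C)
    (fun a => (h1 a).trans (hg a))
    (fun a => by
      rw [Complex.norm_real, Real.norm_of_nonneg ((norm_nonneg _).trans (h a))]; exact hg a)
    fun a => (Complex.re_le_norm _).trans (h1 a)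
  rwa [m.mul', ← e, Complex.ofReal_re] at this

open Classical in
/-- The mean of a bounded family of operators. -/
noncomputable def Mean.op (T : G → Op H) : Op H :=
  if h : ∃ S : Op H, ∀ ζ η, ⟪η, S ζ⟫_ℂ = m.m fun a => ⟪η, T a ζ⟫_ℂ then h.choose else 0

variable {T T' : G → Op H} {C C' : ℝ}

theorem mean_inner_le (hT : ∀ a, ‖T a‖ ≤ C) (ζ η : H) (a : G) :
    ‖⟪η, T a ζ⟫_ℂ‖ ≤ C * ‖η‖ * ‖ζ‖ := by
  refine (norm_inner_le_norm _ _).trans ?_
  rw [mul_comm C, mul_assoc]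
  exact mul_le_mul_of_nonneg_left ((T a).le_of_opNorm_le (hT a) ζ) (norm_nonneg _)

theorem Mean.op_of_inner {S : Op H} (h : ∀ ζ η, ⟪η, S ζ⟫_ℂ = m.m fun a => ⟪η, T a ζ⟫_ℂ) :
    m.op T = S := by
  have h' : ∃ S : Op H, ∀ ζ η, ⟪η, S ζ⟫_ℂ = m.m fun a => ⟪η, T a ζ⟫_ℂ := ⟨S, h⟩
  rw [Mean.op, dif_pos h']
  exact ContinuousLinearMap.ext fun ζ => ext_inner_left ℂ fun η => by
    rw [h'.choose_spec, h]

theorem Mean.op_inner (hT : ∀ a, ‖T a‖ ≤ C) (ζ η : H) :
    ⟪η, m.op T ζ⟫_ℂ = m.m fun a => ⟪η, T a ζ⟫_ℂ := by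
  let B2 : H →ₛₗ[starRingEnd ℂ] H →ₗ[ℂ] ℂ :=
    LinearMap.mk₂'ₛₗ (starRingEnd ℂ) (RingHom.id ℂ) (fun η ζ => m.m fun a => ⟪η, T a ζ⟫_ℂ)
      (fun x y z => by simp only [inner_add_left, m.add'])
      (fun c x y => by simp only [inner_smul_left, m.mul', smul_eq_mul])
      (fun x y z => by simp only [map_add, inner_add_right, m.add'])
      (fun c x y => by simp only [map_smul, inner_smul_right, m.mul', smul_eq_mul, RingHom.id_apply])
  have cs : ∀ x y, ‖B2 x y‖ ≤ C * ‖x‖ * ‖y‖ := fun x y => m.le _ _ (mean_inner_le hT y x)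
  have e : ∀ ζ η, ⟪η, star (InnerProductSpace.continuousLinearMapOfBilin
      (B2.mkContinuous₂ C cs)) ζ⟫_ℂ = m.m fun a => ⟪η, T a ζ⟫_ℂ := fun ζ η => by
    rw [← tl_inner, InnerProductSpace.continuousLinearMapOfBilin_apply]; rfl
  rw [m.op_of_inner e, e]

theorem Mean.op_norm (hT : ∀ a, ‖T a‖ ≤ C) : ‖m.op T‖ ≤ C :=
  norm_le_of_inner ((norm_nonneg _).trans (hT 1)) fun ζ η => by
    rw [m.op_inner hT]
    exact m.le _ _ (mean_inner_le hT ζ η)

theorem Mean.op_const (x : Op H) : m.op (fun _ => x) = x :=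
  m.op_of_inner fun _ _ => (m.const _).symm

theorem Mean.op_add (hT : ∀ a, ‖T a‖ ≤ C) (hT' : ∀ a, ‖T' a‖ ≤ C') :
    m.op (fun a => T a + T' a) = m.op T + m.op T' :=
  m.op_of_inner fun ζ η => by
    simp only [add_apply, inner_add_right, m.add', m.op_inner hT, m.op_inner hT']

theorem Mean.op_sub (hT : ∀ a, ‖T a‖ ≤ C) (hT' : ∀ a, ‖T' a‖ ≤ C') :
    m.op (fun a => T a - T' a) = m.op T - m.op T' :=
  m.op_of_inner fun ζ η => by
    simp only [sub_apply, inner_sub_right, m.sub', m.op_inner hT, m.op_inner hT']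

theorem Mean.op_smul (c : ℂ) (hT : ∀ a, ‖T a‖ ≤ C) : m.op (fun a => c • T a) = c • m.op T :=
  m.op_of_inner fun ζ η => by
    simp only [smul_apply, inner_smul_right, m.mul', m.op_inner hT]

theorem Mean.op_mul_left (x : Op H) (hT : ∀ a, ‖T a‖ ≤ C) :
    m.op (fun a => x * T a) = x * m.op T :=
  m.op_of_inner fun ζ η => by
    simp only [ContinuousLinearMap.mul_def, ContinuousLinearMap.comp_apply, ← tl_inner' x,
      m.op_inner hT]

theorem Mean.op_mul_right (x : Op H) (hT : ∀ a, ‖T a‖ ≤ C) :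
    m.op (fun a => T a * x) = m.op T * x :=
  m.op_of_inner fun ζ η => by
    simp only [ContinuousLinearMap.mul_def, ContinuousLinearMap.comp_apply, m.op_inner hT]

theorem Mean.op_star (hT : ∀ a, ‖T a‖ ≤ C) : m.op (fun a => star (T a)) = star (m.op T) :=
  m.op_of_inner fun ζ η => by
    rw [← tl_inner, ← inner_conj_symm, m.op_inner hT, ← m.conj (mean_inner_le hT η ζ)]
    simp only [← tl_inner, inner_conj_symm]

theorem Mean.op_inv (hT : ∀ a, ‖T a‖ ≤ C) (g : G) : m.op (fun a => T (g * a)) = m.op T :=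
  m.op_of_inner fun ζ η => by
    rw [m.op_inner hT]
    exact (m.inv (fun a => ⟪η, T a ζ⟫_ℂ) _ g (mean_inner_le hT ζ η)).symm

theorem Mean.op_near (x : Op H) (h : ∀ a, ‖T a - x‖ ≤ C) : ‖m.op T - x‖ ≤ C := by
  have h1 : ∀ a, ‖T a‖ ≤ C + ‖x‖ := fun a =>
    (norm_le_norm_sub_add _ x).trans (add_le_add (h a) le_rfl)
  have := m.op_norm h
  rwa [m.op_sub h1 (T' := fun _ => x) fun _ => le_rfl, m.op_const] at this

theorem Mean.op_inner_near (hT : ∀ a, ‖T a‖ ≤ C) {ζ η : H} {c : ℂ} {t : ℝ}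
    (h : ∀ a, ‖⟪η, T a ζ⟫_ℂ - c‖ ≤ t) : ‖⟪η, m.op T ζ⟫_ℂ - c‖ ≤ t := by
  have := m.le _ _ h
  rwa [m.sub', m.const, ← m.op_inner hT] at this

theorem Mean.op_apply (hT : ∀ a, ‖T a‖ ≤ C) {ζ η : H} (h : ∀ a, T a ζ = η) : m.op T ζ = η :=
  ext_inner_left ℂ fun v => by simp only [m.op_inner hT, h, m.const]

theorem Mean.op_comm (hT : ∀ a, ‖T a‖ ≤ C) {y : Op H} (h : ∀ a, y * T a = T a * y) :
    y * m.op T = m.op T * y := by
  rw [← m.op_mul_left y hT, ← m.op_mul_right y hT]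
  simp only [h]

theorem Mean.op_mem {A B : Alg H} (h : CP A B) (hT : ∀ a, ‖T a‖ ≤ C) (hA : ∀ a, T a ∈ A) :
    m.op T ∈ A :=
  (h.left _).2 fun y hy => (m.op_comm hT fun a => ((h.left _).1 (hA a) y hy).symm).symm

/-- The average of the orbit of an operator under a unitary representation. -/
noncomputable def Mean.av (ρ : G →* unitary (Op H)) (x : Op H) : Op H :=
  m.op fun g => (ρ g : Op H) * x * star (ρ g : Op H)

variable (ρ : G →* unitary (Op H))

theorem norm_conj (w : unitary (Op H)) (x : Op H) :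
    ‖(w : Op H) * x * star (w : Op H)‖ = ‖x‖ := by
  rw [CStarRing.norm_mul_mem_unitary _ (Unitary.star_mem w.2), CStarRing.norm_coe_unitary_mul]

theorem mean_av_bd (x : Op H) (g : G) : ‖(ρ g : Op H) * x * star (ρ g : Op H)‖ ≤ ‖x‖ :=
  (norm_conj _ x).le

theorem mean_two (ρ' : G →* unitary (Op H)) (x : Op H) (g : G) :
    (ρ' g : Op H) * m.op (fun a => (ρ' a : Op H) * x * star (ρ a : Op H)) =
      m.op (fun a => (ρ' a : Op H) * x * star (ρ a : Op H)) * ρ g := by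
  have hb : ∀ a, ‖(ρ' a : Op H) * x * star (ρ a : Op H)‖ ≤ ‖x‖ := fun a => by
    rw [CStarRing.norm_mul_mem_unitary _ (Unitary.star_mem (ρ a).2),
      CStarRing.norm_coe_unitary_mul]
  conv_rhs => rw [← m.op_inv hb g]
  rw [← m.op_mul_left _ hb, ← m.op_mul_right _ fun a => hb (g * a)]
  refine congrArg m.op (funext fun a => ?_)
  simp only [map_mul, Submonoid.coe_mul, star_mul, mul_assoc, Unitary.coe_star_mul_self, mul_one]

theorem Mean.av_comm (x : Op H) (g : G) : (ρ g : Op H) * m.av ρ x = m.av ρ x * ρ g :=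
  mean_two m ρ ρ x g

theorem Mean.av_norm (x : Op H) : ‖m.av ρ x‖ ≤ ‖x‖ := m.op_norm (mean_av_bd ρ x)

theorem Mean.av_add (x y : Op H) : m.av ρ (x + y) = m.av ρ x + m.av ρ y := by
  rw [Mean.av, Mean.av, Mean.av, ← m.op_add (mean_av_bd ρ x) (mean_av_bd ρ y)]
  simp only [mul_add, add_mul]

theorem Mean.av_sub (x y : Op H) : m.av ρ (x - y) = m.av ρ x - m.av ρ y := by
  rw [Mean.av, Mean.av, Mean.av, ← m.op_sub (mean_av_bd ρ x) (mean_av_bd ρ y)]
  simp only [mul_sub, sub_mul]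

theorem Mean.av_smul (c : ℂ) (x : Op H) : m.av ρ (c • x) = c • m.av ρ x := by
  rw [Mean.av, Mean.av, ← m.op_smul c (mean_av_bd ρ x)]
  simp only [mul_smul_comm, smul_mul_assoc]

theorem Mean.av_star (x : Op H) : m.av ρ (star x) = star (m.av ρ x) := by
  rw [Mean.av, Mean.av, ← m.op_star (mean_av_bd ρ x)]
  simp only [star_mul, star_star, mul_assoc]

theorem Mean.av_fix {x : Op H} (h : ∀ g, (ρ g : Op H) * x = x * ρ g) : m.av ρ x = x := by
  rw [Mean.av]
  simp only [h, mul_assoc, Unitary.mul_star_self_of_mem (ρ _).2, mul_one]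
  exact m.op_const x

theorem mean_star_comm {w : unitary (Op H)} {y : Op H} (h : (w : Op H) * y = y * w) :
    star (w : Op H) * y = y * star (w : Op H) := by
  calc star (w : Op H) * y = star (w : Op H) * (y * w) * star (w : Op H) := by
        simp only [mul_assoc, Unitary.mul_star_self_of_mem w.2, mul_one]
    _ = y * star (w : Op H) := by
        rw [← h, ← mul_assoc, Unitary.star_mul_self_of_mem w.2, one_mul]

theorem Mean.av_mul_left {y : Op H} (h : ∀ g, (ρ g : Op H) * y = y * ρ g) (x : Op H) :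
    m.av ρ (y * x) = y * m.av ρ x := by
  rw [Mean.av, Mean.av, ← m.op_mul_left y (mean_av_bd ρ x)]
  simp only [← mul_assoc, h]

theorem Mean.av_mul_right {y : Op H} (h : ∀ g, (ρ g : Op H) * y = y * ρ g) (x : Op H) :
    m.av ρ (x * y) = m.av ρ x * y := by
  rw [Mean.av, Mean.av, ← m.op_mul_right y (mean_av_bd ρ x)]
  simp only [mul_assoc, mean_star_comm (h _)]

theorem Mean.av_inner (x : Op H) (ζ η : H) : ⟪η, m.av ρ x ζ⟫_ℂ =
    m.m fun g => ⟪star (ρ g : Op H) η, x (star (ρ g : Op H) ζ)⟫_ℂ := by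
  rw [Mean.av, m.op_inner (mean_av_bd ρ x)]
  simp only [tl_inner']
  rfl

theorem Mean.av_mem {A B : Alg H} (h : CP A B) {x : Op H}
    (hx : ∀ g, (ρ g : Op H) * x * star (ρ g : Op H) ∈ A) : m.av ρ x ∈ A :=
  m.op_mem h (mean_av_bd ρ x) hx

include m in
/-- Two close unitary representations are conjugate by a unitary near the identity.
Take `X = m.op (ρ' g * (ρ g)*)` and use `tl_polar`. -/
theorem Mean.intertwine (ρ' : G →* unitary (Op H)) {t : ℝ} (ht : t ≤ 1 / 10)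
    (h : ∀ g, ‖(ρ' g : Op H) - ρ g‖ ≤ t) :
    ∃ W : unitary (Op H), ‖(W : Op H) - 1‖ ≤ 8 * t ∧ ∀ g, (W : Op H) * ρ g = ρ' g * W := by
  have h1 := mean_two m ρ ρ' 1
  have h2 : ‖m.op (fun a => (ρ' a : Op H) * 1 * star (ρ a : Op H)) - 1‖ ≤ t :=
    m.op_near 1 fun a => by
      have : (ρ' a : Op H) * 1 * star (ρ a : Op H) - 1 = ((ρ' a : Op H) - ρ a) * star (ρ a : Op H) := by
        rw [sub_mul, Unitary.mul_star_self_of_mem (ρ a).2, mul_one]
      rw [this, CStarRing.norm_mul_mem_unitary _ (Unitary.star_mem (ρ a).2)]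
      exact h a
  generalize m.op (fun a => (ρ' a : Op H) * 1 * star (ρ a : Op H)) = X at h1 h2
  obtain ⟨b, hb, -, hn, hc⟩ := tl_polar X t h2 ht
  have h3 : ∀ g, (ρ g : Op H) * star X = star X * ρ' g := fun g => by
    have := congrArg star (h1 g⁻¹)
    simp only [map_inv, ← Unitary.star_eq_inv, Unitary.coe_star, star_mul, star_star] at this
    exact this.symm
  refine ⟨⟨b * X, hb⟩, hn, fun g => ?_⟩
  have h4 := hc (ρ' g) (by rw [← mul_assoc, h1, mul_assoc, h3, mul_assoc])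
  show b * X * ρ g = ρ' g * (b * X)
  rw [mul_assoc, ← h1, ← mul_assoc, ← h4, mul_assoc]

end Vale.Agent.P096b
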