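import Vale.Agent.P096b.ModApi
import Vale.Agent.P096b.Mean
import Vale.Agent.P096b.Close

/-! A class of bimodule maps. -/

set_option linter.unusedSectionVars false

namespace Vale.Agent.P096b

open Filter Topology Vale.Agent.P096 MeasureTheory
open scoped InnerProductSpace ComplexConjugate

universe u v

variable {H : Type u} [NormedAddCommGroup H] [InnerProductSpace ℂ H] [CompleteSpace H]

/-- Unital positive contractive `B`-bimodule maps that asymptotically commute with the low pass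
filters. -/
structure Mk (Φ : Calc H) (B : Alg H) (T : Op H → Op H) : Prop where
  add : ∀ x y, T (x + y) = T x + T y
  smul : ∀ (c : ℂ) x, T (c • x) = c • T x
  norm : ∀ x, ‖T x‖ ≤ ‖x‖
  one : T 1 = 1
  left : ∀ b ∈ B, ∀ x, T (b * x) = b * T x
  right : ∀ b ∈ B, ∀ x, T (x * b) = T x * b
  pos : ∀ x : Op H, (∀ η, 0 ≤ (⟪η, x η⟫_ℂ).re) → ∀ η, 0 ≤ (⟪η, T x η⟫_ℂ).re
  asym : ∀ t : ℝ, 0 < t → ∀ᶠ ε in 𝓝[>] (0 : ℝ), ∀ x,
    ‖T (Φ.F (gs ε 0 0) * x * Φ.F (gs ε 0 0)) - Φ.F (gs ε 0 0) * T x * Φ.F (gs ε 0 0)‖ ≤ t * ‖x‖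

variable {A B : Alg H} {ξ : H} {Φ : Calc H} {T T' : Op H → Op H}

theorem Mk.id : Mk Φ B fun x => x :=
  ⟨fun _ _ => rfl, fun _ _ => rfl, fun _ => le_rfl, rfl, fun _ _ _ => rfl, fun _ _ _ => rfl,
    fun _ h => h, fun t ht => Eventually.of_forall fun ε x => by
      rw [sub_self, norm_zero]; positivity⟩

/-- The linear map of a member of the class. -/
def Mk.lin (h : Mk Φ B T) : Op H →ₗ[ℂ] Op H where
  toFun := T
  map_add' := h.add
  map_smul' := h.smul

theorem Mk.sub (h : Mk Φ B T) (x y : Op H) : T (x - y) = T x - T y := h.lin.map_sub x y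

theorem Mk.comp (h : Mk Φ B T) (h' : Mk Φ B T') : Mk Φ B fun x => T (T' x) := by
  refine ⟨fun x y => by rw [h'.add, h.add], fun c x => by rw [h'.smul, h.smul],
    fun x => (h.norm _).trans (h'.norm x), by rw [h'.one, h.one],
    fun b hb x => by rw [h'.left b hb, h.left b hb],
    fun b hb x => by rw [h'.right b hb, h.right b hb],
    fun x hx => h.pos _ (h'.pos x hx), fun t ht => ?_⟩
  filter_upwards [h.asym (t / 2) (half_pos ht), h'.asym (t / 2) (half_pos ht)] with ε h1 h2 x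
  generalize Φ.F (gs ε 0 0) = Q at h1 h2 ⊢
  have e1 := h1 (T' x)
  have e2 := (h.norm _).trans (h2 x)
  rw [h.sub] at e2
  have e3 := mul_le_mul_of_nonneg_left (h'.norm x) (half_pos ht).le
  have e4 := norm_sub_le_norm_sub_add_norm_sub (T (T' (Q * x * Q))) (T (Q * T' x * Q))
    (Q * T (T' x) * Q)
  linarith

theorem Mk.half (h : Mk Φ B T) : Mk Φ B fun x => (1 / 2 : ℂ) • (x + T x) := by
  have n2 : ‖(1 / 2 : ℂ)‖ = 1 / 2 := by simp
  refine ⟨fun x y => by rw [h.add, ← smul_add, add_add_add_comm],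
    fun c x => by rw [h.smul, ← smul_add, smul_comm], fun x => ?_, ?_,
    fun b hb x => by rw [h.left b hb, ← mul_add, mul_smul_comm],
    fun b hb x => by rw [h.right b hb, ← add_mul, smul_mul_assoc],
    fun x hx η => ?_, fun t ht => ?_⟩
  · rw [norm_smul, n2]
    linarith [norm_add_le x (T x), h.norm x]
  · rw [h.one, ← two_smul ℂ (1 : Op H), smul_smul]
    norm_num
  · have h1 := hx η
    have h2 := h.pos x hx η
    rw [smul_apply, inner_smul_right, add_apply,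
      inner_add_right, show (1 / 2 : ℂ) = ((1 / 2 : ℝ) : ℂ) by push_cast; rfl,
      Complex.re_ofReal_mul, Complex.add_re]
    positivity
  · filter_upwards [h.asym t ht] with ε h1 x
    generalize Φ.F (gs ε 0 0) = Q at h1 ⊢
    have e : (1 / 2 : ℂ) • (Q * x * Q + T (Q * x * Q)) - Q * (1 / 2 : ℂ) • (x + T x) * Q =
        (1 / 2 : ℂ) • (T (Q * x * Q) - Q * T x * Q) := by
      rw [mul_smul_comm, smul_mul_assoc, ← smul_sub, mul_add, add_mul, add_sub_add_left_eq_sub]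
    rw [e, norm_smul, n2]
    linarith [h1 x, mul_nonneg ht.le (norm_nonneg x)]

theorem gap_inner (a x : Op H) (η ζ : H) :
    ⟪η, (star a * x * a) ζ⟫_ℂ = ⟪a η, x (a ζ)⟫_ℂ := by
  rw [tl_inner]
  rfl

theorem gap_bound (x : Op H) (η ζ : H) :
    ‖⟪η, x ζ⟫_ℂ‖ ≤ ‖x‖ / 2 * (‖η‖ ^ 2 + ‖ζ‖ ^ 2) := by
  have h1 := (norm_inner_le_norm (𝕜 := ℂ) η (x ζ)).trans
    (mul_le_mul_of_nonneg_left (x.le_opNorm ζ) (norm_nonneg η))
  nlinarith [mul_nonneg (norm_nonneg x) (sq_nonneg (‖η‖ - ‖ζ‖))]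

/-- The blocks. Contractivity: for unit vectors bound `|⟪a ζ', x a ζ⟫| + |⟪r ζ', x r ζ⟫|` by
`‖x‖ (‖a ζ'‖² + ‖a ζ‖² + ‖r ζ'‖² + ‖r ζ‖²) / 2` and use `Mean.norm_le_re` with the normalization.
`asym` follows from `gs_comm` for `a` (and its adjoint) and `gs_comm0`. -/
theorem mk_block {G : Type v} [Group G] (m : Mean G) (ρ : G →* unitary (Op H)) (hAB : CP A B)
    (hA : ∀ g, (ρ g : Op H) ∈ A) (hU : ∀ g t, Φ.U t * ρ g = ρ g * Φ.U t) {a r : Op H}
    (ha : a ∈ A) (hr : r ∈ A) (hc : Continuous fun s => Φ.σ s a)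
    (hr' : ∀ t, Φ.U t * r = r * Φ.U t) (h1 : m.av ρ (star a * a + star r * r) = 1) :
    Mk Φ B fun x => m.av ρ (star a * x * a + star r * x * r) := by
  have cm : ∀ b ∈ B, ∀ y ∈ A, y * b = b * y := fun b hb y hy => (hAB.left y).1 hy b hb
  have un : ∀ g η, ‖star (ρ g : Op H) η‖ = ‖η‖ := fun g η =>
    unitary_norm (Unitary.star_mem (ρ g).2) η
  refine ⟨fun x y => ?_, fun c x => ?_, fun x => ?_, by simpa using h1, fun b hb x => ?_,
    fun b hb x => ?_, fun x hx η => ?_, fun t ht => ?_⟩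
  · rw [← m.av_add]
    congr 1
    simp only [mul_add, add_mul]
    abel
  · rw [← m.av_smul]
    simp only [mul_smul_comm, smul_mul_assoc, smul_add]
  · have nrm : ∀ η : H, m.m (fun g => ((‖a (star (ρ g : Op H) η)‖ ^ 2 +
        ‖r (star (ρ g : Op H) η)‖ ^ 2 : ℝ) : ℂ)) = ((‖η‖ ^ 2 : ℝ) : ℂ) := fun η => by
      have := m.av_inner ρ (star a * 1 * a + star r * 1 * r) η η
      simp only [add_apply, inner_add_right, gap_inner,
        one_apply_eq_self, inner_self_eq_norm_sq_to_K] at this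
      rw [mul_one, mul_one, h1, one_apply_eq_self, inner_self_eq_norm_sq_to_K] at this
      push_cast
      exact this.symm
    refine norm_le_of_unit (norm_nonneg _) fun ζ η hζ hη => ?_
    have bd : ∀ (c : Op H) g (v : H), ‖v‖ ≤ 1 → ‖c (star (ρ g : Op H) v)‖ ^ 2 ≤ ‖c‖ ^ 2 :=
      fun c g v hv => pow_le_pow_left₀ (norm_nonneg _) ((c.le_opNorm _).trans (by
        rw [un]; exact mul_le_of_le_one_right (norm_nonneg _) hv)) 2
    rw [m.av_inner]
    refine (m.norm_le_re (g := fun g => ‖x‖ / 2 * ((‖a (star (ρ g : Op H) η)‖ ^ 2 +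
      ‖r (star (ρ g : Op H) η)‖ ^ 2) + (‖a (star (ρ g : Op H) ζ)‖ ^ 2 +
      ‖r (star (ρ g : Op H) ζ)‖ ^ 2))) (C := ‖x‖ / 2 * ((‖a‖ ^ 2 + ‖r‖ ^ 2) + (‖a‖ ^ 2 + ‖r‖ ^ 2)))
      (fun g => mul_le_mul_of_nonneg_left (add_le_add (add_le_add (bd a g η hη) (bd r g η hη))
        (add_le_add (bd a g ζ hζ) (bd r g ζ hζ))) (by positivity)) fun g => ?_).trans ?_
    · rw [add_apply, inner_add_right, gap_inner, gap_inner]
      refine (norm_add_le _ _).trans ((add_le_add (gap_bound _ _ _) (gap_bound _ _ _)).trans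
        (le_of_eq ?_))
      ring
    · simp only [Complex.ofReal_mul]
      rw [m.mul']
      simp only [Complex.ofReal_add (_ + _)]
      rw [m.add', nrm, nrm, ← Complex.ofReal_add, ← Complex.ofReal_mul, Complex.ofReal_re]
      have e1 : ‖η‖ ^ 2 ≤ 1 := pow_le_one₀ (norm_nonneg _) hη
      have e2 : ‖ζ‖ ^ 2 ≤ 1 := pow_le_one₀ (norm_nonneg _) hζ
      nlinarith [norm_nonneg x]
  · rw [← m.av_mul_left ρ fun g => cm b hb _ (hA g)]
    congr 1
    simp only [mul_add, ← mul_assoc, cm b hb _ (star_mem ha), cm b hb _ (star_mem hr)]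
  · rw [← m.av_mul_right ρ fun g => cm b hb _ (hA g)]
    congr 1
    simp only [add_mul, mul_assoc, cm b hb _ ha, cm b hb _ hr]
  · rw [m.av_inner]
    refine m.re_nonneg (C := ‖star a * x * a + star r * x * r‖ / 2 * (‖η‖ ^ 2 + ‖η‖ ^ 2))
      (fun g => (gap_bound _ _ _).trans (by rw [un])) fun g => ?_
    rw [add_apply, inner_add_right, gap_inner, gap_inner, Complex.add_re]
    exact add_nonneg (hx _) (hx _)
  · have hp : 0 < t / (2 * ‖a‖ + 1) := by positivity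
    filter_upwards [(Φ.gs_comm hc).eventually (gt_mem_nhds hp), self_mem_nhdsWithin]
      with ε h2 hε x
    have q1 := Φ.gs_norm hε
    have q2 := Φ.gs_star hε
    have q3 := Φ.gs_comm0 hε hr'
    have q4 := fun g => (Φ.gs_comm0 hε (hU g)).symm
    generalize Φ.F (gs ε 0 0) = Q at h2 q1 q2 q3 q4 ⊢
    have q5 : Q * star r = star r * Q := by
      have := congrArg star q3
      rw [star_mul, star_mul, q2] at this
      exact this.symm
    have q6 : ‖star a * Q - Q * star a‖ = ‖Q * a - a * Q‖ := by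
      rw [← norm_star (Q * a - a * Q), star_sub, star_mul, star_mul, q2]
    rw [← m.av_mul_left ρ q4, ← m.av_mul_right ρ q4, ← m.av_sub]
    refine (m.av_norm ρ _).trans ?_
    have e : star a * (Q * x * Q) * a + star r * (Q * x * Q) * r -
        Q * (star a * x * a + star r * x * r) * Q =
        (star a * Q - Q * star a) * x * (Q * a) + Q * star a * x * (Q * a - a * Q) := by
      have e' : star r * (Q * x * Q) * r = Q * (star r * x * r) * Q := by
        rw [← mul_assoc, ← mul_assoc, ← q5, mul_assoc _ Q r, q3]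
        simp only [mul_assoc]
      rw [e']
      noncomm_ring
    have n1 : ‖Q * a‖ ≤ ‖a‖ :=
      (norm_mul_le _ _).trans (mul_le_of_le_one_left (norm_nonneg _) q1)
    have n2 : ‖Q * star a‖ ≤ ‖a‖ :=
      (norm_mul_le _ _).trans ((mul_le_of_le_one_left (norm_nonneg _) q1).trans (norm_star a).le)
    have n3 : ‖(star a * Q - Q * star a) * x * (Q * a)‖ ≤ ‖Q * a - a * Q‖ * ‖x‖ * ‖a‖ := by
      refine (norm_mul_le _ _).trans (mul_le_mul ((norm_mul_le _ _).trans ?_) n1 (norm_nonneg _)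
        (by positivity))
      rw [q6]
    have n4 : ‖Q * star a * x * (Q * a - a * Q)‖ ≤ ‖a‖ * ‖x‖ * ‖Q * a - a * Q‖ :=
      (norm_mul_le _ _).trans (mul_le_mul_of_nonneg_right ((norm_mul_le _ _).trans
        (mul_le_mul_of_nonneg_right n2 (norm_nonneg _))) (norm_nonneg _))
    rw [e]
    refine (norm_add_le _ _).trans ((add_le_add n3 n4).trans ?_)
    rw [lt_div_iff₀ (by positivity)] at h2
    nlinarith [mul_le_mul_of_nonneg_right h2.le (norm_nonneg x),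
      mul_nonneg (norm_nonneg (Q * a - a * Q)) (norm_nonneg x)]

theorem mk_av {G : Type v} [Group G] (m : Mean G) (ρ : G →* unitary (Op H)) (hAB : CP A B)
    (hA : ∀ g, (ρ g : Op H) ∈ A) (hU : ∀ g t, Φ.U t * ρ g = ρ g * Φ.U t) : Mk Φ B (m.av ρ) := by
  have := mk_block m ρ hAB hA hU (a := 1) (r := 0) (one_mem A) (zero_mem A)
    (by simpa only [Φ.σ_one] using continuous_const) (fun t => by simp)
    (by simpa using m.av_fix ρ (x := 1) fun g => by simp)
  simpa using this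

/-- `T Y Y*` almost commutes with `B`: for `b' ∈ B` near `Y* b Y`,
`T Y Y* b = T Y (Y* b Y) Y* ≈ T (Y b') Y* ≈ T (b Y) Y* = b T Y Y*`. Use `near_of_comm`. -/
theorem mk_mod (hH : HyperStmt.{u}) : ∃ K₀ : ℝ, 1 ≤ K₀ ∧ ∀ (H : Type u) [NormedAddCommGroup H]
    [InnerProductSpace ℂ H] [CompleteSpace H] (A B : Alg H) (Φ : Calc H) (T : Op H → Op H)
    (Y : Op H) (δ : ℝ), CP A B → Mk Φ B T → Y ∈ unitary (Op H) → 0 ≤ δ →
    (∀ b ∈ B, ∃ b' ∈ B, ‖star Y * b * Y - b'‖ ≤ δ * ‖b‖) →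
    ∃ m ∈ A, ‖T Y - m * Y‖ ≤ K₀ * δ := by
  obtain ⟨K, hK, h⟩ := near_of_comm hH
  refine ⟨2 * K, by linarith, fun H _ _ _ A B Φ T Y δ hAB hT hY hδ hb => ?_⟩
  have y1 : Y * star Y = 1 := hY.2
  have y2 : star Y * Y = 1 := hY.1
  have y3 : ‖T Y‖ ≤ 1 := (hT.norm Y).trans
    (ContinuousLinearMap.opNorm_le_bound _ zero_le_one fun η => by
      rw [unitary_norm hY, one_mul])
  obtain ⟨m, hm, h1⟩ := h H A B (T Y * star Y) (2 * δ) hAB (by positivity) fun b hB => by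
    obtain ⟨b', hb', h2⟩ := hb b hB
    have e : T Y * star Y * b - b * (T Y * star Y) =
        (T Y * (star Y * b * Y - b') - T (Y * (star Y * b * Y - b'))) * star Y := by
      rw [mul_sub Y, ← mul_assoc Y, ← mul_assoc Y, y1, one_mul, hT.sub, hT.left b hB,
        hT.right b' hb']
      simp only [sub_mul, mul_sub, mul_assoc, y1, mul_one]
      abel
    rw [e, CStarRing.norm_mul_mem_unitary _ (Unitary.star_mem hY)]
    refine (norm_sub_le _ _).trans ?_
    have e1 := (norm_mul_le (T Y) (star Y * b * Y - b')).trans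
      (mul_le_of_le_one_left (norm_nonneg _) y3)
    have e2 := hT.norm (Y * (star Y * b * Y - b'))
    rw [CStarRing.norm_mem_unitary_mul _ hY] at e2
    linarith
  refine ⟨m, hm, ?_⟩
  have e : T Y - m * Y = (T Y * star Y - m) * Y := by
    rw [sub_mul, mul_assoc, y2, mul_one]
  rw [e, CStarRing.norm_mul_mem_unitary _ hY]
  linarith

theorem gap_re (x : Op H) (η : H) : |(⟪η, x η⟫_ℂ).re| ≤ ‖x‖ * ‖η‖ ^ 2 := by
  refine (Complex.abs_re_le_norm _).trans ((gap_bound x η η).trans (le_of_eq ?_))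
  ring

/-- The contradiction. With `X = ∑ p j • σ (-s j) Y`, `Q = F (gs ε 0 0)` and a unit vector
`η = q η`: `re ⟪η, T (Q X Q) η⟫ ≥ (3/4) re ⟪η, T (Q Q) η⟫ - 1/100 ≥ (3/4) ‖Q η‖² - t - 1/100`, and
it is at most `re ⟪Q η, T X (Q η)⟫ + t ≤ ‖Q η‖² / 2 + t` because `q Q η = Q η`. Let `ε → 0`
(`gs_strong`). -/
theorem mk_contra {Y q : Op H} (hY : ‖Y‖ ≤ 1) (hq : IsStarProjection q) (q0 : q ≠ 0)
    (hqU : ∀ t, Φ.U t * q = q * Φ.U t) (hav : Avg Φ Y)
    (h : ∀ S : ℝ, ∃ T, Mk Φ B T ∧ ∀ s ∈ Set.Icc 0 S, ‖q * T (Φ.σ (-s) Y)‖ ≤ 1 / 2) : False := by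
  obtain ⟨S, hS⟩ := hav
  obtain ⟨T, hT, h1⟩ := h S
  obtain ⟨η, hη, h0⟩ : ∃ η, q η = η ∧ η ≠ 0 := by
    obtain ⟨v, hv⟩ : ∃ v, q v ≠ 0 := by
      by_contra hn
      push Not at hn
      exact q0 (ContinuousLinearMap.ext hn)
    exact ⟨q v, by rw [← mul_apply_eq_comp, hq.isIdempotentElem.eq], hv⟩
  have hN : 0 < ‖η‖ ^ 2 := by positivity
  have lim : ∀ᶠ ε in 𝓝[>] (0 : ℝ), ‖η‖ ^ 2 / 2 < ‖Φ.F (gs ε 0 0) η‖ ^ 2 :=
    ((Φ.gs_strong η).norm.pow 2).eventually (lt_mem_nhds (half_lt_self hN))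
  obtain ⟨ε, ⟨h2, h3⟩, hε⟩ := ((lim.and (hT.asym (1 / 100) (by norm_num))).and
    self_mem_nhdsWithin).exists
  obtain ⟨n, p, s, p0, p1, hs, h4⟩ := hS ε hε
  have q2 := Φ.gs_star hε
  have q3 := Φ.gs_comm0 hε hqU
  generalize Φ.F (gs ε 0 0) = Q at h2 h3 h4 q2 q3
  have gi : ∀ (x : Op H) (v : H), ⟪v, (Q * x * Q) v⟫_ℂ = ⟪Q v, x (Q v)⟫_ℂ := fun x v => by
    rw [← gap_inner, q2]
  have sq : ∀ v : H, (⟪v, v⟫_ℂ).re = ‖v‖ ^ 2 := fun v => inner_self_eq_norm_sq (𝕜 := ℂ) v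
  have sm : ∀ (x : Fin n → Op H) (C : ℝ), (∀ j, ‖x j‖ ≤ C) → ‖∑ j, (p j : ℂ) • x j‖ ≤ C :=
    fun x C hx => by
      refine (norm_sum_le _ _).trans ((Finset.sum_le_sum (g := fun j => p j * C)
        fun j _ => ?_).trans (by rw [← Finset.sum_mul, p1, one_mul]))
      rw [norm_smul, Complex.norm_real, Real.norm_of_nonneg (p0 j)]
      exact mul_le_mul_of_nonneg_left (hx j) (p0 j)
  obtain ⟨X, hX⟩ : ∃ X, X = ∑ j, (p j : ℂ) • Φ.σ (-s j) Y := ⟨_, rfl⟩
  have x1 : ‖X‖ ≤ 1 := hX ▸ sm _ _ fun j => (Φ.norm_σ _ _).trans_le hY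
  have x2 : ‖q * T X‖ ≤ 1 / 2 := by
    have : q * T X = ∑ j, (p j : ℂ) • (q * T (Φ.σ (-s j) Y)) := by
      rw [hX, show T _ = _ from map_sum hT.lin _ _, Finset.mul_sum]
      exact Finset.sum_congr rfl fun j _ => by rw [map_smul, mul_smul_comm]; rfl
    rw [this]
    exact sm _ _ fun j => h1 _ (hs j)
  have x3 := hT.pos (Q * X * Q - ((3 / 4 : ℝ) : ℂ) • (Q * 1 * Q) + ((1 / 100 : ℝ) : ℂ) • 1)
    (fun v => by
      have := h4 v
      have e : (⟪Q v, X (Q v)⟫_ℂ).re = ∑ j, p j * (⟪Q v, Φ.σ (-s j) Y (Q v)⟫_ℂ).re := by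
        simp only [hX, sum_apply, smul_apply, inner_sum,
          inner_smul_right, Complex.re_sum, Complex.re_ofReal_mul]
      simp only [add_apply, sub_apply,
        smul_apply, inner_add_right, inner_sub_right, inner_smul_right, gi,
        Complex.add_re, Complex.sub_re, Complex.re_ofReal_mul, one_apply_eq_self, sq]
      linarith) η
  rw [hT.add, hT.sub, hT.smul, hT.smul, hT.one] at x3
  simp only [add_apply, sub_apply,
    smul_apply, inner_add_right, inner_sub_right, inner_smul_right,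
    Complex.add_re, Complex.sub_re, Complex.re_ofReal_mul, one_apply_eq_self, sq] at x3
  have y1 := (gap_re _ η).trans (mul_le_mul_of_nonneg_right (h3 X) hN.le)
  have y2 := (gap_re _ η).trans (mul_le_mul_of_nonneg_right (h3 1) hN.le)
  rw [hT.one] at y2
  simp only [sub_apply, inner_sub_right, Complex.sub_re, gi,
    one_apply_eq_self, sq] at y1 y2
  have y3 : ⟪Q η, T X (Q η)⟫_ℂ = ⟪Q η, (q * T X) (Q η)⟫_ℂ := by
    have e : q (Q η) = Q η := by
      rw [← mul_apply_eq_comp, ← q3, mul_apply_eq_comp, hη]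
    rw [mul_apply_eq_comp, ← tl_inner' q, hq.isSelfAdjoint.star_eq, e]
  have y4 := (gap_re _ (Q η)).trans (mul_le_mul_of_nonneg_right x2 (sq_nonneg _))
  rw [← y3] at y4
  have o1 : ‖(1 : Op H)‖ ≤ 1 := ContinuousLinearMap.norm_id_le
  have y5 := mul_le_mul_of_nonneg_right x1 hN.le
  have y6 := mul_le_mul_of_nonneg_right o1 hN.le
  rw [abs_le] at y1 y2 y4
  nlinarith [y1.1, y1.2, y2.1, y2.2, y4.1, y4.2]

end Vale.Agent.P096b
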