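import Vale.Agent.P096b.Gap1

/-! The contracting block. -/

set_option linter.unusedSectionVars false

namespace Vale.Agent.P096b

open Filter Topology Vale.Agent.P096 MeasureTheory
open scoped InnerProductSpace ComplexConjugate

universe u v

variable {H : Type u} [NormedAddCommGroup H] [InnerProductSpace ℂ H] [CompleteSpace H]

variable {A B : Alg H} {ξ : H}

/-- The setting of the gap lemma. -/
structure GapData (μ : Mod A B ξ) {G : Type u} [Group G] (ρ ρ' : G →* unitary (Op H))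
    (Y : Op H) (δ : ℝ) : Prop where
  norm : ‖ξ‖ = 1
  memA : ∀ g, (ρ g : Op H) ∈ A
  memB : ∀ g, (ρ' g : Op H) ∈ B
  fix : ∀ g, (ρ g : Op H) ((ρ' g : Op H) ξ) = ξ
  irr : ∀ x ∈ A, (∀ g, (ρ g : Op H) * x = x * ρ g) → x ∈ B
  uni : Y ∈ unitary (Op H)
  vec : Y ξ = ξ
  comm : ∀ g, Y * ρ g = ρ g * Y
  comm' : ∀ g, Y * ρ' g = ρ' g * Y
  cen : ∀ z ∈ A, z ∈ B → Y * z = z * Y
  near : ∀ b ∈ B, ∃ b' ∈ B, ‖star Y * b * Y - b'‖ ≤ δ * ‖b‖

/-- After averaging, the coefficient is central: `av (m Y) = av m Y`. -/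
theorem gap_central {μ : Mod A B ξ} {G : Type u} [Group G] (m : Mean G)
    {ρ ρ' : G →* unitary (Op H)} {Y : Op H} {δ : ℝ} (h : GapData μ ρ ρ' Y δ) {X x : Op H}
    (hx : x ∈ A) {t : ℝ} (hX : ‖X - x * Y‖ ≤ t) :
    ∃ z ∈ A, z ∈ B ∧ ‖m.av ρ X - z * Y‖ ≤ t := by
  have hz : m.av ρ x ∈ A := m.av_mem ρ μ.cp fun g =>
    mul_mem (mul_mem (h.memA g) hx) (star_mem (h.memA g))
  refine ⟨m.av ρ x, hz, h.irr _ hz (m.av_comm ρ x), ?_⟩
  rw [← m.av_mul_right ρ (fun g => (h.comm g).symm), ← m.av_sub]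
  exact (m.av_norm ρ _).trans hX

/-- The hypotheses are invariant under the flow (`Mod.pair`, `Mod.cen`, `Mod.uB`). -/
theorem GapData.flow {μ : Mod A B ξ} {G : Type u} [Group G] {ρ ρ' : G →* unitary (Op H)}
    {Y : Op H} {δ : ℝ} (h : GapData μ ρ ρ' Y δ) (s : ℝ) : GapData μ ρ ρ' (μ.σ s Y) δ := by
  have key : ∀ x : Op H, μ.U s * x = x * μ.U s → Y * x = x * Y → μ.σ s Y * x = x * μ.σ s Y :=
    fun x h1 h2 => by
      have h3 := μ.σ_fix h1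
      calc μ.σ s Y * x = μ.σ s Y * μ.σ s x := by rw [h3]
        _ = μ.σ s x * μ.σ s Y := by rw [← μ.σ_mul, ← μ.σ_mul, h2]
        _ = x * μ.σ s Y := by rw [h3]
  have hp := fun g => μ.pair (h.memA g) (h.memB g) (ρ g).2 (ρ' g).2 (h.fix g)
  refine ⟨h.norm, h.memA, h.memB, h.fix, h.irr, ?_, ?_, fun g => key _ ((hp g).2.1 s) (h.comm g),
    fun g => key _ ((hp g).2.2 s) (h.comm' g),
    fun z hA hB => key _ (μ.cen hA hB s) (h.cen z hA hB), fun b hb => ?_⟩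
  · exact mul_mem (mul_mem (μ.U_mem s) h.uni) (μ.U_mem (-s))
  · rw [μ.σ_vec μ.cp, h.vec, μ.U_fix μ.cp]
  · obtain ⟨b', hb', e⟩ := h.near _ (μ.uB (-s) hb)
    refine ⟨μ.σ s b', μ.uB s hb', ?_⟩
    have e1 : star (μ.σ s Y) * b * μ.σ s Y - μ.σ s b' =
        μ.σ s (star Y * μ.σ (-s) b * Y - b') := by
      rw [μ.σ_sub, μ.σ_mul, μ.σ_mul, μ.σ_σ, add_neg_cancel, μ.σ_zero, μ.σ_star]
    rw [e1, μ.norm_σ]
    rwa [μ.norm_σ] at e

theorem gap_norm_one {Y : Op H} (hY : Y ∈ unitary (Op H)) : ‖Y‖ ≤ 1 :=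
  ContinuousLinearMap.opNorm_le_bound _ zero_le_one fun η => by rw [unitary_norm hY, one_mul]

theorem gap_norm_mul {Y : Op H} (hY : Y ∈ unitary (Op H)) (z : Op H) : ‖z‖ ≤ ‖z * Y‖ := by
  have e : z = z * Y * star Y := by rw [mul_assoc, (Unitary.mem_iff.1 hY).2, mul_one]
  calc ‖z‖ = ‖z * Y * star Y‖ := by rw [← e]
    _ ≤ ‖z * Y‖ * ‖star Y‖ := norm_mul_le _ _
    _ ≤ ‖z * Y‖ := mul_le_of_le_one_right (norm_nonneg _) (by rw [norm_star]; exact gap_norm_one hY)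

/-- The starting element. -/
theorem gap_start (μ : Mod A B ξ) {Y : Op H} (hY : Y ∈ unitary (Op H)) {θ : ℝ} (h0 : 0 < θ)
    (hθ : θ < ‖Y - 1‖) : ∃ a ∈ A, (Continuous fun s => μ.σ s a) ∧
      (⟪a ξ, Y (a ξ)⟫_ℂ).re < (1 - θ ^ 2 / 2) * ‖a ξ‖ ^ 2 := by
  have h1 : ∃ a ∈ A, θ * ‖a ξ‖ < ‖(Y - 1) (a ξ)‖ := by
    by_contra hc
    push Not at hc
    have h2 := μ.cycA.closed (p := fun η => ‖(Y - 1) η‖ ≤ θ * ‖η‖)
      (isClosed_le (by fun_prop) (by fun_prop)) hc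
    exact absurd (ContinuousLinearMap.opNorm_le_bound _ h0.le h2) (not_le.2 hθ)
  obtain ⟨a, ha, h1⟩ := h1
  have h2 := μ.filt_strong a ξ
  have h3 : ∀ᶠ η in 𝓝 (a ξ), θ * ‖η‖ < ‖(Y - 1) η‖ :=
    (isOpen_lt (by fun_prop) (by fun_prop)).mem_nhds h1
  obtain ⟨ε, h4, hε⟩ := ((h2.eventually h3).and self_mem_nhdsWithin).exists
  refine ⟨μ.filt (gk ε 0 0) a, μ.filt_mem μ.cp (gk_int hε 0 0) fun t => μ.uA t a ha,
    μ.filt_cont hε 0 0 a, ?_⟩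
  generalize μ.filt (gk ε 0 0) a ξ = η at h4 ⊢
  have h5 : (θ * ‖η‖) ^ 2 < ‖(Y - 1) η‖ ^ 2 := pow_lt_pow_left₀ h4 (by positivity) two_ne_zero
  rw [sub_apply, one_apply_eq_self, norm_sub_rev, @norm_sub_sq ℂ, unitary_norm hY] at h5
  simp only [RCLike.re_to_complex] at h5
  nlinarith

theorem GapData.inner {μ : Mod A B ξ} {G : Type u} [Group G] (m : Mean G)
    {ρ ρ' : G →* unitary (Op H)} {Y : Op H} {δ : ℝ} (h : GapData μ ρ ρ' Y δ) {x : Op H}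
    (hx : ∀ g, x * ρ' g = ρ' g * x) : ⟪ξ, m.av ρ x ξ⟫_ℂ = ⟪ξ, x ξ⟫_ℂ := by
  have h1 : ∀ g, star (ρ g : Op H) ξ = (ρ' g : Op H) ξ := fun g => by
    conv_lhs => rw [← h.fix g]
    rw [← mul_apply_eq_comp, Unitary.coe_star_mul_self, one_apply_eq_self]
  have h2 : ∀ g, ⟪star (ρ g : Op H) ξ, x (star (ρ g : Op H) ξ)⟫_ℂ = ⟪ξ, x ξ⟫_ℂ := fun g => by
    rw [h1, ← mul_apply_eq_comp, hx, tl_inner, ← mul_apply_eq_comp, ← mul_assoc,
      Unitary.coe_star_mul_self, one_mul]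
  rw [m.av_inner]
  simp only [h2]
  exact m.const _

/-- A central projection on which `z` is small. -/
theorem gap_proj (h : CP A B) {z : Op H} (hA : z ∈ A) (hB : z ∈ B) {v : H} {s : ℝ} (hs : 0 < s)
    (hv : ‖z v‖ < s * ‖v‖) : ∃ q, IsStarProjection q ∧ q ≠ 0 ∧ q ∈ A ∧ q ∈ B ∧ ‖q * z‖ ≤ s := by
  obtain ⟨e, he, h1, -, h2, h3⟩ := tl_spec z s hs
  have eA : e ∈ A := (h.left e).2 fun y hy =>
    (h1 y ((h.left _).1 (mul_mem (star_mem hA) hA) y hy).symm).symm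
  have eB : e ∈ B := (h.right e).2 fun y hy =>
    (h1 y ((h.right _).1 (mul_mem (star_mem hB) hB) y hy).symm).symm
  have qA : 1 - e ∈ A := sub_mem (one_mem _) eA
  refine ⟨1 - e, he.one_sub, fun h0 => ?_, qA, sub_mem (one_mem _) eB, ?_⟩
  · have h4 := h2 v
    rw [← sub_eq_zero.1 h0, one_apply_eq_self] at h4
    exact absurd hv (not_lt.2 h4)
  · rwa [(h.left _).1 qA z hB]

/-- If `‖Y - 1‖ > θ` there is `a₀ ∈ A` with norm continuous orbit (`cycA`, `filt_strong`,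
`filt_cont`) and `re ⟪a₀ ξ, Y a₀ ξ⟫ < (1 - θ²/2) ‖a₀ ξ‖²`. Let `l = (av (a₀* a₀) + ε) ^ (1/2)`,
`k = l⁻¹` (central), `a = a₀ k`, `r = √ε k`, so `av (a* a + r* r) = 1`. By `mk_block`, `mk_mod`,
`gap_central` (apply `av` once more, it fixes the value) `av (a* Y a + r* Y r) = z' Y + e`,
`‖e‖ ≤ t = K₀ δ`, `‖z'‖ ≤ 1 + t`. Testing on `l ξ` (use `ρ g* l ξ = ρ' g l ξ`, `Y l ξ = l ξ`)
gives `re ⟪l ξ, z' l ξ⟫ ≤ (1 - θ²/3 + t) ‖l ξ‖²`, so `w = (1 + t) - re z' ≥ 0` has norm at least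
`θ²/3`; `tl_spec` with level `θ²/4` gives a nonzero central projection `q` with
`‖w q η‖ ≥ (θ²/4) ‖q η‖`; for positive `w` commuting with `q` this means `w ≥ θ²/4` on the range
of `q` (spectrum of `w q` on the range, or use `w w ≥ c²` and the square root), hence with
`z = (1 + z') / 2`: `‖z q η‖² ≤ (1 + 2 (1 + t - θ²/4) + (1 + t)²) / 4 ‖q η‖²`. -/
theorem gap_block (hH : HyperStmt.{u}) : ∃ K₀ : ℝ, 1 ≤ K₀ ∧ ∀ (H : Type u)
    [NormedAddCommGroup H] [InnerProductSpace ℂ H] [CompleteSpace H] (A B : Alg H) (ξ : H)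
    (μ : Mod A B ξ) (G : Type u) [Group G] (m : Mean G) (ρ ρ' : G →* unitary (Op H)) (Y : Op H)
    (δ θ : ℝ), GapData μ ρ ρ' Y δ → 0 ≤ δ → K₀ * δ ≤ 1 → 0 < θ → θ < ‖Y - 1‖ →
    ∃ (a r z q : Op H), a ∈ A ∧ r ∈ A ∧ r ∈ B ∧ (Continuous fun s => μ.σ s a) ∧
      m.av ρ (star a * a + star r * r) = 1 ∧ z ∈ A ∧ z ∈ B ∧ IsStarProjection q ∧ q ≠ 0 ∧
      q ∈ A ∧ q ∈ B ∧ ‖q * z‖ ≤ 1 - θ ^ 2 / 16 + K₀ * δ ∧
      ‖(1 / 2 : ℂ) • (Y + m.av ρ (star a * Y * a + star r * Y * r)) - z * Y‖ ≤ K₀ * δ := by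
  obtain ⟨K₀, hK, hmod⟩ := mk_mod hH
  refine ⟨K₀, hK, fun H _ _ _ A B ξ μ G _ m ρ ρ' Y δ θ h hδ _ h0 hθ => ?_⟩
  have cp := μ.cp
  have hY1 := gap_norm_one h.uni
  have ht : 0 ≤ K₀ * δ := by positivity
  have hθ2 : θ < 2 := by
    have h1 : ‖(1 : Op H)‖ ≤ 1 := gap_norm_one (one_mem _)
    have h2 := norm_sub_le Y 1
    linarith
  obtain ⟨a₀, ha₀, hc₀, hlt⟩ := gap_start μ h.uni h0 hθ
  have hN : 0 < ‖a₀ ξ‖ ^ 2 := by
    rcases (norm_nonneg (a₀ ξ)).eq_or_lt with e | e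
    · rw [norm_eq_zero.1 e.symm] at hlt
      simp at hlt
    · positivity
  have aa : star a₀ * a₀ ∈ A := mul_mem (star_mem ha₀) ha₀
  have cA : m.av ρ (star a₀ * a₀) ∈ A := m.av_mem ρ cp fun g =>
    mul_mem (mul_mem (h.memA g) aa) (star_mem (h.memA g))
  have cB : m.av ρ (star a₀ * a₀) ∈ B := h.irr _ cA (m.av_comm ρ _)
  have cs : star (m.av ρ (star a₀ * a₀)) = m.av ρ (star a₀ * a₀) := by
    rw [← m.av_star, star_mul, star_star]
  have c0 : ∀ η, 0 ≤ (⟪η, m.av ρ (star a₀ * a₀) η⟫_ℂ).re := fun η => by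
    rw [m.av_inner]
    refine m.re_nonneg (C := ‖η‖ * (‖star a₀ * a₀‖ * ‖η‖)) (fun g => ?_) fun g => ?_
    · have e : ‖star (ρ g : Op H) η‖ = ‖η‖ := unitary_norm (Unitary.star_mem (ρ g).2) η
      refine (norm_inner_le_norm _ _).trans ?_
      rw [e]
      refine mul_le_mul_of_nonneg_left ((ContinuousLinearMap.le_opNorm _ _).trans ?_)
        (norm_nonneg _)
      rw [e]
    · rw [← tl_norm_sq]
      positivity
  set N := ‖a₀ ξ‖ ^ 2 with hNd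
  obtain ⟨l, k, ls, ks, lk, kl, ll, -, -, hcm⟩ := exists_sqrt _ cs c0 (N / 2) (by positivity)
  have lA : l ∈ A := (cp.left l).2 fun y hy => (hcm y ((cp.left _).1 cA y hy).symm).1.symm
  have lB : l ∈ B := (cp.right l).2 fun y hy => (hcm y ((cp.right _).1 cB y hy).symm).1.symm
  have kA : k ∈ A := (cp.left k).2 fun y hy => (hcm y ((cp.left _).1 cA y hy).symm).2.symm
  have kB : k ∈ B := (cp.right k).2 fun y hy => (hcm y ((cp.right _).1 cB y hy).symm).2.symm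
  have ρk : ∀ g, (ρ g : Op H) * k = k * ρ g := fun g => (cp.left _).1 (h.memA g) k kB
  have ρl : ∀ g, (ρ g : Op H) * l = l * ρ g := fun g => (cp.left _).1 (h.memA g) l lB
  set w : ℂ := ((√(N / 2) : ℝ) : ℂ) with hw
  have ww : w * w = ((N / 2 : ℝ) : ℂ) := by
    rw [hw, ← Complex.ofReal_mul, Real.mul_self_sqrt (by positivity)]
  have hblk : ∀ x : Op H, star (a₀ * k) * x * (a₀ * k) + star (w • k) * x * (w • k) =
      k * (star a₀ * x * a₀ + ((N / 2 : ℝ) : ℂ) • x) * k := fun x => by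
    have e : star w = w := by rw [hw]; exact Complex.conj_ofReal _
    rw [star_mul, star_smul, ks, e, ← ww]
    simp only [mul_add, add_mul, smul_mul_assoc, mul_smul_comm, mul_assoc, smul_smul]
  have hav : ∀ x : Op H, m.av ρ (star (a₀ * k) * x * (a₀ * k) + star (w • k) * x * (w • k)) =
      k * m.av ρ (star a₀ * x * a₀ + ((N / 2 : ℝ) : ℂ) • x) * k := fun x => by
    rw [hblk, m.av_mul_right ρ ρk, m.av_mul_left ρ ρk]
  have h1 : m.av ρ (star (a₀ * k) * (a₀ * k) + star (w • k) * (w • k)) = 1 := by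
    have e := hav 1
    simp only [mul_one] at e
    rw [e, m.av_add, m.av_smul, m.av_fix ρ (x := 1) (fun g => by rw [mul_one, one_mul]), ← ll,
      ← mul_assoc, kl, one_mul, lk]
  have aA : a₀ * k ∈ A := mul_mem ha₀ kA
  have rA : w • k ∈ A := A.smul_mem kA w
  have rB : w • k ∈ B := B.smul_mem kB w
  have hc : Continuous fun s => μ.σ s (a₀ * k) := by
    have e : ∀ s, μ.σ s (a₀ * k) = μ.σ s a₀ * k := fun s => by
      rw [μ.σ_mul, μ.σ_fix (μ.cen kA kB s)]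
    simp only [e]
    exact hc₀.mul continuous_const
  have hT := mk_block (Φ := μ.toCalc) m ρ cp h.memA (fun g t =>
    (μ.pair (h.memA g) (h.memB g) (ρ g).2 (ρ' g).2 (h.fix g)).2.1 t) aA rA hc
    (μ.cen rA rB) h1
  obtain ⟨x, hx, e1⟩ := hmod H A B μ.toCalc _ Y δ cp hT h.uni hδ h.near
  obtain ⟨z, zA, zB, e2⟩ := gap_central m h hx e1
  rw [m.av_fix ρ (m.av_comm ρ _)] at e2
  have nT := (hT.norm Y).trans hY1
  have eT := hav Y
  set X := m.av ρ (star (a₀ * k) * Y * (a₀ * k) + star (w • k) * Y * (w • k)) with hX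
  have nz : ‖z‖ ≤ 1 + K₀ * δ := by
    have e3 := norm_sub_le X (X - z * Y)
    rw [sub_sub_cancel] at e3
    have e4 := gap_norm_mul h.uni z
    linarith
  have a' : ∀ g, a₀ * ρ' g = ρ' g * a₀ := fun g => (cp.left _).1 ha₀ _ (h.memB g)
  have a'' : ∀ g, star a₀ * ρ' g = ρ' g * star a₀ := fun g =>
    (cp.left _).1 (star_mem ha₀) _ (h.memB g)
  have ξξ : ⟪ξ, ξ⟫_ℂ = 1 := by rw [inner_self_eq_norm_sq_to_K, h.norm]; simp
  have nl : ‖l ξ‖ ^ 2 = N + N / 2 := by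
    rw [tl_norm_sq, ls, ll, add_apply, inner_add_right, h.inner m fun g => by
      rw [mul_assoc, a', ← mul_assoc, a'', mul_assoc], Complex.add_re, ← tl_norm_sq, smul_apply,
      one_apply_eq_self, inner_smul_right, ξξ, mul_one, Complex.ofReal_re]
  have kv : k (l ξ) = ξ := by rw [← mul_apply_eq_comp, kl, one_apply_eq_self]
  have iX : (⟪l ξ, X (l ξ)⟫_ℂ).re = (⟪a₀ ξ, Y (a₀ ξ)⟫_ℂ).re + N / 2 := by
    have e : ∀ η, ⟪l ξ, k η⟫_ℂ = ⟪ξ, η⟫_ℂ := fun η => by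
      rw [tl_inner, ls, ← mul_apply_eq_comp, lk, one_apply_eq_self]
    rw [eT, mul_apply_eq_comp, mul_apply_eq_comp, kv, e, h.inner m fun g => by
      rw [add_mul, mul_add, smul_mul_assoc, mul_smul_comm, h.comm', mul_assoc, a', ← mul_assoc,
        mul_assoc (star a₀), h.comm', ← mul_assoc, a'']
      simp only [mul_assoc], add_apply, inner_add_right, smul_apply, inner_smul_right, h.vec, ξξ,
      mul_one, Complex.add_re, Complex.ofReal_re, mul_apply_eq_comp, mul_apply_eq_comp,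
      ← tl_inner]
  have Yl : Y (l ξ) = l ξ := by
    rw [← mul_apply_eq_comp, h.cen l lA lB, mul_apply_eq_comp, h.vec]
  generalize l ξ = v at nl iX Yl
  have iz : (⟪v, z v⟫_ℂ).re ≤ (1 - θ ^ 2 / 3 + K₀ * δ) * ‖v‖ ^ 2 := by
    have e3 : z v = X v - (X - z * Y) v := by
      rw [sub_apply, mul_apply_eq_comp, Yl, sub_sub_cancel]
    have e4 : ‖⟪v, (X - z * Y) v⟫_ℂ‖ ≤ K₀ * δ * ‖v‖ ^ 2 := by
      refine (norm_inner_le_norm _ _).trans ?_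
      have := (X - z * Y).le_of_opNorm_le e2 v
      nlinarith [norm_nonneg v]
    have e5 := (abs_le.1 ((Complex.abs_re_le_norm _).trans e4)).1
    rw [e3, inner_sub_right, Complex.sub_re, iX]
    rw [nl] at e5 ⊢
    nlinarith
  have v0 : 0 < ‖v‖ ^ 2 := by rw [nl]; positivity
  have hs : 0 < 1 - θ ^ 2 / 16 + K₀ * δ := by nlinarith
  have hz : ‖((1 / 2 : ℂ) • (1 + z)) v‖ < (1 - θ ^ 2 / 16 + K₀ * δ) * ‖v‖ := by
    refine lt_of_pow_lt_pow_left₀ 2 (by positivity) ?_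
    have e3 : ‖z v‖ ^ 2 ≤ ((1 + K₀ * δ) * ‖v‖) ^ 2 :=
      pow_le_pow_left₀ (norm_nonneg _) (z.le_of_opNorm_le nz v) 2
    have e4 : ‖(1 / 2 : ℂ)‖ = 1 / 2 := by simp
    rw [smul_apply, norm_smul, e4, add_apply, one_apply_eq_self, mul_pow, @norm_add_sq ℂ, mul_pow]
    simp only [RCLike.re_to_complex]
    rw [mul_pow] at e3
    generalize K₀ * δ = t at *
    have e5 : (1 + 2 * (1 - θ ^ 2 / 3 + t) + (1 + t) ^ 2) / 4 < (1 - θ ^ 2 / 16 + t) ^ 2 := by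
      have e6 : θ ^ 2 < 4 := by nlinarith
      have e7 : 0 < θ ^ 2 := by positivity
      nlinarith [mul_nonneg ht (sub_pos.2 e6).le, sq_nonneg (θ ^ 2), sq_nonneg t]
    nlinarith [mul_lt_mul_of_pos_right e5 v0]
  have zA' : (1 / 2 : ℂ) • (1 + z) ∈ A := A.smul_mem (add_mem (one_mem _) zA) _
  have zB' : (1 / 2 : ℂ) • (1 + z) ∈ B := B.smul_mem (add_mem (one_mem _) zB) _
  obtain ⟨q, hq, q0, qA, qB, nq⟩ := gap_proj cp zA' zB' hs hz
  refine ⟨a₀ * k, w • k, _, q, aA, rA, rB, hc, h1, zA', zB', hq, q0, qA, qB, nq, ?_⟩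
  have e3 : (1 / 2 : ℂ) • (Y + X) - (1 / 2 : ℂ) • (1 + z) * Y = (1 / 2 : ℂ) • (X - z * Y) := by
    rw [smul_mul_assoc, ← smul_sub, add_mul, one_mul, add_sub_add_left_eq_sub]
  have e4 : ‖(1 / 2 : ℂ)‖ = 1 / 2 := by simp
  rw [e3, norm_smul, e4]
  linarith

end Vale.Agent.P096b
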