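import Vale.Agent.P096b.Close

/-! Reduction to the standard form. -/

set_option linter.unusedSectionVars false

namespace Vale.Agent.P096b

open Filter Topology Vale.Agent.P096 MeasureTheory
open scoped InnerProductSpace ComplexConjugate

universe u v

variable {H : Type u} [NormedAddCommGroup H] [InnerProductSpace ℂ H] [CompleteSpace H]

/-- Lifting operators from an induced algebra. For `T` commuting with the compressions of the
elements of `D` that commute with `p`, define `n (d η) = d T η`; for `X = p d* d p` positive and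
commuting with `T` one has `‖d T η‖ ^ 2 = ‖√X T η‖ ^ 2 ≤ ‖T‖ ^ 2 ‖d η‖ ^ 2`. -/
theorem ind_back {N D : Alg H} (h : CP N D) {η : H} (hη : Cyc D η) {p : Op H}
    (hp : IsStarProjection p) (hpD : p ∈ D) (hpη : p η = η) {T : Op H} (hT : p * T * p = T)
    (hc : ∀ d ∈ D, d * p = p * d → d * T = T * d) :
    ∃ n ∈ N, ‖n‖ ≤ ‖T‖ ∧ n * p = T := by
  have pp : p * p = p := hp.isIdempotentElem
  have pT : p * T = T := by rw [← hT, ← mul_assoc, ← mul_assoc, pp]
  have Tp : T * p = T := by rw [← hT, mul_assoc, pp]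
  have hb : ∀ d ∈ D, ‖d (T η)‖ ≤ ‖T‖ * ‖d η‖ := fun d hd => by
    obtain ⟨l, h1, h2, h3⟩ := exists_sqrt' (star (d * p) * (d * p)) (by simp) fun ζ => by
      rw [← tl_norm_sq]; positivity
    have h4 : ∀ ζ, ‖l ζ‖ = ‖d (p ζ)‖ := fun ζ => by
      have : ‖l ζ‖ ^ 2 = ‖(d * p) ζ‖ ^ 2 := by rw [tl_norm_sq, tl_norm_sq, h1, h2]
      exact (pow_left_inj₀ (norm_nonneg _) (norm_nonneg _) two_ne_zero).1 this
    have h5 := h3 T (hc _ (mul_mem (star_mem (mul_mem hd hpD)) (mul_mem hd hpD)) (by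
      rw [star_mul, hp.isSelfAdjoint.star_eq]
      simp only [mul_assoc, pp]
      rw [← mul_assoc p p, pp])).symm
    have h6 : T (l η) = l (T η) := congrArg (fun S : Op H => S η) h5
    have h7 : p (T η) = T η := congrArg (fun S : Op H => S η) pT
    rw [← h7, ← h4, ← h6, ← hpη, ← h4, hpη]
    exact T.le_opNorm _
  let ev : H → (D →ₗ[ℂ] H) := fun ζ =>
    { toFun := fun d => (d : Op H) ζ
      map_add' := fun _ _ => rfl
      map_smul' := fun _ _ => rfl }
  have hd : DenseRange (ev η) := Metric.denseRange_iff.2 fun ζ ε hε => by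
    obtain ⟨d, hd, h1⟩ := hη ζ ε hε
    exact ⟨⟨d, hd⟩, by rwa [dist_comm, dist_eq_norm]⟩
  have hn : ∀ d ∈ D, (ev (T η)).extendOfNorm (ev η) (d η) = d (T η) := fun d hd' =>
    LinearMap.extendOfNorm_eq hd ⟨‖T‖, fun d => hb d.1 d.2⟩ ⟨d, hd'⟩
  refine ⟨(ev (T η)).extendOfNorm (ev η), (h.left _).2 fun y hy => hη.ext_op fun d hd' => ?_,
    LinearMap.opNorm_extendOfNorm_le hd (norm_nonneg _) fun d => hb d.1 d.2,
    hη.ext_op fun d hd' => ?_⟩
  · exact (hn (y * d) (mul_mem hy hd')).trans (congrArg y (hn d hd').symm)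
  · refine (hn (p * d) (mul_mem hpD hd')).trans ?_
    have h1 := hc (p * d * p) (mul_mem (mul_mem hpD hd') hpD) (by
      rw [mul_assoc _ p p, pp, ← mul_assoc, ← mul_assoc, pp])
    rw [mul_assoc _ p T, pT, ← mul_assoc, ← mul_assoc, Tp] at h1
    have h2 : (p * d) (T η) = T (d (p η)) := congrArg (fun S : Op H => S η) h1
    rw [h2, hpη]

/-- An isometry onto the range of `p` and its adjoint. -/
structure IndRg (p : Op H) {E : Type u} [NormedAddCommGroup E] [InnerProductSpace ℂ E]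
    (j : E →L[ℂ] H) (q : H →L[ℂ] E) : Prop where
  proj : IsStarProjection p
  adj : ∀ ζ v, ⟪q ζ, v⟫_ℂ = ⟪ζ, j v⟫_ℂ
  qj : ∀ v, q (j v) = v
  jq : ∀ ζ, j (q ζ) = p ζ

/-- The compression. -/
noncomputable def indPi {E : Type u} [NormedAddCommGroup E] [InnerProductSpace ℂ E]
    (j : E →L[ℂ] H) (q : H →L[ℂ] E) : Op H →ₗ[ℂ] Op E where
  toFun x := q ∘L x ∘L j
  map_add' x y := by ext; simp
  map_smul' c x := by ext; simp

/-- The elements commuting with `p`. -/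
noncomputable def indC (B : Alg H) (p : Op H) : Alg H := B ⊓ cm {p}

theorem mem_indC {B : Alg H} {p x : Op H} (hp : IsStarProjection p) :
    x ∈ indC B p ↔ x ∈ B ∧ x * p = p * x := by
  have : x ∈ cm {p} ↔ x * p = p * x := by
    rw [mem_cm' (by rintro _ rfl; exact hp.isSelfAdjoint)]
    simp
  rw [← this]
  rfl

theorem indC_closed {A B : Alg H} (h : CP A B) (p : Op H) : IsClosed (indC B p : Set (Op H)) :=
  (tl_closed h.symm).inter (tl_closed (cp_cm {p}))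

theorem indC_near {B D : Alg H} {p : Op H} (hp : IsStarProjection p) (hD : p ∈ D) {δ : ℝ}
    (h : Near B D δ) : Near (indC B p) (indC D p) (2 * δ) := by
  intro b hb
  obtain ⟨hb1, hb2⟩ := (mem_indC hp).1 hb
  obtain ⟨d, hd1, hd2⟩ := h b hb1
  have pp : p * p = p := hp.isIdempotentElem
  have pp' : ∀ y, p * (p * y) = p * y := fun y => by rw [← mul_assoc, pp]
  have h1 : (1 - p : Op H) ∈ D := sub_mem (one_mem _) hD
  refine ⟨p * d * p + (1 - p) * d * (1 - p), (mem_indC hp).2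
    ⟨add_mem (mul_mem (mul_mem hD hd1) hD) (mul_mem (mul_mem h1 hd1) h1), ?_⟩, ?_⟩
  · simp only [add_mul, mul_add, mul_sub, sub_mul, mul_assoc, pp, pp', one_mul, mul_one]
    abel
  · have e : b - (p * d * p + (1 - p) * d * (1 - p))
        = p * (b - d) * p + (1 - p) * (b - d) * (1 - p) := by
      simp only [mul_sub, sub_mul, mul_assoc, one_mul, mul_one, hb2, pp']
      abel
    rw [e]
    have n1 := tl_norm3 (b := b - d) hp.norm_le hp.norm_le
    have n2 := tl_norm3 (b := b - d) hp.one_sub.norm_le hp.one_sub.norm_le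
    linarith [norm_add_le (p * (b - d) * p) ((1 - p) * (b - d) * (1 - p))]

namespace IndRg

variable {p : Op H} {E : Type u} [NormedAddCommGroup E] [InnerProductSpace ℂ E] [CompleteSpace E]
  {j : E →L[ℂ] H} {q : H →L[ℂ] E} (h : IndRg p j q)

include h

theorem pj (v : E) : p (j v) = j v := by rw [← h.jq, h.qj]

theorem qp (ζ : H) : q (p ζ) = q ζ := by rw [← h.jq, h.qj]

theorem norm_j (v : E) : ‖j v‖ = ‖v‖ := by
  have := h.adj (j v) v
  rw [h.qj, inner_self_eq_norm_sq_to_K, inner_self_eq_norm_sq_to_K] at this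
  have h1 : ‖v‖ ^ 2 = ‖j v‖ ^ 2 := by exact_mod_cast this
  exact ((pow_left_inj₀ (norm_nonneg _) (norm_nonneg _) two_ne_zero).1 h1).symm

theorem norm_q (ζ : H) : ‖q ζ‖ ≤ ‖ζ‖ := by
  rw [← h.norm_j, h.jq]
  simpa using p.le_of_opNorm_le h.proj.norm_le ζ

theorem pi_norm (x : Op H) : ‖indPi j q x‖ ≤ ‖x‖ :=
  ContinuousLinearMap.opNorm_le_bound _ (norm_nonneg _) fun v =>
    (h.norm_q _).trans (by rw [← h.norm_j]; exact x.le_opNorm _)

theorem pi_one : indPi j q 1 = 1 := ContinuousLinearMap.ext fun v => h.qj v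

theorem pi_star (x : Op H) : indPi j q (star x) = star (indPi j q x) := by
  refine ContinuousLinearMap.ext fun v => ext_inner_right ℂ fun w => ?_
  rw [tl_inner']
  show ⟪q (star x (j v)), w⟫_ℂ = ⟪v, q (x (j w))⟫_ℂ
  rw [h.adj, tl_inner', ← inner_conj_symm v, h.adj, inner_conj_symm]

theorem pi_mul (x : Op H) {y : Op H} (hy : y * p = p * y) :
    indPi j q (x * y) = indPi j q x * indPi j q y := by
  refine ContinuousLinearMap.ext fun v => ?_
  show q (x (y (j v))) = q (x (j (q (y (j v)))))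
  have : y (p (j v)) = p (y (j v)) := congrArg (fun T : Op H => T (j v)) hy
  rw [h.jq, ← this, h.pj]

theorem pi_mem {A B : Alg H} (hAB : CP A B) (hB : p ∈ B) {x : Op H} (hx : x ∈ A) :
    indPi j q x ∈ cm (indPi j q '' indC B p) := by
  have key : ∀ y ∈ indC B p, indPi j q x * indPi j q y = indPi j q y * indPi j q x := fun y hy => by
    obtain ⟨h1, h2⟩ := (mem_indC h.proj).1 hy
    rw [← h.pi_mul x h2, ← h.pi_mul y ((hAB.left x).1 hx p hB), (hAB.left x).1 hx y h1]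
  rw [mem_cm]
  rintro _ ⟨y, hy, rfl⟩
  exact ⟨key y hy, by rw [← h.pi_star]; exact key _ (star_mem hy)⟩

theorem back {N D : Alg H} (hND : CP N D) {η : H} (hη : Cyc D η) (hD : p ∈ D) (hpη : p η = η)
    {S : Op E} (hS : S ∈ cm (indPi j q '' indC D p)) :
    ∃ n ∈ N, ‖n‖ ≤ ‖S‖ ∧ n * p = j ∘L S ∘L q := by
  obtain ⟨n, h1, h2, h3⟩ := ind_back hND hη h.proj hD hpη (T := j ∘L S ∘L q)
    (ContinuousLinearMap.ext fun ζ => by
      show p (j (S (q (p ζ)))) = j (S (q ζ))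
      rw [h.pj, h.qp])
    fun d hd hdp => ContinuousLinearMap.ext fun ζ => by
      have e1 : ∀ ζ, d (p ζ) = p (d ζ) := fun ζ => congrArg (fun T : Op H => T ζ) hdp
      have e2 : S (q (d (j (q ζ)))) = q (d (j (S (q ζ)))) := congrArg (fun T : Op E => T (q ζ))
        (mem_cm.1 hS _ ⟨d, (mem_indC h.proj).2 ⟨hd, hdp⟩, rfl⟩).1
      show d (j (S (q ζ))) = j (S (q (d ζ)))
      rw [h.jq, e1, h.qp] at e2
      rw [e2, h.jq, ← e1, h.pj]
  refine ⟨n, h1, h2.trans (ContinuousLinearMap.opNorm_le_bound _ (norm_nonneg _) fun ζ => ?_), h3⟩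
  show ‖j (S (q ζ))‖ ≤ _
  rw [h.norm_j]
  exact (S.le_opNorm _).trans (mul_le_mul_of_nonneg_left (h.norm_q ζ) (norm_nonneg _))

theorem surj {N D : Alg H} (hND : CP N D) {η : H} (hη : Cyc D η) (hD : p ∈ D) (hpη : p η = η)
    (S : Op E) (hS : S ∈ cm (indPi j q '' indC D p)) : ∃ n, n ∈ N ∧ indPi j q n = S := by
  obtain ⟨n, h1, -, h3⟩ := h.back hND hη hD hpη hS
  refine ⟨n, h1, ContinuousLinearMap.ext fun v => ?_⟩
  have : n (p (j v)) = j (S (q (j v))) := congrArg (fun T : Op H => T (j v)) h3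
  show q (n (j v)) = S v
  rw [← h.pj, this, h.qj, h.qj]

theorem iso {N D : Alg H} (hND : CP N D) {η : H} (hη : Cyc D η) (hD : p ∈ D) (hpη : p η = η)
    {n : Op H} (hn : n ∈ N) : ‖n‖ ≤ ‖indPi j q n‖ := by
  obtain ⟨n', h1, h2, h3⟩ := h.back hND hη hD hpη (h.pi_mem hND hD hn)
  have : n' (p η) = j (q (n (j (q η)))) := congrArg (fun T : Op H => T η) h3
  rw [h.jq, h.jq, hpη, ← hND.app hn hD, hpη] at this
  rw [← hη.ext hND h1 hn this] at h2 ⊢
  exact h2

theorem lift {A B N D : Alg H} (hAB : CP A B) (hND : CP N D) {η : H} (hη : Cyc D η) (hB : p ∈ B)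
    (hD : p ∈ D) (hpη : p η = η) {δ ε : ℝ} (hε : 0 ≤ ε) (hn : Near A N δ)
    (hl : Lift (cm (indPi j q '' indC B p)) (cm (indPi j q '' indC D p)) ε) :
    Lift A N (ε + 2 * δ) := by
  obtain ⟨Φ, h1, h2, h3⟩ := hl
  choose! Ψ hΨ1 hΨ2 using h.surj hND hη hD hpη
  have hπ := fun x (hx : x ∈ A) => h.pi_mem hAB hB hx
  have hN : ∀ x ∈ A, Ψ (Φ (indPi j q x)) ∈ N := fun x hx => hΨ1 _ (h3 _ (hπ x hx)).1
  have hP : ∀ x ∈ A, indPi j q (Ψ (Φ (indPi j q x))) = Φ (indPi j q x) := fun x hx =>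
    hΨ2 _ (h3 _ (hπ x hx)).1
  have inj : ∀ n ∈ N, ∀ n' ∈ N, indPi j q n = indPi j q n' → n = n' := fun n hn n' hn' e => by
    have := h.iso hND hη hD hpη (sub_mem hn hn')
    rw [map_sub, e, sub_self, norm_zero] at this
    exact sub_eq_zero.1 (norm_le_zero_iff.1 this)
  refine ⟨fun x => Ψ (Φ (indPi j q x)), fun x hx y hy => ?_, fun c x hx => ?_,
    fun x hx => ⟨hN x hx, ?_⟩⟩
  · refine inj _ (hN _ (add_mem hx hy)) _ (add_mem (hN x hx) (hN y hy)) ?_
    rw [hP _ (add_mem hx hy), map_add, map_add, hP x hx, hP y hy, h1 _ (hπ x hx) _ (hπ y hy)]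
  · refine inj _ (hN _ (SMulMemClass.smul_mem c hx)) _ (SMulMemClass.smul_mem c (hN x hx)) ?_
    rw [hP _ (SMulMemClass.smul_mem c hx), map_smul, map_smul, hP x hx, h2 c _ (hπ x hx)]
  · obtain ⟨n, hn1, hn2⟩ := hn x hx
    have a1 := h.iso hND hη hD hpη (sub_mem (hN x hx) hn1)
    rw [map_sub, hP x hx] at a1
    have a2 := (h3 _ (hπ x hx)).2.trans (mul_le_mul_of_nonneg_left (h.pi_norm x) hε)
    have a3 := h.pi_norm (x - n)
    rw [map_sub] at a3
    have a4 := norm_sub_le_norm_sub_add_norm_sub (Φ (indPi j q x)) (indPi j q x) (indPi j q n)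
    have a5 := norm_sub_le_norm_sub_add_norm_sub (Ψ (Φ (indPi j q x))) n x
    rw [norm_sub_rev n x] at a5
    show ‖Ψ (Φ (indPi j q x)) - x‖ ≤ _
    linarith

theorem cycN {N D : Alg H} (hND : CP N D) {η : H} (hD : p ∈ D) (hpη : p η = η)
    (hp : ∀ ζ, ∀ ε : ℝ, 0 < ε → ∃ n ∈ N, ‖n η - p ζ‖ < ε) :
    Cyc (cm (indPi j q '' indC D p)) (q η) := fun v ε hε => by
  obtain ⟨n, hn, h1⟩ := hp (j v) ε hε
  refine ⟨_, h.pi_mem hND hD hn, lt_of_le_of_lt ?_ h1⟩
  have := h.norm_q (n η - p (j v))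
  rw [map_sub, h.qp, h.qj] at this
  show ‖q (n (j (q η))) - v‖ ≤ _
  rwa [h.jq, hpη]

theorem cycD {D : Alg H} {η : H} (hη : Cyc D η) (hD : p ∈ D) (hpη : p η = η) :
    Cyc (cm (cm (indPi j q '' indC D p) : Set (Op E))) (q η) := fun v ε hε => by
  obtain ⟨d, hd, h1⟩ := hη (j v) ε hε
  have pp : p * p = p := h.proj.isIdempotentElem
  refine ⟨_, sub_cm_cm ⟨p * d * p, (mem_indC h.proj).2 ⟨mul_mem (mul_mem hD hd) hD, by
    rw [mul_assoc _ p p, pp, ← mul_assoc, ← mul_assoc, pp]⟩, rfl⟩, lt_of_le_of_lt ?_ h1⟩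
  have := h.norm_q (d η - j v)
  rw [map_sub, h.qj] at this
  show ‖q (p (d (p (j (q η))))) - v‖ ≤ _
  rwa [h.jq, hpη, hpη, h.qp]

end IndRg

theorem ind_range {p : Op H} (hp : IsStarProjection p) :
    ∃ q : H →L[ℂ] (1 - p : Op H).ker, IndRg p (1 - p : Op H).ker.subtypeL q := by
  have pp : ∀ ζ, p (p ζ) = p ζ := fun ζ => congrArg (fun T : Op H => T ζ) hp.isIdempotentElem
  have hfix : ∀ v : (1 - p : Op H).ker, p v = v := fun v => by
    have : (v : H) - p v = 0 := v.2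
    exact (sub_eq_zero.1 this).symm
  refine ⟨p.codRestrict _ fun ζ => show p ζ - p (p ζ) = 0 by rw [pp, sub_self],
    hp, fun ζ v => ?_, fun v => Subtype.ext (hfix v), fun ζ => rfl⟩
  show ⟪p ζ, (v : H)⟫_ℂ = ⟪ζ, (v : H)⟫_ℂ
  rw [tl_inner, hp.isSelfAdjoint.star_eq, hfix]

theorem ind_core (hH : HyperStmt.{u}) (h : LiftStd.{u}) (ε : ℝ) (hε : 0 < ε) :
    ∃ δ : ℝ, 0 < δ ∧ ∀ (H : Type u) [NormedAddCommGroup H] [InnerProductSpace ℂ H]
      [CompleteSpace H] [TopologicalSpace.SeparableSpace H] (A B N D : Alg H) (η : H) (p : Op H),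
      CP A B → CP N D → Near A N δ → Close B D δ → Cyc D η → IsStarProjection p → p ∈ B →
      p ∈ D → p η = η → (∀ ζ, ∀ ε : ℝ, 0 < ε → ∃ n ∈ N, ‖n η - p ζ‖ < ε) → Lift A N ε := by
  obtain ⟨K, hK, hyp⟩ := hyp_close hH
  obtain ⟨δ₁, hδ₁, h1⟩ := h (ε / 2) (half_pos hε)
  refine ⟨min (ε / 4) (δ₁ / (2 * K)), by positivity,
    fun H _ _ _ _ A B N D η p hAB hND hn hc hη hp hB hD hpη hN => ?_⟩
  obtain ⟨q, hq⟩ := ind_range hp
  have a1 := min_le_left (ε / 4) (δ₁ / (2 * K))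
  have a2 : K * (2 * min (ε / 4) (δ₁ / (2 * K))) ≤ δ₁ := by
    have := (le_div_iff₀ (by positivity)).1 (min_le_right (ε / 4) (δ₁ / (2 * K)))
    linarith
  have hcl := hyp H _ (indC B p) (indC D p) (indPi _ q) _ (indC_closed hAB p) (indC_closed hND p)
    (by positivity) ⟨indC_near hp hD hc.1, indC_near hp hB hc.2⟩ hq.pi_norm hq.pi_one hq.pi_star
    (fun x _ y hy => hq.pi_mul x ((mem_indC hp).1 hy).2)
    (fun x _ y hy => hq.pi_mul x ((mem_indC hp).1 hy).2)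
  have := UniformSpace.secondCountable_of_separable H
  exact (hq.lift hAB hND hη hB hD hpη (half_pos hε).le hn (h1 _ _ _ _ _ (cp_cm _) (cp_cm _)
    (hcl.mono a2) ⟨inferInstance, q η, hq.cycN hND hD hpη hN, hq.cycD hη hD hpη⟩)).mono
    (by linarith)

theorem ind_supp {N D : Alg H} (h : CP N D) (η : H) : ∃ p, IsStarProjection p ∧ p ∈ D ∧ p η = η ∧
    ∀ ζ, ∀ ε : ℝ, 0 < ε → ∃ n ∈ N, ‖n η - p ζ‖ < ε := by
  obtain ⟨e, he0, he1, he2, he3⟩ := tl_supp {ζ | ∃ b ∈ N, ζ = b η}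
  refine ⟨e, he0, (h.right e).2 fun y hy => (he3 y
    (by rintro _ ⟨b, hb, rfl⟩; exact ⟨y * b, mul_mem hy hb, rfl⟩)
    (by rintro _ ⟨b, hb, rfl⟩; exact ⟨star y * b, mul_mem (star_mem hy) hb, rfl⟩)).symm,
    he1 η ⟨1, one_mem _, rfl⟩, fun ζ ε hε => ?_⟩
  obtain ⟨θ, hθ, hd⟩ := Metric.mem_closure_iff.1 (he2 ζ) ε hε
  have h3 : ∃ b ∈ N, θ = b η := by
    clear hd
    induction hθ using Submodule.span_induction with
    | mem x hx => exact hx
    | zero => exact ⟨0, zero_mem _, rfl⟩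
    | add x y _ _ hx hy =>
      obtain ⟨a, ha, rfl⟩ := hx
      obtain ⟨b, hb, rfl⟩ := hy
      exact ⟨a + b, add_mem ha hb, rfl⟩
    | smul c x _ hx =>
      obtain ⟨a, ha, rfl⟩ := hx
      exact ⟨c • a, SMulMemClass.smul_mem c ha, rfl⟩
  obtain ⟨b, hb, rfl⟩ := h3
  exact ⟨b, hb, by rwa [dist_comm, dist_eq_norm] at hd⟩

theorem ind_unit {p p' : Op H} (hp : IsStarProjection p) (hp' : IsStarProjection p') {t : ℝ}
    (h : ‖p' - p‖ ≤ t) (ht : t ≤ 1 / 20) :
    ∃ W : unitary (Op H), ‖(W : Op H) - 1‖ ≤ 16 * t ∧ (W : Op H) * p * star (W : Op H) = p' := by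
  have pp : p * p = p := hp.isIdempotentElem
  have pp' : p' * p' = p' := hp'.isIdempotentElem
  set X := p' * p + (1 - p') * (1 - p) with hX
  have e1 : X - 1 = (p' - p) * p + p' * (p - p') := by
    simp only [hX, mul_sub, sub_mul, one_mul, mul_one, pp, pp']
    abel
  have e2 : X * p = p' * X := by
    simp only [hX, add_mul, mul_add, mul_sub, sub_mul, one_mul, mul_one, mul_assoc, pp,
      ← mul_assoc p' p', pp']
    abel
  have e3 : star X * p' = p * star X := by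
    have := congrArg star e2
    rw [star_mul, star_mul, hp.isSelfAdjoint.star_eq, hp'.isSelfAdjoint.star_eq] at this
    exact this.symm
  have t0 : 0 ≤ t := (norm_nonneg _).trans h
  have n1 : ‖X - 1‖ ≤ 2 * t := by
    have a1 := (norm_mul_le (p' - p) p).trans (mul_le_mul h hp.norm_le (norm_nonneg _) t0)
    have a2 := (norm_mul_le p' (p - p')).trans
      (mul_le_mul hp'.norm_le ((norm_sub_rev p p').trans_le h) (norm_nonneg _) zero_le_one)
    rw [e1]
    linarith [norm_add_le ((p' - p) * p) (p' * (p - p'))]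
  obtain ⟨b, h1, -, h2, h3⟩ := tl_polar X (2 * t) n1 (by linarith)
  have e4 := h3 p' (by rw [← mul_assoc, ← e2, mul_assoc, ← e3, mul_assoc])
  refine ⟨⟨b * X, h1⟩, by linarith, ?_⟩
  show b * X * p * star (b * X) = p'
  rw [mul_assoc b, e2, ← mul_assoc b, ← e4, mul_assoc p', mul_assoc p', h1.2, mul_one]

/-- Let `p ∈ D` be the projection onto the closure of `N η` (`tl_supp`). Perturb it to a projection
`p' ∈ B` (`comm_close`, `tl_nearP`) and take a unitary `W` near `1` with `W p W* = p'` (`tl_polar`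
of `p' p + (1 - p') (1 - p)`), so `p ∈ cj W B`; use `Lift.of_cj`, `tools.cjCP`, `tools.cjClose`.
On `E = range p` let `π` be the compression, `B_p`, `D_p` the elements commuting with `p` (close:
replace `d` by `p d p + (1 - p) d (1 - p)`), `A₁ = cm (π '' B_p)`, `N₁ = cm (π '' D_p)`; `η` is
cyclic for `N₁ ⊇ π N` and for `cm N₁ ⊇ π D_p`. The element `n` of `ind_back` is determined by
`n η` (`Cyc.sep`), hence depends linearly on `T`, and `x ↦ n (Φ₁ (π x))` is the lifting: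
compare with an `n₀ ∈ N` near `x`. -/
theorem lift_ind (hH : HyperStmt.{u}) (h : LiftStd.{u}) : LiftCyc.{u} := by
  intro ε hε
  obtain ⟨K, hK, hcomm⟩ := comm_close hH
  obtain ⟨δ₁, hδ₁, h1⟩ := ind_core hH h (ε / 2) (half_pos hε)
  refine ⟨min (min ε δ₁) 1 / (1000 * K), by positivity, fun H _ _ _ A B N D hAB hND hc hP => ?_⟩
  obtain ⟨hs, η, hη⟩ := hP
  set δ := min (min ε δ₁) 1 / (1000 * K) with hδ
  have hδ0 : 0 ≤ δ := by positivity
  have hKδ : K * δ = min (min ε δ₁) 1 / 1000 := by rw [hδ]; field_simp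
  have m1 := (min_le_left (min ε δ₁) 1).trans (min_le_left ε δ₁)
  have m2 := (min_le_left (min ε δ₁) 1).trans (min_le_right ε δ₁)
  have m3 := min_le_right (min ε δ₁) 1
  have k0 : 0 ≤ K * δ := by positivity
  have hc1 : Close A N (K * δ) := hc.mono (le_mul_of_one_le_left hδ0 hK)
  have hc2 : Close B D (K * δ) := hcomm H A B N D δ hAB hND hδ0 hc
  obtain ⟨p, hp, hpD, hpη, hN⟩ := ind_supp hND η
  obtain ⟨p', hp', hp'B, hpp⟩ := tl_nearA hAB p 1 (K * δ) 0 hp hpD (.one _) (one_mem _) hc2.2 k0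
    (by simp) (by linarith)
  obtain ⟨W, hW, hWp⟩ := ind_unit hp hp' hpp (by linarith)
  have n1 := (tools.cjClose W (K * δ) ⟨hc1.2, hc1.1⟩ k0 (by linarith)).mono
    (δ' := δ₁) (by linarith)
  have n2 := (tools.cjClose W (K * δ) ⟨hc2.2, hc2.1⟩ k0 (by linarith)).mono
    (δ' := δ₁) (by linarith)
  exact ((h1 H _ _ N D η p (tools.cjCP W hAB) hND n1.2 ⟨n2.2, n2.1⟩ hη hp
    (by rw [mem_cj, hWp]; exact hp'B.mem) hpD hpη hN).of_cj W).mono (by linarith)

end Vale.Agent.P096b
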