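import Vale.Agent.P096b.Basic

/-! Inductive limits of Hilbert spaces. -/

set_option linter.unusedSectionVars false

namespace Vale.Agent.P096b

open Filter Topology Vale.Agent.P096 MeasureTheory
open scoped InnerProductSpace ComplexConjugate

universe u v

variable {H : Type u} [NormedAddCommGroup H] [InnerProductSpace ℂ H] [CompleteSpace H]

namespace IndLim

theorem exists_go {X : ℕ → Type u} [∀ n, Zero (X n)] (f : ∀ n, X n → X (n + 1)) :
    ∃ g : ∀ n, X n → ∀ m, X m, (∀ n x, g n x n = x) ∧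
      ∀ n x m, n ≤ m → g n x (m + 1) = f m (g n x m) := by
  refine ⟨fun n x m => if h : n ≤ m then Nat.leRecOn h (fun {k} => f k) x else 0,
    fun n x => ?_, fun n x m h => ?_⟩
  · simp only [le_refl, dite_true, Nat.leRecOn_self]
  · simp only [h, h.trans m.le_succ, dite_true]
    exact Nat.leRecOn_succ h x

variable {E : ℕ → Type u} [∀ n, NormedAddCommGroup (E n)] [∀ n, InnerProductSpace ℂ (E n)]

/-- sequences that are eventually compatible with the embeddings -/
def Sq (ι : ∀ n, E n →ₗᵢ[ℂ] E (n + 1)) : Submodule ℂ (∀ n, E n) where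
  carrier := {v | ∀ᶠ n in atTop, v (n + 1) = ι n (v n)}
  add_mem' := fun {v w} hv hw => by
    filter_upwards [hv, hw] with n h1 h2
    simp [h1, h2]
  zero_mem' := Eventually.of_forall fun n => by simp
  smul_mem' := fun c v hv => by
    filter_upwards [hv] with n h1
    simp [h1]

variable {ι : ∀ n, E n →ₗᵢ[ℂ] E (n + 1)}

theorem exists_ip (v w : Sq ι) : ∃ z : ℂ, ∀ᶠ n in atTop, ⟪v.1 n, w.1 n⟫_ℂ = z := by
  obtain ⟨N, hN⟩ := eventually_atTop.1 (v.2.and w.2)
  refine ⟨⟪v.1 N, w.1 N⟫_ℂ, eventually_atTop.2 ⟨N, fun n hn => ?_⟩⟩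
  induction n, hn using Nat.le_induction with
  | base => rfl
  | succ n hn ih => rw [(hN n hn).1, (hN n hn).2, LinearIsometry.inner_map_map, ih]

/-- the limit of the inner products -/
noncomputable def ip (v w : Sq ι) : ℂ := (exists_ip v w).choose

theorem ip_spec (v w : Sq ι) : ∀ᶠ n in atTop, ⟪v.1 n, w.1 n⟫_ℂ = ip v w :=
  (exists_ip v w).choose_spec

/-- type synonym that carries the seminorm -/
def Pl (ι : ∀ n, E n →ₗᵢ[ℂ] E (n + 1)) : Type u := Sq ι

noncomputable instance : AddCommGroup (Pl ι) := inferInstanceAs (AddCommGroup (Sq ι))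

noncomputable instance : Module ℂ (Pl ι) := inferInstanceAs (Module ℂ (Sq ι))

/-- the identity map -/
noncomputable def toPl (ι : ∀ n, E n →ₗᵢ[ℂ] E (n + 1)) : Sq ι ≃ₗ[ℂ] Pl ι := LinearEquiv.refl ℂ _

/-- the semi-inner product -/
noncomputable abbrev core (ι : ∀ n, E n →ₗᵢ[ℂ] E (n + 1)) :
    PreInnerProductSpace.Core ℂ (Pl ι) where
  inner a b := ip ((toPl ι).symm a) ((toPl ι).symm b)
  conj_inner_symm a b := by
    obtain ⟨n, h1, h2⟩ := ((ip_spec ((toPl ι).symm a) ((toPl ι).symm b)).and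
      (ip_spec ((toPl ι).symm b) ((toPl ι).symm a))).exists
    rw [← h1, ← h2, inner_conj_symm]
  re_inner_nonneg a := by
    obtain ⟨n, h1⟩ := (ip_spec ((toPl ι).symm a) ((toPl ι).symm a)).exists
    rw [← h1]
    exact inner_self_nonneg
  add_left a b c := by
    obtain ⟨n, h1, h2, h3⟩ := ((ip_spec ((toPl ι).symm (a + b)) ((toPl ι).symm c)).and
      ((ip_spec ((toPl ι).symm a) ((toPl ι).symm c)).and
        (ip_spec ((toPl ι).symm b) ((toPl ι).symm c)))).exists
    rw [← h1, ← h2, ← h3, map_add, ← inner_add_left]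
    rfl
  smul_left a b r := by
    obtain ⟨n, h1, h2⟩ := ((ip_spec ((toPl ι).symm (r • a)) ((toPl ι).symm b)).and
      (ip_spec ((toPl ι).symm a) ((toPl ι).symm b))).exists
    rw [← h1, ← h2, map_smul, ← inner_smul_left]
    rfl

noncomputable instance : SeminormedAddCommGroup (Pl ι) :=
  InnerProductSpace.Core.toSeminormedAddCommGroup (c := core ι)

noncomputable instance : InnerProductSpace ℂ (Pl ι) := InnerProductSpace.ofCore (core ι)

theorem exists_space (ι : ∀ n, E n →ₗᵢ[ℂ] E (n + 1)) :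
    ∃ (K : Type u) (_ : NormedAddCommGroup K) (_ : InnerProductSpace ℂ K) (_ : CompleteSpace K)
      (c : Sq ι →ₗ[ℂ] K), DenseRange c ∧
        ∀ v w, ∀ᶠ n in atTop, ⟪v.1 n, w.1 n⟫_ℂ = ⟪c v, c w⟫_ℂ := by
  refine ⟨UniformSpace.Completion (Pl ι), inferInstance, inferInstance, inferInstance,
    (UniformSpace.Completion.toComplL : Pl ι →L[ℂ] _).toLinearMap ∘ₗ (toPl ι).toLinearMap,
    UniformSpace.Completion.denseRange_coe.comp (toPl ι).surjective.denseRange
      (UniformSpace.Completion.continuous_coe _), fun v w => ?_⟩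
  have : ⟪((toPl ι v : Pl ι) : UniformSpace.Completion (Pl ι)),
      ((toPl ι w : Pl ι) : UniformSpace.Completion (Pl ι))⟫_ℂ = ip v w :=
    UniformSpace.Completion.inner_coe _ _
  filter_upwards [ip_spec v w] with n hn
  exact hn.trans this.symm

section Ops

variable {K : Type u} [NormedAddCommGroup K] [InnerProductSpace ℂ K] [CompleteSpace K]
  {c : Sq ι →ₗ[ℂ] K} (hc : ∀ v w, ∀ᶠ n in atTop, ⟪v.1 n, w.1 n⟫_ℂ = ⟪c v, c w⟫_ℂ)

include hc

theorem norm_c (v : Sq ι) : ∀ᶠ n in atTop, ‖v.1 n‖ = ‖c v‖ := by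
  filter_upwards [hc v v] with n hn
  rw [norm_eq_sqrt_re_inner (𝕜 := ℂ), hn, ← norm_eq_sqrt_re_inner]

theorem c_congr {v w : Sq ι} (h : ∀ᶠ n in atTop, v.1 n = w.1 n) : c v = c w := by
  obtain ⟨n, h1, h2⟩ := (h.and (norm_c hc (v - w))).exists
  rw [← sub_eq_zero, ← map_sub, ← norm_eq_zero, ← h2, norm_eq_zero]
  exact sub_eq_zero.2 h1

omit hc in
theorem exists_ap {y : ∀ m, Op (E m)}
    (hy : ∀ᶠ m in atTop, ∀ η, y (m + 1) (ι m η) = ι m (y m η)) :
    ∃ L : Sq ι →ₗ[ℂ] Sq ι, ∀ v m, (L v).1 m = y m (v.1 m) := by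
  refine ⟨LinearMap.codRestrict (Sq ι)
    ((LinearMap.pi fun m => (y m).toLinearMap ∘ₗ LinearMap.proj m) ∘ₗ (Sq ι).subtype)
    fun v => ?_, fun _ _ => rfl⟩
  filter_upwards [hy, v.2] with m h1 h2
  change y (m + 1) (v.1 (m + 1)) = ι m (y m (v.1 m))
  rw [h2, h1]

theorem exists_op (hd : DenseRange c) {y : ∀ m, Op (E m)}
    (hy : ∀ᶠ m in atTop, ∀ η, y (m + 1) (ι m η) = ι m (y m η)) {C : ℝ}
    (hC : ∀ᶠ m in atTop, ‖y m‖ ≤ C) :
    ∃ T : Op K, ∀ v w : Sq ι, (∀ᶠ m in atTop, w.1 m = y m (v.1 m)) → T (c v) = c w := by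
  obtain ⟨L, hL⟩ := exists_ap hy
  refine ⟨(c ∘ₗ L).extendOfNorm c, fun v w h => ?_⟩
  rw [LinearMap.extendOfNorm_eq hd ⟨C, fun x => ?_⟩]
  · exact c_congr hc (h.mono fun m hm => by rw [hL, hm])
  · obtain ⟨m, h1, h2, h3⟩ := (hC.and ((norm_c hc x).and (norm_c hc (L x)))).exists
    rw [LinearMap.comp_apply, ← h2, ← h3, hL]
    exact (y m).le_of_opNorm_le h1 _

end Ops

end IndLim

open IndLim in
/-- One construction: on the space of sequences `v : ∀ n, E n` with `v (n + 1) = ι n (v n)` for all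
large `n` the eventually constant values `⟪v n, w n⟫` define a semi-inner product
(`PreInnerProductSpace.Core`, or `InnerProductSpace` over a seminormed group); `K` is its
`UniformSpace.Completion`. An operator `x` on `E n` acts through its images under the `α`.
(Alternatively use `Module.DirectLimit` or `DirectLimit`.) -/
theorem ind_lim (E : ℕ → Type u) [∀ n, NormedAddCommGroup (E n)]
    [∀ n, InnerProductSpace ℂ (E n)] [∀ n, CompleteSpace (E n)]
    (ι : ∀ n, E n →ₗᵢ[ℂ] E (n + 1)) (α : ∀ n, Op (E n) →⋆ₐ[ℂ] Op (E (n + 1)))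
    (h : ∀ n x η, α n x (ι n η) = ι n (x η)) :
    ∃ (K : Type u) (_ : NormedAddCommGroup K) (_ : InnerProductSpace ℂ K) (_ : CompleteSpace K)
      (j : ∀ n, E n →ₗᵢ[ℂ] K) (π : ∀ n, Op (E n) →⋆ₐ[ℂ] Op K),
      (∀ n η, j (n + 1) (ι n η) = j n η) ∧ (∀ n x, π (n + 1) (α n x) = π n x) ∧
      (∀ n x η, π n x (j n η) = j n (x η)) ∧
      ∀ (η : K) (ε : ℝ), 0 < ε → ∃ n ζ, ‖j n ζ - η‖ < ε := by
  obtain ⟨K, i1, i2, i3, c, hd, hc⟩ := exists_space ι
  obtain ⟨g, g0, g1⟩ := exists_go (X := E) fun n => ι n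
  obtain ⟨a, a0, a1⟩ := exists_go (X := fun n => Op (E n)) fun n => α n
  have gm : ∀ n η, g n η ∈ Sq ι := fun n η => eventually_atTop.2 ⟨n, g1 n η⟩
  have gI : ∀ n, ∀ᶠ m in atTop, ∃ φ : E n →ₗᵢ[ℂ] E m, ∀ η, g n η m = φ η := fun n =>
    eventually_atTop.2 ⟨n, fun m hm => by
      induction m, hm using Nat.le_induction with
      | base => exact ⟨.id, g0 n⟩
      | succ m hm ih =>
        obtain ⟨φ, hφ⟩ := ih
        exact ⟨(ι m).comp φ, fun η => by rw [g1 n η m hm, hφ]; rfl⟩⟩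
  have aI : ∀ n, ∀ᶠ m in atTop, ∃ φ : Op (E n) →⋆ₐ[ℂ] Op (E m), ∀ x, a n x m = φ x := fun n =>
    eventually_atTop.2 ⟨n, fun m hm => by
      induction m, hm using Nat.le_induction with
      | base => exact ⟨.id ℂ _, a0 n⟩
      | succ m hm ih =>
        obtain ⟨φ, hφ⟩ := ih
        exact ⟨(α m).comp φ, fun x => by rw [a1 n x m hm, hφ]; rfl⟩⟩
  have gS : ∀ n η, ∀ᶠ m in atTop, g (n + 1) (ι n η) m = g n η m := fun n η =>
    eventually_atTop.2 ⟨n + 1, fun m hm => by
      induction m, hm using Nat.le_induction with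
      | base => rw [g0, g1 n η n le_rfl, g0]
      | succ m hm ih => rw [g1 _ _ m hm, g1 n η m (by omega), ih]⟩
  have aS : ∀ n x, ∀ᶠ m in atTop, a (n + 1) (α n x) m = a n x m := fun n x =>
    eventually_atTop.2 ⟨n + 1, fun m hm => by
      induction m, hm using Nat.le_induction with
      | base => rw [a0, a1 n x n le_rfl, a0]
      | succ m hm ih => rw [a1 _ _ m hm, a1 n x m (by omega), ih]⟩
  have ag : ∀ n x η, ∀ᶠ m in atTop, g n (x η) m = a n x m (g n η m) := fun n x η =>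
    eventually_atTop.2 ⟨n, fun m hm => by
      induction m, hm using Nat.le_induction with
      | base => rw [g0, g0, a0]
      | succ m hm ih => rw [g1 _ _ m hm, g1 _ _ m hm, a1 _ _ m hm, h, ih]⟩
  have ac : ∀ n x, ∀ᶠ m in atTop, ∀ η, a n x (m + 1) (ι m η) = ι m (a n x m η) := fun n x =>
    eventually_atTop.2 ⟨n, fun m hm η => by rw [a1 _ _ m hm, h]⟩
  have ab : ∀ n x, ∀ᶠ m in atTop, ‖a n x m‖ ≤ ‖x‖ := fun n x => (aI n).mono fun m ⟨φ, hφ⟩ => by
    rw [hφ]
    exact NonUnitalStarAlgHom.norm_apply_le φ x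
  choose T hT using fun n x => exists_op hc hd (ac n x) (ab n x)
  choose L hL using fun n x => exists_ap (ι := ι) (ac n x)
  have hTL : ∀ n x v, T n x (c v) = c (L n x v) := fun n x v =>
    hT n x v _ (Eventually.of_forall (hL n x v))
  have ext : ∀ S S' : Op K, (∀ v, S (c v) = S' (c v)) → S = S' := fun S S' hS =>
    DFunLike.coe_injective (hd.equalizer S.continuous S'.continuous (funext hS))
  have halg : ∀ n (r : ℂ), T n (algebraMap ℂ _ r) = algebraMap ℂ _ r := fun n r =>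
    ext _ _ fun v => by
      rw [hT n _ v (r • v) ((aI n).mono fun m ⟨φ, hφ⟩ => by
        rw [hφ, AlgHomClass.commutes]; rfl), map_smul]
      rfl
  refine ⟨K, i1, i2, i3, fun n =>
    { toFun := fun η => c ⟨g n η, gm n η⟩
      map_add' := fun η ζ => ?_
      map_smul' := fun r η => ?_
      norm_map' := fun η => ?_ }, fun n =>
    { toFun := T n
      map_one' := by simpa using halg n 1
      map_mul' := fun x y => ext _ _ fun v => ?_
      map_zero' := by simpa using halg n 0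
      map_add' := fun x y => ext _ _ fun v => ?_
      commutes' := halg n
      map_star' := fun x => ?_ }, fun n η => c_congr hc (gS n η), fun n x => ext _ _ fun v => ?_,
    fun n x η => hT n x _ _ (ag n x η), fun η ε hε => ?_⟩
  · rw [← map_add]
    exact c_congr hc ((gI n).mono fun m ⟨φ, hφ⟩ => by simp [hφ])
  · rw [RingHom.id_apply, ← map_smul]
    exact c_congr hc ((gI n).mono fun m ⟨φ, hφ⟩ => by simp [hφ])
  · obtain ⟨m, h1, φ, hφ⟩ := ((norm_c hc ⟨g n η, gm n η⟩).and (gI n)).exists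
    exact h1.symm.trans (by simp [hφ])
  · change T n (x * y) (c v) = T n x (T n y (c v))
    rw [hTL n y, hTL n x]
    exact hT n _ _ _ ((aI n).mono fun m ⟨φ, hφ⟩ => by simp [hL, hφ])
  · change T n (x + y) (c v) = T n x (c v) + T n y (c v)
    rw [hTL n y, hTL n x, ← map_add]
    exact hT n _ _ _ ((aI n).mono fun m ⟨φ, hφ⟩ => by simp [hL, hφ])
  · refine ext _ _ fun v => ext_inner_right ℂ fun w => ?_
    change ⟪T n (star x) (c v), w⟫_ℂ = ⟪star (T n x) (c v), w⟫_ℂ
    rw [ContinuousLinearMap.star_eq_adjoint (T n x), ContinuousLinearMap.adjoint_inner_left]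
    refine hd.induction_on w (isClosed_eq (by fun_prop) (by fun_prop)) fun w => ?_
    obtain ⟨m, h1, h2, φ, hφ⟩ := ((hc (L n (star x) v) w).and
      ((hc v (L n x w)).and (aI n))).exists
    rw [hTL, hTL, ← h1, ← h2, hL, hL, hφ, hφ, map_star, ContinuousLinearMap.star_eq_adjoint,
      ContinuousLinearMap.adjoint_inner_left]
  · change T (n + 1) (α n x) (c v) = T n x (c v)
    rw [hTL n x]
    exact hT _ _ _ _ ((aS n x).mono fun m hm => by rw [hL, hm])
  · obtain ⟨v, hv⟩ := hd.exists_dist_lt η hε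
    obtain ⟨N, hN⟩ := eventually_atTop.1 v.2
    refine ⟨N, v.1 N, ?_⟩
    have : c ⟨g N (v.1 N), gm N _⟩ = c v := c_congr hc (eventually_atTop.2 ⟨N, fun m hm => by
      induction m, hm using Nat.le_induction with
      | base => exact g0 _ _
      | succ m hm ih => exact (g1 _ _ m hm).trans ((congrArg (ι m) ih).trans (hN m hm).symm)⟩)
    change ‖c ⟨g N (v.1 N), gm N _⟩ - η‖ < ε
    rwa [this, ← dist_eq_norm, dist_comm]

end Vale.Agent.P096b
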