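import Vale.Agent.P096b.Kazh
import Vale.Agent.P096b.Close
import Vale.Agent.P096b.Amen

/-! Moving the pinning group into the second pair. -/

set_option linter.unusedSectionVars false

namespace Vale.Agent.P096b

open Filter Topology Vale.Agent.P096 MeasureTheory
open scoped InnerProductSpace ComplexConjugate

universe u v

variable {H : Type u} [NormedAddCommGroup H] [InnerProductSpace ℂ H] [CompleteSpace H]

/-- Every operator in a closed star subalgebra is a linear combination of its unitaries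
(`CStarAlgebra.span_unitary` or `selfAdjoint.unitarySelfAddISMul`). -/
theorem mem_of_unitary {Z A : Alg H} (hZ : IsClosed (Z : Set (Op H)))
    (h : ∀ w ∈ unitary (Op H), w ∈ Z → w ∈ A) : Z ≤ A := by
  intro x hx
  have hs : (⟨x, hx⟩ : Z) ∈ Submodule.span ℂ (unitary Z : Set Z) := by
    rw [CStarAlgebra.span_unitary]
    trivial
  have key : ∀ y : Z, y ∈ Submodule.span ℂ (unitary Z : Set Z) → (y : Op H) ∈ A := fun y hy => by
    induction hy using Submodule.span_induction with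
    | mem w hw =>
      exact h w ⟨congrArg Subtype.val hw.1, congrArg Subtype.val hw.2⟩ w.2
    | zero => exact zero_mem _
    | add _ _ _ _ h1 h2 => exact add_mem h1 h2
    | smul c _ _ h1 => exact A.smul_mem h1 c
  exact key _ hs

theorem kz_irr {G : Type v} [Group G] (m : Mean G) (ρ : G →* unitary (Op H)) {A N D : Alg H}
    (hND : CP N D) (hρ : ∀ g, (ρ g : Op H) ∈ N)
    (irr : ∀ x ∈ N, (∀ g, (ρ g : Op H) * x = x * ρ g) → x ∈ D) (hZ : N ⊓ D ≤ A) {t : ℝ}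
    (ht : t < 1) (hn : Near A N t) {x : Op H} (hx : x ∈ A)
    (hc : ∀ g, (ρ g : Op H) * x = x * ρ g) : x ∈ N ∧ x ∈ D := by
  let T : Submodule ℂ (Op H) :=
    { carrier := {y | y ∈ A ∧ ∀ g, (ρ g : Op H) * y = y * ρ g}
      add_mem' := fun h1 h2 => ⟨add_mem h1.1 h2.1, fun g => by rw [mul_add, add_mul, h1.2, h2.2]⟩
      zero_mem' := ⟨zero_mem _, fun g => by simp⟩
      smul_mem' := fun c y h1 => ⟨A.smul_mem h1.1 c, fun g => by
        rw [mul_smul_comm, smul_mul_assoc, h1.2]⟩ }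
  have := tl_eqc (Subalgebra.toSubmodule (N ⊓ D).toSubalgebra) T t
    ((tl_closed hND).inter (tl_closed hND.symm))
    (fun z hz => ⟨hZ hz, fun g => (hND.left _).1 (hρ g) z hz.2⟩) ht fun b hb => by
      obtain ⟨n, n1, n2⟩ := hn b hb.1
      have h1 : m.av ρ n ∈ N := m.av_mem ρ hND fun g =>
        mul_mem (mul_mem (hρ g) n1) (star_mem (hρ g))
      refine ⟨m.av ρ n, ⟨h1, irr _ h1 (m.av_comm ρ n)⟩, ?_⟩
      rw [← m.av_fix ρ hb.2, ← m.av_sub, m.av_fix ρ hb.2]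
      exact (m.av_norm ρ _).trans n2
  exact this (⟨hx, hc⟩ : x ∈ T)

theorem kz_cyc {G : Type v} [Group G] (ρ ρ' : G →* unitary (Op H)) {A B N D : Alg H} {ξ : H}
    (hAB : CP A B) (hND : CP N D) (hD : Cyc D ξ) (hρ : ∀ g, (ρ g : Op H) ∈ A)
    (hρ' : ∀ g, (ρ' g : Op H) ∈ B) (fix : ∀ g, (ρ' g : Op H) ((ρ g : Op H) ξ) = ξ)
    (irr : ∀ x ∈ A, (∀ g, (ρ g : Op H) * x = x * ρ g) → x ∈ N) : Cyc B ξ := by
  obtain ⟨e, e1, e2, e3, e4⟩ := tl_supp {η | ∃ b ∈ B, η = b ξ}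
  have k1 : ∀ g, ∀ η ∈ {η | ∃ b ∈ B, η = b ξ}, (ρ g : Op H) η ∈ {η | ∃ b ∈ B, η = b ξ} := by
    rintro g _ ⟨b, hb, rfl⟩
    refine ⟨b * star (ρ' g : Op H), mul_mem hb (star_mem (hρ' g)), ?_⟩
    have : star (ρ' g : Op H) ξ = (ρ g : Op H) ξ := by
      conv_lhs => rw [← fix g]
      rw [← mul_apply_eq_comp, (ρ' g).2.1, one_apply_eq_self]
    rw [mul_apply_eq_comp, this, hAB.app (hρ g) hb]
  have k2 : ∀ c ∈ B, ∀ η ∈ {η | ∃ b ∈ B, η = b ξ}, c η ∈ {η | ∃ b ∈ B, η = b ξ} := by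
    rintro c hc _ ⟨b, hb, rfl⟩
    exact ⟨c * b, mul_mem hc hb, rfl⟩
  have eA : e ∈ A := (hAB.left e).2 fun y hy => (e4 y (k2 y hy) (k2 _ (star_mem hy))).symm
  have eN : e ∈ N := irr e eA fun g => e4 _ (k1 g) (by
    have : star (ρ g : Op H) = ρ g⁻¹ := by rw [map_inv]; rfl
    rw [this]
    exact k1 g⁻¹)
  have e0 : e = 1 := hD.ext hND eN (one_mem _) (e2 ξ ⟨1, one_mem _, rfl⟩)
  intro η ε hε
  have := e3 η
  rw [e0, one_apply_eq_self, Metric.mem_closure_iff] at this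
  obtain ⟨ζ, h1, h2⟩ := this ε hε
  have k3 : ∃ b ∈ B, ζ = b ξ := by
    clear h2
    induction h1 using Submodule.span_induction with
    | mem w hw => exact hw
    | zero => exact ⟨0, zero_mem _, rfl⟩
    | add _ _ _ _ h1 h2 =>
      obtain ⟨a, a1, rfl⟩ := h1
      obtain ⟨b, b1, rfl⟩ := h2
      exact ⟨a + b, add_mem a1 b1, rfl⟩
    | smul c _ _ h1 =>
      obtain ⟨a, a1, rfl⟩ := h1
      exact ⟨c • a, B.smul_mem a1 c, rfl⟩
  obtain ⟨b, b1, rfl⟩ := k3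
  exact ⟨b, b1, by rwa [dist_comm, dist_eq_norm] at h2⟩

/-- The product of two commuting representations. -/
theorem kz_prod {G G' : Type v} [Group G] [Group G'] {A B : Alg H} (h : CP A B)
    (ρ : G →* unitary (Op H)) (ρ' : G' →* unitary (Op H)) (h1 : ∀ g, (ρ g : Op H) ∈ A)
    (h2 : ∀ g, (ρ' g : Op H) ∈ B) :
    ∃ τ : G × G' →* unitary (Op H), ∀ g, (τ g : Op H) = ρ g.1 * ρ' g.2 :=
  ⟨ρ.noncommCoprod ρ' fun a b => Subtype.ext ((h.left _).1 (h1 a) _ (h2 b)), fun _ => rfl⟩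

theorem kz_move {G : Type v} [Group G] (m : Mean G) {A B N D : Alg H} (hAB : CP A B)
    (hND : CP N D) (ρ₁ ρ₂ : G →* unitary (Op H)) (h1 : ∀ g, (ρ₁ g : Op H) ∈ N)
    (h2 : ∀ g, (ρ₂ g : Op H) ∈ D) {d : ℝ} (d0 : 0 ≤ d) (d1 : d ≤ 1 / 4000) (hN : Near N A d)
    (hD : Near D B d) : ∃ W : unitary (Op H), ‖(W : Op H) - 1‖ ≤ 3200 * d ∧
      (∀ g, (ρ₁ g : Op H) ∈ cj W A) ∧ ∀ g, (ρ₂ g : Op H) ∈ cj W B := by
  have un : ∀ w : unitary (Op H), d * ‖(w : Op H)‖ ≤ d := fun w =>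
    mul_le_of_le_one_right d0 (ContinuousLinearMap.opNorm_le_bound _ zero_le_one fun η => by
      rw [unitary_norm w.2, one_mul])
  obtain ⟨σ₁, a1, a2⟩ := kazhdan m hAB ρ₁ d0 (by linarith) fun g => by
    obtain ⟨x, x1, x2⟩ := hN _ (h1 g)
    exact ⟨x, x1, x2.trans (un _)⟩
  obtain ⟨σ₂, b1, b2⟩ := kazhdan m hAB.symm ρ₂ d0 (by linarith) fun g => by
    obtain ⟨x, x1, x2⟩ := hD _ (h2 g)
    exact ⟨x, x1, x2.trans (un _)⟩
  obtain ⟨τ, hτ⟩ := kz_prod hND ρ₁ ρ₂ h1 h2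
  obtain ⟨τ', hτ'⟩ := kz_prod hAB σ₁ σ₂ a1 b1
  obtain ⟨m2⟩ := mean_prod m m
  obtain ⟨W, W1, W2⟩ := m2.intertwine τ τ' (t := 400 * d) (by linarith) fun g => by
    have e : (τ' g : Op H) - τ g = ((σ₁ g.1 : Op H) - ρ₁ g.1) * σ₂ g.2 +
        (ρ₁ g.1 : Op H) * ((σ₂ g.2 : Op H) - ρ₂ g.2) := by
      rw [hτ, hτ']
      noncomm_ring
    rw [e]
    refine (norm_add_le _ _).trans ?_
    rw [CStarRing.norm_mul_coe_unitary, CStarRing.norm_coe_unitary_mul]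
    linarith [a2 g.1, b2 g.2]
  have key : ∀ g, (W : Op H) * τ g * star (W : Op H) = τ' g := fun g => by
    rw [W2, mul_assoc, W.2.2, mul_one]
  refine ⟨W, by linarith, fun g => mem_cj.2 ?_, fun g => mem_cj.2 ?_⟩
  · have := key (g, 1)
    simp only [hτ, hτ', map_one, OneMemClass.coe_one, mul_one] at this
    rw [this]
    exact a1 g
  · have := key (1, g)
    simp only [hτ, hτ', map_one, OneMemClass.coe_one, one_mul] at this
    rw [this]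
    exact b1 g

/-- Let `Z = N ⊓ D`, `G = (⨆ n, Γ n) × U(Z)` (amenable: `mean_lf`, `mean_comm'`, `mean_prod`),
`ρ₁ (γ, z) = γ.1 z ∈ N`, `ρ₂ (γ, z) = γ.2 z ∈ D`. `kazhdan` gives `ρ₁'` in `A`, `ρ₂'` in `B`
(`comm_close`); the representations `ρ₁ × ρ₂`, `ρ₁' × ρ₂'` of `G × G` are close, so
`Mean.intertwine` gives `W`. For `A' = cj W A`, `B' = cj W B`: `γ.1 ∈ A'`, `γ.2 ∈ B'`,
`Z ≤ A' ⊓ B'`. An element of `A'` commuting with the `γ.1` is near `N`, hence (average, `irrA`)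
near `Z`, so `tl_eqc` shows it lies in `Z`; the same for `B'`. The projection onto the closure of
`B' ξ` lies in `A'` and commutes with the `γ.1` (since `γ.1 ξ = γ.2* ξ`), so it lies in `Z` and
equals `1` because `ξ` separates `N`; symmetrically for `A' ξ`. -/
theorem kz (hH : HyperStmt.{u}) (ε : ℝ) (hε : 0 < ε) : ∃ δ : ℝ, 0 < δ ∧
    ∀ (H : Type u) [NormedAddCommGroup H] [InnerProductSpace ℂ H] [CompleteSpace H]
      (A B N D : Alg H) (ξ : H) (Γ : ℕ → Subgroup (UU H)), CP A B → Pin N D ξ Γ → Close A N δ →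
      ∃ W : unitary (Op H), ‖(W : Op H) - 1‖ ≤ ε ∧ Pin2 (cj W A) (cj W B) N D ξ Γ := by
  obtain ⟨K, hK, hC⟩ := comm_close hH
  obtain ⟨d, d0, d1, d2⟩ : ∃ d : ℝ, 0 < d ∧ d ≤ 1 / 20000 ∧ 3200 * d ≤ ε :=
    ⟨min (1 / 20000) (ε / 3200), by positivity, min_le_left _ _, by
      linarith [min_le_right (1 / 20000) (ε / 3200)]⟩
  refine ⟨d / K, by positivity, fun H _ _ _ A B N D ξ Γ hAB hP hAN => ?_⟩
  have hND := hP.cp
  have hBD := hC H A B N D _ hAB hND (by positivity) hAN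
  rw [mul_div_cancel₀ _ (by positivity)] at hBD
  replace hAN : Close A N d := hAN.mono (div_le_self d0.le hK)
  let UZ : Subgroup (unitary (Op H)) :=
    { carrier := {w | (w : Op H) ∈ N ∧ (w : Op H) ∈ D}
      mul_mem' := fun h1 h2 => ⟨mul_mem h1.1 h2.1, mul_mem h1.2 h2.2⟩
      one_mem' := ⟨one_mem _, one_mem _⟩
      inv_mem' := fun h1 => ⟨star_mem h1.1, star_mem h1.2⟩ }
  obtain ⟨m₁⟩ := mean_lf Γ hP.mono hP.fin
  obtain ⟨m₂⟩ := mean_comm' UZ fun a b =>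
    Subtype.ext (Subtype.ext ((hND.left _).1 a.2.1 _ b.2.2))
  obtain ⟨m⟩ := mean_prod m₁ m₂
  have hΓ : ∀ γ : ↥(⨆ n, Γ n), ∃ n, γ.1 ∈ Γ n := fun γ =>
    (Subgroup.mem_iSup_of_directed hP.mono.directed_le).1 γ.2
  let f₁ : ↥(⨆ n, Γ n) →* unitary (Op H) := (MonoidHom.fst _ _).comp (⨆ n, Γ n).subtype
  let f₂ : ↥(⨆ n, Γ n) →* unitary (Op H) := (MonoidHom.snd _ _).comp (⨆ n, Γ n).subtype
  have f1 : ∀ γ, (f₁ γ : Op H) ∈ N := fun γ => (hΓ γ).elim fun n h => hP.memA n _ h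
  have f2 : ∀ γ, (f₂ γ : Op H) ∈ D := fun γ => (hΓ γ).elim fun n h => hP.memB n _ h
  have f3 : ∀ γ, (f₁ γ : Op H) ((f₂ γ : Op H) ξ) = ξ := fun γ =>
    (hΓ γ).elim fun n h => hP.fix n _ h
  obtain ⟨ρ₁, r1⟩ := kz_prod hND f₁ UZ.subtype f1 fun z => z.2.2
  obtain ⟨ρ₂, r2⟩ := kz_prod hND.symm f₂ UZ.subtype f2 fun z => z.2.1
  obtain ⟨W, W1, W2, W3⟩ := kz_move m hAB hND ρ₁ ρ₂
    (fun g => by rw [r1]; exact mul_mem (f1 _) g.2.2.1)
    (fun g => by rw [r2]; exact mul_mem (f2 _) g.2.2.2) d0.le (by linarith) hAN.2 hBD.2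
  have hcp := tools.cjCP W hAB
  have g1 : ∀ γ, (f₁ γ : Op H) ∈ cj W A := fun γ => by simpa [r1] using W2 (γ, 1)
  have g2 : ∀ γ, (f₂ γ : Op H) ∈ cj W B := fun γ => by simpa [r2] using W3 (γ, 1)
  have hZ : IsClosed ((N ⊓ D : Alg H) : Set (Op H)) := (tl_closed hND).inter (tl_closed hND.symm)
  have zA : N ⊓ D ≤ cj W A := mem_of_unitary hZ fun w hw h => by
    simpa [r1] using W2 (1, ⟨⟨w, hw⟩, h⟩)
  have zB : N ⊓ D ≤ cj W B := mem_of_unitary hZ fun w hw h => by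
    simpa [r2] using W3 (1, ⟨⟨w, hw⟩, h⟩)
  have up : ∀ n, ∀ γ ∈ Γ n, γ ∈ ⨆ n, Γ n := fun n γ h => Subgroup.mem_iSup_of_mem n h
  have iA : ∀ x ∈ cj W A, (∀ g, (f₁ g : Op H) * x = x * f₁ g) → x ∈ N ∧ x ∈ D := fun x hx hc =>
    kz_irr m₁ f₁ hND f1 (fun y hy h => hP.irrA y hy fun n γ hγ => h ⟨γ, up n γ hγ⟩) zA
      (t := d + 4 * ‖(W : Op H) - 1‖) (by linarith)
      (tools.cjClose W d ⟨hAN.2, hAN.1⟩ d0.le (by linarith)).2 hx hc
  have iB : ∀ x ∈ cj W B, (∀ g, (f₂ g : Op H) * x = x * f₂ g) → x ∈ D ∧ x ∈ N := fun x hx hc =>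
    kz_irr m₁ f₂ hND.symm f2 (fun y hy h => hP.irrB y hy fun n γ hγ => h ⟨γ, up n γ hγ⟩)
      (inf_comm D N ▸ zB) (t := d + 4 * ‖(W : Op H) - 1‖) (by linarith)
      (tools.cjClose W d ⟨hBD.2, hBD.1⟩ d0.le (by linarith)).2 hx hc
  refine ⟨W, by linarith, ⟨hcp, ?_, ?_, hP.norm, hP.mono, hP.fin,
    fun n γ h => g1 ⟨γ, up n γ h⟩, fun n γ h => g2 ⟨γ, up n γ h⟩, hP.fix,
    fun x hx h => zB (iA x hx fun γ => (hΓ γ).elim fun n hn => h n _ hn),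
    fun x hx h => zA (iB x hx fun γ => (hΓ γ).elim fun n hn => h n _ hn).symm⟩, hP,
    fun z => ⟨fun h => iA z h.1 fun g => (hcp.left _).1 (g1 g) z h.2, fun h => ⟨zA h, zB h⟩⟩⟩
  · exact kz_cyc f₂ f₁ hcp.symm hND.symm hP.cycA g2 g1 f3 fun x hx h => (iB x hx h).1
  · exact kz_cyc f₁ f₂ hcp hND hP.cycB g1 g2
      (fun g => by rw [← hND.app (f1 g) (f2 g), f3]) fun x hx h => (iA x hx h).1

theorem lift_pin (hH : HyperStmt.{u}) (h : LiftPin2.{u}) : LiftPin.{u} := by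
  intro ε ε0
  obtain ⟨a, a0, h⟩ := h (ε / 2) (by positivity)
  obtain ⟨b, b0, hk⟩ := kz hH (min (ε / 4) (a / 8)) (by positivity)
  refine ⟨min b (min (a / 2) 1), by positivity, fun H _ _ _ A B N D hAB hND hAN ⟨ξ, Γ, hP⟩ => ?_⟩
  obtain ⟨W, W1, W2⟩ := hk H A B N D ξ Γ hAB hP (hAN.mono (min_le_left _ _))
  have d1 := (min_le_right b _).trans (min_le_left (a / 2) 1)
  have d2 := (min_le_right b _).trans (min_le_right (a / 2) 1)
  have w1 := W1.trans (min_le_left _ _)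
  have w2 := W1.trans (min_le_right _ _)
  have hc := (tools.cjClose W _ ⟨hAN.2, hAN.1⟩ (by positivity) d2).mono
    (δ' := a) (by linarith)
  exact (Lift.of_cj W (h H _ _ N D W2.left.cp hND ⟨hc.2, hc.1⟩ ⟨ξ, Γ, W2⟩)).mono (by linarith)

end Vale.Agent.P096b
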