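import Vale.Agent.P096b.Mean

/-! Stability of representations of amenable groups. -/

set_option linter.unusedSectionVars false

namespace Vale.Agent.P096b

open Filter Topology Vale.Agent.P096 MeasureTheory
open scoped InnerProductSpace ComplexConjugate

universe u v

variable {H : Type u} [NormedAddCommGroup H] [InnerProductSpace ℂ H] [CompleteSpace H]

theorem kazh_mul {a b : Op H} {s t : ℝ} (ha : ‖a‖ ≤ s) (hb : ‖b‖ ≤ t) : ‖a * b‖ ≤ s * t :=
  (norm_mul_le _ _).trans (mul_le_mul ha hb (norm_nonneg _) ((norm_nonneg _).trans ha))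

theorem kazh_one (w : unitary (Op H)) : ‖(w : Op H)‖ ≤ 1 := by
  have := CStarRing.norm_coe_unitary_mul w (1 : Op H)
  rw [mul_one] at this
  exact this.le.trans (IsStarProjection.one _).norm_le

/-- the defect changes by at most three times the distance -/
theorem kazh_def {a b c a' b' c' : Op H} {s t : ℝ} (h : ‖a - b * c‖ ≤ s) (ha : ‖a' - a‖ ≤ t)
    (hb : ‖b' - b‖ ≤ t) (hc : ‖c' - c‖ ≤ t) (h1 : ‖b‖ ≤ 1) (h2 : ‖c'‖ ≤ 1) :
    ‖a' - b' * c'‖ ≤ s + 3 * t := by
  have e : a' - b' * c' = a - b * c + (a' - a) - (b' - b) * c' - b * (c' - c) := by noncomm_ring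
  have k1 := kazh_mul hb h2
  have k2 := kazh_mul h1 hc
  have k3 := norm_add_le (a - b * c) (a' - a)
  have k4 := norm_sub_le (a - b * c + (a' - a)) ((b' - b) * c')
  rw [e]
  exact (norm_sub_le _ _).trans (by linarith)

/-- A sharper polar decomposition: if `‖x‖ ≤ 1` and `re ⟪w η, x η⟫ ≥ (1 - t) ‖η‖ ^ 2` for a
unitary `w`, then the polar part of `x` is within `t` of `x`. -/
theorem polar_sharp {x w : Op H} (hw : w ∈ unitary (Op H)) {t : ℝ} (t0 : 0 ≤ t) (ht : t ≤ 1 / 2)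
    (hx : ‖x‖ ≤ 1) (h : ∀ η, (1 - t) * ‖η‖ ^ 2 ≤ (⟪w η, x η⟫_ℂ).re) :
    ∃ b : Op H, x * b ∈ unitary (Op H) ∧ ‖x * b - x‖ ≤ t ∧
      ∀ y, y * (star x * x) = star x * x * y → y * b = b * y := by
  have lo : ∀ η, (1 - t) * ‖η‖ ≤ ‖x η‖ := fun η => by
    have h1 := (h η).trans ((Complex.re_le_norm _).trans (norm_inner_le_norm _ _))
    rw [unitary_norm hw] at h1
    rcases (norm_nonneg η).eq_or_lt with h0 | h0
    · rw [← h0, mul_zero]; exact norm_nonneg _
    · exact le_of_mul_le_mul_left (by linarith) h0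
  have hs : IsSelfAdjoint (star x * x) := IsSelfAdjoint.star_mul_self x
  have hle : algebraMap ℝ (Op H) ((1 - t) ^ 2) ≤ star x * x := by
    rw [← sub_nonneg]
    refine nonneg_of_inner (hs.sub (IsSelfAdjoint.algebraMap _ (.all _))) fun η => ?_
    rw [sub_apply, inner_sub_right, Complex.sub_re, ← tl_norm_sq, Algebra.algebraMap_eq_smul_one,
      smul_apply, one_apply_eq_self, ← Complex.coe_smul, inner_smul_right, Complex.re_ofReal_mul,
      ← RCLike.re_to_complex, inner_self_eq_norm_sq]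
    have := pow_le_pow_left₀ (mul_nonneg (by linarith) (norm_nonneg η)) (lo η) 2
    rw [mul_pow] at this
    linarith
  have hn : ‖star x * x‖ ≤ 1 * 1 := kazh_mul (by rwa [norm_star]) hx
  have e0 : ∀ c : Op H, star c = c → star (x * c) * (x * c) = c * (star x * x) * c := fun c hc => by
    rw [star_mul, hc]; simp only [mul_assoc]
  have sq : ∀ s ∈ spectrum ℝ (star x * x), 1 - t ≤ √s ∧ √s ≤ 1 ∧ √s * √s = s := fun s hs' => by
    have h1 := (algebraMap_le_iff_le_spectrum hs).1 hle s hs'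
    have h2 : s ≤ 1 * 1 := by
      rcases subsingleton_or_nontrivial (Op H) with hH | hH
      · simp [spectrum.of_subsingleton] at hs'
      exact (le_abs_self s).trans ((spectrum.norm_le_norm_of_mem hs').trans hn)
    exact ⟨Real.le_sqrt_of_sq_le h1, Real.sqrt_le_one.2 (by linarith),
      Real.mul_self_sqrt ((sq_nonneg _).trans h1)⟩
  generalize star x * x = a at hs e0 sq
  have c1 : ContinuousOn (fun s : ℝ => (√s)⁻¹) (spectrum ℝ a) :=
    Real.continuous_sqrt.continuousOn.inv₀ fun s hs' => by linarith [(sq s hs').1]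
  have e1 : ∀ f : ℝ → ℝ, ContinuousOn f (spectrum ℝ a) →
      star (x * cfc f a) * (x * cfc f a) = cfc (fun s => f s * s * f s) a := fun f hf => by
    rw [e0 _ IsSelfAdjoint.cfc.star_eq, cfc_mul (fun s => f s * s) _ a (hf.mul continuousOn_id) hf,
      cfc_mul _ _ a hf, cfc_id' ℝ a]
  have k4 : star (x * cfc (fun s : ℝ => (√s)⁻¹) a) * (x * cfc (fun s : ℝ => (√s)⁻¹) a) = 1 := by
    rw [e1 _ c1, ← cfc_one ℝ a]
    refine cfc_congr fun s hs' => ?_
    obtain ⟨h1, -, h3⟩ := sq s hs'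
    have : 0 < √s := by linarith
    simp only [Pi.one_apply]
    field_simp
    linarith
  have k5 : ‖x * cfc (fun s : ℝ => (√s)⁻¹) a - x‖ ≤ t := by
    have e2 : x * cfc (fun s : ℝ => (√s)⁻¹) a - x = x * cfc (fun s : ℝ => (√s)⁻¹ - 1) a := by
      rw [cfc_sub _ _ a c1, cfc_const_one ℝ a, mul_sub, mul_one]
    refine le_of_sq_le_sq ?_ t0
    rw [e2, pow_two, ← CStarRing.norm_star_mul_self,
      e1 (fun s => (√s)⁻¹ - 1) (c1.sub continuousOn_const)]
    refine norm_cfc_le (sq_nonneg t) fun s hs' => ?_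
    obtain ⟨h1, h2, h3⟩ := sq s hs'
    have : 0 < √s := by linarith
    have e3 : ((√s)⁻¹ - 1) * s * ((√s)⁻¹ - 1) = (1 - √s) ^ 2 := by
      generalize √s = r at *
      rw [← h3]
      field_simp
    rw [e3, Real.norm_of_nonneg (sq_nonneg _)]
    exact pow_le_pow_left₀ (by linarith) (by linarith) 2
  refine ⟨_, ⟨k4, ?_⟩, k5, fun y hy => (Commute.cfc_real (show Commute a y from hy.symm) _).eq.symm⟩
  have hu : IsUnit ((2⁻¹ : ℂ) • (star w * x)) := by
    have : ‖1 - (2⁻¹ : ℂ) • (star w * x)‖ ≤ 7 / 8 := by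
      refine ContinuousLinearMap.opNorm_le_bound _ (by norm_num) fun η => ?_
      refine le_of_sq_le_sq ?_ (by positivity)
      have h1 := h η
      have h2 : ‖x η‖ ≤ 1 * ‖η‖ := x.le_of_opNorm_le hx η
      have h3 := pow_le_pow_left₀ (norm_nonneg _) h2 2
      rw [sub_apply, @norm_sub_sq ℂ, smul_apply, one_apply_eq_self, inner_smul_right, norm_smul,
        mul_apply_eq_comp, ← tl_inner, unitary_norm (Unitary.star_mem hw)]
      have e4 : RCLike.re ((2⁻¹ : ℂ) * ⟪w η, x η⟫_ℂ) = 2⁻¹ * (⟪w η, x η⟫_ℂ).re := by simp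
      rw [e4, norm_inv, Complex.norm_ofNat]
      nlinarith [sq_nonneg ‖η‖]
    simpa using (Units.oneSub _ (this.trans_lt (by norm_num))).isUnit
  obtain ⟨c, hc⟩ := hu.exists_right_inv
  have h5 : x * ((2⁻¹ : ℂ) • c * star w) = 1 := by
    calc _ = w * ((2⁻¹ : ℂ) • (star w * x) * c) * star w := by
          simp only [smul_mul_assoc, mul_smul_comm, ← mul_assoc, hw.2, one_mul]
      _ = 1 := by rw [hc, mul_one, hw.2]
  have h6 := (e0 _ IsSelfAdjoint.cfc.star_eq).symm.trans k4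
  generalize (2⁻¹ : ℂ) • c * star w = d at h5
  generalize cfc (fun s : ℝ => (√s)⁻¹) a = b at k4 h6
  have h7 : x * b * (a * b * d) = 1 := by
    rw [← h5]
    conv_rhs => rw [← mul_one x, ← h6]
    simp only [mul_assoc]
  rw [left_inv_eq_right_inv k4 h7, h7]

/-- One step: for `σ : G → U(A)` with defect `e` put `σ' g = mean of σ (g h) (σ h)*`. Then
`‖σ' g - σ g‖ ≤ e`; expanding the mean of `(σ (g k h) - σ g σ (k h)) ((σ h)* - (σ (k h))* σ k)`
gives `σ' (g k) - σ' g σ' k + (σ' g - σ g) (σ' k - σ k)`, so the defect of `σ'` is at most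
`2 e ^ 2`; `polar_sharp` with `t = e ^ 2 / 2` restores unitarity. -/
theorem kazhdan_step {G : Type v} [Group G] (m : Mean G) {A B : Alg H} (h : CP A B)
    (σ : G → unitary (Op H)) (hσ : ∀ g, (σ g : Op H) ∈ A) {e : ℝ} (h0 : 0 ≤ e) (h1 : e ≤ 1 / 10)
    (hd : ∀ g k, ‖(σ (g * k) : Op H) - σ g * σ k‖ ≤ e) :
    ∃ σ' : G → unitary (Op H), (∀ g, (σ' g : Op H) ∈ A) ∧ (∀ g, ‖(σ' g : Op H) - σ g‖ ≤ 2 * e) ∧
      ∀ g k, ‖(σ' (g * k) : Op H) - σ' g * σ' k‖ ≤ 4 * e ^ 2 := by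
  have u2 : ∀ g, (σ g : Op H) * star (σ g : Op H) = 1 := fun g => (σ g).2.2
  have b1 : ∀ g k, ‖(σ g : Op H) * star (σ k : Op H)‖ ≤ 1 * 1 := fun g k =>
    kazh_mul (kazh_one _) (by rw [norm_star]; exact kazh_one _)
  have b2 : ∀ g a, ‖(σ (g * a) : Op H) * star (σ a : Op H) - σ g‖ ≤ e := fun g a => by
    have : (σ (g * a) : Op H) * star (σ a : Op H) - σ g =
        ((σ (g * a) : Op H) - σ g * σ a) * star (σ a : Op H) := by
      rw [sub_mul, mul_assoc, u2, mul_one]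
    rw [this, CStarRing.norm_mul_mem_unitary _ (Unitary.star_mem (σ a).2)]
    exact hd g a
  set τ : G → Op H := fun g => m.op fun a => (σ (g * a) : Op H) * star (σ a : Op H) with hτ
  have t1 : ∀ g, ‖τ g‖ ≤ 1 := fun g => (m.op_norm fun a => b1 _ a).trans (mul_one _).le
  have t2 : ∀ g, ‖τ g - σ g‖ ≤ e := fun g => m.op_near _ (b2 g)
  have t3 : ∀ g, τ g ∈ A := fun g =>
    m.op_mem h (fun a => b1 _ a) fun a => mul_mem (hσ _) (star_mem (hσ a))
  have t4 : ∀ g k, ‖τ (g * k) - τ g * τ k‖ ≤ 2 * e ^ 2 := fun g k => by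
    have c1 : ∀ a, ‖(σ (g * (k * a)) : Op H) * star (σ (k * a) : Op H) * σ k‖ ≤ 1 * 1 * 1 :=
      fun a => kazh_mul (b1 _ _) (kazh_one _)
    have c2 : ∀ a, ‖(σ g : Op H) * ((σ (k * a) : Op H) * star (σ a : Op H)) - σ g * σ k‖ ≤ 1 * e :=
      fun a => by rw [← mul_sub]; exact kazh_mul (kazh_one _) (b2 k a)
    have c3 : ‖m.op fun a => (σ (g * k * a) : Op H) * star (σ a : Op H) -
        (σ (g * (k * a)) : Op H) * star (σ (k * a) : Op H) * (σ k : Op H) -
        ((σ g : Op H) * ((σ (k * a) : Op H) * star (σ a : Op H)) - (σ g : Op H) * (σ k : Op H))‖ ≤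
          e * e := by
      refine m.op_norm fun a => le_of_eq_of_le (congrArg _ ?_) (kazh_mul (hd g (k * a))
        (b := star (σ a : Op H) - star (σ (k * a) : Op H) * (σ k : Op H)) ?_)
      · simp only [mul_sub, sub_mul, mul_assoc]
        rw [← mul_assoc (σ (k * a) : Op H) _ (σ k : Op H), u2, one_mul]
        abel
      · have : star (σ a : Op H) - star (σ (k * a) : Op H) * σ k =
            star ((σ k : Op H) * σ a - σ (k * a)) * σ k := by
          rw [star_sub, star_mul, sub_mul, mul_assoc, (σ k).2.1, mul_one]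
        rw [this, CStarRing.norm_mul_coe_unitary, norm_star, norm_sub_rev]
        exact hd k a
    rw [m.op_sub (fun a => (norm_sub_le _ _).trans (add_le_add (b1 _ a) (c1 a))) c2,
      m.op_sub (fun a => b1 _ a) c1, m.op_sub (fun a => kazh_mul (kazh_one _) (b1 _ a))
        (T' := fun _ => (σ g : Op H) * (σ k : Op H)) fun _ => le_rfl, m.op_const,
      m.op_mul_left _ fun a => b1 _ a, m.op_mul_right _ fun a => b1 _ (k * a),
      m.op_inv (T := fun a => (σ (g * a) : Op H) * star (σ a : Op H)) (fun a => b1 _ a) k] at c3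
    have e1 : τ (g * k) - τ g * τ k = τ (g * k) - τ g * σ k - (σ g * τ k - σ g * σ k) -
        (τ g - σ g) * (τ k - σ k) := by noncomm_ring
    have := kazh_mul (t2 g) (t2 k)
    rw [e1]
    exact (norm_sub_le _ _).trans (by linarith [c3])
  have t5 : ∀ g η, (1 - e ^ 2 / 2) * ‖η‖ ^ 2 ≤ (⟪(σ g : Op H) η, τ g η⟫_ℂ).re := fun g η => by
    have n1 : ‖(σ g : Op H) η‖ = ‖η‖ := unitary_norm (σ g).2 η
    have k := m.re_mono (f := fun _ => (((1 - e ^ 2 / 2) * ‖η‖ ^ 2 : ℝ) : ℂ))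
      (g := fun a => ⟪(σ g : Op H) η, ((σ (g * a) : Op H) * star (σ a : Op H)) η⟫_ℂ)
      (C := 1 * 1 * ‖(σ g : Op H) η‖ * ‖η‖) (fun _ => ?_) (mean_inner_le (fun a => b1 _ a) η _)
      fun a => ?_
    · rwa [m.const, Complex.ofReal_re, ← m.op_inner fun a => b1 _ a] at k
    · rw [Complex.norm_real, n1, Real.norm_of_nonneg (mul_nonneg (by nlinarith) (sq_nonneg _))]
      nlinarith [mul_nonneg (sq_nonneg e) (sq_nonneg ‖η‖)]
    · have k1 := pow_le_pow_left₀ (norm_nonneg _)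
        (ContinuousLinearMap.le_of_opNorm_le _ (b2 g a) η) 2
      rw [sub_apply, norm_sub_rev, @norm_sub_sq ℂ, n1,
        unitary_norm (mul_mem (σ _).2 (Unitary.star_mem (σ a).2)), RCLike.re_to_complex] at k1
      rw [Complex.ofReal_re]
      nlinarith
  choose b p1 p2 p3 using fun g => polar_sharp (σ g).2 (t := e ^ 2 / 2) (by positivity)
    (by nlinarith) (t1 g) (t5 g)
  refine ⟨fun g => ⟨_, p1 g⟩, fun g => mul_mem (t3 g) ((h.left _).2 fun y hy => (p3 g y ?_).symm),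
    fun g => ?_, fun g k => ?_⟩
  · exact ((h.left _).1 (mul_mem (star_mem (t3 g)) (t3 g)) y hy).symm
  · refine (norm_sub_le_norm_sub_add_norm_sub _ (τ g) _).trans ?_
    nlinarith [p2 g, t2 g]
  · refine (kazh_def (t4 g k) (p2 _) (p2 g) (p2 k) (t1 g) (kazh_one ⟨_, p1 k⟩)).trans ?_
    nlinarith [sq_nonneg e]

theorem kazhdan {G : Type v} [Group G] (m : Mean G) {A B : Alg H} (h : CP A B)
    (ρ : G →* unitary (Op H)) {δ : ℝ} (h0 : 0 ≤ δ) (h1 : δ ≤ 1 / 1000)
    (hρ : ∀ g, ∃ x ∈ A, ‖(ρ g : Op H) - x‖ ≤ δ) :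
    ∃ ρ' : G →* unitary (Op H), (∀ g, (ρ' g : Op H) ∈ A) ∧
      ∀ g, ‖(ρ' g : Op H) - ρ g‖ ≤ 200 * δ := by
  have s0 : ∀ g, ∃ u : unitary (Op H), (u : Op H) ∈ A ∧ ‖(u : Op H) - ρ g‖ ≤ 8 * δ := fun g => by
    obtain ⟨x, hx, h2⟩ := hρ g
    have u1 : star (ρ g : Op H) * ρ g = 1 := (ρ g).2.1
    obtain ⟨b, k1, -, k2, k3⟩ := tl_polar (x * star (ρ g : Op H)) δ (by
      rw [← CStarRing.norm_mul_coe_unitary _ (ρ g), sub_mul, mul_assoc, u1, mul_one, one_mul,
        norm_sub_rev]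
      exact h2) (by linarith)
    have e : b * (x * star (ρ g : Op H)) * ρ g = b * x := by
      rw [mul_assoc, mul_assoc, u1, mul_one]
    refine ⟨⟨b * x, e ▸ mul_mem k1 (ρ g).2⟩,
      mul_mem ((h.left _).2 fun y hy => (k3 y ?_).symm) hx, ?_⟩
    · rw [star_mul, star_star, mul_assoc x, ← mul_assoc (star _), u1, one_mul]
      exact ((h.left _).1 (mul_mem hx (star_mem hx)) y hy).symm
    · rwa [← CStarRing.norm_mul_coe_unitary _ (ρ g), sub_mul, e, one_mul] at k2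
  choose σ₀ a1 a2 using s0
  let P : ℕ → (G → unitary (Op H)) → Prop := fun n σ => (∀ g, (σ g : Op H) ∈ A) ∧
    ∀ g k, ‖(σ (g * k) : Op H) - σ g * σ k‖ ≤ 24 * δ / 2 ^ n
  have st : ∀ n σ, P n σ → ∃ σ', P (n + 1) σ' ∧
      ∀ g, ‖(σ' g : Op H) - σ g‖ ≤ 96 * δ / 2 / 2 ^ n := fun n σ hσ => by
    have e1 : 24 * δ / 2 ^ n ≤ 1 / 10 :=
      (div_le_self (by positivity) (one_le_pow₀ one_le_two)).trans (by linarith)
    have e0 : 0 ≤ 24 * δ / 2 ^ n := by positivity
    obtain ⟨σ', k1, k2, k3⟩ := kazhdan_step m h σ hσ.1 e0 e1 hσ.2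
    refine ⟨σ', ⟨k1, fun g k => (k3 g k).trans ?_⟩, fun g => (k2 g).trans_eq (by ring)⟩
    rw [pow_succ 2, ← div_div]
    nlinarith
  choose! F f1 f2 using st
  obtain ⟨s, s0, s1⟩ : ∃ s : ℕ → G → unitary (Op H), s 0 = σ₀ ∧ ∀ n, s (n + 1) = F n (s n) :=
    ⟨fun n => Nat.rec σ₀ F n, rfl, fun _ => rfl⟩
  have hP : ∀ n, P n (s n) := fun n => by
    induction n with
    | zero =>
      rw [s0]
      refine ⟨a1, fun g k => (kazh_def (s := 0) ?_ (a2 _) (a2 g) (a2 k) (kazh_one _)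
        (kazh_one _)).trans_eq (by ring)⟩
      simp
    | succ n ih => rw [s1]; exact f1 n _ ih
  have hd : ∀ g n, dist (s n g : Op H) (s (n + 1) g) ≤ 96 * δ / 2 / 2 ^ n := fun g n => by
    rw [dist_comm, dist_eq_norm, s1]; exact f2 n _ (hP n) g
  choose L hL using fun g => cauchySeq_tendsto_of_complete (cauchySeq_of_le_geometric_two (hd g))
  have hU : ∀ g, L g ∈ unitary (Op H) := fun g =>
    isClosed_unitary.mem_of_tendsto (hL g) (.of_forall fun n => (s n g).2)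
  have hA : ∀ g, L g ∈ A := fun g =>
    (tl_closed h).mem_of_tendsto (hL g) (.of_forall fun n => (hP n).1 g)
  refine ⟨MonoidHom.mk' (fun g => ⟨L g, hU g⟩) fun g k => Subtype.ext ?_, hA, fun g => ?_⟩
  · show L (g * k) = L g * L k
    have k1 : Tendsto (fun n : ℕ => 24 * δ / 2 ^ n) atTop (𝓝 0) :=
      tendsto_const_nhds.div_atTop (tendsto_pow_atTop_atTop_of_one_lt one_lt_two)
    exact sub_eq_zero.1 (norm_le_zero_iff.1 (le_of_tendsto_of_tendsto'
      ((hL (g * k)).sub ((hL g).mul (hL k))).norm k1 fun n => (hP n).2 g k))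
  · have k1 := dist_le_of_le_geometric_two_of_tendsto₀ (hd g) (hL g)
    rw [dist_comm, dist_eq_norm, s0] at k1
    exact (norm_sub_le_norm_sub_add_norm_sub (L g) (σ₀ g : Op H) _).trans (by linarith [a2 g])

end Vale.Agent.P096b
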