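import Vale.Agent.P096b.Basic

/-! Random signs. -/

set_option linter.unusedSectionVars false

namespace Vale.Agent.P096b

open Filter Topology Vale.Agent.P096 MeasureTheory
open scoped InnerProductSpace ComplexConjugate

universe u v

variable {H : Type u} [NormedAddCommGroup H] [InnerProductSpace ℂ H] [CompleteSpace H]

open scoped BigOperators

/-- Signs. -/
def sg (b : Bool) : ℂ := if b then 1 else -1

variable {ι : Type} [Fintype ι] [DecidableEq ι]

namespace KhinX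

theorem sg_mul_self (b : Bool) : sg b * sg b = 1 := by cases b <;> simp [sg]

theorem sg_not (b : Bool) : sg (!b) = -sg b := by cases b <;> simp [sg]

theorem conj_sg (b : Bool) : conj (sg b) = sg b := by cases b <;> simp [sg]

theorem flip (i : ι) (F : (ι → Bool) → ℂ) (h : ∀ e, F (Function.update e i (!e i)) = F e) :
    𝔼 e : ι → Bool, sg (e i) * F e = 0 := by
  have inv : Function.Involutive fun e : ι → Bool => Function.update e i (!e i) := by
    intro e; simp
  have h1 := Fintype.expect_equiv inv.toPerm (fun e => -(sg (e i) * F e))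
    (fun e => sg (e i) * F e) fun e => by
      simp only [Function.Involutive.coe_toPerm, Function.update_self, sg_not, h]; ring
  rw [Finset.expect_neg_distrib] at h1
  linear_combination (-1 / 2 : ℂ) * h1

theorem e2 (i j : ι) : 𝔼 e : ι → Bool, sg (e i) * sg (e j) = if i = j then 1 else 0 := by
  split_ifs with h
  · subst h; simp only [sg_mul_self]; exact Fintype.expect_const _
  · exact flip i (fun e => sg (e j)) fun e => by rw [Function.update_of_ne (Ne.symm h)]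

theorem e4 (i j k l : ι) : 𝔼 e : ι → Bool, sg (e i) * sg (e j) * (sg (e k) * sg (e l)) =
    (if i = j then if k = l then 1 else 0 else 0) + (if k = i then if l = j then 1 else 0 else 0) +
      (if k = j then if l = i then 1 else 0 else 0) -
      (if j = i then if k = i then if l = i then 2 else 0 else 0 else 0) := by
  by_cases h1 : i = j
  · subst h1
    simp only [sg_mul_self, one_mul, e2, if_true]
    by_cases h2 : k = i <;> by_cases h3 : l = i <;> simp [h2, h3]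
    norm_num
  by_cases h2 : k = i
  · subst h2
    have : ∀ e : ι → Bool, sg (e k) * sg (e j) * (sg (e k) * sg (e l)) = sg (e l) * sg (e j) :=
      fun e => by linear_combination (sg (e l) * sg (e j)) * sg_mul_self (e k)
    simp [this, e2, h1, Ne.symm h1]
  by_cases h3 : l = i
  · subst h3
    have : ∀ e : ι → Bool, sg (e l) * sg (e j) * (sg (e k) * sg (e l)) = sg (e k) * sg (e j) :=
      fun e => by linear_combination (sg (e k) * sg (e j)) * sg_mul_self (e l)
    simp [this, e2, h1, Ne.symm h1, h2]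
  simp only [mul_assoc]
  rw [flip i (fun e => sg (e j) * (sg (e k) * sg (e l))) fun e => by
    rw [Function.update_of_ne (Ne.symm h1), Function.update_of_ne h2, Function.update_of_ne h3]]
  simp [h1, Ne.symm h1, h2, h3]

theorem chaos {E : Type*} [NormedAddCommGroup E] [InnerProductSpace ℂ E] (a : ι → ι → E) :
    𝔼 e : ι → Bool, ‖∑ i, ∑ j, (sg (e i) * sg (e j)) • a i j‖ ^ 2 ≤
      ‖∑ i, a i i‖ ^ 2 + ∑ i, ∑ j, ‖a i j‖ ^ 2 + ∑ i, ∑ j, (⟪a i j, a j i⟫_ℂ).re := by
  have h1 : 𝔼 e : ι → Bool, ⟪∑ i, ∑ j, (sg (e i) * sg (e j)) • a i j,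
      ∑ i, ∑ j, (sg (e i) * sg (e j)) • a i j⟫_ℂ =
      ⟪∑ i, a i i, ∑ i, a i i⟫_ℂ + ∑ i, ∑ j, ⟪a i j, a i j⟫_ℂ + ∑ i, ∑ j, ⟪a i j, a j i⟫_ℂ -
        ∑ i, 2 * ⟪a i i, a i i⟫_ℂ := by
    simp only [sum_inner]
    simp only [inner_sum, inner_smul_left, inner_smul_right, map_mul, conj_sg,
      Finset.expect_sum_comm]
    have : ∀ i j k l : ι, 𝔼 e : ι → Bool, sg (e k) * sg (e l) *
        (sg (e i) * sg (e j) * ⟪a i j, a k l⟫_ℂ) =
        (𝔼 e : ι → Bool, sg (e i) * sg (e j) * (sg (e k) * sg (e l))) * ⟪a i j, a k l⟫_ℂ := by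
      intro i j k l
      rw [Finset.expect_mul]
      exact Finset.expect_congr rfl fun e _ => by ring
    simp only [this, e4, add_mul, sub_mul, Finset.sum_add_distrib, Finset.sum_sub_distrib, ite_mul,
      one_mul, zero_mul, Finset.sum_ite_irrel, Finset.sum_const_zero, Finset.sum_ite_eq,
      Finset.sum_ite_eq', Finset.mem_univ, if_true]
  have h2 := congrArg Complex.re h1
  simp only [Complex.re_expect, Complex.sub_re, Complex.add_re, Complex.re_sum,
    inner_self_eq_norm_sq_to_K, Complex.coe_algebraMap, ← Complex.ofReal_pow,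
    Complex.ofReal_re] at h2
  rw [h2]
  refine sub_le_self _ (Finset.sum_nonneg fun i _ => ?_)
  rw [← Complex.ofReal_ofNat, ← Complex.ofReal_mul, Complex.ofReal_re]
  positivity

theorem chaos2 {E : Type*} [NormedAddCommGroup E] [InnerProductSpace ℂ E] (a : ι → ι → E) :
    𝔼 e : ι → Bool, ‖∑ i, ∑ j, (sg (e i) * sg (e j)) • a i j‖ ^ 2 ≤
      ‖∑ i, a i i‖ ^ 2 + 2 * ∑ i, ∑ j, ‖a i j‖ ^ 2 := by
  refine (chaos a).trans ?_
  have h1 : ∑ i, ∑ j, (⟪a i j, a j i⟫_ℂ).re ≤ ∑ i, ∑ j, (‖a i j‖ ^ 2 / 2 + ‖a j i‖ ^ 2 / 2) := by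
    refine Finset.sum_le_sum fun i _ => Finset.sum_le_sum fun j _ => ?_
    have := (Complex.re_le_norm _).trans (norm_inner_le_norm (𝕜 := ℂ) (a i j) (a j i))
    nlinarith [sq_nonneg (‖a i j‖ - ‖a j i‖)]
  simp only [Finset.sum_add_distrib, ← Finset.sum_div] at h1
  rw [Finset.sum_comm (f := fun i j => ‖a j i‖ ^ 2)] at h1
  linarith

theorem col_sq (x : ι → Op H) {c : ℝ} (hc : ∀ η, ∑ i, ‖x i η‖ ^ 2 ≤ c * ‖η‖ ^ 2) (c0 : 0 ≤ c)
    (η : H) : ‖∑ i, star (x i) (x i η)‖ ^ 2 ≤ c ^ 2 * ‖η‖ ^ 2 := by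
  set ζ := ∑ i, star (x i) (x i η) with hζ
  have h1 : ‖ζ‖ ^ 2 ≤ ∑ i, ‖x i ζ‖ * ‖x i η‖ := by
    have : ‖ζ‖ ^ 2 = (⟪ζ, ζ⟫_ℂ).re := by
      simp only [inner_self_eq_norm_sq_to_K, Complex.coe_algebraMap, ← Complex.ofReal_pow,
        Complex.ofReal_re]
    rw [this]
    nth_rw 2 [hζ]
    rw [inner_sum, Complex.re_sum]
    refine Finset.sum_le_sum fun i _ => (Complex.re_le_norm _).trans ?_
    rw [ContinuousLinearMap.star_eq_adjoint, ContinuousLinearMap.adjoint_inner_right]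
    exact norm_inner_le_norm _ _
  have h2 := Finset.sum_mul_sq_le_sq_mul_sq Finset.univ (fun i => ‖x i ζ‖) (fun i => ‖x i η‖)
  have h3 : (‖ζ‖ ^ 2) ^ 2 ≤ c * ‖ζ‖ ^ 2 * (c * ‖η‖ ^ 2) :=
    (pow_le_pow_left₀ (by positivity) h1 2).trans (h2.trans
      (mul_le_mul (hc ζ) (hc η) (Finset.sum_nonneg fun _ _ => by positivity) (by positivity)))
  rcases (sq_nonneg ‖ζ‖).eq_or_lt with h | h
  · rw [← h]; positivity
  · nlinarith

theorem two_sq (x y : ι → Op H) {c r : ℝ} (hc : ∀ η, ∑ i, ‖x i η‖ ^ 2 ≤ c * ‖η‖ ^ 2)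
    (hr : ∀ η, ∑ i, ‖y i η‖ ^ 2 ≤ r * ‖η‖ ^ 2) (r0 : 0 ≤ r) (η : H) :
    ∑ i, ∑ j, ‖y i (x j η)‖ ^ 2 ≤ c * r * ‖η‖ ^ 2 := by
  rw [Finset.sum_comm]
  refine (Finset.sum_le_sum fun j _ => hr (x j η)).trans ?_
  rw [← Finset.mul_sum, mul_comm c r, mul_assoc]
  exact mul_le_mul_of_nonneg_left (hc η) r0

theorem prod_eq (x y : ι → Op H) (e f : ι → Bool) (η : H) :
    ((∑ i, sg (e i) • x i) * ∑ i, sg (f i) • y i) η =
      ∑ i, ∑ j, (sg (e i) * sg (f j)) • x i (y j η) := by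
  rw [Finset.sum_mul_sum]
  simp only [smul_mul_smul_comm, ContinuousLinearMap.sum_apply, ContinuousLinearMap.smul_apply,
    ContinuousLinearMap.mul_apply]

theorem star_eq (x : ι → Op H) (e : ι → Bool) :
    star (∑ i, sg (e i) • x i) = ∑ i, sg (e i) • star (x i) := by
  simp only [star_sum, star_smul, RCLike.star_def, conj_sg]

theorem cur (n : ℕ) (F : (Fin n → ι → Bool) → ℝ) :
    𝔼 e : Fin n → ι → Bool, F e = 𝔼 f : Fin n × ι → Bool, F fun l i => f (l, i) :=
  (Fintype.expect_equiv (Equiv.curry (Fin n) ι Bool) _ _ fun _ => rfl).symm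

end KhinX

open KhinX

theorem khin_inner {E : Type*} [NormedAddCommGroup E] [InnerProductSpace ℂ E] (v w : ι → E) :
    𝔼 e : ι → Bool, ⟪∑ i, sg (e i) • v i, ∑ i, sg (e i) • w i⟫_ℂ = ∑ i, ⟪v i, w i⟫_ℂ := by
  simp only [sum_inner]
  simp only [inner_sum, inner_smul_left, inner_smul_right, conj_sg, Finset.expect_sum_comm,
    ← mul_assoc, ← Finset.expect_mul, e2, ite_mul, one_mul, zero_mul,
    Finset.sum_ite_eq', Finset.mem_univ, if_true]

theorem khin_sq {E : Type*} [NormedAddCommGroup E] [InnerProductSpace ℂ E] (v : ι → E) :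
    𝔼 e : ι → Bool, ‖∑ i, sg (e i) • v i‖ ^ 2 = ∑ i, ‖v i‖ ^ 2 := by
  have h := congrArg Complex.re (khin_inner v v)
  simpa only [Complex.re_expect, Complex.re_sum, inner_self_eq_norm_sq_to_K,
    Complex.coe_algebraMap, ← Complex.ofReal_pow, Complex.ofReal_re] using h

/-- The fourth moment. Expanding, only pairings survive: `(∑ x* x) ^ 2`, `∑ x i* (∑ x x*) x i` and
the crossing term, which is at most `∑ ‖x i* x j η‖ ^ 2 ≤ r c ‖η‖ ^ 2`; the diagonal correction
is negative. -/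
theorem khin_four (x : ι → Op H) {c r : ℝ} (hc : ∀ η, ∑ i, ‖x i η‖ ^ 2 ≤ c * ‖η‖ ^ 2)
    (hr : ∀ η, ∑ i, ‖star (x i) η‖ ^ 2 ≤ r * ‖η‖ ^ 2) (c0 : 0 ≤ c) (r0 : 0 ≤ r) (η : H) :
    𝔼 e : ι → Bool, ‖(star (∑ i, sg (e i) • x i) * ∑ i, sg (e i) • x i) η‖ ^ 2 ≤
      (c ^ 2 + 2 * c * r) * ‖η‖ ^ 2 := by
  simp only [star_eq, prod_eq (fun i => star (x i)) x]
  refine (chaos2 fun i j => star (x i) (x j η)).trans ?_
  have h1 := col_sq x hc c0 η
  have h2 := two_sq x (fun i => star (x i)) hc hr r0 η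
  linarith

/-- Several independent copies: the square of the column. -/
theorem khin_col (x : ι → Op H) {c r : ℝ} (hc : ∀ η, ∑ i, ‖x i η‖ ^ 2 ≤ c * ‖η‖ ^ 2)
    (hr : ∀ η, ∑ i, ‖star (x i) η‖ ^ 2 ≤ r * ‖η‖ ^ 2) (c0 : 0 ≤ c) (r0 : 0 ≤ r) (n : ℕ) (η : H) :
    𝔼 e : Fin n → ι → Bool,
      ‖∑ l, (star (∑ i, sg (e l i) • x i) * ∑ i, sg (e l i) • x i) η‖ ^ 2 ≤
      (n ^ 2 * c ^ 2 + n * (c ^ 2 + 2 * c * r)) * ‖η‖ ^ 2 := by
  simp only [star_eq, prod_eq (fun i => star (x i)) x]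
  rw [cur]
  have h := chaos2 fun p q : Fin n × ι => if p.1 = q.1 then star (x p.2) (x q.2 η) else 0
  have e1 : ∀ f : Fin n × ι → Bool, ∑ p : Fin n × ι, ∑ q : Fin n × ι, (sg (f p) * sg (f q)) •
      (if p.1 = q.1 then star (x p.2) (x q.2 η) else 0) =
      ∑ l, ∑ i, ∑ j, (sg (f (l, i)) * sg (f (l, j))) • star (x i) (x j η) := by
    intro f
    simp only [Fintype.sum_prod_type, smul_ite, smul_zero, Finset.sum_ite_irrel,
      Finset.sum_const_zero, Finset.sum_ite_eq, Finset.mem_univ, if_true]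
  have e2 : ∑ p : Fin n × ι, ∑ q : Fin n × ι,
      ‖if p.1 = q.1 then star (x p.2) (x q.2 η) else 0‖ ^ 2 =
      n * ∑ i, ∑ j, ‖star (x i) (x j η)‖ ^ 2 := by
    simp only [Fintype.sum_prod_type, apply_ite norm, norm_zero, ite_pow, ne_eq, two_ne_zero,
      not_false_eq_true, zero_pow, Finset.sum_ite_irrel, Finset.sum_const_zero, Finset.sum_ite_eq,
      Finset.mem_univ, if_true, Finset.sum_const, Finset.card_univ, Fintype.card_fin, nsmul_eq_mul]
  simp only [e1, e2, if_true] at h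
  refine h.trans ?_
  rw [Fintype.sum_prod_type]
  simp only [Finset.sum_const, Finset.card_univ, Fintype.card_fin]
  rw [← Nat.cast_smul_eq_nsmul ℝ, norm_smul, Real.norm_natCast, mul_pow]
  have h1 := mul_le_mul_of_nonneg_left (col_sq x hc c0 η) (sq_nonneg (n : ℝ))
  have h2 := mul_le_mul_of_nonneg_left (two_sq x (fun i => star (x i)) hc hr r0 η)
    (Nat.cast_nonneg (α := ℝ) n)
  have h3 : 0 ≤ n * c ^ 2 * ‖η‖ ^ 2 := by positivity
  linarith

/-- Several independent copies: the mixed products. -/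
theorem khin_mix (x : ι → Op H) {c r : ℝ} (hc : ∀ η, ∑ i, ‖x i η‖ ^ 2 ≤ c * ‖η‖ ^ 2)
    (hr : ∀ η, ∑ i, ‖star (x i) η‖ ^ 2 ≤ r * ‖η‖ ^ 2) (c0 : 0 ≤ c) (r0 : 0 ≤ r) (n : ℕ) (η : H) :
    𝔼 e : Fin n → ι → Bool, ∑ l, ∑ l',
      ‖((∑ i, sg (e l' i) • x i) * star (∑ i, sg (e l i) • x i)) η‖ ^ 2 ≤
      (n ^ 2 * (c * r) + n * (r ^ 2 + 2 * c * r)) * ‖η‖ ^ 2 := by
  simp only [star_eq, prod_eq x (fun i => star (x i)), Finset.expect_sum_comm]
  have h1 := col_sq (fun i => star (x i)) hr r0 η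
  simp only [star_star] at h1
  have h2 := two_sq (fun i => star (x i)) x hr hc c0 η
  have key : ∀ l l' : Fin n, 𝔼 e : Fin n → ι → Bool,
      ‖∑ i, ∑ j, (sg (e l' i) * sg (e l j)) • x i (star (x j) η)‖ ^ 2 ≤
      c * r * ‖η‖ ^ 2 + if l = l' then (r ^ 2 + 2 * c * r) * ‖η‖ ^ 2 else 0 := by
    intro l l'
    rw [cur]
    set a : Fin n × ι → Fin n × ι → H := fun p q =>
      if p.1 = l' then if q.1 = l then x p.2 (star (x q.2) η) else 0 else 0 with ha
    have e1 : ∀ f : Fin n × ι → Bool, ∑ p, ∑ q, (sg (f p) * sg (f q)) • a p q =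
        ∑ i, ∑ j, (sg (f (l', i)) * sg (f (l, j))) • x i (star (x j) η) := by
      intro f
      simp only [ha, Fintype.sum_prod_type, smul_ite, smul_zero, Finset.sum_ite_irrel,
        Finset.sum_const_zero, Finset.sum_ite_eq', Finset.mem_univ, if_true]
    have e2 : ∑ p, ∑ q, ‖a p q‖ ^ 2 = ∑ i, ∑ j, ‖x i (star (x j) η)‖ ^ 2 := by
      simp only [ha, Fintype.sum_prod_type, apply_ite norm, norm_zero, ite_pow, ne_eq, two_ne_zero,
        not_false_eq_true, zero_pow, Finset.sum_ite_irrel, Finset.sum_const_zero,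
        Finset.sum_ite_eq', Finset.mem_univ, if_true]
    have p0 : 0 ≤ c * r * ‖η‖ ^ 2 := by positivity
    split_ifs with h
    · subst h
      have h := chaos2 a
      have e3 : ∑ p, a p p = ∑ i, x i (star (x i) η) := by
        simp only [ha, Fintype.sum_prod_type, Finset.sum_ite_irrel, Finset.sum_const_zero,
          Finset.sum_ite_eq', Finset.mem_univ, if_true]
      simp only [e1, e2, e3] at h
      linarith
    · have h3 := chaos a
      have e3 : ∀ p, a p p = 0 := by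
        intro p; simp only [ha]; split_ifs with u v
        · exact absurd (v.symm.trans u) h
        · rfl
        · rfl
      have e4 : ∀ p q, ⟪a p q, a q p⟫_ℂ = 0 := by
        intro p q
        by_cases u : p.1 = l'
        · have : a q p = 0 := by
            simp only [ha]; rw [if_neg (fun v : p.1 = l => h (v.symm.trans u))]; simp
          rw [this, inner_zero_right]
        · have : a p q = 0 := by simp only [ha]; rw [if_neg u]
          rw [this, inner_zero_left]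
      simp only [e1, e2, e3, e4, Finset.sum_const_zero, norm_zero, Complex.zero_re] at h3
      linarith
  refine (Finset.sum_le_sum fun l _ => Finset.sum_le_sum fun l' _ => key l l').trans (le_of_eq ?_)
  simp only [Finset.sum_add_distrib, Finset.sum_ite_eq, Finset.mem_univ, if_true, Finset.sum_const,
    Finset.card_univ, Fintype.card_fin, nsmul_eq_mul]
  ring

end Vale.Agent.P096b
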