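import Vale.Agent.P096b.Defs
import Vale.Agent.P082.Main

/-! Rigidity of the multiplication. -/

set_option linter.unusedSectionVars false

namespace Vale.Agent.P096b

open Filter Topology Vale.Agent.P096 MeasureTheory
open scoped InnerProductSpace ComplexConjugate

universe u v

variable {H : Type u} [NormedAddCommGroup H] [InnerProductSpace ℂ H] [CompleteSpace H]

namespace Newton

open Vale.Agent.P082

variable {M : Type u} [CStarAlgebra M]

/-- A function of two variables as a function on lists. -/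
def two (f : M → M → M) : List M → M
  | [x, y] => f x y
  | _ => 0

/-- A function of three variables as a function on lists. -/
def three (f : M → M → M → M) : List M → M
  | [x, y, z] => f x y z
  | _ => 0

theorem lin_zero : IsLinearMap ℂ fun _ : M => (0 : M) := ⟨by simp, by simp⟩

theorem lin_two {f : M → M → M} (h1 : ∀ y, IsLinearMap ℂ fun x => f x y)
    (h2 : ∀ x, IsLinearMap ℂ fun y => f x y) : Lin (two f) := by
  intro l₁ l₂
  rcases l₁ with _ | ⟨a, _ | ⟨b, _ | ⟨c, l₁⟩⟩⟩ <;> rcases l₂ with _ | ⟨a', _ | ⟨b', l₂⟩⟩ <;>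
    first | exact lin_zero | exact h1 _ | exact h2 _

theorem lin_three {f : M → M → M → M} (h1 : ∀ y z, IsLinearMap ℂ fun x => f x y z)
    (h2 : ∀ x z, IsLinearMap ℂ fun y => f x y z) (h3 : ∀ x y, IsLinearMap ℂ fun z => f x y z) :
    Lin (three f) := by
  intro l₁ l₂
  rcases l₁ with _ | ⟨a, _ | ⟨b, _ | ⟨c, _ | ⟨d, l₁⟩⟩⟩⟩ <;>
    rcases l₂ with _ | ⟨a', _ | ⟨b', _ | ⟨c', l₂⟩⟩⟩ <;>
    first | exact lin_zero | exact h1 _ _ | exact h2 _ _ | exact h3 _ _

theorem dd_zero : ∀ (l : List M) (F : List M → M) (y : M),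
    (∀ l' : List M, l'.length = l.length → F l' = 0) → dd F y l = 0
  | [], F, y, h => by rw [co_dd_nil, h [] rfl, zero_mul]
  | x :: l, F, y, h => by
    rw [co_dd_cons, h (y * x :: l) rfl, dd_zero l _ x fun l' hl => h _ (by simp [hl]), sub_zero]

theorem dif_zero {l : List M} {F : List M → M} (y : M)
    (h : ∀ l' : List M, l'.length = l.length → F l' = 0) : dif F y l = 0 := by
  rw [dif, dd_zero l F y h, h l rfl, mul_zero, sub_zero]

theorem two_ne (f : M → M → M) {l : List M} (h : l.length ≠ 2) : two f l = 0 := by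
  rcases l with _ | ⟨a, _ | ⟨b, _ | ⟨c, l⟩⟩⟩
  · rfl
  · rfl
  · exact absurd rfl h
  · rfl

theorem three_ne (f : M → M → M → M) {l : List M} (h : l.length ≠ 3) : three f l = 0 := by
  rcases l with _ | ⟨a, _ | ⟨b, _ | ⟨c, _ | ⟨d, l⟩⟩⟩⟩
  · rfl
  · rfl
  · rfl
  · exact absurd rfl h
  · rfl

theorem coc_two {f : M → M → M} {C : ℝ} (hC : 0 ≤ C) (h1 : ∀ y, IsLinearMap ℂ fun x => f x y)
    (h2 : ∀ x, IsLinearMap ℂ fun y => f x y) (hb : ∀ x y, ‖f x y‖ ≤ C * ‖x‖ * ‖y‖)
    (hc : ∀ x y z, x * f y z - (f (x * y) z - (f x (y * z) - f x y * z)) = 0) :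
    Coc (two f) C := by
  refine ⟨hC, lin_two h1 h2, fun l => ?_, fun x l => ?_⟩
  · by_cases h : l.length = 2
    · obtain ⟨a, b, rfl⟩ := List.length_eq_two.1 h
      simpa [two, nrm_cons, nrm_nil, mul_assoc] using hb a b
    · rw [two_ne f h, norm_zero]
      exact mul_nonneg hC (nrm_nonneg l)
  · by_cases h : l.length = 2
    · obtain ⟨a, b, rfl⟩ := List.length_eq_two.1 h
      exact hc x a b
    · exact dif_zero x fun l' hl => two_ne f (by rw [hl]; exact h)

theorem coc_three {f : M → M → M → M} {C : ℝ} (hC : 0 ≤ C)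
    (h1 : ∀ y z, IsLinearMap ℂ fun x => f x y z)
    (h2 : ∀ x z, IsLinearMap ℂ fun y => f x y z) (h3 : ∀ x y, IsLinearMap ℂ fun z => f x y z)
    (hb : ∀ x y z, ‖f x y z‖ ≤ C * ‖x‖ * ‖y‖ * ‖z‖)
    (hc : ∀ w x y z, w * f x y z -
      (f (w * x) y z - (f w (x * y) z - (f w x (y * z) - f w x y * z))) = 0) :
    Coc (three f) C := by
  refine ⟨hC, lin_three h1 h2 h3, fun l => ?_, fun x l => ?_⟩
  · by_cases h : l.length = 3
    · obtain ⟨a, b, c, rfl⟩ := List.length_eq_three.1 h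
      simpa [three, nrm_cons, nrm_nil, mul_assoc] using hb a b c
    · rw [three_ne f h, norm_zero]
      exact mul_nonneg hC (nrm_nonneg l)
  · by_cases h : l.length = 3
    · obtain ⟨a, b, c, rfl⟩ := List.length_eq_three.1 h
      exact hc x a b c
    · exact dif_zero x fun l' hl => three_ne f (by rw [hl]; exact h)

end Newton

open Vale.Agent.P082 in
/-- Bounded two-cochains with small differential are near coboundaries. Put `T` into a function on
lists (zero outside length two), `S = dif T` is a cocycle supported in length three, so `S = dif K`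
with `‖K‖ ≤ 4 e` in length two; `T - K` (restricted to length two) is a cocycle, hence `dif g`. -/
theorem approx_cob {M : Type u} [CStarAlgebra M]
    (h : ∀ (F : List M → M) (C : ℝ), Coc F C → Cob F C 1) (T : M →L[ℂ] M →L[ℂ] M) {d e : ℝ}
    (hd : 0 ≤ d) (he : 0 ≤ e) (hT : ∀ x y, ‖T x y‖ ≤ d * ‖x‖ * ‖y‖)
    (hS : ∀ x y z, ‖x * T y z - T (x * y) z + T x (y * z) - T x y * z‖ ≤ e * ‖x‖ * ‖y‖ * ‖z‖) :
    ∃ g : M →L[ℂ] M, ‖g‖ ≤ 3 * (d + 4 * e) ∧
      ∀ x y, ‖T x y - (x * g y - g (x * y) + g x * y)‖ ≤ 4 * e * ‖x‖ * ‖y‖ := by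
  have c3 : Coc (Newton.three fun x y z =>
      x * T y z - T (x * y) z + T x (y * z) - T x y * z) e := by
    refine Newton.coc_three he (fun y z => ⟨fun a b => ?_, fun c a => ?_⟩)
      (fun x z => ⟨fun a b => ?_, fun c a => ?_⟩) (fun x y => ⟨fun a b => ?_, fun c a => ?_⟩) hS
      fun w x y z => ?_
    · simp only [add_mul, map_add, add_apply]; abel
    · simp only [smul_mul_assoc, map_smul, smul_apply, smul_sub, smul_add]
    · simp only [add_mul, mul_add, map_add, add_apply]; abel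
    · simp only [smul_mul_assoc, mul_smul_comm, map_smul, smul_apply, smul_sub, smul_add]
    · simp only [mul_add, map_add]; abel
    · simp only [mul_smul_comm, map_smul, smul_sub, smul_add]
    · simp only [mul_assoc, mul_sub, mul_add, sub_mul, add_mul]; abel
  obtain ⟨K, hK1, hK2, -, hK3⟩ := h _ _ c3
  have hKb : ∀ x y, ‖K [x, y]‖ ≤ 4 * e * ‖x‖ * ‖y‖ := fun x y => by
    have := hK2 [x, y]
    simp only [nrm_cons, nrm_nil, List.length_cons, List.length_nil] at this
    refine this.trans (le_of_eq ?_)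
    push_cast
    ring
  have c2 : Coc (Newton.two fun x y => T x y - K [x, y]) (d + 4 * e) := by
    refine Newton.coc_two (by positivity) (fun y => ⟨fun a b => ?_, fun c a => ?_⟩)
      (fun x => ⟨fun a b => ?_, fun c a => ?_⟩) (fun x y => ?_) fun x y z => ?_
    · have := (hK1 [] [y]).1 a b
      simp only [List.nil_append] at this
      simp only [map_add, add_apply, this]; abel
    · have := (hK1 [] [y]).2 c a
      simp only [List.nil_append] at this
      simp only [map_smul, smul_apply, this, smul_sub]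
    · have := (hK1 [x] []).1 a b
      simp only [List.cons_append, List.nil_append] at this
      simp only [map_add, this]; abel
    · have := (hK1 [x] []).2 c a
      simp only [List.cons_append, List.nil_append] at this
      simp only [map_smul, this, smul_sub]
    · refine (norm_sub_le _ _).trans ((add_le_add (hT x y) (hKb x y)).trans (le_of_eq ?_))
      ring
    · have h1 : 1 * (x * T y z - T (x * y) z + T x (y * z) - T x y * z)
          = x * K [y, z] - (K [x * y, z] - (K [x, y * z] - K [x, y] * z)) := hK3 x [y, z]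
      rw [one_mul] at h1
      rw [← sub_eq_zero.2 h1]
      simp only [mul_sub, sub_mul]; abel
  obtain ⟨G, hG1, hG2, -, hG3⟩ := h _ _ c2
  have hGb : ∀ x, ‖G [x]‖ ≤ 3 * (d + 4 * e) * ‖x‖ := fun x => by
    have := hG2 [x]
    simp only [nrm_cons, nrm_nil, List.length_cons, List.length_nil] at this
    refine this.trans (le_of_eq ?_)
    push_cast
    ring
  refine ⟨((hG1 [] []).mk' _).mkContinuous (3 * (d + 4 * e)) hGb,
    LinearMap.mkContinuous_norm_le _ (by positivity) _, fun x y => ?_⟩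
  have h1 : 1 * (T x y - K [x, y]) = x * G [y] - (G [x * y] - G [x] * y) := hG3 x [y]
  have h2 : T x y - (x * G [y] - G [x * y] + G [x] * y) = K [x, y] := by
    rw [one_mul] at h1
    rw [← sub_eq_zero, ← sub_eq_zero.2 h1]
    abel
  exact (congrArg norm h2).trans_le (hKb x y)

namespace Newton

open Vale.Agent.P082

variable {M : Type u} [CStarAlgebra M]

/-- The average of a map and its adjoint. -/
noncomputable def sym (g : M →L[ℂ] M) : M →L[ℂ] M :=
  LinearMap.mkContinuous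
    { toFun := fun x => (1 / 2 : ℂ) • (g x + star (g (star x)))
      map_add' := fun x y => by simp only [map_add, star_add, smul_add]; abel
      map_smul' := fun c x => by
        simp only [map_smul, star_smul, star_star, RingHom.id_apply, ← smul_add, smul_comm c] }
    ‖g‖ fun x => by
      have h1 := g.le_opNorm x
      have h2 := g.le_opNorm (star x)
      rw [norm_star] at h2
      have h3 := norm_add_le (g x) (star (g (star x)))
      rw [norm_star] at h3
      simp only [LinearMap.coe_mk, AddHom.coe_mk, norm_smul, norm_div, norm_one,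
        Complex.norm_ofNat]
      linarith

theorem sym_apply (g : M →L[ℂ] M) (x : M) :
    sym g x = (1 / 2 : ℂ) • (g x + star (g (star x))) := rfl

theorem sym_norm (g : M →L[ℂ] M) : ‖sym g‖ ≤ ‖g‖ :=
  LinearMap.mkContinuous_norm_le _ (norm_nonneg _) _

theorem sym_star (g : M →L[ℂ] M) (x : M) : sym g (star x) = star (sym g x) := by
  simp only [sym_apply, star_smul, star_add, star_star, add_comm]
  simp

/-- Associative and symmetric multiplications near the given one. -/
structure Good (m : M →L[ℂ] M →L[ℂ] M) (d : ℝ) : Prop where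
  assoc : ∀ x y z, m (m x y) z = m x (m y z)
  star : ∀ x y, star (m x y) = m (star y) (star x)
  near : ∀ x y, ‖m x y - x * y‖ ≤ d * ‖x‖ * ‖y‖

theorem exists_g (h : ∀ (F : List M → M) (C : ℝ), Coc F C → Cob F C 1)
    {m : M →L[ℂ] M →L[ℂ] M} {d : ℝ} (hd : 0 ≤ d) (hd' : d ≤ 1 / 144) (hm : Good m d) :
    ∃ g : M →L[ℂ] M, ‖g‖ ≤ 4 * d ∧ (∀ x, g (star x) = star (g x)) ∧
      ∀ x y, ‖m x y - x * y - (x * g y - g (x * y) + g x * y)‖ ≤ 8 * d ^ 2 * ‖x‖ * ‖y‖ := by
  let T : M →L[ℂ] M →L[ℂ] M := m - ContinuousLinearMap.mul ℂ M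
  have hT : ∀ x y, T x y = m x y - x * y := fun x y => rfl
  have hTb : ∀ x y, ‖T x y‖ ≤ d * ‖x‖ * ‖y‖ := hm.near
  obtain ⟨g, hg1, hg2⟩ := approx_cob h T hd (e := 2 * d ^ 2) (by positivity) hTb fun x y z => by
    have e1 : x * T y z - T (x * y) z + T x (y * z) - T x y * z = T (T x y) z - T x (T y z) := by
      simp only [hT, map_sub, sub_apply, hm.assoc, mul_sub, sub_mul, mul_assoc]
      abel
    rw [e1]
    have b1 : ‖T (T x y) z‖ ≤ d * (d * ‖x‖ * ‖y‖) * ‖z‖ :=
      (hTb _ _).trans (by gcongr; exact hTb x y)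
    have b2 : ‖T x (T y z)‖ ≤ d * ‖x‖ * (d * ‖y‖ * ‖z‖) :=
      (hTb _ _).trans (by gcongr; exact hTb y z)
    refine (norm_sub_le _ _).trans ((add_le_add b1 b2).trans (le_of_eq ?_))
    ring
  refine ⟨sym g, (sym_norm g).trans (hg1.trans (by nlinarith)), sym_star g, fun x y => ?_⟩
  have h1 := hg2 x y
  have h2 := hg2 (star y) (star x)
  rw [← norm_star] at h2
  have e : m x y - x * y - (x * sym g y - sym g (x * y) + sym g x * y)
      = (1 / 2 : ℂ) • ((T x y - (x * g y - g (x * y) + g x * y)) +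
        star (T (star y) (star x) -
          (star y * g (star x) - g (star y * star x) + g (star y) * star x))) := by
    simp only [sym_apply, hT, star_sub, star_add, star_mul, star_star, hm.star, mul_smul_comm,
      smul_mul_assoc, mul_add, add_mul]
    module
  rw [e, norm_smul]
  have h3 := (norm_add_le _ _).trans (add_le_add h1 h2)
  simp only [norm_star] at h3
  simp only [norm_div, norm_one, Complex.norm_ofNat]
  nlinarith

theorem step (h : ∀ (F : List M → M) (C : ℝ), Coc F C → Cob F C 1)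
    {m : M →L[ℂ] M →L[ℂ] M} {d : ℝ} (hd : 0 ≤ d) (hd' : d ≤ 1 / 144) (hm : Good m d) :
    ∃ (φ : M →L[ℂ] M) (m' : M →L[ℂ] M →L[ℂ] M), (∀ x, ‖φ x - x‖ ≤ 4 * d * ‖x‖) ∧
      (∀ x, φ (star x) = star (φ x)) ∧ Good m' (d / 2) ∧ ∀ x y, φ (m' x y) = m (φ x) (φ y) := by
  obtain ⟨g, hg1, hg2, hg3⟩ := exists_g h hd hd' hm
  have hgb : ∀ x, ‖g x‖ ≤ 4 * d * ‖x‖ := fun x => g.le_of_opNorm_le hg1 x
  let u : (M →L[ℂ] M)ˣ := Units.oneSub g (by linarith)
  have hu : ∀ x, u.val x = x - g x := fun x => rfl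
  have h1 : ∀ x, u.val (u.inv x) = x := fun x => congrArg (fun f : M →L[ℂ] M => f x) u.val_inv
  have h2 : ∀ x, u.inv (u.val x) = x := fun x => congrArg (fun f : M →L[ℂ] M => f x) u.inv_val
  have hs : ∀ x, u.val (star x) = star (u.val x) := fun x => by rw [hu, hu, hg2, star_sub]
  have hi : ∀ x, ‖u.inv x‖ ≤ 2 * ‖x‖ := fun x => by
    have a1 := norm_add_le (u.val (u.inv x)) (g (u.inv x))
    have a2 := hgb (u.inv x)
    rw [hu, sub_add_cancel, ← hu, h1] at a1
    nlinarith [norm_nonneg (u.inv x)]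
  let m' : M →L[ℂ] M →L[ℂ] M :=
    (ContinuousLinearMap.compL ℂ M M M u.inv).comp (m.bilinearComp u.val u.val)
  have hm' : ∀ x y, m' x y = u.inv (m (u.val x) (u.val y)) := fun x y => rfl
  refine ⟨u.val, m', fun x => ?_, hs, ⟨fun x y z => ?_, fun x y => ?_, fun x y => ?_⟩,
    fun x y => by rw [hm', h1]⟩
  · rw [hu, sub_sub_cancel_left, norm_neg]
    exact hgb x
  · simp only [hm', h1, hm.assoc]
  · rw [hm', hm', hs, hs, ← hm.star, ← h2 (star _), hs, h1]
  · have e1 : m' x y - x * y = u.inv (m (u.val x) (u.val y) - u.val (x * y)) := by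
      rw [map_sub, h2, hm']
    have e2 : m (u.val x) (u.val y) - u.val (x * y)
        = (m x y - x * y - (x * g y - g (x * y) + g x * y)) + g x * g y
          - (m (g x) y - g x * y) - (m (u.val x) (g y) - u.val x * g y) := by
      simp only [hu, map_sub, sub_apply, sub_mul]
      abel
    have hx := norm_nonneg x
    have hy := norm_nonneg y
    have b0 : ‖u.val x‖ ≤ 2 * ‖x‖ := by
      rw [hu]
      have := hgb x
      have := norm_sub_le x (g x)
      nlinarith
    have b1 : ‖g x * g y‖ ≤ (4 * d * ‖x‖) * (4 * d * ‖y‖) :=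
      (norm_mul_le _ _).trans (mul_le_mul (hgb x) (hgb y) (norm_nonneg _) (by positivity))
    have b2 : ‖m (g x) y - g x * y‖ ≤ d * (4 * d * ‖x‖) * ‖y‖ :=
      (hm.near _ _).trans (by gcongr; exact hgb x)
    have b3 : ‖m (u.val x) (g y) - u.val x * g y‖ ≤ d * (2 * ‖x‖) * (4 * d * ‖y‖) :=
      (hm.near _ _).trans (by gcongr; exact hgb y)
    have b4 : ‖m (u.val x) (u.val y) - u.val (x * y)‖ ≤ 36 * d ^ 2 * (‖x‖ * ‖y‖) := by
      rw [e2]
      refine (norm_sub_le _ _).trans ((add_le_add ((norm_sub_le _ _).trans (add_le_add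
        ((norm_add_le _ _).trans (add_le_add (hg3 x y) b1)) b2)) b3).trans (le_of_eq ?_))
      ring
    rw [e1]
    refine (hi _).trans ?_
    have b5 : 72 * d ^ 2 ≤ d / 2 := by nlinarith
    have b6 := mul_le_mul_of_nonneg_right b5 (mul_nonneg hx hy)
    nlinarith

/-- The invariant of the iteration. -/
structure Inv (m : M →L[ℂ] M →L[ℂ] M) (d : ℝ) (n : ℕ)
    (a : (M →L[ℂ] M) × (M →L[ℂ] M →L[ℂ] M)) : Prop where
  good : Good a.2 (d / 2 ^ n)
  near : ∀ x, ‖a.1 x - x‖ ≤ 16 * (d - d / 2 ^ n) * ‖x‖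
  star : ∀ x, a.1 (star x) = star (a.1 x)
  mul : ∀ x y, a.1 (a.2 x y) = m (a.1 x) (a.1 y)

theorem Inv.le {m : M →L[ℂ] M →L[ℂ] M} {d : ℝ} (hd : 0 ≤ d) (hd' : d ≤ 1 / 144) {n : ℕ}
    {a : (M →L[ℂ] M) × (M →L[ℂ] M →L[ℂ] M)} (h : Inv m d n a) (x : M) : ‖a.1 x‖ ≤ 2 * ‖x‖ := by
  have h1 := h.near x
  have h2 := norm_add_le (a.1 x - x) x
  rw [sub_add_cancel] at h2
  have h3 : 0 ≤ d / 2 ^ n := by positivity
  nlinarith [norm_nonneg x]

theorem Inv.step (h : ∀ (F : List M → M) (C : ℝ), Coc F C → Cob F C 1)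
    {m : M →L[ℂ] M →L[ℂ] M} {d : ℝ} (hd : 0 ≤ d) (hd' : d ≤ 1 / 144) {n : ℕ}
    {a : (M →L[ℂ] M) × (M →L[ℂ] M →L[ℂ] M)} (ha : Inv m d n a) :
    ∃ b, Inv m d (n + 1) b ∧ dist a.1 b.1 ≤ 16 * d / 2 / 2 ^ n := by
  have h3 : 0 ≤ d / 2 ^ n := by positivity
  obtain ⟨φ, m', h1, h2, h4, h5⟩ := Newton.step h h3
    ((div_le_self hd (one_le_pow₀ one_le_two)).trans hd') ha.good
  have hb : ∀ x, ‖a.1 (φ x) - a.1 x‖ ≤ 8 * (d / 2 ^ n) * ‖x‖ := fun x => by
    rw [← map_sub]
    have := h1 x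
    have := ha.le hd hd' (φ x - x)
    linarith
  have e : d / 2 ^ (n + 1) = d / 2 ^ n / 2 := by rw [pow_succ, div_div]
  refine ⟨(a.1.comp φ, m'), ⟨by rw [e]; exact h4, fun x => ?_, fun x => ?_, fun x y => ?_⟩, ?_⟩
  · have a1 := norm_add_le (a.1 (φ x) - a.1 x) (a.1 x - x)
    rw [sub_add_sub_cancel] at a1
    have a2 := hb x
    have a3 := ha.near x
    rw [e]
    show ‖a.1 (φ x) - x‖ ≤ _
    linarith
  · show a.1 (φ (Star.star x)) = Star.star (a.1 (φ x))
    rw [h2, ha.star]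
  · show a.1 (φ (m' x y)) = m (a.1 (φ x)) (a.1 (φ y))
    rw [h5, ha.mul]
  · rw [dist_comm, dist_eq_norm]
    refine ContinuousLinearMap.opNorm_le_bound _ (by positivity) fun x => ?_
    refine (hb x).trans (le_of_eq ?_)
    ring

end Newton

open Vale.Agent.P082 in
/-- The theorem of Johnson and Raeburn-Taylor. For `T x y = m x y - x y` of norm `d`,
associativity gives `e ≤ 2 d ^ 2`. Symmetrize `g` (replace it by `(g x + (g x*)*) / 2`), put
`φ = 1 - g` and `m' x y = φ⁻¹ (m (φ x) (φ y))`, whose defect is `O(d ^ 2)`; iterate; the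
products of the `φ` converge in norm. (Equivalently iterate on `ψ` directly, keeping `ψ`
invertible by a Neumann series, with defect `‖ψ (x y) - m (ψ x) (ψ y)‖`.) -/
theorem newton (ε : ℝ) (hε : 0 < ε) : ∃ δ : ℝ, 0 < δ ∧ ∀ (M : Type u) [CStarAlgebra M],
    (∀ (F : List M → M) (C : ℝ), Coc F C → Cob F C 1) → ∀ m : M →L[ℂ] M →L[ℂ] M,
    (∀ x y z, m (m x y) z = m x (m y z)) → (∀ x y, star (m x y) = m (star y) (star x)) →
    (∀ x y, ‖m x y - x * y‖ ≤ δ * ‖x‖ * ‖y‖) →
    ∃ ψ : M →L[ℂ] M, (∀ x, ‖ψ x - x‖ ≤ ε * ‖x‖) ∧ (∀ x, ψ (star x) = star (ψ x)) ∧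
      ∀ x y, ψ (x * y) = m (ψ x) (ψ y) := by
  refine ⟨min (1 / 144) (ε / 16), by positivity, fun M _ h m h1 h2 h3 => ?_⟩
  set d := min (1 / 144) (ε / 16) with hdd
  have hd : 0 ≤ d := by positivity
  have hd' : d ≤ 1 / 144 := min_le_left _ _
  have hd'' : d ≤ ε / 16 := min_le_right _ _
  have hstep : ∀ (n : ℕ) (a : (M →L[ℂ] M) × (M →L[ℂ] M →L[ℂ] M)), ∃ b, Newton.Inv m d n a →
      Newton.Inv m d (n + 1) b ∧ dist a.1 b.1 ≤ 16 * d / 2 / 2 ^ n := fun n a => by
    by_cases ha : Newton.Inv m d n a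
    · obtain ⟨b, hb⟩ := ha.step h hd hd'
      exact ⟨b, fun _ => hb⟩
    · exact ⟨a, fun h => absurd h ha⟩
  choose f hf using hstep
  let s : ℕ → (M →L[ℂ] M) × (M →L[ℂ] M →L[ℂ] M) := fun n => Nat.rec (1, m) f n
  have hs : ∀ n, Newton.Inv m d n (s n) := fun n => by
    induction n with
    | zero =>
      refine ⟨⟨h1, h2, by rw [pow_zero, div_one]; exact h3⟩, fun x => ?_, fun x => rfl, fun x y => rfl⟩
      show ‖x - x‖ ≤ _
      simp
    | succ n ih => exact (hf n _ ih).1
  obtain ⟨ψ, hψ⟩ := cauchySeq_tendsto_of_complete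
    (cauchySeq_of_le_geometric_two (f := fun n => (s n).1) fun n => (hf n _ (hs n)).2)
  have hp : ∀ x, Tendsto (fun n => (s n).1 x) atTop (𝓝 (ψ x)) := fun x =>
    ((ContinuousLinearMap.apply ℂ M x).continuous.tendsto ψ).comp hψ
  refine ⟨ψ, fun x => ?_, fun x => ?_, fun x y => ?_⟩
  · refine le_of_tendsto' ((hp x).sub_const x).norm fun n => ((hs n).near x).trans ?_
    have : 0 ≤ d / 2 ^ n := by positivity
    exact mul_le_mul_of_nonneg_right (by linarith) (norm_nonneg _)
  · refine tendsto_nhds_unique (hp (star x)) ?_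
    simp only [(hs _).star]
    exact (hp x).star
  · have t1 : Tendsto (fun n => m ((s n).1 x) ((s n).1 y)) atTop (𝓝 (m (ψ x) (ψ y))) :=
      (m.continuous₂.tendsto (ψ x, ψ y)).comp ((hp x).prodMk_nhds (hp y))
    have t2 : Tendsto (fun n => m ((s n).1 x) ((s n).1 y) - (s n).1 (x * y)) atTop (𝓝 0) := by
      have t3 : Tendsto (fun n : ℕ => 2 * (d / 2 ^ n * ‖x‖ * ‖y‖)) atTop
          (𝓝 (2 * (0 * ‖x‖ * ‖y‖))) :=
        (((tendsto_const_nhds.div_atTop
          (tendsto_pow_atTop_atTop_of_one_lt one_lt_two)).mul_const _).mul_const _).const_mul _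
      rw [zero_mul, zero_mul, mul_zero] at t3
      refine squeeze_zero_norm (fun n => ?_) t3
      rw [← (hs n).mul, ← map_sub]
      exact ((hs n).le hd hd' _).trans (mul_le_mul_of_nonneg_left ((hs n).good.near x y) zero_le_two)
    exact (sub_eq_zero.1 (tendsto_nhds_unique (t1.sub (hp (x * y))) t2)).symm

end Vale.Agent.P096b
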