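import Vale.Agent.P096b.Basic
import Vale.Agent.P096b.Newton

/-! From a linear lifting to a unitary. -/

set_option linter.unusedSectionVars false

namespace Vale.Agent.P096b

open Filter Topology Vale.Agent.P096 MeasureTheory
open scoped InnerProductSpace ComplexConjugate

universe u v

variable {H : Type u} [NormedAddCommGroup H] [InnerProductSpace ℂ H] [CompleteSpace H]

namespace L0

/-- The von Neumann algebra given by a pair of commutants. -/
def vn {A B : Alg H} (h : CP A B) : VonNeumannAlgebra H where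
  toStarSubalgebra := A
  centralizer_centralizer' := by
    have h1 : Set.centralizer (A : Set (Op H)) = B := by
      ext y
      rw [Set.mem_centralizer_iff, SetLike.mem_coe, h.right]
      exact forall₂_congr fun _ _ => eq_comm
    have h2 : Set.centralizer (B : Set (Op H)) = A := by
      ext y
      rw [Set.mem_centralizer_iff, SetLike.mem_coe, h.left]
      exact forall₂_congr fun _ _ => eq_comm
    change Set.centralizer (Set.centralizer (A : Set (Op H))) = A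
    rw [h1, h2]

theorem cob {A B : Alg H} (h : CP A B) [hc : IsClosed (A : Set (Op H))] (F : List A → A) (C : ℝ)
    (hF : P082.Coc F C) : P082.Cob F C 1 :=
  haveI : IsClosed ((vn h).toStarSubalgebra : Set (Op H)) := hc
  P082.cob_one (P082.isVN_subtype (vn h)) hF

theorem sym {A N : Alg H} {δ : ℝ} (h : Lift A N δ) : ∃ Φ : A →L[ℂ] Op H,
    (∀ x, Φ x ∈ N) ∧ (∀ x : A, ‖Φ x - x‖ ≤ δ * ‖x‖) ∧ ∀ x, Φ (star x) = star (Φ x) := by
  obtain ⟨Φ, h1, h2, h3⟩ := h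
  let Ψ : A →ₗ[ℂ] Op H :=
    { toFun := fun x => (1 / 2 : ℂ) • (Φ x + star (Φ (star (x : Op H))))
      map_add' := fun x y => by
        rw [AddMemClass.coe_add, star_add, h1 _ x.2 _ y.2,
          h1 _ (star_mem x.2) _ (star_mem y.2), star_add, ← smul_add]
        congr 1; abel
      map_smul' := fun c x => by
        rw [SetLike.val_smul, star_smul, h2 _ _ x.2, h2 _ _ (star_mem x.2), star_smul, star_star,
          ← smul_add, smul_comm]
        rfl }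
  have hΨ : ∀ x : A, Ψ x = (1 / 2 : ℂ) • (Φ x + star (Φ (star (x : Op H)))) := fun _ => rfl
  have h4 : ∀ x : A, ‖Ψ x - x‖ ≤ δ * ‖x‖ := by
    intro x
    have e : Ψ x - x = (1 / 2 : ℂ) • ((Φ x - x) + star (Φ (star (x : Op H)) - star (x : Op H))) := by
      rw [hΨ, star_sub, star_star]
      module
    have k1 := (h3 _ x.2).2
    have k2 := (h3 _ (star_mem x.2)).2
    have k3 := norm_add_le (Φ x - x) (star (Φ (star (x : Op H)) - star (x : Op H)))
    rw [norm_star] at k2 k3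
    rw [e, norm_smul]
    have k4 : ‖(1 / 2 : ℂ)‖ = 1 / 2 := by simp
    have k5 : ‖x‖ = ‖(x : Op H)‖ := rfl
    rw [k4, k5]
    linarith
  refine ⟨Ψ.mkContinuous (δ + 1) fun x => ?_, fun x => ?_, h4, fun x => ?_⟩
  · have k1 := norm_add_le (Ψ x - x) (x : Op H)
    rw [sub_add_cancel] at k1
    have k5 : ‖x‖ = ‖(x : Op H)‖ := rfl
    have := h4 x
    linarith
  · change Ψ x ∈ N
    rw [hΨ]
    exact N.smul_mem (add_mem (h3 _ x.2).1 (star_mem (h3 _ (star_mem x.2)).1)) _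
  · change Ψ (star x) = star (Ψ x)
    rw [hΨ, hΨ, StarMemClass.coe_star, star_star, star_smul, star_add, star_star, add_comm]
    congr 1
    simp

theorem below {A : Alg H} {δ : ℝ} (hδ : δ ≤ 1 / 2) {Φ : A →L[ℂ] Op H}
    (h : ∀ x : A, ‖Φ x - x‖ ≤ δ * ‖x‖) (x : A) : ‖x‖ ≤ 2 * ‖Φ x‖ := by
  have k1 := norm_sub_le (Φ x) (Φ x - x)
  rw [sub_sub_cancel] at k1
  have k5 : ‖x‖ = ‖(x : Op H)‖ := rfl
  have := h x
  have := norm_nonneg x
  nlinarith

theorem above {A : Alg H} {δ : ℝ} (hδ : δ ≤ 1) {Φ : A →L[ℂ] Op H}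
    (h : ∀ x : A, ‖Φ x - x‖ ≤ δ * ‖x‖) (x : A) : ‖Φ x‖ ≤ 2 * ‖x‖ := by
  have k1 := norm_add_le (Φ x - x) (x : Op H)
  rw [sub_add_cancel] at k1
  have k5 : ‖x‖ = ‖(x : Op H)‖ := rfl
  have := h x
  have := norm_nonneg x
  nlinarith

theorem onto {A B N : Alg H} (hAB : CP A B) {δ : ℝ} (h0 : 0 ≤ δ) (hδ : δ ≤ 1 / 4)
    (hN : Near N A δ) {Φ : A →L[ℂ] Op H} (hm : ∀ x, Φ x ∈ N)
    (h : ∀ x : A, ‖Φ x - x‖ ≤ δ * ‖x‖) : ∀ n ∈ N, ∃ x, Φ x = n := by
  have hc := tl_closed hAB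
  have : CompleteSpace A := hc.completeSpace_coe
  have hanti : AntilipschitzWith 2 Φ :=
    AddMonoidHomClass.antilipschitz_of_bound Φ (by simpa using below (by linarith) h)
  have hcl : IsClosed (Set.range Φ) := hanti.isClosed_range Φ.uniformContinuous
  have key := tl_eqc (LinearMap.range (Φ : A →ₗ[ℂ] Op H))
    (Subalgebra.toSubmodule N.toSubalgebra) (3 * δ) hcl
    (by rintro _ ⟨x, rfl⟩; exact hm x) (by linarith) (fun n hn => by
      obtain ⟨a, ha, h1⟩ := hN n hn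
      refine ⟨Φ ⟨a, ha⟩, ⟨_, rfl⟩, ?_⟩
      have k1 := h ⟨a, ha⟩
      have k2 : ‖(⟨a, ha⟩ : A)‖ = ‖a‖ := rfl
      have k3 := norm_sub_le n (n - a)
      rw [sub_sub_cancel] at k3
      have k4 := norm_sub_le (n - a) (Φ ⟨a, ha⟩ - a)
      rw [sub_sub_sub_cancel_right] at k4
      rw [k2] at k1
      have k5 := norm_nonneg n
      have k6 : δ * ‖a‖ ≤ δ * (2 * ‖n‖) := mul_le_mul_of_nonneg_left (by nlinarith) h0
      simp only at k1
      linarith)
  intro n hn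
  exact key hn

theorem prod {A B N : Alg H} (hAB : CP A B) {δ : ℝ} (h0 : 0 ≤ δ) (hδ : δ ≤ 1 / 4)
    (hN : Near N A δ) {Φ : A →L[ℂ] Op H} (hm : ∀ x, Φ x ∈ N)
    (h : ∀ x : A, ‖Φ x - x‖ ≤ δ * ‖x‖) :
    ∃ m : A →L[ℂ] A →L[ℂ] A, (∀ x y, Φ (m x y) = Φ x * Φ y) ∧
      ∀ x y, ‖m x y - x * y‖ ≤ 8 * δ * ‖x‖ * ‖y‖ := by
  have hb := below (by linarith) h
  have ha := above (by linarith) h
  have inj : ∀ x y, Φ x = Φ y → x = y := fun x y e => by
    have := hb (x - y)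
    rw [map_sub, e, sub_self, norm_zero, mul_zero] at this
    exact sub_eq_zero.1 (norm_le_zero_iff.1 this)
  choose m hmm using fun x y : A => onto hAB h0 hδ hN hm h _ (mul_mem (hm x) (hm y))
  let m₂ : A →ₗ[ℂ] A →ₗ[ℂ] A := LinearMap.mk₂ ℂ m
    (fun x x' y => inj _ _ (by rw [map_add, hmm, hmm, hmm, map_add, add_mul]))
    (fun c x y => inj _ _ (by rw [map_smul, hmm, hmm, map_smul, smul_mul_assoc]))
    (fun x y y' => inj _ _ (by rw [map_add, hmm, hmm, hmm, map_add, mul_add]))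
    (fun c x y => inj _ _ (by rw [map_smul, hmm, hmm, map_smul, mul_smul_comm]))
  refine ⟨m₂.mkContinuous₂ 8 fun x y => ?_, hmm, fun x y => ?_⟩
  · change ‖m x y‖ ≤ _
    have k1 := hb (m x y)
    rw [hmm] at k1
    have k2 := (norm_mul_le (Φ x) (Φ y)).trans
      (mul_le_mul (ha x) (ha y) (norm_nonneg _) (by positivity))
    linarith
  · change ‖m x y - x * y‖ ≤ _
    have k1 := hb (m x y - x * y)
    have e : Φ (m x y - x * y) = (Φ x - x) * Φ y + (x : Op H) * (Φ y - y) -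
        (Φ (x * y) - ((x * y : A) : Op H)) := by
      rw [map_sub, hmm, MulMemClass.coe_mul]
      noncomm_ring
    have k2 := (norm_mul_le (Φ x - x) (Φ y)).trans
      (mul_le_mul (h x) (ha y) (norm_nonneg _) (by positivity))
    have k3 : ‖(x : Op H) * (Φ y - y)‖ ≤ ‖x‖ * (δ * ‖y‖) := (norm_mul_le _ _).trans
      (mul_le_mul_of_nonneg_left (h y) (norm_nonneg _))
    have k4 := (h (x * y)).trans (mul_le_mul_of_nonneg_left (norm_mul_le x y) h0)
    have k5 := norm_sub_le ((Φ x - x) * Φ y + (x : Op H) * (Φ y - y))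
      (Φ (x * y) - ((x * y : A) : Op H))
    have k6 := norm_add_le ((Φ x - x) * Φ y) ((x : Op H) * (Φ y - y))
    rw [e] at k1
    linarith

theorem hom {A : Alg H} {η : ℝ} (h0 : 0 ≤ η) (hη : η < 1) (θ : A →L[ℂ] Op H)
    (h : ∀ x : A, ‖θ x - x‖ ≤ η * ‖x‖) (hs : ∀ x, θ (star x) = star (θ x))
    (hm : ∀ x y, θ (x * y) = θ x * θ y) : ∃ π : A →⋆ₐ[ℂ] Op H, ∀ x, π x = θ x := by
  have h1 : θ 1 = 1 := by
    have k1 := hm 1 1
    rw [mul_one] at k1
    have k2 : (θ 1 - 1) * (θ 1 - 1) = -(θ 1 - 1) := by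
      rw [sub_mul, mul_sub, ← k1]; simp
    have k3 := norm_mul_le (θ 1 - 1) (θ 1 - 1)
    rw [k2, norm_neg] at k3
    have k4 := h 1
    have k5 : ‖(1 : A)‖ ≤ 1 := (IsStarProjection.one (Op H)).norm_le
    have k6 : ‖θ 1 - 1‖ ≤ η := k4.trans (by nlinarith)
    have k7 := norm_nonneg (θ 1 - 1)
    exact sub_eq_zero.1 (norm_le_zero_iff.1 (by nlinarith))
  exact ⟨{ AlgHom.ofLinearMap (θ : A →ₗ[ℂ] Op H) h1 hm with map_star' := hs }, fun _ => rfl⟩

theorem spatial {A : Alg H} {K η : ℝ} (hK : K * η ≤ 1 / 10)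
    (π : A →⋆ₐ[ℂ] Op H) (X : Op H) (h1 : ∀ a : A, π a * X = X * a) (h2 : ‖1 - X‖ ≤ K * η) :
    ∃ u ∈ unitary (Op H), ‖u - 1‖ ≤ 8 * (K * η) ∧ ∀ a : A, u * a * star u = π a := by
  rw [norm_sub_rev] at h2
  obtain ⟨b, hu, -, hb, hc⟩ := tl_polar X _ h2 hK
  refine ⟨b * X, hu, hb, fun a => ?_⟩
  have k1 : star X * π a = a * star X := by
    have := congrArg star (h1 (star a))
    rwa [star_mul, star_mul, map_star, star_star, StarMemClass.coe_star, star_star] at this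
  have k2 := hc (π a) (by rw [← mul_assoc, h1, mul_assoc, mul_assoc, k1])
  rw [mul_assoc b X, ← h1, ← mul_assoc, ← k2, mul_assoc (π a), mul_assoc (π a),
    (Unitary.mem_iff.1 hu).2, mul_one]

end L0

open L0 in
/-- Symmetrize the lifting (`(Φ x + (Φ x*)*) / 2`); it is a bijection of `A` onto `N` (bounded
below, closed range, `tl_eqc`). Transport the product of `N` to `A` and apply `newton` with
`P082.cob_one (P082.isVN_subtype M)`, where `M : VonNeumannAlgebra H` is built from `CP A B`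
(see `Vale/Agent/Results/P082`). Then `θ = Φ ∘ ψ` is a unital star homomorphism near the
inclusion (`θ 1` is an idempotent near `1`) onto `N`; `hH` with `T = 1` gives an intertwiner near
`1`, `tl_polar` makes it unitary (compare `P096/Good.lean`). -/
theorem unitary_of_lift (hH : HyperStmt.{u}) (ε : ℝ) (hε : 0 < ε) : ∃ δ : ℝ, 0 < δ ∧
    ∀ (H : Type u) [NormedAddCommGroup H] [InnerProductSpace ℂ H] [CompleteSpace H]
      (A B N D : Alg H), CP A B → CP N D → Near N A δ → Lift A N δ →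
      ∃ u ∈ unitary (Op H), ‖u - 1‖ ≤ ε ∧ ∀ x, x ∈ A ↔ u * x * star u ∈ N := by
  obtain ⟨K, hK1, hK⟩ := hH
  obtain ⟨η, hη0, hη1, hη2⟩ : ∃ η : ℝ, 0 < η ∧ K * η ≤ 1 / 10 ∧ 8 * (K * η) ≤ ε := by
    refine ⟨min (1 / 10) (ε / 8) / K, by positivity, ?_, ?_⟩
    · rw [mul_div_cancel₀ _ (by linarith)]; exact min_le_left _ _
    · rw [mul_div_cancel₀ _ (by linarith)]; linarith [min_le_right (1 / 10) (ε / 8)]
  have hη3 : η ≤ 1 / 10 := by nlinarith
  obtain ⟨δ₁, hδ₁, hnew⟩ := newton.{u} (η / 2) (by positivity)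
  refine ⟨min (δ₁ / 8) (η / 4), by positivity, fun H _ _ _ A B N D hAB _ hN hL => ?_⟩
  have d1 := min_le_left (δ₁ / 8) (η / 4)
  have d2 := min_le_right (δ₁ / 8) (η / 4)
  have d0 : 0 ≤ min (δ₁ / 8) (η / 4) := by positivity
  generalize min (δ₁ / 8) (η / 4) = δ at *
  have hc : IsClosed (A : Set (Op H)) := tl_closed hAB
  obtain ⟨Φ, hΦ1, hΦ2, hΦ3⟩ := sym hL
  obtain ⟨m, hm1, hm2⟩ := prod hAB d0 (by linarith) hN hΦ1 hΦ2
  have inj : ∀ x y, Φ x = Φ y → x = y := fun x y e => by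
    have := below (by linarith) hΦ2 (x - y)
    rw [map_sub, e, sub_self, norm_zero, mul_zero] at this
    exact sub_eq_zero.1 (norm_le_zero_iff.1 this)
  have g1 : ∀ x y z, m (m x y) z = m x (m y z) :=
    fun x y z => inj _ _ (by rw [hm1, hm1, hm1, hm1, mul_assoc])
  have g2 : ∀ x y, star (m x y) = m (star y) (star x) :=
    fun x y => inj _ _ (by rw [hΦ3, hm1, hm1, star_mul, hΦ3, hΦ3])
  have g3 : ∀ x y, ‖m x y - x * y‖ ≤ δ₁ * ‖x‖ * ‖y‖ :=
    fun x y => (hm2 x y).trans (by gcongr; linarith)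
  obtain ⟨ψ, hψ1, hψ2, hψ3⟩ : ∃ ψ : A →L[ℂ] A, (∀ x, ‖ψ x - x‖ ≤ η / 2 * ‖x‖) ∧
      (∀ x, ψ (star x) = star (ψ x)) ∧ ∀ x y, ψ (x * y) = m (ψ x) (ψ y) :=
    hnew A (cob hAB) m g1 g2 g3
  have hθ : ∀ x : A, ‖(Φ.comp ψ) x - x‖ ≤ η * ‖x‖ := by
    intro x
    have k1 := hΦ2 (ψ x)
    have k2 : ‖((ψ x : A) : Op H) - x‖ ≤ η / 2 * ‖x‖ := hψ1 x
    have k3 := norm_add_le (ψ x - x) x
    rw [sub_add_cancel] at k3
    have k4 := hψ1 x
    have k5 := norm_nonneg x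
    have k6 : ‖ψ x‖ ≤ 2 * ‖x‖ := by nlinarith
    have k7 : δ * ‖ψ x‖ ≤ η / 4 * (2 * ‖x‖) := mul_le_mul d2 k6 (norm_nonneg _) (by positivity)
    have k8 := norm_sub_le_norm_sub_add_norm_sub (Φ (ψ x)) ((ψ x : A) : Op H) (x : Op H)
    change ‖Φ (ψ x) - x‖ ≤ _
    linarith
  obtain ⟨π, hπ⟩ := hom hη0.le (by linarith) (Φ.comp ψ) hθ
    (fun x => by change Φ (ψ (star x)) = star (Φ (ψ x)); rw [hψ2, hΦ3])
    (fun x y => by change Φ (ψ (x * y)) = Φ (ψ x) * Φ (ψ y); rw [hψ3, hm1])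
  have hN' : Near N A η := fun x hx => by
    obtain ⟨y, hy, h⟩ := hN x hx
    exact ⟨y, hy, h.trans (mul_le_mul_of_nonneg_right (by linarith) (norm_nonneg _))⟩
  have hon := onto hAB hη0.le (by linarith) hN' (Φ := Φ.comp ψ) (fun x => hΦ1 (ψ x)) hθ
  obtain ⟨X, hX1, hX2⟩ := hK A H H π A.subtype 1 η hη0.le (fun a => by
    rw [hπ]; exact hθ a)
  obtain ⟨u, hu, hu1, hu2⟩ := spatial hη1 π X hX1 hX2
  refine ⟨u, hu, hu1.trans hη2, fun x => ⟨fun hx => ?_, fun hx => ?_⟩⟩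
  · rw [hu2 ⟨x, hx⟩, hπ]
    exact hΦ1 _
  · obtain ⟨a, ha⟩ := hon _ hx
    rw [← hπ, ← hu2] at ha
    have k1 := (Unitary.mem_iff.1 hu).1
    have k2 : ∀ y : Op H, star u * (u * y * star u) * u = y := fun y => by
      rw [← mul_assoc, ← mul_assoc, k1, one_mul, mul_assoc, k1, mul_one]
    rw [← k2 x, ← ha, k2]
    exact a.2

end Vale.Agent.P096b
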