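import Vale.Agent.P096b.Filt

/-! Logarithms of unitaries and generalized eigenvectors. -/

set_option linter.unusedSectionVars false

namespace Vale.Agent.P096b

open Filter Topology Vale.Agent.P096 MeasureTheory
open scoped InnerProductSpace ComplexConjugate

universe u v

variable {H : Type u} [NormedAddCommGroup H] [InnerProductSpace ℂ H] [CompleteSpace H]

theorem logu_exp {L : Op H} (hL : IsStarNormal L) {f : ℂ → ℂ} (hf : Continuous f) (w : ℂ) :
    NormedSpace.exp (w • cfc f L) = cfc (fun z => Complex.exp (w * f z)) L := by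
  rw [← cfc_const_mul w f L, ← CFC.complex_exp_eq_normedSpace_exp (p := IsStarNormal),
    ← cfc_comp' Complex.exp (fun z => w * f z) L]

theorem logu_sa (L : Op H) (f : ℂ → ℝ) :
    star (cfc (fun z => (f z : ℂ)) L) = cfc (fun z => (f z : ℂ)) L := by
  simp [← cfc_star]

theorem logu_exp' {c : Op H} (hc : star c = c) (w : ℂ) :
    NormedSpace.exp (w • c) = cfc (fun z : ℂ => Complex.exp (w * z.re)) c := by
  have h1 : IsSelfAdjoint c := hc
  rw [← logu_exp h1.isStarNormal (by fun_prop) w, cfc_congr (g := id) fun z hz =>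
    (h1.mem_spectrum_eq_re hz).symm, cfc_id ℂ c]

theorem logu_int {c : Op H} (hc : star c = c) (θ : ℝ) (η : H) :
    ∫ t : ℝ, gk 1 0 θ t • NormedSpace.exp ((Complex.I * t) • c) η =
      cfc (fun z : ℂ => gs 1 0 θ z.re) c η := by
  have h1 : IsSelfAdjoint c := hc
  have h2 := h1.isStarNormal
  have h3 : ContinuousOn (Function.uncurry fun (t : ℝ) (z : ℂ) => gk 1 0 θ t * ex t z.re)
      (Set.univ ×ˢ spectrum ℂ c) := by
    have := gk_cont 1 0 θ
    refine Continuous.continuousOn ?_
    unfold ex Function.uncurry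
    fun_prop
  have h4 : ∀ᵐ t : ℝ, ∀ z ∈ spectrum ℂ c, ‖gk 1 0 θ t * ex t z.re‖ ≤ ‖gk 1 0 θ t‖ :=
    .of_forall fun t z _ => by rw [norm_mul, norm_ex, mul_one]
  have h5 := (gk_int one_pos 0 θ).norm.2
  rw [← ft_gk one_pos]
  unfold ft
  rw [cfc_integral _ _ c h3 h4 h5,
    ContinuousLinearMap.integral_apply (integrable_cfc _ _ c h3 h4 h5)]
  refine integral_congr_ae (.of_forall fun t => ?_)
  beta_reduce
  rw [cfc_const_mul _ _ c (by unfold ex; fun_prop), logu_exp' hc]
  rfl

/-- Let `L = x + i y` (commuting self-adjoint parts, `x² + y² = 1`), `e` the projection onto the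
closure of the range of the positive part of `y` (`tl_supp`), `s = 2 e - 1`, so `s |y| = y`;
`a = cfc arccos x`, `b = s a`. Then `exp (i s a) = e exp (i a) + (1 - e) exp (-i a)
= cos a + i s sin a`, `cos a = x`, `sin a = √(1 - x²) = |y|`. -/
theorem log_unitary {L : Op H} (hL : L ∈ unitary (Op H)) : ∃ b : Op H, star b = b ∧
    NormedSpace.exp (Complex.I • b) = L ∧
    ∀ y, y * L = L * y → y * star L = star L * y → y * b = b * y := by
  have hn : IsStarNormal L := isStarNormal_of_mem_unitary hL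
  have hz : ∀ z ∈ spectrum ℂ L, Real.cos (Real.arccos z.re) = z.re ∧
      Real.sin (Real.arccos z.re) = |z.im| := fun z hz => by
    have h1 := spectrum.norm_eq_one_of_unitary hL hz
    have h2 := abs_le.1 ((Complex.abs_re_le_norm z).trans h1.le)
    have h3 := Complex.sq_norm_sub_sq_re z
    rw [h1, one_pow] at h3
    exact ⟨Real.cos_arccos h2.1 h2.2, by rw [Real.sin_arccos, h3, Real.sqrt_sq_eq_abs]⟩
  have ca : Continuous fun z : ℂ => (Real.arccos z.re : ℂ) :=
    Complex.continuous_ofReal.comp (Real.continuous_arccos.comp Complex.continuous_re)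
  have e1 : NormedSpace.exp (Complex.I • cfc (fun z : ℂ => (Real.arccos z.re : ℂ)) L) =
      L + Complex.I • cfc (fun z : ℂ => ((|z.im| - z.im : ℝ) : ℂ)) L := by
    rw [logu_exp hn ca, ← cfc_const_mul _ _ L]
    conv_rhs => enter [1]; rw [← cfc_id' ℂ L]
    rw [← cfc_add L _ _]
    refine cfc_congr fun z h => ?_
    rw [mul_comm, Complex.exp_ofReal_mul_I, (hz z h).1, (hz z h).2]
    exact Complex.ext (by simp) (by simp)
  have e2 : NormedSpace.exp (-Complex.I • cfc (fun z : ℂ => (Real.arccos z.re : ℂ)) L) =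
      L + -Complex.I • cfc (fun z : ℂ => ((|z.im| + z.im : ℝ) : ℂ)) L := by
    rw [logu_exp hn ca, ← cfc_const_mul _ _ L]
    conv_rhs => enter [1]; rw [← cfc_id' ℂ L]
    rw [← cfc_add L _ _]
    refine cfc_congr fun z h => ?_
    rw [mul_comm, mul_neg, ← neg_mul, ← Complex.ofReal_neg, Complex.exp_ofReal_mul_I, Real.cos_neg,
      Real.sin_neg, (hz z h).1, (hz z h).2]
    exact Complex.ext (by simp) (by simp)
  have NP : cfc (fun z : ℂ => ((|z.im| - z.im : ℝ) : ℂ)) L *
      cfc (fun z : ℂ => ((|z.im| + z.im : ℝ) : ℂ)) L = 0 := by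
    rw [← cfc_mul _ _ L, ← cfc_zero ℂ L]
    refine cfc_congr fun z _ => ?_
    rw [← Complex.ofReal_mul, mul_comm, ← sq_sub_sq, sq_abs, sub_self]
    rfl
  have hc : ∀ f : ℂ → ℂ, ∀ y, y * L = L * y → y * star L = star L * y →
      y * cfc f L = cfc f L * y := fun f y h1 h2 =>
    (Commute.cfc (h1.symm : Commute L y) (h2.symm : Commute (star L) y) f).symm
  have sa := logu_sa L fun z => Real.arccos z.re
  have sN := logu_sa L fun z => |z.im| - z.im
  have ha := hc fun z => (Real.arccos z.re : ℂ)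
  have hP := hc fun z => ((|z.im| + z.im : ℝ) : ℂ)
  have aL := ha L rfl hn.star_comm_self.symm
  generalize cfc (fun z : ℂ => (Real.arccos z.re : ℂ)) L = a at *
  generalize cfc (fun z : ℂ => ((|z.im| - z.im : ℝ) : ℂ)) L = N at *
  generalize cfc (fun z : ℂ => ((|z.im| + z.im : ℝ) : ℂ)) L = P at *
  obtain ⟨e, he, h1, h2, h3⟩ := tl_supp (Set.range P)
  have eP : e * P = P := ContinuousLinearMap.ext fun η => h1 _ ⟨η, rfl⟩
  have Ne : N * e = 0 := ContinuousLinearMap.ext fun η => by
    have : closure (Submodule.span ℂ (Set.range P) : Set H) ⊆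
        (LinearMap.ker (N : H →ₗ[ℂ] H)) := by
      refine closure_minimal (Submodule.span_le.2 ?_) N.isClosed_ker
      rintro _ ⟨ζ, rfl⟩
      exact congrArg (fun T : Op H => T ζ) NP
    exact this (h2 η)
  have eN : e * N = 0 := by simpa [sN, he.isSelfAdjoint.star_eq] using congrArg star Ne
  have c1 : ∀ y, y * L = L * y → y * star L = star L * y → y * e = e * y := fun y k1 k2 => by
    refine h3 y ?_ ?_
    · rintro _ ⟨ζ, rfl⟩
      exact ⟨y ζ, congrArg (fun T : Op H => T ζ) (hP y k1 k2).symm⟩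
    · rintro _ ⟨ζ, rfl⟩
      exact ⟨star y ζ, congrArg (fun T : Op H => T ζ) (hP (star y)
        (by simpa using congrArg star k2.symm) (by simpa using congrArg star k1.symm)).symm⟩
  have ae : a * e = e * a := c1 a aL.symm (by simpa [sa] using congrArg star aL)
  have ee := he.isIdempotentElem.eq
  have b1 : (e * a + e * a - a) * e = e * a := by
    simp only [sub_mul, add_mul, mul_assoc, ae]
    rw [← mul_assoc, ee, add_sub_cancel_right]
  have s1 : SemiconjBy e (Complex.I • a) (Complex.I • (e * a + e * a - a)) := by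
    rw [SemiconjBy, mul_smul_comm, smul_mul_assoc, b1]
  have s2 : SemiconjBy (1 - e) (-Complex.I • a) (Complex.I • (e * a + e * a - a)) := by
    rw [SemiconjBy, mul_smul_comm, smul_mul_assoc, mul_sub, mul_one, b1, neg_smul, ← smul_neg,
      sub_mul, one_mul]
    congr 1
    abel
  refine ⟨e * a + e * a - a, ?_, ?_, fun y k1 k2 => ?_⟩
  · simp only [star_sub, star_add, star_mul, sa, he.isSelfAdjoint.star_eq, ae]
  · let +nondep : NormedAlgebra ℚ (Op H) := .restrictScalars ℚ ℂ (Op H)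
    have t1 := s1.exp_right.eq
    have t2 := s2.exp_right.eq
    rw [e1, mul_add, mul_smul_comm, eN, smul_zero, add_zero] at t1
    rw [e2, mul_add, mul_smul_comm, sub_mul 1 e P, eP, one_mul, sub_self, smul_zero, add_zero,
      mul_sub, ← t1, sub_mul, one_mul, mul_one] at t2
    exact (sub_left_injective t2).symm
  · have k3 : y * (e * a) = e * a * y := by
      rw [← mul_assoc, c1 y k1 k2, mul_assoc, ha y k1 k2, mul_assoc]
    rw [mul_sub, mul_add, sub_mul, add_mul, k3, ha y k1 k2]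

/-- Shifting the contour: both sides are `cfc` of `gs 1 0 (1/2)` (`cfc_integral`, `ft_gk`). -/
theorem gk_exp {c : Op H} (hc : star c = c) (η : H) :
    ∫ t : ℝ, gk 1 0 (1 / 2) t • NormedSpace.exp ((Complex.I * t) • c) η =
      NormedSpace.exp ((1 / 2 : ℂ) • c)
        (∫ t : ℝ, gk 1 0 0 t • NormedSpace.exp ((Complex.I * t) • c) η) := by
  have h1 : IsSelfAdjoint c := hc
  have h2 := h1.isStarNormal
  have h0 : Continuous fun z : ℂ => gs 1 0 0 z.re :=
    (gs_bc one_pos 0 0).1.comp Complex.continuous_re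
  rw [logu_int hc, logu_int hc, logu_exp' hc, ← mul_apply_eq_comp,
    ← cfc_mul _ _ c (by fun_prop) h0.continuousOn]
  refine congrArg (fun f : ℂ → ℂ => cfc f c η) (funext fun z => ?_)
  have h3 := gs_half 1 0 0 z.re
  rw [zero_div, Real.exp_zero, zero_add, Complex.ofReal_one, one_mul] at h3
  rw [← h3, Complex.ofReal_exp]
  congr 2
  push_cast
  ring

/-- By `Calc.integral` and `gk_exp`, `F (gs 1 0 (1/2)) η = exp (c/2) (F (gs 1 0 0) η)`; multiply by
`F cf`, use `cf * gs 1 0 (1/2) = sf * gs 1 0 0` and cancel `F (gs 1 0 0)`. -/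
theorem Calc.eig (Φ : Calc H) {c : Op H} (hc : Star.star c = c)
    (hcomm : ∀ f, BC f → c * Φ.F f = Φ.F f * c) {η : H}
    (h : ∀ t : ℝ, Φ.U t η = NormedSpace.exp ((Complex.I * t) • c) η) :
    Φ.F sf η = Φ.F cf (NormedSpace.exp ((1 / 2 : ℂ) • c) η) := by
  have h1 : ∀ θ, Φ.F (gs 1 0 θ) η =
      ∫ t : ℝ, gk 1 0 θ t • NormedSpace.exp ((Complex.I * t) • c) η := fun θ => by
    rw [← ft_gk one_pos, Φ.integral (gk_int one_pos 0 θ)]
    simp only [h]
  have h2 := gk_exp hc η
  rw [← h1, ← h1] at h2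
  have b0 := gs_bc one_pos 0 0
  have h3 : Commute (NormedSpace.exp ((1 / 2 : ℂ) • c)) (Φ.F (gs 1 0 0)) :=
    (Commute.smul_left (hcomm _ b0) _).exp_left
  refine Φ.cancel b0 (gs_ne 1 0 0) ?_
  rw [← mul_apply_eq_comp (Φ.F (gs 1 0 0)) (Φ.F cf), Φ.comm b0 bc_cf, mul_apply_eq_comp,
    ← mul_apply_eq_comp (Φ.F (gs 1 0 0)) (NormedSpace.exp _), ← h3.eq, mul_apply_eq_comp, ← h2,
    Φ.mul_apply b0 bc_sf, Φ.mul_apply bc_cf (gs_bc one_pos 0 _)]
  refine congrArg (fun f => Φ.F f η) (funext fun κ => ?_)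
  have h3 := gs_half 1 0 0 κ
  rw [zero_div, Real.exp_zero, zero_add, Complex.ofReal_one, one_mul] at h3
  rw [← h3, sf_eq]
  ring

end Vale.Agent.P096b
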