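import Vale.Agent.P096b.LogU

/-! Operators on square summable sequences. -/

set_option linter.unusedSectionVars false

namespace Vale.Agent.P096b

open Filter Topology Vale.Agent.P096 MeasureTheory
open scoped InnerProductSpace ComplexConjugate

universe u v

variable {H : Type u} [NormedAddCommGroup H] [InnerProductSpace ℂ H] [CompleteSpace H]

/-- Square summable sequences. -/
abbrev LZ (H : Type u) [NormedAddCommGroup H] : Type u := lp (fun _ : ℤ => H) 2

/-- The diagonal representation. -/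
noncomputable def amp : Op H →⋆ₐ[ℂ] Op (LZ H) where
  toFun x := lp.mapCLM 2 (fun _ => x) (norm_nonneg x) fun _ => le_rfl
  map_one' := by ext; rfl
  map_mul' _ _ := by ext; rfl
  map_zero' := by ext; rfl
  map_add' _ _ := by ext; rfl
  commutes' _ := by ext; rfl
  map_star' x := (ContinuousLinearMap.eq_adjoint_iff _ _).2 fun f g =>
    tsum_congr fun i => ContinuousLinearMap.adjoint_inner_left x (g i) (f i)

@[simp] theorem amp_apply (x : Op H) (f : LZ H) (k : ℤ) : amp x f k = x (f k) := rfl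

/-- The coordinate embeddings. -/
noncomputable def emb (k : ℤ) : H →ₗᵢ[ℂ] LZ H where
  toFun x := lp.single (E := fun _ : ℤ => H) 2 k x
  map_add' x y := lp.single_add (E := fun _ : ℤ => H) 2 k x y
  map_smul' c x := lp.single_smul (E := fun _ : ℤ => H) 2 k c x
  norm_map' x := lp.norm_single (E := fun _ : ℤ => H) (p := 2) (by norm_num) k x

theorem emb_apply (k l : ℤ) (η : H) : emb k η l = if l = k then η else 0 := by
  change lp.single (E := fun _ : ℤ => H) 2 k η l = _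
  rw [lp.single_apply, Pi.single_apply]

theorem inner_emb (k : ℤ) (η : H) (f : LZ H) : ⟪emb k η, f⟫_ℂ = ⟪η, f k⟫_ℂ := by
  exact lp.inner_single_left (G := fun _ : ℤ => H) k η f

theorem amp_emb (x : Op H) (k : ℤ) (η : H) : amp x (emb k η) = emb k (x η) := by
  ext l
  rw [amp_apply, emb_apply, emb_apply]
  split_ifs
  · rfl
  · exact map_zero x

theorem lz_norm (f : LZ H) : HasSum (fun k => ‖f k‖ ^ 2) (‖f‖ ^ 2) := by
  simpa using lp.hasSum_norm (p := 2) (by norm_num) f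

theorem lp_hasSum (f : LZ H) : HasSum (fun k => emb k (f k)) f :=
  lp.hasSum_single (E := fun _ : ℤ => H) (by norm_num) f

theorem lz_approx (f : LZ H) (ε : ℝ) (hε : 0 < ε) :
    ∃ s : Finset ℤ, ‖f - ∑ k ∈ s, emb k (f k)‖ < ε := by
  obtain ⟨s, hs⟩ := (Metric.tendsto_nhds.1 (lp_hasSum f) ε hε).exists
  exact ⟨s, by rwa [dist_comm, dist_eq_norm] at hs⟩

/-- Matrix entries. -/
noncomputable def ent (X : Op (LZ H)) (k l : ℤ) : Op H :=
  (lp.evalCLM ℂ (fun _ : ℤ => H) 2 k).comp (X.comp (emb l).toContinuousLinearMap)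

theorem ent_apply (X : Op (LZ H)) (k l : ℤ) (η : H) : ent X k l η = X (emb l η) k := rfl

theorem ent_star (X : Op (LZ H)) (k l : ℤ) : ent (star X) k l = star (ent X l k) := by
  refine (ContinuousLinearMap.eq_adjoint_iff _ _).2 fun η ζ => ?_
  rw [ent_apply, ent_apply, ← inner_emb, ← inner_conj_symm, ← inner_emb, inner_conj_symm]
  exact ContinuousLinearMap.adjoint_inner_left X _ _

theorem ent_norm (X : Op (LZ H)) (k l : ℤ) : ‖ent X k l‖ ≤ ‖X‖ := by
  refine ContinuousLinearMap.opNorm_le_bound _ (norm_nonneg _) fun η => ?_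
  rw [ent_apply, ← (emb l).norm_map η]
  exact (lp.norm_apply_le_norm (by norm_num) _ k).trans (X.le_opNorm _)

theorem ent_zero {X : Op (LZ H)} (h : ∀ k l, ent X k l = 0) : X = 0 := by
  have h1 : ∀ l η, X (emb l η) = 0 := fun l η => by
    ext k
    rw [← ent_apply, h]; rfl
  ext1 f
  have h2 := (lp_hasSum f).mapL X
  simp only [h1] at h2
  exact h2.unique hasSum_zero

theorem ent_comm {X : Op (LZ H)} {y : Op H} (h : X * amp y = amp y * X) (k l : ℤ) :
    ent X k l * y = y * ent X k l := by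
  ext η
  have h1 : X (amp y (emb l η)) = amp y (X (emb l η)) := DFunLike.congr_fun h (emb l η)
  change ent X k l (y η) = y (ent X k l η)
  rw [ent_apply, ent_apply, ← amp_emb, h1, amp_apply]

theorem lp_amp_le (x : Op H) : ‖amp x‖ ≤ ‖x‖ :=
  lp.norm_mapCLM_le 2 (fun _ => x) (norm_nonneg x) fun _ => le_rfl

theorem lp_tight (Φ : Calc H) (f : LZ H) (ε : ℝ) (hε : 0 < ε) :
    ∃ g, BC g ∧ HasCompactSupport g ∧ ‖amp (Φ.F g) f - f‖ < ε := by
  obtain ⟨s, hs⟩ := lz_approx f (ε / 3) (by linarith)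
  have h1 : Tendsto (fun n : ℕ => ∑ k ∈ s, emb k (Φ.F (fun κ => (calc_chi n κ : ℂ)) (f k))) atTop
      (𝓝 (∑ k ∈ s, emb k (f k))) :=
    tendsto_finsetSum _ fun k _ => ((emb k).continuous.tendsto _).comp (Φ.calc_tend (f k))
  obtain ⟨n, hn⟩ := (Metric.tendsto_nhds.1 h1 (ε / 3) (by linarith)).exists
  refine ⟨fun κ => (calc_chi n κ : ℂ), calc_bc_chi n, ?_, ?_⟩
  · refine HasCompactSupport.intro (isCompact_Icc (a := -((n : ℝ) + 1)) (b := n + 1)) fun κ hκ => ?_
    rw [calc_chi_zero (not_le.1 fun h => hκ (abs_le.1 h)).le, Complex.ofReal_zero]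
  · have h2 := (lp_amp_le _).trans (Φ.norm_le (calc_bc_chi n) (calc_norm_chi n))
    simp only [← amp_emb] at hn
    rw [← map_sum, dist_eq_norm] at hn
    generalize amp (Φ.F fun κ => (calc_chi n κ : ℂ)) = X at h2 hn
    generalize ∑ k ∈ s, emb k (f k) = g at hs hn
    have h3 : ‖X (f - g)‖ ≤ ‖f - g‖ :=
      (X.le_opNorm _).trans (mul_le_of_le_one_left (norm_nonneg _) h2)
    have h4 : X f - f = X (f - g) + (X g - g) - (f - g) := by rw [map_sub]; abel
    have h5 := norm_sub_le (X (f - g) + (X g - g)) (f - g)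
    have h6 := norm_add_le (X (f - g)) (X g - g)
    rw [h4]
    linarith

/-- The amplified functional calculus. -/
noncomputable def Calc.amp (Φ : Calc H) : Calc (LZ H) where
  F f := P096b.amp (Φ.F f)
  one := by rw [Φ.one, map_one]
  add hf hg := by rw [Φ.add hf hg, map_add]
  smul c hf := by rw [Φ.smul c hf, map_smul]
  mul hf hg := by rw [Φ.mul hf hg, map_mul]
  star hf := by rw [Φ.star hf, map_star]
  tight := lp_tight Φ

/-- The diagonal unitary with entries `U (-k T)`. -/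
noncomputable def Calc.dU (Φ : Calc H) (T : ℝ) : Op (LZ H) :=
  lp.mapCLM 2 (fun k : ℤ => Φ.U (-(k * T))) zero_le_one fun _ =>
    ContinuousLinearMap.opNorm_le_bound _ zero_le_one fun η => by rw [Φ.norm_U, one_mul]

theorem Calc.dU_apply (Φ : Calc H) (T : ℝ) (f : LZ H) (k : ℤ) :
    Φ.dU T f k = Φ.U (-(k * T)) (f k) := rfl

theorem Calc.star_dU (Φ : Calc H) (T : ℝ) : Star.star (Φ.dU T) = Φ.dU (-T) := by
  refine ((ContinuousLinearMap.eq_adjoint_iff _ _).2 fun f g => tsum_congr fun k => ?_).symm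
  rw [Calc.dU_apply, Calc.dU_apply, mul_neg, ← Φ.star_U]
  exact ContinuousLinearMap.adjoint_inner_left _ _ _

theorem Calc.dU_mem (Φ : Calc H) (T : ℝ) : Φ.dU T ∈ unitary (Op (LZ H)) := by
  rw [Unitary.mem_iff, Φ.star_dU]
  constructor
  · ext f k
    change (Φ.U (-(k * -T)) * Φ.U (-(k * T))) (f k) = f k
    rw [mul_neg, Φ.U_neg_mul]; rfl
  · ext f k
    change (Φ.U (-(k * T)) * Φ.U (-(k * -T))) (f k) = f k
    rw [mul_neg, Φ.U_mul_neg]; rfl

/-- The embedding into the crossed product. -/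
noncomputable def Calc.πT (Φ : Calc H) (T : ℝ) (x : Op H) : Op (LZ H) :=
  Φ.dU T * P096b.amp x * Star.star (Φ.dU T)

theorem Calc.πT_apply (Φ : Calc H) (T : ℝ) (x : Op H) (f : LZ H) (k : ℤ) :
    Φ.πT T x f k = Φ.σ (-(k * T)) x (f k) := by
  rw [Calc.πT, Φ.star_dU, Calc.σ, ← mul_neg (k : ℝ) T]
  rw [show Φ.U ((k : ℝ) * -T) = Φ.U (-(k * T)) by rw [mul_neg]]
  rfl

/-- The shift and its logarithm. -/
structure Sh (L b : Op (LZ H)) : Prop where
  uni : L ∈ unitary (Op (LZ H))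
  app : ∀ f k, L f k = f (k - 1)
  sa : star b = b
  exp : NormedSpace.exp (Complex.I • b) = L
  comm : ∀ y, y * L = L * y → y * star L = star L * y → y * b = b * y

theorem lp_mem (a : ℤ) (f : LZ H) : Memℓp (fun k : ℤ => f (k - a)) 2 :=
  memℓp_gen ((Equiv.subRight a).summable_iff.2 ((lp.memℓp f).summable (by norm_num)))

/-- The shifts. -/
noncomputable def lpSh (a : ℤ) : LZ H →ₗᵢ[ℂ] LZ H where
  toFun f := ⟨fun k => f (k - a), lp_mem a f⟩
  map_add' _ _ := rfl
  map_smul' _ _ := rfl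
  norm_map' f := by
    have h1 := lz_norm (⟨fun k => f (k - a), lp_mem a f⟩ : LZ H)
    have h2 := (Equiv.subRight a).hasSum_iff.2 (lz_norm f)
    exact (sq_eq_sq₀ (norm_nonneg _) (norm_nonneg _)).1 (h1.unique h2)

theorem exists_sh : ∃ L b : Op (LZ H), Sh L b := by
  have h1 : star (lpSh (H := H) 1).toContinuousLinearMap = (lpSh (-1)).toContinuousLinearMap := by
    refine ((ContinuousLinearMap.eq_adjoint_iff _ _).2 fun f g => ?_).symm
    rw [lp.inner_eq_tsum, lp.inner_eq_tsum, ← (Equiv.subRight (1 : ℤ)).tsum_eq]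
    refine tsum_congr fun k => ?_
    change ⟪f (k - 1 - -1), g (k - 1)⟫_ℂ = ⟪f k, g (k - 1)⟫_ℂ
    rw [show k - 1 - -1 = k by ring]
  have h2 : (lpSh (H := H) 1).toContinuousLinearMap ∈ unitary (Op (LZ H)) := by
    rw [Unitary.mem_iff, h1]
    constructor
    · ext f k
      change f (k - -1 - 1) = f k
      rw [show k - -1 - 1 = k by ring]
    · ext f k
      change f (k - 1 - -1) = f k
      rw [show k - 1 - -1 = k by ring]
  obtain ⟨b, b1, b2, b3⟩ := log_unitary h2
  exact ⟨_, b, h2, fun _ _ => rfl, b1, b2, b3⟩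

variable {L b : Op (LZ H)}

theorem Sh.amp_comm (h : Sh L b) (x : Op H) : amp x * L = L * amp x := by
  ext f k
  change amp x (L f) k = L (amp x f) k
  rw [amp_apply, h.app, h.app, amp_apply]

theorem Sh.amp_comm' (h : Sh L b) (x : Op H) : amp x * b = b * amp x := by
  refine h.comm _ (h.amp_comm x) ?_
  have h1 := congrArg star (h.amp_comm (star x))
  rw [star_mul, star_mul, ← map_star, star_star] at h1
  exact h1.symm

/-- The perturbed modular group. -/
noncomputable def Calc.W (Φ : Calc H) (b : Op (LZ H)) (T t : ℝ) : Op (LZ H) :=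
  NormedSpace.exp ((Complex.I * (-t / T : ℝ)) • b) * P096b.amp (Φ.U t)

theorem Sh.lp_comm (h : Sh L b) (x : Op H) (c : ℂ) :
    amp x * NormedSpace.exp (c • b) = NormedSpace.exp (c • b) * amp x :=
  (Commute.smul_right (h.amp_comm' x) c).exp_right

theorem lp_exp_add (b : Op (LZ H)) (c d : ℂ) :
    NormedSpace.exp ((c + d) • b) = NormedSpace.exp (c • b) * NormedSpace.exp (d • b) := by
  let : NormedAlgebra ℚ (Op (LZ H)) := NormedAlgebra.restrictScalars ℚ ℂ _
  rw [add_smul]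
  exact NormedSpace.exp_add_of_commute (((Commute.refl b).smul_left c).smul_right d)

theorem Sh.lp_star (h : Sh L b) (r : ℝ) : star (NormedSpace.exp ((Complex.I * r) • b))
    = NormedSpace.exp ((Complex.I * (-r : ℝ)) • b) := by
  rw [NormedSpace.star_exp, star_smul, h.sa]
  congr 2
  simp

theorem Sh.W_add (h : Sh L b) (Φ : Calc H) (T s t : ℝ) :
    Φ.W b T (s + t) = Φ.W b T s * Φ.W b T t := by
  rw [Calc.W, Calc.W, Calc.W, Φ.U_add, map_mul, mul_assoc, ← mul_assoc (amp (Φ.U s)), h.lp_comm,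
    ← mul_assoc, ← mul_assoc, ← mul_assoc, ← lp_exp_add]
  congr 4
  push_cast
  ring

theorem Sh.W_star (h : Sh L b) (Φ : Calc H) (T t : ℝ) : star (Φ.W b T t) = Φ.W b T (-t) := by
  rw [Calc.W, Calc.W, star_mul, ← map_star, Φ.star_U, h.lp_star, h.lp_comm, neg_div T (-t)]

theorem W_zero (Φ : Calc H) (T : ℝ) : Φ.W b T 0 = 1 := by
  simp [Calc.W, Φ.U_zero]

theorem Sh.W_mem (h : Sh L b) (Φ : Calc H) (T t : ℝ) : Φ.W b T t ∈ unitary (Op (LZ H)) := by
  rw [Unitary.mem_iff, h.W_star, ← h.W_add, ← h.W_add, neg_add_cancel, add_neg_cancel, W_zero]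
  exact ⟨rfl, rfl⟩

/-- The perturbed group as a representation. -/
noncomputable def Sh.rep (h : Sh L b) (Φ : Calc H) (T : ℝ) :
    Multiplicative ℝ →* unitary (Op (LZ H)) where
  toFun t := ⟨Φ.W b T t.toAdd, h.W_mem Φ T _⟩
  map_one' := Subtype.ext (W_zero Φ T)
  map_mul' _ _ := Subtype.ext (h.W_add Φ T _ _)

theorem Sh.W_period (h : Sh L b) (Φ : Calc H) {T : ℝ} (hT : T ≠ 0) :
    Φ.W b T T = star L * amp (Φ.U T) := by
  have h1 := h.lp_star 1
  rw [Complex.ofReal_one, mul_one, h.exp] at h1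
  rw [Calc.W, h1, neg_div, div_self hT]

theorem Sh.W_amp (h : Sh L b) (Φ : Calc H) (T t : ℝ) (y : Op H) :
    Φ.W b T t * amp y * star (Φ.W b T t) = amp (Φ.σ t y) := by
  rw [h.W_star, Calc.W, Calc.W, mul_assoc _ _ (amp y), ← map_mul, mul_assoc,
    ← mul_assoc (amp _), h.lp_comm, ← mul_assoc, ← mul_assoc, ← lp_exp_add, mul_assoc, ← map_mul,
    show Complex.I * ((-t / T : ℝ) : ℂ) + Complex.I * ((- -t / T : ℝ) : ℂ) = 0 by push_cast; ring,
    zero_smul, NormedSpace.exp_zero, one_mul, Calc.σ]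

theorem Sh.dU_conj (h : Sh L b) (Φ : Calc H) (T : ℝ) :
    Φ.dU T * L * star (Φ.dU T) = amp (Φ.U (-T)) * L := by
  rw [Φ.star_dU]
  ext f k
  change Φ.dU T (L (Φ.dU (-T) f)) k = amp (Φ.U (-T)) (L f) k
  rw [Calc.dU_apply, h.app, Calc.dU_apply, amp_apply, h.app]
  change (Φ.U _ * Φ.U _) _ = _
  rw [← Φ.U_add]
  congr 2
  push_cast
  ring

theorem Sh.lp_app (h : Sh L b) (f : LZ H) (k : ℤ) : star L f k = f (k + 1) := by
  have h1 : L (star L f) = f := DFunLike.congr_fun (Unitary.mul_star_self_of_mem h.uni) f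
  have h2 := h.app (star L f) (k + 1)
  rw [h1, add_sub_cancel_right] at h2
  exact h2.symm

theorem Sh.W_πT (h : Sh L b) (Φ : Calc H) {T : ℝ} (hT : T ≠ 0) (x : Op H) :
    Φ.W b T T * Φ.πT T x = Φ.πT T x * Φ.W b T T := by
  rw [h.W_period Φ hT]
  ext f k
  change star L (amp (Φ.U T) (Φ.πT T x f)) k = Φ.πT T x (star L (amp (Φ.U T) f)) k
  rw [h.lp_app, amp_apply, Calc.πT_apply, Calc.πT_apply, h.lp_app, amp_apply]
  change (Φ.U T * Φ.σ _ x) _ = (Φ.σ _ x * Φ.U T) _
  rw [Calc.σ, Calc.σ, ← mul_assoc, ← mul_assoc, ← Φ.U_add, mul_assoc _ _ (Φ.U T), ← Φ.U_add]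
  congr 4
  · push_cast; ring
  · push_cast; ring

/-- The centralizer in the crossed product. -/
noncomputable def Sh.R (h : Sh L b) (Φ : Calc H) (T : ℝ) (D : Alg H) : Alg (LZ H) :=
  cm (amp '' D ∪ Set.range fun g => (h.rep Φ T g : Op (LZ H)))

end Vale.Agent.P096b
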