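import Vale.Agent.P096b.PinEx
import Vale.Agent.P096b.Close
import Vale.Agent.P096b.Amen

/-! Reduction to pinned vectors. -/

set_option linter.unusedSectionVars false

namespace Vale.Agent.P096b

open Filter Topology Vale.Agent.P096 MeasureTheory
open scoped InnerProductSpace ComplexConjugate

universe u v

variable {H : Type u} [NormedAddCommGroup H] [InnerProductSpace ℂ H] [CompleteSpace H]

/-- If the cyclic vector is zero the space is trivial; otherwise normalize it. `enl π Λ B` and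
`enl π Λ D` are close by `comm_close`, `hyp_close`, `fix_close` (with `mean_lf`); finish with
`Lift.of_dil`. -/
theorem lift_std (hH : HyperStmt.{u}) (h : LiftPin.{u}) : LiftStd.{u} := by
  intro ε hε
  obtain ⟨δ₁, hδ₁, h1⟩ := h ε hε
  obtain ⟨K₀, hK₀, h2⟩ := hyp_close hH
  obtain ⟨K₁, hK₁, h3⟩ := comm_close hH
  refine ⟨δ₁ / (K₀ * K₁), by positivity, fun H _ _ _ A B N D hAB hND hc hP => ?_⟩
  obtain ⟨hsep, ξ, hN, hD⟩ := hP
  by_cases h0 : ξ = 0
  · have hz : ∀ η : H, η = 0 := fun η => hN.inner_zero fun a _ => by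
      rw [h0, map_zero, inner_zero_left]
    have hx : ∀ x : Op H, x = 0 := fun x => ContinuousLinearMap.ext fun η => hz _
    refine ⟨fun _ => 0, fun _ _ _ _ => (add_zero _).symm, fun _ _ _ => (smul_zero _).symm,
      fun x _ => ⟨zero_mem N, ?_⟩⟩
    rw [hx x]
    simp
  have hn : (‖ξ‖ : ℂ) ≠ 0 := by simpa using h0
  have hcy : ∀ M : Alg H, Cyc M ξ → Cyc M ((‖ξ‖ : ℂ)⁻¹ • ξ) := fun M hM η t ht => by
    obtain ⟨x, hx, h4⟩ := hM η t ht
    refine ⟨(‖ξ‖ : ℂ) • x, SMulMemClass.smul_mem _ hx, ?_⟩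
    rwa [smul_apply, map_smul, smul_smul, mul_inv_cancel₀ hn, one_smul]
  obtain ⟨K, _, _, _, π, j, Λ, ξ', Γ, hj, hmono, hfin, hcomm, hpin⟩ :=
    pin_exists hND (ξ₀ := (‖ξ‖ : ℂ)⁻¹ • ξ) (norm_smul_inv_norm h0) (hcy N hN) (hcy D hD)
  obtain ⟨m⟩ := mean_lf Λ hmono hfin
  have c0 := h3 _ _ _ _ _ _ hAB hND (by positivity) hc
  have c1 : Close (cm (π '' B)) (cm (π '' D)) (K₀ * (K₁ * (δ₁ / (K₀ * K₁)))) :=
    h2 H _ B D (π : Op H →ₗ[ℂ] Op K) _ (tl_closed hAB.symm) (tl_closed hND.symm)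
      (by positivity) c0 (fun x => NonUnitalStarAlgHom.norm_apply_le π x) (map_one π)
      (fun x => map_star π x) (fun x _ y _ => map_mul π x y) fun x _ y _ => map_mul π x y
  rw [show K₀ * (K₁ * (δ₁ / (K₀ * K₁))) = δ₁ by field_simp] at c1
  have hcomm' : ∀ g : ↥(⨆ n, Λ n), ∀ x,
      ((⨆ n, Λ n).subtype g : Op K) * π x = π x * ((⨆ n, Λ n).subtype g : Op K) := fun g x => by
    obtain ⟨n, hn⟩ := (Subgroup.mem_iSup_of_directed hmono.directed_le).1 g.2
    exact hcomm n _ hn x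
  have hcomm'' : ∀ g : ↥(⨆ n, Λ n), ∀ x, star ((⨆ n, Λ n).subtype g : Op K) * π x =
      π x * star ((⨆ n, Λ n).subtype g : Op K) := fun g x => by
    have h4 := congrArg star (hcomm' g (star x))
    rw [star_mul, star_mul, ← map_star, star_star] at h4
    exact h4.symm
  have hinv : ∀ M : Alg H, ∀ g : ↥(⨆ n, Λ n), ∀ x ∈ cm (π '' M),
      ((⨆ n, Λ n).subtype g : Op K) * x * star ((⨆ n, Λ n).subtype g : Op K) ∈ cm (π '' M) := by
    intro M g x hx
    have key : ∀ y, x * π y = π y * x → ((⨆ n, Λ n).subtype g : Op K) * x *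
        star ((⨆ n, Λ n).subtype g : Op K) * π y = π y * (((⨆ n, Λ n).subtype g : Op K) * x *
        star ((⨆ n, Λ n).subtype g : Op K)) := fun y hy => by
      rw [mul_assoc, hcomm'', ← mul_assoc, mul_assoc _ x, hy, ← mul_assoc, hcomm']
      simp only [mul_assoc]
    refine mem_cm.2 ?_
    rintro _ ⟨y, hy, rfl⟩
    have h4 := mem_cm.1 hx _ (Set.mem_image_of_mem π hy)
    rw [← map_star] at h4 ⊢
    exact ⟨key _ h4.1, key _ h4.2⟩
  have c2 : Close (enl π Λ B) (enl π Λ D) δ₁ :=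
    fix_close m (⨆ n, Λ n).subtype (hinv B) (hinv D) c1
  have h5 := h1 K (enl π Λ B) (cm (enl π Λ B : Set (Op K))) (enl π Λ D)
    (cm (enl π Λ D : Set (Op K))) (cp_cm _) (cp_cm _) c2 ⟨ξ', Γ, hpin⟩
  refine Lift.of_dil hND π j hj (fun x hx => mem_cm.2 ?_)
    (fun n hn y hy => (mem_cm.1 hn _ (Or.inl (Set.mem_image_of_mem π hy))).1) hε.le h5
  rintro _ (⟨y, hy, rfl⟩ | ⟨g, rfl⟩)
  · rw [← map_star, ← map_mul, ← map_mul, ← map_mul, ← map_mul, (hAB.left x).1 hx y hy,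
      (hAB.left x).1 hx _ (star_mem (s := B) hy)]
    exact ⟨rfl, rfl⟩
  · exact ⟨(hcomm' g x).symm, (hcomm'' g x).symm⟩

end Vale.Agent.P096b
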