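import Vale.Agent.P096b.Close

/-! Reduction to separable spaces. -/

set_option linter.unusedSectionVars false

namespace Vale.Agent.P096b

open Filter Topology Vale.Agent.P096 MeasureTheory
open scoped InnerProductSpace ComplexConjugate

universe u v

variable {H : Type u} [NormedAddCommGroup H] [InnerProductSpace ℂ H] [CompleteSpace H]

/-- Countable sets that are stable under countably many operations. -/
theorem sep_cnt {X ι : Type*} [Countable ι] (op : ι → X → X → X) {S P : Set X}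
    (hS : S.Countable) (hP : S ⊆ P) (hop : ∀ i, ∀ x ∈ P, ∀ y ∈ P, op i x y ∈ P) :
    ∃ T : Set X, T.Countable ∧ S ⊆ T ∧ T ⊆ P ∧ ∀ i, ∀ x ∈ T, ∀ y ∈ T, op i x y ∈ T := by
  let G : Set X → Set X := fun T => T ∪ ⋃ i, Set.image2 (op i) T T
  let T : ℕ → Set X := fun n => G^[n] S
  have hT : ∀ n, T (n + 1) = G (T n) := fun n => Function.iterate_succ_apply' G n S
  have hm : Monotone T := monotone_nat_of_le_succ fun n => by
    rw [hT]; exact Set.subset_union_left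
  have h1 : ∀ n, (T n).Countable ∧ T n ⊆ P := fun n => by
    induction n with
    | zero => exact ⟨hS, hP⟩
    | succ n ih =>
      rw [hT]
      refine ⟨ih.1.union (Set.countable_iUnion fun i => ih.1.image2 ih.1 _),
        Set.union_subset ih.2 (Set.iUnion_subset fun i => ?_)⟩
      rintro _ ⟨x, hx, y, hy, rfl⟩
      exact hop i x (ih.2 hx) y (ih.2 hy)
  refine ⟨⋃ n, T n, Set.countable_iUnion fun n => (h1 n).1, Set.subset_iUnion T 0,
    Set.iUnion_subset fun n => (h1 n).2, fun i x hx y hy => ?_⟩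
  obtain ⟨a, ha⟩ := Set.mem_iUnion.1 hx
  obtain ⟨b, hb⟩ := Set.mem_iUnion.1 hy
  refine Set.mem_iUnion.2 ⟨max a b + 1, ?_⟩
  rw [hT]
  exact Or.inr (Set.mem_iUnion.2 ⟨i, x, hm (le_max_left a b) ha, y, hm (le_max_right a b) hb, rfl⟩)

/-- The closure of a set that is stable under the algebraic operations. -/
theorem sep_alg {T : Set (Op H)} {Q : Set ℂ} (hQ : Dense Q)
    (h1 : ∀ q ∈ Q, algebraMap ℂ (Op H) q ∈ T) (ha : ∀ x ∈ T, ∀ y ∈ T, x + y ∈ T)
    (hm : ∀ x ∈ T, ∀ y ∈ T, x * y ∈ T) (hs : ∀ x ∈ T, star x ∈ T) :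
    ∃ B : Alg H, (B : Set (Op H)) = closure T :=
  ⟨{ carrier := closure T
     mul_mem' := fun hx hy => map_mem_closure₂ continuous_mul hx hy hm
     add_mem' := fun hx hy => map_mem_closure₂ continuous_add hx hy ha
     algebraMap_mem' := fun r => map_mem_closure (continuous_algebraMap ℂ (Op H)) (hQ r) h1
     star_mem' := fun hx => map_mem_closure continuous_star hx hs }, rfl⟩

theorem sep_near {B D : Alg H} {T : Set (Op H)} {δ : ℝ} (hδ : 0 < δ)
    (hB : (B : Set (Op H)) = closure T) (h : ∀ x ∈ T, ∃ y ∈ D, ‖x - y‖ ≤ δ * ‖x‖) :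
    Near B D (2 * δ) := fun x hx => by
  rcases eq_or_ne x 0 with rfl | h0
  · exact ⟨0, zero_mem _, by simp⟩
  have hx0 : 0 < ‖x‖ := norm_pos_iff.2 h0
  have hx' : x ∈ closure T := hB ▸ hx
  obtain ⟨x', h1, h2⟩ := Metric.mem_closure_iff.1 hx' (δ * ‖x‖ / (1 + δ)) (by positivity)
  obtain ⟨y, h3, h4⟩ := h x' h1
  refine ⟨y, h3, ?_⟩
  rw [dist_eq_norm, lt_div_iff₀ (by positivity)] at h2
  have h5 : ‖x - y‖ ≤ ‖x - x'‖ + ‖x' - y‖ := norm_sub_le_norm_sub_add_norm_sub _ _ _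
  have h6 : ‖x'‖ ≤ ‖x‖ + ‖x - x'‖ := by
    rw [norm_sub_rev]; exact norm_le_insert' _ _
  nlinarith [mul_le_mul_of_nonneg_left h6 hδ.le]

/-- Back and forth: separable closed subalgebras that are close to each other. -/
theorem sep_pair {B D : Alg H} {δ : ℝ} (hB : IsClosed (B : Set (Op H)))
    (hD : IsClosed (D : Set (Op H))) (hδ : 0 < δ) (h : Close B D δ) (F : Finset (Op H))
    (hF : ∀ y ∈ F, y ∈ D) : ∃ B₀ D₀ : Alg H, B₀ ≤ B ∧ D₀ ≤ D ∧ IsClosed (B₀ : Set (Op H)) ∧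
      IsClosed (D₀ : Set (Op H)) ∧ TopologicalSpace.IsSeparable (B₀ : Set (Op H)) ∧
      TopologicalSpace.IsSeparable (D₀ : Set (Op H)) ∧ (∀ y ∈ F, y ∈ D₀) ∧
      Close B₀ D₀ (2 * δ) := by
  obtain ⟨Q, hQc, hQ⟩ := TopologicalSpace.exists_countable_dense ℂ
  choose! f hf1 hf2 using h.1
  choose! g hg1 hg2 using h.2
  let op : Fin 4 → Op H × Op H → Op H × Op H → Op H × Op H :=
    ![fun a b => a + b, fun a b => a * b, fun a _ => star a, fun a _ => (g a.2, f a.1)]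
  obtain ⟨T, hTc, hS, hP, hop⟩ := sep_cnt op
    (S := (fun q => (algebraMap ℂ (Op H) q, algebraMap ℂ (Op H) q)) '' Q ∪
      (fun y => ((0 : Op H), y)) '' (F : Set (Op H)))
    (P := {a | a.1 ∈ B ∧ a.2 ∈ D}) ((hQc.image _).union (F.countable_toSet.image _))
    (by
      rintro _ (⟨q, -, rfl⟩ | ⟨y, hy, rfl⟩)
      · exact ⟨algebraMap_mem B q, algebraMap_mem D q⟩
      · exact ⟨zero_mem B, hF y hy⟩)
    (by
      intro i x hx y hy
      fin_cases i
      · exact ⟨add_mem hx.1 hy.1, add_mem hx.2 hy.2⟩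
      · exact ⟨mul_mem hx.1 hy.1, mul_mem hx.2 hy.2⟩
      · exact ⟨star_mem hx.1, star_mem hx.2⟩
      · exact ⟨hg1 _ hx.2, hf1 _ hx.1⟩)
  obtain ⟨B₀, hB₀⟩ := sep_alg (T := Prod.fst '' T) hQ
    (fun q hq => ⟨_, hS (Or.inl ⟨q, hq, rfl⟩), rfl⟩)
    (by rintro _ ⟨x, hx, rfl⟩ _ ⟨y, hy, rfl⟩; exact ⟨_, hop 0 x hx y hy, rfl⟩)
    (by rintro _ ⟨x, hx, rfl⟩ _ ⟨y, hy, rfl⟩; exact ⟨_, hop 1 x hx y hy, rfl⟩)
    (by rintro _ ⟨x, hx, rfl⟩; exact ⟨_, hop 2 x hx x hx, rfl⟩)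
  obtain ⟨D₀, hD₀⟩ := sep_alg (T := Prod.snd '' T) hQ
    (fun q hq => ⟨_, hS (Or.inl ⟨q, hq, rfl⟩), rfl⟩)
    (by rintro _ ⟨x, hx, rfl⟩ _ ⟨y, hy, rfl⟩; exact ⟨_, hop 0 x hx y hy, rfl⟩)
    (by rintro _ ⟨x, hx, rfl⟩ _ ⟨y, hy, rfl⟩; exact ⟨_, hop 1 x hx y hy, rfl⟩)
    (by rintro _ ⟨x, hx, rfl⟩; exact ⟨_, hop 2 x hx x hx, rfl⟩)
  have mB : ∀ a ∈ T, a.1 ∈ B₀ := fun a ha => by
    rw [← SetLike.mem_coe, hB₀]; exact subset_closure ⟨a, ha, rfl⟩
  have mD : ∀ a ∈ T, a.2 ∈ D₀ := fun a ha => by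
    rw [← SetLike.mem_coe, hD₀]; exact subset_closure ⟨a, ha, rfl⟩
  refine ⟨B₀, D₀, ?_, ?_, hB₀ ▸ isClosed_closure, hD₀ ▸ isClosed_closure,
    hB₀ ▸ (hTc.image _).isSeparable.closure, hD₀ ▸ (hTc.image _).isSeparable.closure,
    fun y hy => mD _ (hS (Or.inr ⟨y, hy, rfl⟩)), sep_near hδ hB₀ ?_, sep_near hδ hD₀ ?_⟩
  · rw [← SetLike.coe_subset_coe, hB₀]
    exact closure_minimal (by rintro _ ⟨a, ha, rfl⟩; exact (hP ha).1) hB
  · rw [← SetLike.coe_subset_coe, hD₀]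
    exact closure_minimal (by rintro _ ⟨a, ha, rfl⟩; exact (hP ha).2) hD
  · rintro _ ⟨a, ha, rfl⟩
    exact ⟨f a.1, mD _ (hop 3 a ha a ha), hf2 _ (hP ha).1⟩
  · rintro _ ⟨a, ha, rfl⟩
    exact ⟨g a.2, mB _ (hop 3 a ha a ha), hg2 _ (hP ha).2⟩

/-- A separable closed subspace that is invariant under a separable set of operators. -/
theorem sep_space {S : Set (Op H)} (hS : TopologicalSpace.IsSeparable S) (V : Finset H) :
    ∃ E : Submodule ℂ H, IsClosed (E : Set H) ∧ TopologicalSpace.IsSeparable (E : Set H) ∧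
      (∀ v ∈ V, v ∈ E) ∧ ∀ x ∈ S, ∀ η ∈ E, x η ∈ E := by
  obtain ⟨S₀, hc, hS₀⟩ := hS
  have := hc.to_subtype
  obtain ⟨T, hTc, hV, -, hop⟩ := sep_cnt (fun (i : S₀) (a _ : H) => i.1 a) (S := V)
    (P := Set.univ) V.countable_toSet (Set.subset_univ _) fun _ _ _ _ _ => trivial
  refine ⟨(Submodule.span ℂ T).topologicalClosure, Submodule.isClosed_topologicalClosure _,
    hTc.isSeparable.span.closure, fun v hv => subset_closure (Submodule.subset_span (hV hv)),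
    fun x hx η hη => ?_⟩
  refine map_mem_closure₂ (f := fun (x : Op H) (η : H) => x η)
    (isBoundedBilinearMap_apply (𝕜 := ℂ)).continuous (hS₀ hx) hη fun a ha b hb => ?_
  induction hb using Submodule.span_induction with
  | mem v hv => exact Submodule.subset_span (hop ⟨a, ha⟩ v hv v hv)
  | zero => simp
  | add _ _ _ _ h1 h2 => rw [map_add]; exact add_mem h1 h2
  | smul c _ _ h1 => rw [map_smul]; exact Submodule.smul_mem _ c h1

section Comp

variable (E : Submodule ℂ H) [CompleteSpace E]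

/-- The compression to a closed subspace. -/
noncomputable def sepPi : Op H →ₗ[ℂ] Op E where
  toFun x := E.orthogonalProjectionOnto ∘L x ∘L E.subtypeL
  map_add' x y := by ext; simp
  map_smul' c x := by ext; simp

/-- Extension by zero. -/
noncomputable def sepUp : Op E →ₗ[ℂ] Op H where
  toFun n := E.subtypeL ∘L n ∘L E.orthogonalProjectionOnto
  map_add' x y := by ext; simp
  map_smul' c x := by ext; simp

variable {E}

theorem sepPi_apply (x : Op H) (a : E) : sepPi E x a = E.orthogonalProjectionOnto (x a) := rfl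

theorem sepUp_apply (n : Op E) (η : H) : sepUp E n η = n (E.orthogonalProjectionOnto η) := rfl

theorem sepPi_inner (x : Op H) (a b : E) : ⟪a, sepPi E x b⟫_ℂ = ⟪(a : H), x b⟫_ℂ := by
  rw [sepPi_apply, Submodule.inner_orthogonalProjectionOnto_eq_of_mem_left]

theorem sepPi_norm (x : Op H) : ‖sepPi E x‖ ≤ ‖x‖ :=
  ContinuousLinearMap.opNorm_le_bound _ (norm_nonneg _) fun a =>
    (E.norm_orthogonalProjectionOnto_apply_le _).trans (x.le_opNorm a)

theorem sepUp_norm (n : Op E) : ‖sepUp E n‖ ≤ ‖n‖ :=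
  ContinuousLinearMap.opNorm_le_bound _ (norm_nonneg _) fun _ =>
    (n.le_opNorm _).trans
      (mul_le_mul_of_nonneg_left (E.norm_orthogonalProjectionOnto_apply_le _) (norm_nonneg _))

theorem sepPi_one : sepPi E 1 = 1 := by
  ext a; simp [sepPi_apply]

theorem sepPi_star (x : Op H) : sepPi E (star x) = star (sepPi E x) :=
  ContinuousLinearMap.ext fun b => ext_inner_left ℂ fun a => by
    rw [sepPi_inner, ← tl_inner, ← tl_inner, ← inner_conj_symm, ← sepPi_inner, inner_conj_symm]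

theorem sepPi_coe {b : Op H} (h : ∀ η ∈ E, b η ∈ E) (a : E) : (sepPi E b a : H) = b a :=
  Submodule.starProjection_eq_self_iff.2 (h a a.2)

theorem sepPi_proj {b : Op H} (h : ∀ η ∈ E, star b η ∈ E) (η : H) :
    E.orthogonalProjectionOnto (b η) = sepPi E b (E.orthogonalProjectionOnto η) :=
  ext_inner_left ℂ fun a => by
    rw [← tl_inner' (sepPi E b), ← sepPi_star, Submodule.inner_orthogonalProjectionOnto_eq_of_mem_left,
      Submodule.inner_orthogonalProjectionOnto_eq_of_mem_left, sepPi_coe h, tl_inner']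

theorem sepPi_mul_right {b : Op H} (h : ∀ η ∈ E, b η ∈ E) (x : Op H) :
    sepPi E (x * b) = sepPi E x * sepPi E b :=
  ContinuousLinearMap.ext fun a => by
    rw [mul_apply_eq_comp, sepPi_apply x, sepPi_coe h]; rfl

theorem sepPi_mul_left {b : Op H} (h : ∀ η ∈ E, star b η ∈ E) (x : Op H) :
    sepPi E (b * x) = sepPi E b * sepPi E x :=
  ContinuousLinearMap.ext fun a => by
    rw [mul_apply_eq_comp, sepPi_apply x, ← sepPi_proj h]; rfl

theorem sepUp_comm {y : Op H} (h : ∀ η ∈ E, y η ∈ E) (h' : ∀ η ∈ E, star y η ∈ E) {n : Op E}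
    (hn : n * sepPi E y = sepPi E y * n) : sepUp E n * y = y * sepUp E n :=
  ContinuousLinearMap.ext fun η => by
    rw [mul_apply_eq_comp, mul_apply_eq_comp, sepUp_apply, sepUp_apply,
      sepPi_proj h', ← sepPi_coe h, ← mul_apply_eq_comp, hn]; rfl

theorem sepUp_inner (n : Op E) (x : Op H) (a b : E) :
    ⟪(a : H), (sepUp E n - x) b⟫_ℂ = ⟪a, (n - sepPi E x) b⟫_ℂ := by
  rw [sub_apply, sub_apply, inner_sub_right,
    inner_sub_right, sepPi_inner, sepUp_apply,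
    Submodule.orthogonalProjectionOnto_mem_subspace_eq_self, Submodule.coe_inner]

theorem sepPi_mem {A B B₀ : Alg H} (h : CP A B) (hB : B₀ ≤ B) (hE : ∀ x ∈ B₀, ∀ η ∈ E, x η ∈ E)
    {x : Op H} (hx : x ∈ A) : sepPi E x ∈ cm (sepPi E '' B₀) := by
  have key : ∀ b ∈ B₀, sepPi E x * sepPi E b = sepPi E b * sepPi E x := fun b hb => by
    rw [← sepPi_mul_right (hE b hb), ← sepPi_mul_left (hE _ (star_mem hb)),
      (h.left x).1 hx b (hB hb)]
  refine mem_cm.2 ?_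
  rintro _ ⟨b, hb, rfl⟩
  exact ⟨key b hb, by rw [← sepPi_star]; exact key _ (star_mem hb)⟩

end Comp

/-- For finite `F ⊆ D`, `V ⊆ H` take `B₀, D₀, E` as above (`S = B₀ ∪ D₀`), let `π x` be the
compression to `E`, `A₀ = cm (π '' B₀)`, `N₀ = cm (π '' D₀)` (close by `hyp_close`), and
`Φ (F, V) x = ι Φ₀ (π x) ι*`. Conclude with `lift_of_lim` along `atTop`. -/
theorem lift_sep (hH : HyperStmt.{u}) (h : LiftSep.{u}) : LiftAll.{u} := by
  classical
  intro ε hε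
  obtain ⟨δ₀, hδ₀, h⟩ := h ε hε
  obtain ⟨K₀, hK₀, hc⟩ := hyp_close hH
  obtain ⟨K₁, hK₁, hc'⟩ := comm_close hH
  have hK₀' : 0 < K₀ := by linarith
  have hK₁' : 0 < K₁ := by linarith
  refine ⟨δ₀ / (2 * K₀ * K₁), by positivity, fun H _ _ _ A B N D hAB hND hcl _ => ?_⟩
  have hBD := hc' H A B N D _ hAB hND (by positivity) hcl
  have loc : ∀ i : Finset D × Finset H, ∃ Φ : Op H → Op H,
      (∀ x ∈ A, ∀ y ∈ A, Φ (x + y) = Φ x + Φ y) ∧ (∀ (c : ℂ), ∀ x ∈ A, Φ (c • x) = c • Φ x) ∧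
      (∀ x ∈ A, ‖Φ x‖ ≤ (ε + 1) * ‖x‖) ∧ (∀ x ∈ A, ∀ y ∈ i.1, Φ x * y = y * Φ x) ∧
      ∀ x ∈ A, ∀ ζ ∈ i.2, ∀ η ∈ i.2, ‖⟪η, (Φ x - x) ζ⟫_ℂ‖ ≤ ε * ‖x‖ * ‖η‖ * ‖ζ‖ := by
    rintro ⟨F, V⟩
    obtain ⟨B₀, D₀, hB, hD, cB, cD, sB, sD, hF, hcl₀⟩ := sep_pair (tl_closed hAB.symm)
      (tl_closed hND.symm) (by positivity) hBD (F.image Subtype.val) fun y hy => by
        obtain ⟨z, -, rfl⟩ := Finset.mem_image.1 hy
        exact z.2
    obtain ⟨E, cE, sE, hV, hE⟩ := sep_space (sB.union sD) V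
    have : CompleteSpace E := cE.completeSpace_coe
    have hEB : ∀ x ∈ B₀, ∀ η ∈ E, x η ∈ E := fun x hx => hE x (Or.inl hx)
    have hED : ∀ x ∈ D₀, ∀ η ∈ E, x η ∈ E := fun x hx => hE x (Or.inr hx)
    have h1 := hc H E B₀ D₀ (sepPi E) _ cB cD (by positivity) hcl₀ sepPi_norm sepPi_one sepPi_star
      (fun x _ y hy => sepPi_mul_right (hEB y hy) x) fun x _ y hy => sepPi_mul_right (hED y hy) x
    have e : K₀ * (2 * (K₁ * (δ₀ / (2 * K₀ * K₁)))) = δ₀ := by field_simp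
    rw [e] at h1
    obtain ⟨Φ, a1, a2, a3⟩ := h E _ _ _ _ (cp_cm _) (cp_cm _) h1 sE.separableSpace
    have m : ∀ x ∈ A, sepPi E x ∈ cm (sepPi E '' B₀) := fun x hx => sepPi_mem hAB hB hEB hx
    have a4 : ∀ x ∈ A, ‖Φ (sepPi E x) - sepPi E x‖ ≤ ε * ‖x‖ := fun x hx =>
      (a3 _ (m x hx)).2.trans (mul_le_mul_of_nonneg_left (sepPi_norm x) hε.le)
    refine ⟨fun x => sepUp E (Φ (sepPi E x)), fun x hx y hy => ?_, fun c x hx => ?_,
      fun x hx => ?_, fun x hx y hy => ?_, fun x hx ζ hζ η hη => ?_⟩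
    · simp only [map_add, a1 _ (m x hx) _ (m y hy)]
    · simp only [map_smul, a2 c _ (m x hx)]
    · refine (sepUp_norm _).trans ((norm_le_norm_sub_add _ (sepPi E x)).trans ?_)
      linarith [a4 x hx, sepPi_norm (E := E) x]
    · have hy' : (y : Op H) ∈ D₀ := hF _ (Finset.mem_image_of_mem _ hy)
      exact sepUp_comm (hED _ hy') (hED _ (star_mem hy'))
        (mem_cm.1 (a3 _ (m x hx)).1 _ ⟨_, hy', rfl⟩).1
    · have := sepUp_inner (Φ (sepPi E x)) x ⟨η, hV η hη⟩ ⟨ζ, hV ζ hζ⟩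
      refine (congrArg norm this).le.trans ((norm_inner_le_norm _ _).trans ?_)
      rw [mul_comm (ε * ‖x‖), mul_assoc]
      exact mul_le_mul_of_nonneg_left
        ((Φ (sepPi E x) - sepPi E x).le_of_opNorm_le (a4 x hx) _) (norm_nonneg _)
  choose Φ a1 a2 a3 a4 a5 using loc
  refine lift_of_lim atTop hND hε.le Φ a1 a2 a3 (fun x hx y hy => ?_) fun x hx ζ η t ht => ?_
  · filter_upwards [eventually_ge_atTop (({⟨y, hy⟩}, ∅) : Finset D × Finset H)] with i hi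
    exact a4 i x hx ⟨y, hy⟩ (hi.1 (Finset.mem_singleton_self _))
  · filter_upwards [eventually_ge_atTop ((∅, {ζ, η}) : Finset D × Finset H)] with i hi
    exact (a5 i x hx ζ (hi.2 (by simp)) η (hi.2 (by simp))).trans (by linarith)

end Vale.Agent.P096b
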