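import Vale.Agent.P096b.L0
import Vale.Agent.P096b.Sep
import Vale.Agent.P096b.Amp
import Vale.Agent.P096b.Ind
import Vale.Agent.P096b.PinLift
import Vale.Agent.P096b.KZ
import Vale.Agent.P096b.Flow
import Vale.Agent.P096b.Cross
import Vale.Agent.P096.All

/-! Assembly. -/

set_option linter.unusedSectionVars false

namespace Vale.Agent.P096b

open Filter Topology Vale.Agent.P096 MeasureTheory
open scoped InnerProductSpace ComplexConjugate

universe u v

variable {H : Type u} [NormedAddCommGroup H] [InnerProductSpace ℂ H] [CompleteSpace H]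

theorem lift_all : LiftAll.{u} :=
  lift_sep hyper (lift_amp hyper (lift_ind hyper (lift_std hyper (lift_pin hyper
    (lift_pin2 hyper (lift_mod hyper main_all))))))

theorem full : ∀ ε : ℝ, 0 < ε → ∃ δ : ℝ, 0 < δ ∧
    ∀ (H : Type u) [NormedAddCommGroup H] [InnerProductSpace ℂ H] [CompleteSpace H]
      (M N : VonNeumannAlgebra H), kkDist M N < δ →
      ∃ u ∈ unitary (H →L[ℂ] H), (fun x => u * x * star u) '' (M : Set (H →L[ℂ] H)) = N ∧
        ‖u - 1‖ < ε := by
  intro ε ε0
  obtain ⟨a, a0, h1⟩ := unitary_of_lift.{u} hyper (ε / 2) (by positivity)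
  obtain ⟨b, b0, h2⟩ := lift_all.{u} a a0
  refine ⟨min a b, by positivity, fun H _ _ _ M N hd => ?_⟩
  have hd' : kkDist N M < min a b := by rwa [kkDist, Metric.hausdorffDist_comm]
  obtain ⟨u, hu, u1, u2⟩ := h1 H _ _ _ _ (cp_of M) (cp_of N) ((near_of hd').mono (min_le_left _ _))
    (h2 H _ _ _ _ (cp_of M) (cp_of N)
      (Close.mono ⟨near_of hd, near_of hd'⟩ (min_le_right _ _)) trivial)
  refine ⟨u, hu, ?_, by linarith⟩
  ext y
  refine ⟨?_, fun hy => ⟨star u * y * u, ?_, ?_⟩⟩
  · rintro ⟨x, hx, rfl⟩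
    exact (u2 x).1 hx
  · refine (u2 _).2 ?_
    have e : u * (star u * y * u) * star u = (u * star u) * y * (u * star u) := by noncomm_ring
    rw [e, hu.2, one_mul, mul_one]
    exact hy
  · have e : u * (star u * y * u) * star u = (u * star u) * y * (u * star u) := by noncomm_ring
    show u * (star u * y * u) * star u = y
    rw [e, hu.2, one_mul, mul_one]

end Vale.Agent.P096b
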