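import Vale.Agent.P096b.ModApi

/-! Finite groups of matched pairs. -/

set_option linter.unusedSectionVars false

namespace Vale.Agent.P096b

open Filter Topology Vale.Agent.P096 MeasureTheory
open scoped InnerProductSpace ComplexConjugate

universe u v

variable {H : Type u} [NormedAddCommGroup H] [InnerProductSpace ℂ H] [CompleteSpace H]

variable {H₀ : Type u} [NormedAddCommGroup H₀] [InnerProductSpace ℂ H₀] [CompleteSpace H₀]
  {D₀ : Alg H₀}

/-- The relative commutant as an algebra. -/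
noncomputable def Stage.CA (S : Stage D₀) : Alg S.H :=
  cm ((S.D : Set (Op S.H)) ∪ {g | ∃ γ ∈ S.Γ, g = (γ.1 : Op S.H)})

theorem Stage.mem_CA (S : Stage D₀) {x : Op S.H} : x ∈ S.CA ↔ S.C x := by
  rw [Stage.CA, mem_cm']
  · refine ⟨fun h => ⟨(S.cp.left x).2 fun y hy => h y (Or.inl hy),
      fun γ hγ => (h _ (Or.inr ⟨γ, hγ, rfl⟩)).symm⟩, fun h y hy => ?_⟩
    rcases hy with hy | ⟨γ, hγ, rfl⟩
    · exact (S.cp.left x).1 h.1 y hy
    · exact (h.2 γ hγ).symm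
  · rintro y (hy | ⟨γ, hγ, rfl⟩)
    · exact Or.inl (star_mem (s := S.D) hy)
    · exact Or.inr ⟨γ⁻¹, inv_mem hγ, rfl⟩

theorem Stage.CA_le (S : Stage D₀) : S.CA ≤ S.N := fun _ hx => (S.mem_CA.1 hx).1

theorem Stage.CA_σ (S : Stage D₀) (μ : Mod S.N S.D S.ξ) (t : ℝ) (x : Op S.H) (hx : x ∈ S.CA) :
    μ.σ t x ∈ S.CA := by
  rw [S.mem_CA] at hx ⊢
  refine ⟨μ.uA t x hx.1, fun γ hγ => ?_⟩
  have h := (μ.pair (S.memN γ hγ) (S.memD γ hγ) γ.1.2 γ.2.2 (S.fix γ hγ)).2.1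
  rw [Calc.σ, ← mul_assoc, ← mul_assoc, ← h, mul_assoc (μ.U t), hx.2 γ hγ, mul_assoc,
    mul_assoc, ← h, mul_assoc, mul_assoc]

theorem Stage.CA_dbl (S : Stage D₀) (x : Op S.H) (hx : x ∈ S.CA)
    (h : ∀ c ∈ S.CA, x * c = c * x) : x ∈ S.D :=
  S.dbl x (S.mem_CA.1 hx).1 (S.mem_CA.1 hx).2 fun c h1 h2 => h c (S.mem_CA.2 ⟨h1, h2⟩)

theorem Stage.ok (S : Stage D₀) (μ : Mod S.N S.D S.ξ) : S.Ok μ.toCj := fun γ hγ =>
  (μ.pair (S.memN γ hγ) (S.memD γ hγ) γ.1.2 γ.2.2 (S.fix γ hγ)).1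

theorem pauli_avg_le {G E : Type*} [Fintype G] [Nonempty G] [NormedAddCommGroup E]
    [NormedSpace ℂ E] {f : G → E} {C : ℝ} (h : ∀ g, ‖f g‖ ≤ C) :
    ‖(Fintype.card G : ℂ)⁻¹ • ∑ g, f g‖ ≤ C := by
  have h0 : (0 : ℝ) < Fintype.card G := by exact_mod_cast Fintype.card_pos
  rw [norm_smul, norm_inv, Complex.norm_natCast, inv_mul_le_iff₀ h0]
  refine (norm_sum_le _ _).trans ((Finset.sum_le_sum fun g _ => h g).trans_eq ?_)
  rw [Finset.sum_const, Finset.card_univ, nsmul_eq_mul]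

theorem pauli_star_apply {u : Op H} (hu : u ∈ unitary (Op H)) (η : H) : star u (u η) = η :=
  congrArg (fun T : Op H => T η) hu.1

/-- Averaging over the finite group: `a' = avg g a g*`, so `a' ξ = P (a ξ)` with `P = avg g h`,
a contraction with `P (g h) = P`. -/
theorem Stage.avg (S : Stage D₀) {a : Op S.H} (ha : a ∈ S.N) : ∃ a', S.C a' ∧ ‖a'‖ ≤ ‖a‖ ∧
    a S.ξ - a' S.ξ ∈ S.Mv ∧ ∀ γ ∈ S.Γ,
      ‖a' S.ξ‖ ≤ ‖(1 / 2 : ℂ) • (a S.ξ + (γ.1 : Op S.H) ((γ.2 : Op S.H) (a S.ξ)))‖ := by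
  haveI := S.finΓ
  haveI := Fintype.ofFinite S.Γ
  have h0 : (Fintype.card S.Γ : ℂ) ≠ 0 := by exact_mod_cast Fintype.card_ne_zero
  let P : S.H → S.H := fun η => (Fintype.card S.Γ : ℂ)⁻¹ •
    ∑ γ : S.Γ, (γ.1.1 : Op S.H) ((γ.1.2 : Op S.H) η)
  have h1 : ((Fintype.card S.Γ : ℂ)⁻¹ •
      ∑ γ : S.Γ, (γ.1.1 : Op S.H) * a * star (γ.1.1 : Op S.H)) S.ξ = P (a S.ξ) := by
    rw [ContinuousLinearMap.smul_apply, ContinuousLinearMap.sum_apply]
    refine congrArg _ (Finset.sum_congr rfl fun γ _ => ?_)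
    rw [← S.cp.app ha (S.memD _ γ.2), ← pauli_star_apply γ.1.1.2 ((γ.1.2 : Op S.H) S.ξ),
      S.fix _ γ.2]
    rfl
  refine ⟨(Fintype.card S.Γ : ℂ)⁻¹ • ∑ γ : S.Γ, (γ.1.1 : Op S.H) * a * star (γ.1.1 : Op S.H),
    ⟨S.N.smul_mem (sum_mem fun γ _ => mul_mem (mul_mem (S.memN _ γ.2) ha)
      (star_mem (S.memN _ γ.2))) _, fun δ hδ => ?_⟩, pauli_avg_le fun γ => ?_, ?_, fun δ hδ => ?_⟩
  · rw [mul_smul_comm, smul_mul_assoc, Finset.mul_sum, Finset.sum_mul]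
    refine congrArg _ (Fintype.sum_equiv (Equiv.mulLeft (⟨δ, hδ⟩ : S.Γ)) _ _ fun γ => ?_)
    change _ = (δ.1 : Op S.H) * γ.1.1 * a * star ((δ.1 : Op S.H) * γ.1.1) * δ.1
    rw [star_mul, mul_assoc, mul_assoc _ _ (δ.1 : Op S.H), mul_assoc _ _ (δ.1 : Op S.H), δ.1.2.1,
      mul_one]
    simp only [mul_assoc]
  · rw [CStarRing.norm_mul_mem_unitary _ (Unitary.star_mem γ.1.1.2),
      CStarRing.norm_mem_unitary_mul _ γ.1.1.2]
  · have h2 : a S.ξ - P (a S.ξ) = -((Fintype.card S.Γ : ℂ)⁻¹ •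
        ∑ γ : S.Γ, ((γ.1.1 : Op S.H) ((γ.1.2 : Op S.H) (a S.ξ)) - a S.ξ)) := by
      rw [Finset.sum_sub_distrib, Finset.sum_const, Finset.card_univ, smul_sub,
        ← Nat.cast_smul_eq_nsmul ℂ, inv_smul_smul₀ h0, neg_sub]
    rw [h1, h2]
    exact neg_mem (S.Mv.smul_mem _ (sum_mem fun γ _ => Submodule.subset_span ⟨γ.1, γ.2, _, rfl⟩))
  · have h2 : ∀ η, P ((δ.1 : Op S.H) ((δ.2 : Op S.H) η)) = P η := fun η => by
      refine congrArg (_ • ·) (Fintype.sum_equiv (Equiv.mulRight (⟨δ, hδ⟩ : S.Γ)) _ _ fun γ => ?_)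
      rw [← S.cp.app (S.memN _ hδ) (S.memD _ γ.2)]
      rfl
    have h3 : ∀ η η', P ((1 / 2 : ℂ) • (η + η')) = (1 / 2 : ℂ) • (P η + P η') := fun η η' => by
      simp only [P, map_smul, map_add, ← Finset.smul_sum, Finset.sum_add_distrib]
      module
    have h4 : P (a S.ξ) =
        P ((1 / 2 : ℂ) • (a S.ξ + (δ.1 : Op S.H) ((δ.2 : Op S.H) (a S.ξ)))) := by
      rw [h3, h2]
      module
    rw [h1, h4]
    exact pauli_avg_le fun γ => by rw [unitary_norm γ.1.1.2, unitary_norm γ.1.2.2]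

/-- Adding a normalizing element to a finite group. -/
theorem finite_sup {G : Type*} [Group G] (K : Subgroup G) [Finite K] {s : G} (h2 : s * s ∈ K)
    (hn : ∀ k ∈ K, s * k * s⁻¹ ∈ K) : Finite ↥(K ⊔ Subgroup.closure {s}) := by
  let L : Subgroup G :=
    { carrier := {g | g ∈ K ∨ g * s⁻¹ ∈ K}
      one_mem' := Or.inl K.one_mem
      mul_mem' := by
        rintro g g' (h | h) (h' | h')
        · exact Or.inl (K.mul_mem h h')
        · exact Or.inr (mul_assoc g g' s⁻¹ ▸ K.mul_mem h h')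
        · exact Or.inr (by simpa only [mul_assoc, inv_mul_cancel_left] using K.mul_mem h (hn _ h'))
        · exact Or.inl (by simpa only [mul_assoc, inv_mul_cancel_left, inv_mul_cancel, mul_one]
            using K.mul_mem (K.mul_mem h (hn _ h')) h2)
      inv_mem' := by
        rintro g (h | h)
        · exact Or.inl (K.inv_mem h)
        · exact Or.inr (by simpa only [mul_assoc, mul_inv_rev, inv_inv, inv_mul_cancel_left]
            using K.mul_mem (K.inv_mem h2) (hn _ (K.inv_mem h))) }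
  have h1 : K ⊔ Subgroup.closure {s} ≤ L := sup_le (fun g hg => Or.inl hg)
    ((Subgroup.closure_le _).2 (Set.singleton_subset_iff.2
      (Or.inr (by rw [mul_inv_cancel]; exact K.one_mem))))
  have h3 : (K : Set G).Finite := Set.toFinite _
  refine ((h3.union (h3.image (· * s))).subset fun g hg => ?_).to_subtype
  exact (h1 hg).imp id fun h => ⟨_, h, inv_mul_cancel_right g s⟩

/-- The first stage. -/
theorem stage_zero [TopologicalSpace.SeparableSpace H₀] {N₀ : Alg H₀} (h : CP N₀ D₀) {ξ : H₀}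
    (h1 : ‖ξ‖ = 1) (hN : Cyc N₀ ξ) (hD : Cyc D₀ ξ) : Nonempty (Stage D₀) :=
  ⟨{ H := H₀, N := N₀, D := D₀, cp := h, ξ := ξ, norm := h1, cycN := hN, cycD := hD
     π := .id ℂ _, j := .id, πj := fun _ _ => rfl, Λ := ⊥, finΛ := inferInstance
     comm := fun l hl x => by simp [Subgroup.mem_bot.1 hl]
     gen := fun x => ⟨fun hx => ⟨(h.left x).1 hx, fun l hl => by simp [Subgroup.mem_bot.1 hl]⟩,
       fun hx => (h.left x).2 hx.1⟩
     Γ := ⊥, finΓ := inferInstance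
     memN := fun γ hγ => by rw [Subgroup.mem_bot.1 hγ]; exact one_mem N₀
     memD := fun γ hγ => by rw [Subgroup.mem_bot.1 hγ]; exact one_mem D₀
     fix := fun γ hγ => by rw [Subgroup.mem_bot.1 hγ]; rfl
     dbl := fun x _ _ hx => (h.right x).2 fun c hc =>
       hx c hc fun γ hγ => by simp [Subgroup.mem_bot.1 hγ] }⟩

theorem pauli_norm {G : Type*} [Group G] {K L : Subgroup G} {s t : G}
    (h1 : ∀ k ∈ K, s * k * s⁻¹ ∈ L) (h2 : s * t * s⁻¹ ∈ L) :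
    ∀ k ∈ K ⊔ Subgroup.closure {t}, s * k * s⁻¹ ∈ L := fun _ hk =>
  (sup_le (fun k hk => h1 k hk) ((Subgroup.closure_le _).2 (Set.singleton_subset_iff.2 h2)) :
    K ⊔ Subgroup.closure {t} ≤ L.comap (MulAut.conj s).toMonoidHom) hk

/-- The enlarged group. -/
theorem pauli_group {G : Type*} [Group G] (K : Subgroup G) [Finite K] {m a b : G}
    (hm : ∀ g, m * g = g * m) (m2 : m * m = 1) (a2 : a * a = 1) (b2 : b * b = 1)
    (ha : ∀ k ∈ K, a * k = k * a) (hb : ∀ k ∈ K, b * k = k * b) (hab : b * a = m * a * b) :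
    ∃ K' : Subgroup G, Finite K' ∧ K ≤ K' ∧ a ∈ K' ∧ b ∈ K' ∧
      ∀ L : Subgroup G, K ≤ L → m ∈ L → a ∈ L → b ∈ L → K' ≤ L := by
  have l : ∀ (L : Subgroup G) (t : G), ∀ k ∈ L, k ∈ L ⊔ Subgroup.closure {t} := fun L t k hk =>
    Subgroup.mem_sup_left hk
  have r : ∀ (L : Subgroup G) (t : G), t ∈ L ⊔ Subgroup.closure {t} := fun L t =>
    Subgroup.mem_sup_right (Subgroup.mem_closure_singleton_self t)
  have u : ∀ {L M : Subgroup G} {t : G}, L ≤ M → t ∈ M → L ⊔ Subgroup.closure {t} ≤ M :=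
    fun h h' => sup_le h ((Subgroup.closure_le _).2 (Set.singleton_subset_iff.2 h'))
  haveI := finite_sup K (s := m) (m2 ▸ K.one_mem) fun k hk => by
    rwa [hm, mul_inv_cancel_right]
  haveI := finite_sup (K ⊔ Subgroup.closure {m}) (s := a) (a2 ▸ Subgroup.one_mem _)
    (pauli_norm (fun k hk => by rw [ha k hk, mul_inv_cancel_right]; exact l _ _ k hk)
      (by rw [← hm, mul_inv_cancel_right]; exact r _ _))
  refine ⟨K ⊔ Subgroup.closure {m} ⊔ Subgroup.closure {a} ⊔ Subgroup.closure {b},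
    finite_sup _ (b2 ▸ Subgroup.one_mem _) (pauli_norm (pauli_norm (fun k hk => ?_) ?_) ?_),
    fun k hk => l _ _ _ (l _ _ _ (l _ _ _ hk)), l _ _ _ (r _ _), r _ _,
    fun L h1 h2 h3 h4 => u (u (u h1 h2) h3) h4⟩
  · rw [hb k hk, mul_inv_cancel_right]
    exact l _ _ _ (l _ _ _ hk)
  · rw [← hm, mul_inv_cancel_right]
    exact l _ _ _ (r _ _)
  · rw [hab, mul_inv_cancel_right]
    exact Subgroup.mul_mem _ (l _ _ _ (r _ _)) (r _ _)

/-- The pairs that fix a vector. -/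
def pauliFix {N D : Alg H} (h : CP N D) (ξ : H) : Subgroup (UU H) where
  carrier := {γ | (γ.1 : Op H) ∈ N ∧ (γ.2 : Op H) ∈ D ∧ (γ.1 : Op H) ((γ.2 : Op H) ξ) = ξ}
  one_mem' := ⟨one_mem N, one_mem D, rfl⟩
  mul_mem' := fun {γ δ} h1 h2 => ⟨mul_mem h1.1 h2.1, mul_mem h1.2.1 h2.2.1, by
    change (γ.1 : Op H) ((δ.1 : Op H) ((γ.2 : Op H) ((δ.2 : Op H) ξ))) = ξ
    rw [h.app h2.1 h1.2.1, h2.2.2, h1.2.2]⟩
  inv_mem' := fun {γ} h1 => ⟨star_mem h1.1, star_mem h1.2.1, by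
    change star (γ.1 : Op H) (star (γ.2 : Op H) ξ) = ξ
    conv_lhs => rw [← h1.2.2]
    rw [h.app h1.1 h1.2.1, pauli_star_apply γ.2.2, pauli_star_apply γ.1.2]⟩

/-- The pairs whose first member commutes with an operator. -/
def pauliCom (d : Op H) : Subgroup (UU H) where
  carrier := {γ | (γ.1 : Op H) * d = d * γ.1}
  one_mem' := (one_mul d).trans (mul_one d).symm
  mul_mem' := fun {γ δ} h1 h2 => by
    change (γ.1 : Op H) * δ.1 * d = d * (γ.1 * δ.1)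
    rw [mul_assoc, h2, ← mul_assoc, h1, mul_assoc]
  inv_mem' := fun {γ} h1 => by
    change star (γ.1 : Op H) * d = d * star (γ.1 : Op H)
    rw [← mul_one (_ * d), ← γ.1.2.2, ← mul_assoc, mul_assoc _ d, ← h1, ← mul_assoc, γ.1.2.1,
      one_mul]

theorem pauli_parts {x c u v : Op H} (v2 : v * v = 1) (xv : x * v = v * x)
    (h1 : x * (c + u * c * u) = (c + u * c * u) * x)
    (h2 : x * ((c - u * c * u) * v) = (c - u * c * u) * v * x) : x * c = c * x := by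
  have h3 : x * (c - u * c * u) = (c - u * c * u) * x := by
    rw [mul_assoc _ v, ← xv, ← mul_assoc, ← mul_assoc] at h2
    simpa only [mul_assoc, v2, mul_one] using congrArg (· * v) h2
  refine smul_right_injective _ (two_ne_zero (α := ℂ)) ?_
  simp only [two_smul]
  rw [mul_add, add_mul] at h1
  rw [mul_sub, sub_mul] at h3
  linear_combination (norm := abel) h1 + h3

theorem pauli_dbl {C : Alg H} {x s z : Op H} (hs : s ∈ C) (hz : z ∈ C) (s2 : s * s = 1)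
    (z2 : z * z = 1) (anti : s * z = -(z * s)) (xs : x * s = s * x) (xz : x * z = z * x)
    (h : ∀ d ∈ C, s * d = d * s → z * d = d * z → x * d = d * x) :
    ∀ c ∈ C, x * c = c * x := by
  have s3 : ∀ y, s * (s * y) = y := fun y => by rw [← mul_assoc, s2, one_mul]
  have z3 : ∀ y, z * (z * y) = y := fun y => by rw [← mul_assoc, z2, one_mul]
  have a3 : ∀ y, s * (z * y) = -(z * (s * y)) := fun y => by
    rw [← mul_assoc, anti, neg_mul, mul_assoc]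
  have h1 : ∀ d ∈ C, s * d = d * s → x * d = d * x := fun d hd e => by
    have e3 : ∀ y, s * (d * y) = d * (s * y) := fun y => by rw [← mul_assoc, e, mul_assoc]
    have m := mul_mem (mul_mem hz hd) hz
    refine pauli_parts (u := z) s2 xs (h _ (add_mem hd m) ?_ ?_)
      (h _ (mul_mem (sub_mem hd m) hs) ?_ ?_) <;>
    simp only [mul_add, add_mul, mul_sub, sub_mul, mul_assoc, a3, e3, e, anti, mul_neg, neg_neg,
      z3, z2, s3, s2, mul_one] <;> abel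
  intro c hc
  have m := mul_mem (mul_mem hs hc) hs
  refine pauli_parts (u := s) z2 xz (h1 _ (add_mem hc m) ?_)
    (h1 _ (mul_mem (sub_mem hc m) hz) ?_)
  · simp only [mul_add, add_mul, mul_assoc, s3, s2, mul_one]
    abel
  · have a4 : z * s = -(s * z) := by rw [anti, neg_neg]
    simp only [mul_sub, sub_mul, mul_assoc, s3, a4, mul_neg]
    abel

theorem pauli_sep {N D : Alg H} {ξ : H} (κ : Cj N D ξ) {x p : Op H} (hx : x ∈ N) (hp : p ∈ N)
    (p1 : star p = p) (h : jc κ.J p (x (p ξ)) = 0) : x * p = 0 := by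
  by_contra h0
  have h1 := κ.pos _ (mul_mem hx hp) h0
  have h2 : κ.J (star (x * p) ξ) = jc κ.J p (κ.J (star x ξ)) := by
    rw [star_mul, p1, jc_apply, κ.JJ]
    rfl
  rw [h2, tl_inner, ← jc_star κ.JJ, p1] at h1
  change 0 < (⟪_, jc κ.J p (x (p ξ))⟫_ℂ).re at h1
  simp [h] at h1

theorem pauli_vec {ξ η : H} (h1 : ‖ξ‖ = 1) (h2 : ‖η‖ = 1) {ε : ℝ} (ε1 : ε ≤ 1)
    (h : ‖ξ - η‖ ≤ ε) : ∃ c : ℝ, c ≠ 0 ∧ ‖(c : ℂ) • (ξ + η)‖ = 1 ∧ ‖(c : ℂ) • (ξ + η) - ξ‖ ≤ ε := by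
  have h3 : ‖ξ + η‖ ≤ 2 := by linarith [norm_add_le ξ η]
  have h4 : 2 - ε ≤ ‖ξ + η‖ := by
    have h5 := norm_add_le (ξ + η) (ξ - η)
    rw [add_add_sub_cancel, ← two_smul ℝ, norm_smul, h1, Real.norm_two] at h5
    linarith
  have h5 : 0 < ‖ξ + η‖ := by linarith
  refine ⟨‖ξ + η‖⁻¹, by positivity, ?_, ?_⟩
  · rw [norm_smul, Complex.norm_real, Real.norm_of_nonneg (by positivity), inv_mul_cancel₀ h5.ne']
  · have h6 : ((‖ξ + η‖⁻¹ : ℝ) : ℂ) • (ξ + η) - ξ =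
        ((‖ξ + η‖⁻¹ - 1 / 2 : ℝ) : ℂ) • (ξ + η) - (1 / 2 : ℂ) • (ξ - η) := by
      push_cast
      module
    have h7 : 1 / 2 ≤ ‖ξ + η‖⁻¹ := by
      rw [one_div]
      exact inv_anti₀ h5 h3
    rw [h6]
    refine (norm_sub_le _ _).trans ?_
    rw [norm_smul, norm_smul, Complex.norm_real, Real.norm_of_nonneg (by linarith), sub_mul,
      inv_mul_cancel₀ h5.ne']
    norm_num
    linarith

theorem pauli_par {v w : H} (h : ‖w‖ = ‖v‖) :
    ‖(1 / 2 : ℂ) • (v + w)‖ ^ 2 = ‖v‖ ^ 2 - 1 / 4 * ‖v - w‖ ^ 2 := by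
  have h1 := parallelogram_law_with_norm ℂ v w
  rw [norm_smul, h] at *
  norm_num
  nlinarith

/-- Adding an anticommuting pair of symmetries. Put `s' = jc J s`, `z' = jc J z`, `w = s s'`,
`ζ = (ξ + w ξ) / 2`, `ξ' = ζ / ‖ζ‖`, `Γ' = ⟨Γ, (-1, -1), (z, z'), (s, s')⟩` (finite by three
applications of `finite_sup`; `Ok` shows that `s', z'` commute with the `γ.2`). All other data
are unchanged and the extension is the identity. `ξ'` separates `N`: with `p = (1 + s) / 2`,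
`q = 1 - p` one has `ζ = p (J p J) ξ + q (J q J) ξ`; if `x ζ = 0` then `(J p J) x p ξ = 0`, and
pairing with `J (x* ξ)` gives `⟪J (x p)* ξ, x p ξ⟫ = 0`, so `x p = 0` by `pos`; likewise `x q = 0`.
`J ζ = ζ` gives the same for `D`; use `cyc_of_sep`. For `dbl` decompose `c` commuting with the old
group as `c₀ + c₁ s + c₂ z + c₃ s z` with `c i` commuting also with `s, z` (average over conjugation
by `s` and `z`). For the last claim use `Stage.avg` with the pair `(s, s')` and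
`‖(v + w v) / 2‖ ^ 2 = ‖v‖ ^ 2 - ‖v - w v‖ ^ 2 / 4`, `a ξ' - w a ξ' = s (s a - a s) ξ'`. -/
theorem pauli (S : Stage D₀) (κ : Cj S.N S.D S.ξ) (hκ : S.Ok κ) {s z : Op S.H} (hs : S.C s)
    (hz : S.C z) (s1 : star s = s) (s2 : s * s = 1) (z1 : star z = z) (z2 : z * z = 1)
    (anti : s * z = -(z * s)) (zf : κ.J (z S.ξ) = z S.ξ) {ε : ℝ} (ε1 : ε ≤ 1)
    (h : ‖s S.ξ - κ.J (s S.ξ)‖ ≤ ε) {a : Op S.H} (ha : a ∈ S.N) :
    ∃ (T : Stage D₀) (e : Ext S T) (a' : Op T.H), ‖T.ξ - e.ι S.ξ‖ ≤ ε ∧ T.C a' ∧ ‖a'‖ ≤ ‖a‖ ∧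
      e.α a T.ξ - a' T.ξ ∈ T.Mv ∧
      ‖a' T.ξ‖ ^ 2 ≤ ‖e.α a T.ξ‖ ^ 2 - 1 / 4 * ‖e.α (s * a - a * s) T.ξ‖ ^ 2 := by
  haveI := S.finΓ
  have JJ := κ.JJ
  have us : s ∈ unitary (Op S.H) := ⟨s1.symm ▸ s2, s1.symm ▸ s2⟩
  have uz : z ∈ unitary (Op S.H) := ⟨z1.symm ▸ z2, z1.symm ▸ z2⟩
  have um : (-1 : Op S.H) ∈ unitary (Op S.H) := ⟨by simp, by simp⟩
  obtain ⟨s', es⟩ : ∃ s', s' = jc κ.J s := ⟨_, rfl⟩
  obtain ⟨z', ez⟩ : ∃ z', z' = jc κ.J z := ⟨_, rfl⟩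
  have us' : s' ∈ unitary (Op S.H) := es ▸ jc_unitary JJ us
  have uz' : z' ∈ unitary (Op S.H) := ez ▸ jc_unitary JJ uz
  have hs' : s' ∈ S.D := es ▸ κ.jA s hs.1
  have hz' : z' ∈ S.D := ez ▸ κ.jA z hz.1
  have s2' : s' * s' = 1 := by rw [es, ← jc_mul JJ, s2, jc_one JJ]
  have z2' : z' * z' = 1 := by rw [ez, ← jc_mul JJ, z2, jc_one JJ]
  have anti' : s' * z' = -(z' * s') := by
    rw [es, ez, ← jc_mul JJ, ← jc_mul JJ, anti]
    ext η
    simp
  have com : ∀ c, S.C c → ∀ γ ∈ S.Γ, jc κ.J c * γ.2 = γ.2 * jc κ.J c := fun c hc γ hγ => by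
    rw [hκ γ hγ, ← jc_mul JJ, ← jc_mul JJ, hc.2 γ hγ]
  obtain ⟨Γ, fin, le, mz, ms, ind⟩ := pauli_group S.Γ (m := (⟨-1, um⟩, ⟨-1, um⟩))
    (a := (⟨z, uz⟩, ⟨z', uz'⟩)) (b := (⟨s, us⟩, ⟨s', us'⟩)) (fun g => by ext <;> simp)
    (by ext <;> simp)
    (Prod.ext (Subtype.ext z2) (Subtype.ext z2')) (Prod.ext (Subtype.ext s2) (Subtype.ext s2'))
    (fun k hk => Prod.ext (Subtype.ext (hz.2 k hk).symm) (Subtype.ext (ez ▸ com z hz k hk)))
    (fun k hk => Prod.ext (Subtype.ext (hs.2 k hk).symm) (Subtype.ext (es ▸ com s hs k hk)))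
    (Prod.ext (Subtype.ext (by simpa using anti)) (Subtype.ext (by simpa using anti')))
  have ap : ∀ {x y x' y' : Op S.H}, x * y = x' * y' → ∀ η, x (y η) = x' (y' η) := fun e η =>
    congrArg (fun T : Op S.H => T η) e
  have ss : ∀ η, s (s η) = η := fun η => congrArg (fun T : Op S.H => T η) s2
  have ss' : ∀ η, s' (s' η) = η := fun η => congrArg (fun T : Op S.H => T η) s2'
  have sx : s' S.ξ = κ.J (s S.ξ) := by rw [es, jc_apply, κ.fix]
  have zx : z (z' S.ξ) = S.ξ := by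
    rw [ez, jc_apply, κ.fix, zf]
    exact congrArg (fun T : Op S.H => T S.ξ) z2
  obtain ⟨c, c0, c1, c2⟩ := pauli_vec (η := s (s' S.ξ)) S.norm
    (by rw [unitary_norm us, unitary_norm us', S.norm]) ε1
    (by rwa [← unitary_norm us, map_sub, ss, sx])
  have c0' : (c : ℂ) ≠ 0 := by exact_mod_cast c0
  have sepN : ∀ x ∈ S.N, x ((c : ℂ) • (S.ξ + s (s' S.ξ))) = 0 → x = 0 := fun x hx h0 => by
    rw [map_smul, smul_eq_zero_iff_right c0'] at h0
    have h1 : s' (x (s (s' S.ξ))) = x (s S.ξ) := by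
      rw [← S.cp.app hx hs', ← S.cp.app hs.1 hs', ss']
    have h2 : s' (x (s S.ξ)) = x (s (s' S.ξ)) := by rw [← h1, ss']
    have h3 := congrArg s' h0
    rw [map_add, map_add, h1, map_zero] at h3
    rw [map_add] at h0
    have h4 := pauli_sep κ hx (add_mem (one_mem _) hs.1) (by rw [star_add, star_one, s1]) (by
      rw [jc_add, jc_one JJ, ← es]
      simp only [ContinuousLinearMap.add_apply, ContinuousLinearMap.one_apply, map_add, h2]
      linear_combination (norm := abel) h0 + h3)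
    have h5 := pauli_sep κ hx (sub_mem (one_mem _) hs.1) (by rw [star_sub, star_one, s1]) (by
      rw [jc_sub, jc_one JJ, ← es]
      simp only [ContinuousLinearMap.sub_apply, ContinuousLinearMap.one_apply, map_sub, h2]
      linear_combination (norm := abel) h0 - h3)
    refine smul_right_injective _ (two_ne_zero (α := ℂ)) ?_
    simp only [two_smul]
    rw [mul_add, mul_one] at h4
    rw [mul_sub, mul_one] at h5
    linear_combination (norm := abel) h4 + h5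
  have sepD : ∀ y ∈ S.D, y ((c : ℂ) • (S.ξ + s (s' S.ξ))) = 0 → y = 0 := fun y hy h0 => by
    have h1 : κ.J ((c : ℂ) • (S.ξ + s (s' S.ξ))) = (c : ℂ) • (S.ξ + s (s' S.ξ)) := by
      rw [κ.J.map_smulₛₗ, map_add, κ.fix, S.cp.app hs.1 hs', Complex.conj_ofReal,
        ← S.cp.app hs.1 hs', sx, ← jc_apply, ← es, ← sx, S.cp.app hs.1 hs']
    have h2 := sepN _ (κ.jB y hy) (by rw [jc_apply, h1, h0, map_zero])
    rw [← jc_jc JJ y, h2]
    ext η
    simp
  have good := ind (pauliFix S.cp ((c : ℂ) • (S.ξ + s (s' S.ξ))))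
    (fun γ hγ => ⟨S.memN γ hγ, S.memD γ hγ, by
      have e : s' * γ.2 = γ.2 * s' := es ▸ com s hs γ hγ
      simp only [map_smul, map_add, S.fix γ hγ]
      rw [← S.cp.app hs.1 (S.memD γ hγ), ap (hs.2 γ hγ), ← ap e,
        S.cp.app (S.memN γ hγ) hs', S.fix γ hγ]⟩)
    ⟨neg_mem (one_mem _), neg_mem (one_mem _), by simp⟩
    ⟨hz.1, hz', by
      have h1 : z (z' (s (s' S.ξ))) = s (s' S.ξ) := by
        have a1 : ∀ η, z (s η) = -s (z η) := fun η => by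
          rw [ap (anti.trans (neg_mul z s).symm) η]
          simp
        have a2 : ∀ η, z' (s' η) = -s' (z' η) := fun η => by
          rw [ap (anti'.trans (neg_mul z' s').symm) η]
          simp
        rw [← S.cp.app hs.1 hz', a1, a2, map_neg, map_neg, neg_neg, S.cp.app hz.1 hs', zx]
      simp only [map_smul, map_add, zx, h1]⟩
    ⟨hs.1, hs', by
      simp only [map_smul, map_add]
      rw [← S.cp.app hs.1 hs' (s' S.ξ), ss, ss', add_comm]⟩
  let T : Stage D₀ :=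
    { S with
      ξ := (c : ℂ) • (S.ξ + s (s' S.ξ)), norm := c1, cycN := cyc_of_sep S.cp.symm sepD
      cycD := cyc_of_sep S.cp sepN, Γ := Γ, finΓ := fin, memN := fun γ hγ => (good hγ).1
      memD := fun γ hγ => (good hγ).2.1, fix := fun γ hγ => (good hγ).2.2
      dbl := fun x hx h1 h2 => S.dbl x hx (fun γ hγ => h1 γ (le hγ)) fun d d1 d2 =>
        pauli_dbl (S.mem_CA.2 hs) (S.mem_CA.2 hz) s2 z2 anti (h1 _ ms).symm (h1 _ mz).symm
          (fun d hd e1 e2 => h2 d (S.mem_CA.1 hd).1 fun γ hγ => ind (pauliCom d)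
            (fun γ hγ => (S.mem_CA.1 hd).2 γ hγ) (by simp [pauliCom]) e2 e1 hγ) d
          (S.mem_CA.2 ⟨d1, d2⟩) }
  obtain ⟨a', a1, a2, a3, a4⟩ := T.avg ha
  refine ⟨T, ⟨.id, .id ℂ _, fun _ _ => rfl, fun _ h => h, fun _ h => h, fun _ => rfl, fun _ => rfl,
    fun l h => ⟨l, h, rfl⟩, fun γ h => ⟨γ, le h, rfl, rfl⟩⟩, a', c2, a1, a2, a3, ?_⟩
  refine (pow_le_pow_left₀ (norm_nonneg _) (a4 _ ms) 2).trans_eq ?_
  have h1 : s (s' T.ξ) = T.ξ := T.fix _ ms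
  have h2 : a T.ξ - s (s' (a T.ξ)) = s ((s * a - a * s) T.ξ) := by
    rw [← S.cp.app ha hs', ← ss (s' T.ξ), h1, ContinuousLinearMap.sub_apply, map_sub]
    exact congrArg (· - _) (ss _).symm
  refine (pauli_par (v := a T.ξ) (w := s (s' (a T.ξ)))
    (by rw [unitary_norm us, unitary_norm us'])).trans ?_
  rw [h2, unitary_norm us]
  rfl

end Vale.Agent.P096b
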