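import Vale.Agent.P096b.Defs

/-! Registers with multiplicities. -/

set_option linter.unusedSectionVars false

namespace Vale.Agent.P096b

open Filter Topology Vale.Agent.P096 MeasureTheory
open scoped InnerProductSpace ComplexConjugate

universe u v

variable {H : Type u} [NormedAddCommGroup H] [InnerProductSpace ℂ H] [CompleteSpace H]

theorem reg_sum (W : ℕ) (d : ℕ → ℕ) (f : ℕ → ℝ) :
    ∑ a : (Σ k : Fin W, Fin (d k)), f a.1 = ∑ k ∈ Finset.range W, d k * f k := by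
  rw [Fintype.sum_sigma, ← Fin.sum_univ_eq_sum_range (fun k => d k * f k)]
  simp

theorem reg_ind (W : ℕ) (z : ℤ) (c : ℝ) :
    ∑ k ∈ Finset.range W, (if (k : ℤ) = z then c else 0) = if 0 ≤ z ∧ z < W then c else 0 := by
  split_ifs with h
  · rw [Finset.sum_eq_single z.toNat (fun k _ hk => if_neg (by omega))
      (fun hk => absurd (Finset.mem_range.2 (by omega)) hk), if_pos (by omega)]
  · refine Finset.sum_eq_zero fun k hk => if_neg ?_
    have := Finset.mem_range.1 hk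
    omega

theorem reg_aux {ι : Type} (r : ι → ℤ) (m : ℕ) (hm : ∀ l, |r l| ≤ m) (d : ℕ → ℕ) (A δ : ℝ)
    (hA : 0 < A) (hd : ∀ k < 4 * m + 1, (d k : ℝ) = A * Real.exp (δ * k)) :
    ∃ (I : Type) (_ : Fintype I) (_ : DecidableEq I) (ρ : I → ℝ) (w : ι → I → I → ℝ),
      (∀ i, 0 < ρ i) ∧ ∑ i, ρ i = 1 ∧ (∀ l a b, 0 ≤ w l a b) ∧ (∀ l b, ∑ a, w l a b ≤ 1) ∧
      (∀ l a, ∑ b, w l a b ≤ Real.exp (-(δ * r l))) ∧
      (∀ l a b, w l a b ≠ 0 → ρ a / ρ b = Real.exp (-(δ * r l))) ∧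
      ∀ l, 1 / 2 ≤ ∑ a, ∑ b, w l a b * ρ b := by
  obtain ⟨W, hW⟩ : ∃ W, W = 4 * m + 1 := ⟨_, rfl⟩
  rw [← hW] at hd
  have hW0 : (0 : ℝ) < W := by rw [hW]; positivity
  have hd0 : ∀ k < W, (0 : ℝ) < d k := fun k hk => by rw [hd k hk]; positivity
  have hq : ∀ l, ∀ j < W, ∀ k < W, (j : ℤ) = k + r l →
      (d k : ℝ) * (d j : ℝ)⁻¹ = Real.exp (-(δ * r l)) := by
    intro l j hj k hk h
    have h1 : (j : ℝ) = k + r l := by exact_mod_cast h
    rw [hd j hj, hd k hk, h1, mul_add, Real.exp_add, Real.exp_neg]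
    field_simp
  have hc : ∀ (l : ι) (j : ℕ), ∑ a : (Σ k : Fin W, Fin (d k)),
      (if ((a.1 : ℕ) : ℤ) = j + r l then (d a.1 : ℝ)⁻¹ else 0)
      = if 0 ≤ j + r l ∧ j + r l < W then 1 else 0 := by
    intro l j
    rw [reg_sum W d fun k => if (k : ℤ) = j + r l then (d k : ℝ)⁻¹ else 0, ← reg_ind]
    refine Finset.sum_congr rfl fun k hk => ?_
    rw [mul_ite, mul_zero, mul_inv_cancel₀ (hd0 k (Finset.mem_range.1 hk)).ne']
  refine ⟨Σ k : Fin W, Fin (d k), inferInstance, inferInstance, fun a => ((W : ℝ) * d a.1)⁻¹,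
    fun l a b => if ((a.1 : ℕ) : ℤ) = (b.1 : ℕ) + r l then (d a.1 : ℝ)⁻¹ else 0,
    fun a => inv_pos.2 (mul_pos hW0 (hd0 _ a.1.2)), ?_, fun l a b => ?_, fun l b => ?_,
    fun l a => ?_, fun l a b h => ?_, fun l => ?_⟩
  · rw [reg_sum W d fun k => ((W : ℝ) * d k)⁻¹,
      Finset.sum_congr rfl (g := fun _ => (W : ℝ)⁻¹) fun k hk => ?_]
    · rw [Finset.sum_const, Finset.card_range, nsmul_eq_mul, mul_inv_cancel₀ hW0.ne']
    · have := hd0 k (Finset.mem_range.1 hk)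
      field_simp
  · show 0 ≤ ite _ _ _
    split_ifs <;> positivity
  · rw [hc]
    split_ifs <;> norm_num
  · rw [reg_sum W d fun k => if ((a.1 : ℕ) : ℤ) = k + r l then (d a.1 : ℝ)⁻¹ else 0,
      Finset.sum_congr rfl (g := fun k : ℕ => if (k : ℤ) = (a.1 : ℕ) - r l then
        Real.exp (-(δ * r l)) else 0) fun k hk => ?_]
    · rw [reg_ind]
      split_ifs
      · exact le_rfl
      · positivity
    · by_cases h : ((a.1 : ℕ) : ℤ) = k + r l
      · rw [if_pos h, if_pos (by omega), hq l _ a.1.2 k (Finset.mem_range.1 hk) h]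
      · rw [if_neg h, if_neg (by omega), mul_zero]
  · have h1 : ((a.1 : ℕ) : ℤ) = (b.1 : ℕ) + r l := by
      by_contra h1
      exact h (if_neg h1)
    rw [← hq l _ a.1.2 _ b.1.2 h1]
    have h2 := hd0 _ a.1.2
    have h3 := hd0 _ b.1.2
    show ((W : ℝ) * d a.1)⁻¹ / ((W : ℝ) * d b.1)⁻¹ = _
    field_simp
  · rw [Finset.sum_comm]
    simp only [← Finset.sum_mul, hc]
    rw [reg_sum W d fun j => (if 0 ≤ j + r l ∧ j + r l < W then 1 else 0) * ((W : ℝ) * d j)⁻¹]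
    have h1 := abs_le.1 (hm l)
    refine le_trans ?_ (Finset.sum_le_sum_of_subset_of_nonneg (s := Finset.Ico m (3 * m + 1))
      (fun k hk => Finset.mem_range.2 (by have := Finset.mem_Ico.1 hk; omega)) fun k _ _ => ?_)
    · rw [Finset.sum_congr rfl (g := fun _ => (W : ℝ)⁻¹) fun k hk => ?_]
      · rw [Finset.sum_const, Nat.card_Ico, show 3 * m + 1 - m = 2 * m + 1 by omega, nsmul_eq_mul,
          ← div_eq_mul_inv, le_div_iff₀ hW0, hW]
        push_cast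
        linarith
      · have h2 := Finset.mem_Ico.1 hk
        have h3 := hd0 k (by omega)
        rw [if_pos (by omega)]
        field_simp
    · split_ifs <;> positivity

/-- Let `q = (K + 1) / K` with `K` large, choose integers `r l` with `|r l * log q - κ l|` small,
`W > 2 |r l|`; `I = Σ k : Fin W, Fin (d k)` with `d k = (K + 1) ^ k * K ^ (W - k)`,
`ρ ⟨k, _⟩ = 1 / (W * d k)`, and `w l a b = 1 / d (level a)` if `level a = level b + r l`, else `0`.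
Then `ρ a / ρ b = q ^ (-r l)` on the support. (Any other construction is fine.) -/
theorem reg {ι : Type} [Fintype ι] (κ : ι → ℝ) (ε : ℝ) (hε : 0 < ε) :
    ∃ (I : Type) (_ : Fintype I) (_ : DecidableEq I) (ρ : I → ℝ) (w : ι → I → I → ℝ),
      (∀ i, 0 < ρ i) ∧ ∑ i, ρ i = 1 ∧ (∀ l a b, 0 ≤ w l a b) ∧ (∀ l b, ∑ a, w l a b ≤ 1) ∧
      (∀ l a, ∑ b, w l a b ≤ 2 * Real.exp (-κ l)) ∧
      (∀ l a b, w l a b ≠ 0 →
        |√(ρ a / ρ b) - Real.exp (-κ l / 2)| ≤ ε * Real.exp (-κ l / 2)) ∧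
      ∀ l, 1 / 2 ≤ ∑ a, ∑ b, w l a b * ρ b := by
  obtain ⟨K, hK⟩ := exists_nat_gt (1 / ε)
  have hK0 : (0 : ℝ) < K := lt_trans (by positivity) hK
  have hq : (1 : ℝ) < (K + 1) / K := by
    rw [lt_div_iff₀ hK0]
    linarith
  obtain ⟨δ, hδ⟩ : ∃ δ, δ = Real.log ((K + 1) / K) := ⟨_, rfl⟩
  have hδ0 : 0 < δ := hδ ▸ Real.log_pos hq
  have hδ1 : δ ≤ ε := by
    have h1 := Real.log_le_sub_one_of_pos (lt_trans one_pos hq)
    rw [← hδ, add_div, div_self hK0.ne', add_sub_cancel_left] at h1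
    refine h1.trans ?_
    rw [div_lt_iff₀ hε] at hK
    rw [div_le_iff₀ hK0]
    linarith
  have he : Real.exp δ = (K + 1) / K := by rw [hδ, Real.exp_log (lt_trans one_pos hq)]
  obtain ⟨m, hm⟩ := (Set.finite_range fun l => ⌈κ l / δ⌉.natAbs).bddAbove
  have hr1 : ∀ l, κ l ≤ δ * ⌈κ l / δ⌉ := fun l => (div_le_iff₀' hδ0).1 (Int.le_ceil _)
  have hr2 : ∀ l, δ * ⌈κ l / δ⌉ ≤ κ l + δ := fun l => by
    have h1 := mul_le_mul_of_nonneg_left (Int.ceil_lt_add_one (κ l / δ)).le hδ0.le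
    rwa [mul_add, mul_one, mul_div_cancel₀ _ hδ0.ne'] at h1
  obtain ⟨I, i1, i2, ρ, w, h1, h2, h3, h4, h5, h6, h7⟩ := reg_aux (fun l => ⌈κ l / δ⌉) m
    (fun l => by
      have h1 : ⌈κ l / δ⌉.natAbs ≤ m := hm ⟨l, rfl⟩
      rw [Int.abs_eq_natAbs]
      exact_mod_cast h1)
    (fun k => (K + 1) ^ k * K ^ (4 * m + 1 - k)) (K ^ (4 * m + 1)) δ (by positivity)
    (fun k hk => by
      obtain ⟨j, hj⟩ := Nat.exists_eq_add_of_le hk.le
      rw [hj, Nat.add_sub_cancel_left, mul_comm δ, Real.exp_nat_mul, he, div_pow]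
      push_cast
      field_simp
      ring)
  refine ⟨I, i1, i2, ρ, w, h1, h2, h3, h4, fun l a => (h5 l a).trans ?_, fun l a b h => ?_, h7⟩
  · have h8 := Real.exp_le_exp.2 (neg_le_neg (hr1 l))
    have h9 := Real.exp_pos (-κ l)
    linarith
  · rw [h6 l a b h, ← Real.exp_half, abs_sub_comm]
    have h8 : Real.exp (-(δ * ⌈κ l / δ⌉) / 2) ≤ Real.exp (-κ l / 2) :=
      Real.exp_le_exp.2 (by linarith [hr1 l])
    have h9 : Real.exp (-κ l / 2 + -ε) ≤ Real.exp (-(δ * ⌈κ l / δ⌉) / 2) :=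
      Real.exp_le_exp.2 (by linarith [hr2 l])
    have h10 := mul_le_mul_of_nonneg_left (Real.add_one_le_exp (-ε)) (Real.exp_pos (-κ l / 2)).le
    rw [Real.exp_add] at h9
    rw [abs_of_nonneg (sub_nonneg.2 h8)]
    linarith

end Vale.Agent.P096b
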