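import Vale.Agent.P096b.Tensor
import Vale.Agent.P096b.Reg

/-! The two tensoring steps. -/

set_option linter.unusedSectionVars false

namespace Vale.Agent.P096b

open Filter Topology Vale.Agent.P096 MeasureTheory
open scoped InnerProductSpace ComplexConjugate

universe u v

variable {H : Type u} [NormedAddCommGroup H] [InnerProductSpace ℂ H] [CompleteSpace H]

variable {H₀ : Type u} [NormedAddCommGroup H₀] [InnerProductSpace ℂ H₀] [CompleteSpace H₀]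
  {D₀ : Alg H₀}

theorem Tens.C {S T : Stage D₀} {e : Ext S T} {κ : Cj S.N S.D S.ξ} {κ' : Cj T.N T.D T.ξ}
    {I : Type} [Fintype I] [DecidableEq I] {ρ : I → ℝ} {E : I → I → Op T.H}
    (h : Tens S T e κ κ' ρ E) {x : Op S.H} (hx : S.C x) (a b : I) :
    T.C (e.α x) ∧ T.C (e.α x * E a b) := by
  have h1 : ∀ γ ∈ T.Γ, (γ.1 : Op T.H) * e.α x = e.α x * γ.1 := fun γ hγ => by
    obtain ⟨γ₀, h2, h3, -⟩ := h.grp γ hγ
    rw [h3, ← map_mul, hx.2 γ₀ h2, map_mul]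
  refine ⟨⟨e.mapN x hx.1, h1⟩, mul_mem (e.mapN x hx.1) (h.mem a b), fun γ hγ => ?_⟩
  obtain ⟨γ₀, -, h3, -⟩ := h.grp γ hγ
  rw [← mul_assoc, h1 γ hγ, mul_assoc, mul_assoc, h3, h.comm]

namespace RegStepAux

theorem C_smul {T : Stage D₀} (c : ℂ) {x : Op T.H} (hx : T.C x) : T.C (c • x) :=
  ⟨T.N.smul_mem hx.1 c, fun γ hγ => by rw [mul_smul_comm, smul_mul_assoc, hx.2 γ hγ]⟩

theorem C_add {T : Stage D₀} {x y : Op T.H} (hx : T.C x) (hy : T.C y) : T.C (x + y) :=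
  ⟨add_mem hx.1 hy.1, fun γ hγ => by rw [mul_add, add_mul, hx.2 γ hγ, hy.2 γ hγ]⟩

theorem C_sub {T : Stage D₀} {x y : Op T.H} (hx : T.C x) (hy : T.C y) : T.C (x - y) :=
  ⟨sub_mem hx.1 hy.1, fun γ hγ => by rw [mul_sub, sub_mul, hx.2 γ hγ, hy.2 γ hγ]⟩

theorem C_one (T : Stage D₀) : T.C 1 := ⟨one_mem _, fun γ _ => by rw [mul_one, one_mul]⟩

theorem col_re {ι : Type} [Fintype ι] (x : ι → Op H) (c : ι → ℝ) (C : ℝ) (η : H) :
    (⟪η, ((C : ℂ) • (1 : Op H) - ∑ i, (c i : ℂ) • (star (x i) * x i)) η⟫_ℂ).re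
      = C * ‖η‖ ^ 2 - ∑ i, c i * ‖x i η‖ ^ 2 := by
  have h1 : ‖η‖ ^ 2 = (⟪η, η⟫_ℂ).re := by simpa using tl_norm_sq (1 : Op H) η
  simp only [tl_norm_sq, h1, sub_apply, smul_apply, one_apply_eq_self, sum_apply, inner_sub_right,
    inner_smul_right, inner_sum, Complex.sub_re, Complex.re_sum, Complex.re_ofReal_mul]

theorem sqn (w : ℝ) (hw : 0 ≤ w) (v : H) : ‖((√w : ℝ) : ℂ) • v‖ ^ 2 = w * ‖v‖ ^ 2 := by
  rw [norm_smul, mul_pow, Complex.norm_real, Real.norm_of_nonneg (Real.sqrt_nonneg w),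
    Real.sq_sqrt hw]

variable {S T : Stage D₀} {e : Ext S T} {κ : Cj S.N S.D S.ξ} {κ' : Cj T.N T.D T.ξ}
  {I : Type} [Fintype I] [DecidableEq I] {ρ : I → ℝ} {E : I → I → Op T.H}

theorem E_norm (h : Tens S T e κ κ' ρ E) (a b : I) (ζ : T.H) :
    ‖E a b ζ‖ ^ 2 = (⟪ζ, E b b ζ⟫_ℂ).re := by
  rw [tl_norm_sq, h.star, h.mul, if_pos rfl]

theorem E_sum (h : Tens S T e κ κ' ρ E) (ζ : T.H) : ∑ b, (⟪ζ, E b b ζ⟫_ℂ).re = ‖ζ‖ ^ 2 := by
  rw [← Complex.re_sum, ← inner_sum, ← sum_apply, h.sum]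
  simpa using (tl_norm_sq (1 : Op T.H) ζ).symm

theorem E_col (h : Tens S T e κ κ' ρ E) (w : I → I → ℝ) {c : ℝ} (hw : ∀ b, ∑ a, w a b ≤ c)
    (ζ : T.H) : ∑ a, ∑ b, w a b * ‖E a b ζ‖ ^ 2 ≤ c * ‖ζ‖ ^ 2 := by
  rw [Finset.sum_comm, ← E_sum h, Finset.mul_sum]
  refine Finset.sum_le_sum fun b _ => ?_
  simp only [E_norm h, ← Finset.sum_mul]
  refine mul_le_mul_of_nonneg_right (hw b) ?_
  rw [← E_norm h b b]
  positivity

theorem E_app (h : Tens S T e κ κ' ρ E) (x : Op S.H) (a b : I) (ζ : T.H) :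
    (e.α x * E a b) ζ = E a b (e.α x ζ) := by
  rw [← h.comm]
  rfl

theorem E_vec (h : Tens S T e κ κ' ρ E) (x : Op S.H) (a b : I) :
    (e.α x * E a b) T.ξ = E a b (e.ι (x S.ξ)) := by
  rw [E_app h, ← e.αι, ← h.vec]

theorem E_star (h : Tens S T e κ κ' ρ E) (x : Op S.H) (a b : I) :
    star (e.α x * E a b) = e.α (star x) * E b a := by
  rw [star_mul, h.star, ← map_star, h.comm]

theorem E_swap (h : Tens S T e κ κ' ρ E) (h0 : ∀ i, 0 < ρ i) (a b : I) (η : S.H) :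
    κ'.J (E b a (e.ι η)) = ((√(ρ a / ρ b) : ℝ) : ℂ) • E a b (e.ι (κ.J η)) := by
  have h1 : ((√(ρ b) : ℝ) : ℂ) ≠ 0 := by exact_mod_cast (Real.sqrt_pos.2 (h0 b)).ne'
  refine smul_right_injective _ h1 ?_
  simp only
  rw [h.swap, smul_smul, Real.sqrt_div (h0 a).le]
  congr 1
  push_cast
  field_simp

theorem near (x y : H) {r g ε : ℝ} (h : |r - g| ≤ ε * g) :
    ‖x - (r : ℂ) • y‖ ^ 2 ≤ 2 * ‖x - (g : ℂ) • y‖ ^ 2 + 2 * ε ^ 2 * (g ^ 2 * ‖y‖ ^ 2) := by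
  have h1 : x - (r : ℂ) • y = (x - (g : ℂ) • y) - ((r - g : ℝ) : ℂ) • y := by
    push_cast
    module
  have h2 : ‖x - (r : ℂ) • y‖ ≤ ‖x - (g : ℂ) • y‖ + ε * g * ‖y‖ := by
    rw [h1]
    refine (norm_sub_le _ _).trans (add_le_add le_rfl ?_)
    rw [norm_smul, Complex.norm_real, Real.norm_eq_abs]
    exact mul_le_mul_of_nonneg_right h (norm_nonneg _)
  refine (pow_le_pow_left₀ (norm_nonneg _) h2 2).trans ?_
  nlinarith [sq_nonneg (‖x - (g : ℂ) • y‖ - ε * g * ‖y‖)]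

end RegStepAux
open RegStepAux

/-- A star homomorphism preserves column bounds (`C - ∑ x* x` is a square, `exists_sqrt'`). -/
theorem col_map {K : Type u} [NormedAddCommGroup K] [InnerProductSpace ℂ K] [CompleteSpace K]
    (α : Op H →⋆ₐ[ℂ] Op K) {ι : Type} [Fintype ι] (x : ι → Op H) (c : ι → ℝ) {C : ℝ}
    (h : ∀ η, ∑ i, c i * ‖x i η‖ ^ 2 ≤ C * ‖η‖ ^ 2) (ζ : K) :
    ∑ i, c i * ‖α (x i) ζ‖ ^ 2 ≤ C * ‖ζ‖ ^ 2 := by
  obtain ⟨l, h1, h2, -⟩ := exists_sqrt'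
    ((C : ℂ) • (1 : Op H) - ∑ i, (c i : ℂ) • (star (x i) * x i)) (by simp [star_sum])
    fun η => by rw [col_re]; linarith [h η]
  have h3 := congrArg α h2
  simp only [map_mul, map_sub, map_smul, map_one, map_sum, map_star] at h3
  have h4 := tl_norm_sq (α l) ζ
  rw [← map_star, h1, h3, col_re (fun i => α (x i))] at h4
  linarith [sq_nonneg ‖α l ζ‖]

/-- The register step: with `I, ρ, w` from `reg` and `T` from `tensor` take
`k (l, a, b) = √(w l a b) • α (n l) * E a b`. Then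
`k ξ' - J' k* ξ' = √w • E a b (ι (n ξ - √(ρ a / ρ b) • J n* ξ))`. -/
theorem reg_step (S : Stage D₀) (κ : Cj S.N S.D S.ξ) (hκ : S.Ok κ) {ι : Type} [Fintype ι]
    (n : ι → Op S.H) (f : ι → ℝ) {a : Op S.H} {β γ : ℝ} (β0 : 0 < β) (hn : ∀ l, S.C (n l))
    (h1 : ∀ η, ∑ l, ‖n l η‖ ^ 2 ≤ ‖η‖ ^ 2)
    (h2 : ∀ η, ∑ l, Real.exp (-f l) * ‖star (n l) η‖ ^ 2 ≤ 2 * ‖η‖ ^ 2)
    (h3 : ∑ l, ‖n l S.ξ - ((Real.exp (-f l / 2) : ℝ) : ℂ) • κ.J (star (n l) S.ξ)‖ ^ 2 ≤ β)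
    (h4 : γ ≤ ∑ l, ‖(n l * a - a * n l) S.ξ‖ ^ 2) :
    ∃ (T : Stage D₀) (e : Ext S T) (κ' : Cj T.N T.D T.ξ) (ι' : Type) (_ : Fintype ι')
      (k : ι' → Op T.H), T.Ok κ' ∧ T.ξ = e.ι S.ξ ∧ (∀ x, S.C x → T.C (e.α x)) ∧
      (∀ i, T.C (k i)) ∧ (∀ η, ∑ i, ‖k i η‖ ^ 2 ≤ ‖η‖ ^ 2) ∧
      (∀ η, ∑ i, ‖star (k i) η‖ ^ 2 ≤ 4 * ‖η‖ ^ 2) ∧
      ∑ i, ‖k i T.ξ - κ'.J (star (k i) T.ξ)‖ ^ 2 ≤ 3 * β ∧
      γ / 2 ≤ ∑ i, ‖(k i * e.α a - e.α a * k i) T.ξ‖ ^ 2 := by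
  obtain ⟨I, _, _, ρ, w, r0, r1, w0, w1, w2, w3, w4⟩ := reg f (√β / 2) (by positivity)
  obtain ⟨T, e, κ', E, h⟩ := tensor S κ hκ I ρ r0 r1
  refine ⟨T, e, κ', ι × I × I, inferInstance,
    fun i => ((√(w i.1 i.2.1 i.2.2) : ℝ) : ℂ) • (e.α (n i.1) * E i.2.1 i.2.2), h.ok, h.vec,
    fun x hx => ⟨e.mapN x hx.1, fun γ hγ => ?_⟩, fun i => C_smul _ (h.C (hn _) _ _).2,
    fun η => ?_, fun η => ?_, ?_, ?_⟩
  · obtain ⟨γ₀, b2, b3, -⟩ := h.grp γ hγ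
    rw [b3, ← map_mul, hx.2 γ₀ b2, map_mul]
  · simp only [Fintype.sum_prod_type, smul_apply, sqn _ (w0 _ _ _), E_app h]
    refine (Finset.sum_le_sum fun l _ => E_col h (w l) (w1 l) _).trans ?_
    simpa using col_map e.α n (fun _ => 1) (C := 1) (by simpa using h1) η
  · simp only [Fintype.sum_prod_type, star_smul, E_star h, Complex.star_def, Complex.conj_ofReal,
      smul_apply, sqn _ (w0 _ _ _), E_app h]
    have b1 := col_map e.α (fun l => star (n l)) _ h2 η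
    refine (Finset.sum_le_sum fun l _ => Finset.sum_comm.trans_le
      (E_col h (fun b a => w l a b) (w2 l) _)).trans ?_
    simp only [mul_assoc, ← Finset.mul_sum]
    linarith
  · have b1 : ∀ l a b, ‖(((√(w l a b) : ℝ) : ℂ) • (e.α (n l) * E a b)) T.ξ
        - κ'.J (star (((√(w l a b) : ℝ) : ℂ) • (e.α (n l) * E a b)) T.ξ)‖ ^ 2
        ≤ w l a b * ρ b * (2 * ‖n l S.ξ - ((Real.exp (-f l / 2) : ℝ) : ℂ)
          • κ.J (star (n l) S.ξ)‖ ^ 2 + β / 2 * (Real.exp (-f l) * ‖star (n l) S.ξ‖ ^ 2)) := by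
      intro l a b
      rw [star_smul, E_star h, Complex.star_def, Complex.conj_ofReal, smul_apply, smul_apply,
        E_vec h, E_vec h, map_smulₛₗ, Complex.conj_ofReal, E_swap h r0,
        ← smul_sub, ← map_smul, ← map_smul, ← map_sub, ← map_sub, sqn _ (w0 _ _ _), h.norm,
        mul_assoc]
      rcases eq_or_ne (w l a b) 0 with hw | hw
      · rw [hw, zero_mul, zero_mul]
      refine mul_le_mul_of_nonneg_left (mul_le_mul_of_nonneg_left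
        ((near _ _ (w3 l a b hw)).trans_eq ?_) (r0 b).le) (w0 l a b)
      rw [κ.J.norm_map, div_pow, Real.sq_sqrt β0.le, sq (Real.exp _), ← Real.exp_add, add_halves]
      ring
    simp only [Fintype.sum_prod_type]
    refine (Finset.sum_le_sum fun l _ => (Finset.sum_le_sum fun a _ =>
      Finset.sum_le_sum fun b _ => b1 l a b).trans
        (c := 2 * ‖n l S.ξ - ((Real.exp (-f l / 2) : ℝ) : ℂ) • κ.J (star (n l) S.ξ)‖ ^ 2 + β / 2 * (Real.exp (-f l) * ‖star (n l) S.ξ‖ ^ 2))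
          ?_).trans ?_
    · simp only [← Finset.sum_mul]
      refine mul_le_of_le_one_left (by positivity) ?_
      rw [Finset.sum_comm, ← r1]
      refine Finset.sum_le_sum fun b _ => ?_
      rw [← Finset.sum_mul]
      exact mul_le_of_le_one_left (r0 b).le (w1 l b)
    · have b2 := mul_le_mul_of_nonneg_left (h2 S.ξ) (by positivity : 0 ≤ β / 2)
      rw [S.norm] at b2
      rw [Finset.sum_add_distrib, ← Finset.mul_sum, ← Finset.mul_sum]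
      linarith
  · have b1 : ∀ l c b, ‖(((√(w l c b) : ℝ) : ℂ) • (e.α (n l) * E c b) * e.α a
        - e.α a * ((√(w l c b) : ℝ) : ℂ) • (e.α (n l) * E c b)) T.ξ‖ ^ 2
        = w l c b * ρ b * ‖(n l * a - a * n l) S.ξ‖ ^ 2 := by
      intro l c b
      rw [smul_mul_assoc, mul_smul_comm, ← smul_sub, mul_assoc, h.comm, ← mul_assoc, ← mul_assoc,
        ← sub_mul, ← map_mul, ← map_mul, ← map_sub, smul_apply, E_vec h,
        sqn _ (w0 _ _ _), h.norm, mul_assoc]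
    simp only [Fintype.sum_prod_type, b1, ← Finset.sum_mul]
    refine le_trans ?_ (Finset.sum_le_sum fun l _ =>
      mul_le_mul_of_nonneg_right (w4 l) (sq_nonneg _))
    rw [← Finset.mul_sum]
    linarith

/-- The doubling step: `tensor` with `I = Fin 2`, `ρ = 1/2`, `s = α u E 0 1 + α u* E 1 0`,
`z = E 0 0 - E 1 1`. Note `‖u* ξ - J u ξ‖ = ‖u ξ - J u* ξ‖`. -/
theorem dbl_step (S : Stage D₀) (κ : Cj S.N S.D S.ξ) (hκ : S.Ok κ) {u a : Op S.H}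
    (hu : u ∈ unitary (Op S.H)) (hC : S.C u) {ε γ : ℝ} (γ0 : 0 ≤ γ)
    (h1 : ‖u S.ξ - κ.J (star u S.ξ)‖ ≤ ε) (h2 : γ ≤ ‖(u * a - a * u) S.ξ‖) :
    ∃ (T : Stage D₀) (e : Ext S T) (κ' : Cj T.N T.D T.ξ) (s z : Op T.H), T.Ok κ' ∧
      T.ξ = e.ι S.ξ ∧ T.C s ∧ T.C z ∧ star s = s ∧ s * s = 1 ∧ star z = z ∧ z * z = 1 ∧
      s * z = -(z * s) ∧ κ'.J (z T.ξ) = z T.ξ ∧ ‖s T.ξ - κ'.J (s T.ξ)‖ ≤ 2 * ε ∧
      γ / 2 ≤ ‖(s * e.α a - e.α a * s) T.ξ‖ := by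
  obtain ⟨T, e, κ', E, h⟩ := tensor S κ hκ (Fin 2) (fun _ => 1 / 2) (fun _ => by norm_num)
    (by simp)
  have hC' : S.C (star u) := ⟨star_mem hC.1, fun γ hγ => by
    have := hC.2 γ hγ
    calc (γ.1 : Op S.H) * star u = star u * (u * γ.1) * star u := by
          rw [← mul_assoc, hu.1, one_mul]
      _ = star u * γ.1 := by rw [← this, mul_assoc, mul_assoc, hu.2, mul_one]⟩
  have mm : ∀ (x y : Op S.H) (a b c d : Fin 2), e.α x * E a b * (e.α y * E c d)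
      = e.α (x * y) * if b = c then E a d else 0 := fun x y a b c d => by
    rw [mul_assoc, ← mul_assoc (E a b), h.comm, mul_assoc, h.mul, ← mul_assoc, map_mul]
  have sw : ∀ (a b : Fin 2) η, κ'.J (E b a (e.ι η)) = E a b (e.ι (κ.J η)) := fun a b η => by
    simpa using E_swap h (fun _ => by norm_num) a b η
  have nn : ∀ (a b : Fin 2) η, ‖E a b (e.ι η)‖ ≤ ‖η‖ ∧ ‖η‖ / 2 ≤ ‖E a b (e.ι η)‖ := by
    intro a b η
    have := h.norm a b η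
    constructor <;> refine le_of_pow_le_pow_left₀ two_ne_zero (norm_nonneg _) ?_ <;>
      nlinarith [sq_nonneg ‖η‖]
  have s2 : E 0 0 + E 1 1 = 1 := by simpa using h.sum
  refine ⟨T, e, κ', e.α u * E 0 1 + e.α (star u) * E 1 0, e.α 1 * E 0 0 - e.α 1 * E 1 1, h.ok,
    h.vec, C_add (h.C hC _ _).2 (h.C hC' _ _).2, C_sub (h.C (C_one S) _ _).2 (h.C (C_one S) _ _).2,
    ?_, ?_, ?_, ?_, ?_, ?_, ?_, ?_⟩
  · rw [star_add, E_star h, E_star h, star_star, add_comm]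
  · simp [add_mul, mul_add, mm, hu.1, hu.2, s2, add_comm (E 1 1)]
  · rw [star_sub, E_star h, E_star h, star_one]
  · simp only [sub_mul, mul_sub, mm]
    simp [s2]
  · simp only [add_mul, mul_add, sub_mul, mul_sub, mm]
    simp [sub_eq_add_neg]
  · rw [sub_apply, E_vec h, E_vec h, map_sub, sw, sw, one_apply_eq_self, κ.fix]
  · have b1 : ‖star u S.ξ - κ.J (u S.ξ)‖ ≤ ε := by
      rwa [← κ.J.norm_map, map_sub, κ.JJ, norm_sub_rev]
    rw [add_apply, E_vec h, E_vec h, map_add, sw, sw, add_comm (E 1 0 _),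
      add_sub_add_comm, ← map_sub, ← map_sub, ← map_sub, ← map_sub]
    linarith [norm_add_le (E 0 1 (e.ι (u S.ξ - κ.J (star u S.ξ))))
      (E 1 0 (e.ι (star u S.ξ - κ.J (u S.ξ)))), (nn 0 1 (u S.ξ - κ.J (star u S.ξ))).1,
      (nn 1 0 (star u S.ξ - κ.J (u S.ξ))).1]
  · obtain ⟨X, hX⟩ : ∃ X, X = (e.α u * E 0 1 + e.α (star u) * E 1 0) * e.α a
      - e.α a * (e.α u * E 0 1 + e.α (star u) * E 1 0) := ⟨_, rfl⟩
    have b1 : X = e.α (u * a - a * u) * E 0 1 + e.α (star u * a - a * star u) * E 1 0 := by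
      rw [hX, add_mul, mul_assoc, mul_assoc, h.comm, h.comm]
      simp only [map_sub, map_mul]
      noncomm_ring
    have b2 : e.α 1 * E 0 0 * X = e.α (u * a - a * u) * E 0 1 := by
      simp only [b1, mul_add, mm]
      simp
    have b3 : E 0 0 (X T.ξ) = E 0 1 (e.ι ((u * a - a * u) S.ξ)) := by
      rw [← E_vec h, ← b2, map_one, one_mul]
      rfl
    have b4 := E_sum h (X T.ξ)
    rw [Fin.sum_univ_two, ← E_norm h 0 0, ← E_norm h 1 1, b3] at b4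
    have b5 := (nn 0 1 ((u * a - a * u) S.ξ)).2
    rw [← hX]
    refine le_trans (by linarith) (le_of_pow_le_pow_left₀ two_ne_zero (norm_nonneg _)
      (show ‖E 0 1 (e.ι ((u * a - a * u) S.ξ))‖ ^ 2 ≤ _ by
        linarith [sq_nonneg ‖E 1 1 (X T.ξ)‖]))

end Vale.Agent.P096b
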