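import Vale.Agent.P096b.Khin

/-! An almost matched unitary that does not commute with a given operator. -/

set_option linter.unusedSectionVars false

namespace Vale.Agent.P096b

open Filter Topology Vale.Agent.P096 MeasureTheory
open scoped InnerProductSpace ComplexConjugate

universe u v

variable {H : Type u} [NormedAddCommGroup H] [InnerProductSpace ℂ H] [CompleteSpace H]

/-- The resolvent at `i`. -/
theorem sign_res {h : Op H} (hs : star h = h) :
    ∃ r : Op H, (1 - Complex.I • h) * r = 1 ∧ r * (1 - Complex.I • h) = 1 := by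
  obtain ⟨p, -, -, h1, -, h2⟩ := exists_cut h hs
  have h3 : Commute h p := h2 h rfl
  have h4 : Commute (1 + h * h) p := (Commute.one_left p).add_left (h3.mul_left h3)
  have h5 : Commute (1 - Complex.I • h) (p * p) :=
    (Commute.one_left _).sub_left ((h3.mul_right h3).smul_left _)
  have h6 : p * p * (1 + h * h) = 1 := by rw [mul_assoc, ← h4.eq, ← mul_assoc, h1]
  have h7 : (Complex.I • h) * (Complex.I • h) = -(h * h) := by
    rw [smul_mul_smul_comm, Complex.I_mul_I, neg_smul, one_smul]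
  refine ⟨p * p * (1 + Complex.I • h), ?_, ?_⟩
  · rw [← mul_assoc, h5.eq, mul_assoc]
    refine Eq.trans ?_ h6
    congr 1
    rw [← sub_neg_eq_add 1 (h * h), ← h7]
    generalize Complex.I • h = b
    noncomm_ring
  · rw [mul_assoc]
    refine Eq.trans ?_ h6
    congr 1
    rw [← sub_neg_eq_add 1 (h * h), ← h7]
    generalize Complex.I • h = b
    noncomm_ring

theorem sign_comm {R : Type*} [Ring R] {w r y : R} (h1 : w * r = 1) (h2 : r * w = 1)
    (h : y * w = w * y) : y * r = r * y := by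
  calc y * r = r * w * (y * r) := by rw [h2, one_mul]
    _ = r * (y * w) * r := by rw [h]; simp only [mul_assoc]
    _ = r * y := by rw [mul_assoc, mul_assoc, h1, mul_one]

/-- The Cayley transform `u = (1 + i h) (1 - i h)⁻¹ = 1 + 2 i h - 2 (1 - i h)⁻¹ h ^ 2`. With
`h' = jc J h` (commuting with `h`) one has `jc J u* = (1 + i h') (1 - i h')⁻¹`. -/
theorem cayley {A B : Alg H} {ξ : H} (hAB : CP A B) (κ : Cj A B ξ) {h : Op H} (hA : h ∈ A)
    (hs : star h = h) : ∃ u ∈ unitary (Op H), (∀ y, y * h = h * y → y * u = u * y) ∧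
      ‖u ξ - κ.J (star u ξ)‖ ≤ 2 * ‖h ξ - κ.J (h ξ)‖ ∧
      ∀ η, ‖u η - η - (2 * Complex.I) • h η‖ ≤ 2 * ‖h (h η)‖ := by
  obtain ⟨r, h1, h2⟩ := sign_res hs
  have e0 : star (1 - Complex.I • h) = 1 + Complex.I • h := by
    rw [star_sub, star_one, star_smul, hs, RCLike.star_def, Complex.conj_I, neg_smul,
      sub_neg_eq_add]
  have h3 : star r * (1 + Complex.I • h) = 1 := by rw [← e0, ← star_mul, h1, star_one]
  have h4 : (1 + Complex.I • h) * star r = 1 := by rw [← e0, ← star_mul, h2, star_one]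
  have hc : ∀ y, y * h = h * y → y * r = r * y := fun y hy =>
    sign_comm h1 h2 (by rw [mul_sub, sub_mul, mul_smul_comm, smul_mul_assoc, hy, mul_one, one_mul])
  have es : star (r + r - 1) = star r + star r - 1 := by rw [star_sub, star_add, star_one]
  have hu : r + r - 1 ∈ unitary (Op H) := by
    rw [Unitary.mem_iff, es]
    generalize Complex.I • h = b at h1 h2 h3 h4
    constructor
    · have k : star r * r + star r * r = r + star r := by
        calc _ = star r * (1 + b) * r + star r * ((1 - b) * r) := by noncomm_ring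
          _ = _ := by rw [h1, h3, one_mul, mul_one]
      calc _ = (star r * r + star r * r) + (star r * r + star r * r) - (r + star r)
            - (r + star r) + 1 := by noncomm_ring
        _ = 1 := by rw [k]; abel
    · have k : r * star r + r * star r = r + star r := by
        calc _ = r * ((1 + b) * star r) + r * (1 - b) * star r := by noncomm_ring
          _ = _ := by rw [h2, h4, one_mul, mul_one]
      calc _ = (r * star r + r * star r) + (r * star r + r * star r) - (r + star r)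
            - (r + star r) + 1 := by noncomm_ring
        _ = 1 := by rw [k]; abel
  have hn : ∀ {s : Op H}, s + s - 1 ∈ unitary (Op H) → ∀ η, ‖s η‖ ≤ ‖η‖ := fun {s} hs η => by
    have k1 := unitary_norm hs η
    have k2 : (2 : ℂ) • s η = (s + s - 1) η + η := by
      simp only [sub_apply, add_apply, one_apply_eq_self, two_smul, sub_add_cancel]
    have k3 := norm_add_le ((s + s - 1) η) η
    rw [← k2, norm_smul, k1, Complex.norm_two] at k3
    linarith
  refine ⟨r + r - 1, hu, fun y hy => ?_, ?_, fun η => ?_⟩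
  · rw [mul_sub, sub_mul, mul_add, add_mul, hc y hy, mul_one, one_mul]
  · have e1 : jc κ.J (1 + Complex.I • h) = 1 - Complex.I • jc κ.J h := by
      rw [jc_add, jc_one κ.JJ, jc_smul, Complex.conj_I, neg_smul, sub_eq_add_neg]
    have k1 : jc κ.J (star r) * (1 - Complex.I • jc κ.J h) = 1 := by
      rw [← e1, ← jc_mul κ.JJ, h3, jc_one κ.JJ]
    have k2 : jc κ.J h * r = r * jc κ.J h := hc _ ((hAB.right _).1 (κ.jA h hA) h hA)
    have k3 : h * r = r * h := hc h rfl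
    have k4 : r - jc κ.J (star r) = Complex.I • (jc κ.J (star r) * (r * (h - jc κ.J h))) := by
      calc _ = jc κ.J (star r) * (1 - Complex.I • jc κ.J h) * r
            - jc κ.J (star r) * ((1 - Complex.I • h) * r) := by rw [k1, h1, one_mul, mul_one]
        _ = jc κ.J (star r) * (Complex.I • (h * r) - Complex.I • (jc κ.J h * r)) := by
            rw [← smul_mul_assoc, ← smul_mul_assoc]
            noncomm_ring
        _ = _ := by rw [k2, k3, ← smul_sub, mul_smul_comm, mul_sub r]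
    have k5 : (r + r - 1) ξ - κ.J (star (r + r - 1) ξ) = (2 : ℂ) • (r - jc κ.J (star r)) ξ := by
      rw [es]
      simp only [sub_apply, add_apply, one_apply_eq_self, two_smul, map_sub, map_add, jc_apply,
        κ.fix]
      abel
    have k6 : ∀ η, ‖jc κ.J (star r) η‖ ≤ ‖η‖ := fun η => by
      rw [jc_apply, κ.J.norm_map, ← κ.J.norm_map η]
      exact hn (by rw [← es]; exact Unitary.star_mem hu) _
    rw [k5, norm_smul, Complex.norm_two, k4, smul_apply, norm_smul, Complex.norm_I, one_mul,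
      mul_apply_eq_comp, mul_apply_eq_comp]
    refine mul_le_mul_of_nonneg_left ((k6 _).trans ((hn hu _).trans (le_of_eq ?_))) zero_le_two
    rw [sub_apply, jc_apply, κ.fix]
  · have h7 : (Complex.I • h) * (Complex.I • h) = -(h * h) := by
      rw [smul_mul_smul_comm, Complex.I_mul_I, neg_smul, one_smul]
    have k1 : r + r - 1 - 1 - (Complex.I • h + Complex.I • h) = -(r * (h * h) + r * (h * h)) := by
      rw [← neg_neg (h * h), ← h7]
      generalize Complex.I • h = b at h2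
      calc _ = r + r - r * (1 - b) * (1 + b) - r * (1 - b) * (1 + b) := by
            rw [h2]; noncomm_ring
        _ = _ := by noncomm_ring
    have k2 : (r + r - 1) η - η - (2 * Complex.I) • h η = -((2 : ℂ) • r (h (h η))) := by
      have := congrArg (fun T : Op H => T η) k1
      simp only [sub_apply, add_apply, one_apply_eq_self, smul_apply, neg_apply,
        mul_apply_eq_comp] at this
      simp only [sub_apply, add_apply, one_apply_eq_self, mul_smul, two_smul]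
      exact this
    rw [k2, norm_neg, norm_smul, Complex.norm_two]
    exact mul_le_mul_of_nonneg_left (hn hu _) zero_le_two

theorem sign_sg (b : Bool) : conj (sg b) = sg b := by
  cases b <;> simp [sg]

theorem sign_three {E : Type*} [SeminormedAddCommGroup E] (x y z : E) :
    ‖x - y + z‖ ^ 2 ≤ 3 * (‖x‖ ^ 2 + ‖y‖ ^ 2 + ‖z‖ ^ 2) := by
  have h1 : ‖x - y + z‖ ≤ ‖x‖ + ‖y‖ + ‖z‖ :=
    (norm_add_le _ _).trans (add_le_add (norm_sub_le _ _) le_rfl)
  have h2 := pow_le_pow_left₀ (norm_nonneg _) h1 2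
  nlinarith [sq_nonneg (‖x‖ - ‖y‖), sq_nonneg (‖x‖ - ‖z‖), sq_nonneg (‖y‖ - ‖z‖)]

theorem sign_par (c d : ℂ) (hc : ‖c‖ = 1 / 2) (hd : ‖d‖ = 1 / 2) (x y : H) :
    ‖c • (x + y)‖ ^ 2 + ‖d • (x - y)‖ ^ 2 = (‖x‖ ^ 2 + ‖y‖ ^ 2) / 2 := by
  have := parallelogram_law_with_norm ℂ x y
  rw [norm_smul, norm_smul, hc, hd, mul_pow, mul_pow]
  linarith

/-- The choice of signs for a self-adjoint family. -/
theorem sign_sa {A B C C' : Alg H} {ξ : H} (κ : Cj A B ξ) {a : Op H} {ι : Type} [Fintype ι]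
    (x : ι → Op H) {γ ε : ℝ} (γ0 : 0 < γ) (ε0 : 0 < ε) (hAB : CP A B) (hC : CP C C') (hCA : C ≤ A)
    (hξ : ‖ξ‖ = 1) (ha : ‖a‖ ≤ 1) (hx : ∀ i, x i ∈ C) (hs : ∀ i, star (x i) = x i)
    (hc : ∀ η, ∑ i, ‖x i η‖ ^ 2 ≤ 5 / 2 * ‖η‖ ^ 2)
    (hm : ∑ i, ‖x i ξ - κ.J (x i ξ)‖ ^ 2 ≤ ε ^ 2 * γ / 100)
    (hg : γ / 2 ≤ ∑ i, ‖(x i * a - a * x i) ξ‖ ^ 2) :
    ∃ u ∈ unitary (Op H), u ∈ C ∧ ‖u ξ - κ.J (star u ξ)‖ ≤ ε ∧ γ / 60 ≤ ‖(u * a - a * u) ξ‖ := by
  classical
  obtain ⟨θ, θ0, hθ⟩ : ∃ θ : ℝ, 0 < θ ∧ θ ^ 2 = γ / 450 :=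
    ⟨√(γ / 450), by positivity, Real.sq_sqrt (by positivity)⟩
  obtain ⟨X, hX⟩ : ∃ X : (ι → Bool) → Op H, ∀ e, X e = ∑ i, sg (e i) • x i := ⟨_, fun _ => rfl⟩
  have hXs : ∀ e, star (X e) = X e := fun e => by
    rw [hX, star_sum]
    exact Finset.sum_congr rfl fun i _ => by rw [star_smul, hs, RCLike.star_def, sign_sg]
  have haξ : ‖a ξ‖ ≤ 1 := by simpa [hξ] using a.le_of_opNorm_le ha ξ
  have hc' : ∀ η, ∑ i, ‖star (x i) η‖ ^ 2 ≤ 5 / 2 * ‖η‖ ^ 2 := fun η => by
    simp only [hs]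
    exact hc η
  have k1 : ∀ η : H, ‖η‖ ≤ 1 →
      Finset.univ.expect (fun e : ι → Bool => ‖X e (X e η)‖ ^ 2) ≤ 75 / 4 := fun η hη => by
    have h1 := khin_four x hc hc' (by norm_num) (by norm_num) η
    simp only [← hX, hXs, mul_apply_eq_comp] at h1
    have h2 : ‖η‖ ^ 2 ≤ 1 := pow_le_one₀ (norm_nonneg _) hη
    linarith
  have k2 : Finset.univ.expect (fun e : ι → Bool => ‖(X e * a - a * X e) ξ‖ ^ 2)
      = ∑ i, ‖(x i * a - a * x i) ξ‖ ^ 2 := by
    rw [← khin_sq]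
    refine Finset.expect_congr rfl fun e _ => ?_
    rw [hX]
    simp only [sub_apply, mul_apply_eq_comp, sum_apply, smul_apply, map_sum, map_smul, smul_sub,
      Finset.sum_sub_distrib]
  have k3 : Finset.univ.expect (fun e : ι → Bool => ‖X e ξ - κ.J (X e ξ)‖ ^ 2)
      = ∑ i, ‖x i ξ - κ.J (x i ξ)‖ ^ 2 := by
    rw [← khin_sq]
    refine Finset.expect_congr rfl fun e _ => ?_
    rw [hX]
    simp only [sum_apply, smul_apply, map_sum, map_smulₛₗ, sign_sg, smul_sub,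
      Finset.sum_sub_distrib]
  have k4 : γ ^ 2 / 3600 ≤ Finset.univ.expect (fun e : ι → Bool =>
      4 / 3 * θ ^ 2 * ‖(X e * a - a * X e) ξ‖ ^ 2 - 4 * (θ ^ 2) ^ 2 * ‖X e (X e (a ξ))‖ ^ 2
        - 4 * (θ ^ 2) ^ 2 * ‖X e (X e ξ)‖ ^ 2
        - 16 * θ ^ 2 / ε ^ 2 * ‖X e ξ - κ.J (X e ξ)‖ ^ 2) := by
    rw [Finset.expect_sub_distrib, Finset.expect_sub_distrib, Finset.expect_sub_distrib,
      ← Finset.mul_expect, ← Finset.mul_expect, ← Finset.mul_expect, ← Finset.mul_expect, k2, k3,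
      hθ]
    have h1 := mul_le_mul_of_nonneg_left hg (show 0 ≤ 4 / 3 * (γ / 450) by positivity)
    have h2 := mul_le_mul_of_nonneg_left (k1 _ haξ) (show 0 ≤ 4 * (γ / 450) ^ 2 by positivity)
    have h3 := mul_le_mul_of_nonneg_left (k1 _ hξ.le) (show 0 ≤ 4 * (γ / 450) ^ 2 by positivity)
    have h4 := mul_le_mul_of_nonneg_left hm (show 0 ≤ 16 * (γ / 450) / ε ^ 2 by positivity)
    have h5 : 16 * (γ / 450) / ε ^ 2 * (ε ^ 2 * γ / 100) = 16 / 45000 * γ ^ 2 := by
      field_simp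
      ring
    rw [h5] at h4
    nlinarith [sq_nonneg γ]
  obtain ⟨e, -, he⟩ := Finset.exists_le_of_le_expect Finset.univ_nonempty k4
  have hXC : X e ∈ C := by
    rw [hX]
    exact sum_mem fun i _ => C.smul_mem (hx i) _
  have hXe := hXs e
  generalize X e = Y at he hXC hXe
  have hθn : ‖(θ : ℂ)‖ = θ := by rw [Complex.norm_real, Real.norm_of_nonneg θ0.le]
  have hh : (θ : ℂ) • Y ∈ C := C.smul_mem hXC _
  obtain ⟨u, hu, u1, u2, u3⟩ := cayley hAB κ (hCA hh)
    (by rw [star_smul, hXe, RCLike.star_def, Complex.conj_ofReal])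
  have e1 : ‖((θ : ℂ) • Y) ξ - κ.J (((θ : ℂ) • Y) ξ)‖ = θ * ‖Y ξ - κ.J (Y ξ)‖ := by
    rw [smul_apply, map_smulₛₗ, Complex.conj_ofReal, ← smul_sub, norm_smul, hθn]
  have e2 : ∀ η, ‖((θ : ℂ) • Y) (((θ : ℂ) • Y) η)‖ = θ ^ 2 * ‖Y (Y η)‖ := fun η => by
    rw [smul_apply, smul_apply, map_smul, norm_smul, norm_smul, hθn]
    ring
  rw [e1] at u2
  have e3 : (2 * Complex.I * θ) • (Y * a - a * Y) ξ = (u * a - a * u) ξ
      - (u (a ξ) - a ξ - (2 * Complex.I) • ((θ : ℂ) • Y) (a ξ))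
      + a (u ξ - ξ - (2 * Complex.I) • ((θ : ℂ) • Y) ξ) := by
    simp only [sub_apply, mul_apply_eq_comp, smul_apply, map_sub, map_smul, smul_sub, smul_smul]
    abel
  have m1 := sign_three ((u * a - a * u) ξ)
    (u (a ξ) - a ξ - (2 * Complex.I) • ((θ : ℂ) • Y) (a ξ))
    (a (u ξ - ξ - (2 * Complex.I) • ((θ : ℂ) • Y) ξ))
  rw [← e3, norm_smul, norm_mul, norm_mul, Complex.norm_two, Complex.norm_I, hθn] at m1
  have m2 := pow_le_pow_left₀ (norm_nonneg _) (u3 (a ξ)) 2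
  have m3 := pow_le_pow_left₀ (norm_nonneg _)
    ((a.le_of_opNorm_le ha _).trans ((one_mul _).le.trans (u3 ξ))) 2
  rw [e2] at m2 m3
  have m4 := pow_le_pow_left₀ (norm_nonneg _) u2 2
  have m5 : ‖(u * a - a * u) ξ‖ ≤ 2 := by
    rw [sub_apply, mul_apply_eq_comp, mul_apply_eq_comp]
    refine (norm_sub_le _ _).trans ?_
    have := a.le_of_opNorm_le ha (u ξ)
    rw [unitary_norm hu] at this ⊢
    linarith
  have m6 := pow_le_pow_left₀ (norm_nonneg _) m5 2
  have m7 := mul_le_mul_of_nonneg_left m4 (show 0 ≤ 4 / ε ^ 2 by positivity)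
  have m8 : 4 / ε ^ 2 * (2 * (θ * ‖Y ξ - κ.J (Y ξ)‖)) ^ 2
      = 16 * θ ^ 2 / ε ^ 2 * ‖Y ξ - κ.J (Y ξ)‖ ^ 2 := by ring
  have m9 : γ ^ 2 / 3600 + 4 / ε ^ 2 * ‖u ξ - κ.J (star u ξ)‖ ^ 2 ≤ ‖(u * a - a * u) ξ‖ ^ 2 := by
    linarith
  refine ⟨u, hu, (hC.left u).2 fun y hy => (u1 y ((hC.left _).1 hh y hy).symm).symm, ?_, ?_⟩
  · refine le_of_sq_le_sq ?_ ε0.le
    have h1 : 4 / ε ^ 2 * ‖u ξ - κ.J (star u ξ)‖ ^ 2 ≤ 4 := by
      have : 0 ≤ γ ^ 2 / 3600 := by positivity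
      linarith
    rw [div_mul_eq_mul_div, div_le_iff₀ (by positivity)] at h1
    linarith
  · refine le_of_sq_le_sq ?_ (norm_nonneg _)
    have : 0 ≤ 4 / ε ^ 2 * ‖u ξ - κ.J (star u ξ)‖ ^ 2 := by positivity
    linarith

/-- Split `k i` into real and imaginary parts (a self-adjoint family with column bound `5 / 2`, gain
at least `γ / 2`, matching error at most `2 β`), take `h = θ ∑ ± k`, `u = cayley h`. In the mean
square over the signs `‖[u, a] ξ‖ ≥ 2 θ √(γ/2) - C θ ^ 2` (`khin_sq`, `khin_four`) while the mean of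
`‖u ξ - J u* ξ‖ ^ 2` is at most `8 θ ^ 2 β`. Since `‖[u, a] ξ‖ ≤ 2`, the mean of
`‖[u, a] ξ‖ ^ 2 - (4 / ε ^ 2) ‖u ξ - J u* ξ‖ ^ 2` is at least some `γ' ^ 2 > 0`. -/
theorem sign (γ : ℝ) (γ0 : 0 < γ) : ∃ γ' : ℝ, 0 < γ' ∧ ∀ ε : ℝ, 0 < ε → ∃ β : ℝ, 0 < β ∧
    ∀ (H : Type u) [NormedAddCommGroup H] [InnerProductSpace ℂ H] [CompleteSpace H]
      (A B C C' : Alg H) (ξ : H) (κ : Cj A B ξ) (a : Op H) (ι : Type) [Fintype ι] (k : ι → Op H),
      CP A B → CP C C' → C ≤ A → ‖ξ‖ = 1 → ‖a‖ ≤ 1 → (∀ i, k i ∈ C) →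
      (∀ η, ∑ i, ‖k i η‖ ^ 2 ≤ ‖η‖ ^ 2) → (∀ η, ∑ i, ‖star (k i) η‖ ^ 2 ≤ 4 * ‖η‖ ^ 2) →
      ∑ i, ‖k i ξ - κ.J (star (k i) ξ)‖ ^ 2 ≤ β → γ ≤ ∑ i, ‖(k i * a - a * k i) ξ‖ ^ 2 →
      ∃ u ∈ unitary (Op H), u ∈ C ∧ ‖u ξ - κ.J (star u ξ)‖ ≤ ε ∧
        γ' ≤ ‖(u * a - a * u) ξ‖ := by
  refine ⟨γ / 60, by positivity, fun ε ε0 => ⟨ε ^ 2 * γ / 100, by positivity, ?_⟩⟩
  intro H _ _ _ A B C C' ξ κ a ι _ k hAB hC hCA hξ ha hk h1 h2 h3 h4
  have n1 : ‖(1 / 2 : ℂ)‖ = 1 / 2 := by simp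
  have n2 : ‖(-Complex.I / 2 : ℂ)‖ = 1 / 2 := by simp
  refine sign_sa κ (Sum.elim (fun i => (1 / 2 : ℂ) • (k i + star (k i)))
    fun i => (-Complex.I / 2 : ℂ) • (k i - star (k i))) γ0 ε0 hAB hC hCA hξ ha ?_ ?_ ?_ ?_ ?_
  · rintro (i | i)
    · exact C.smul_mem (add_mem (hk i) (star_mem (hk i))) _
    · exact C.smul_mem (sub_mem (hk i) (star_mem (hk i))) _
  · rintro (i | i)
    · simp only [Sum.elim_inl]
      rw [star_smul, star_add, star_star, add_comm]
      simp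
    · simp only [Sum.elim_inr]
      rw [star_smul, star_sub, star_star, ← neg_sub (k i), smul_neg, ← neg_smul]
      congr 1
      simp [neg_div]
  · intro η
    simp only [Fintype.sum_sum_type, Sum.elim_inl, Sum.elim_inr, ← Finset.sum_add_distrib,
      smul_apply, add_apply, sub_apply, sign_par _ _ n1 n2]
    rw [← Finset.sum_div, Finset.sum_add_distrib]
    linarith [h1 η, h2 η]
  · refine le_trans (le_of_eq ?_) h3
    simp only [Fintype.sum_sum_type, Sum.elim_inl, Sum.elim_inr, ← Finset.sum_add_distrib]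
    refine Finset.sum_congr rfl fun i _ => ?_
    have e := sign_par _ _ n2 n1 (k i ξ - κ.J (star (k i) ξ)) (κ.J (k i ξ - κ.J (star (k i) ξ)))
    rw [κ.J.norm_map, add_self_div_two, add_comm] at e
    rw [← e]
    have c1 : conj (1 / 2 : ℂ) = 1 / 2 := by simp [map_ofNat]
    have c2 : conj (-Complex.I / 2 : ℂ) = -(-Complex.I / 2) := by simp [map_ofNat, neg_div]
    simp only [smul_apply, add_apply, sub_apply, map_smulₛₗ, map_add, map_sub, κ.JJ, c1, c2]
    congr 3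
    · simp only [smul_add, smul_sub]
      abel
    · simp only [smul_add, smul_sub, neg_smul]
      abel
  · simp only [Fintype.sum_sum_type, Sum.elim_inl, Sum.elim_inr, ← Finset.sum_add_distrib]
    refine (div_le_div_of_nonneg_right h4 zero_le_two).trans ?_
    rw [Finset.sum_div]
    refine Finset.sum_le_sum fun i _ => ?_
    have e := sign_par _ _ n1 n2 ((k i * a - a * k i) ξ) ((star (k i) * a - a * star (k i)) ξ)
    refine le_trans (by linarith [sq_nonneg ‖(star (k i) * a - a * star (k i)) ξ‖])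
      (e.symm.le.trans (le_of_eq ?_))
    simp only [smul_apply, add_apply, sub_apply, mul_apply_eq_comp, map_smul, map_add, map_sub]
    congr 3
    · simp only [smul_add, smul_sub]
      abel
    · simp only [smul_sub]
      abel

end Vale.Agent.P096b
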