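import Vale.Agent.P096b.Adm
import Vale.Agent.P096b.Dft

/-! Cutting a family into approximate eigenoperators. -/

set_option linter.unusedSectionVars false

namespace Vale.Agent.P096b

open Filter Topology Vale.Agent.P096 MeasureTheory
open scoped InnerProductSpace ComplexConjugate

universe u v

variable {H : Type u} [NormedAddCommGroup H] [InnerProductSpace ℂ H] [CompleteSpace H]

variable {A B C C' : Alg H} {ξ : H}

/-- The windowed operators. -/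
noncomputable def winOp (Φ : Calc H) {ι : Type} {N : ℕ} (s : Fin N → ℝ) (c : Fin N → Fin N → ℂ)
    (x : ι → Op H) (l : ι × Fin N) : Op H := ∑ j, c l.2 j • Φ.σ (s j) (x l.1)

section Aux

variable (Φ : Calc H) {ι : Type} {N : ℕ} {s p κ : Fin N → ℝ} {c : Fin N → Fin N → ℂ}

theorem win_mem (hσ : ∀ t, ∀ x ∈ C, Φ.σ t x ∈ C) {x : ι → Op H} (hx : ∀ i, x i ∈ C)
    (l : ι × Fin N) : winOp Φ s c x l ∈ C :=
  sum_mem fun _ _ => SMulMemClass.smul_mem _ (hσ _ _ (hx _))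

theorem win_sub (x y : ι → Op H) (l : ι × Fin N) :
    winOp Φ s c (fun i => x i - y i) l = winOp Φ s c x l - winOp Φ s c y l := by
  simp only [winOp, Φ.σ_sub, smul_sub, Finset.sum_sub_distrib]

theorem win_bc (r : Fin N) : BC fun x => ∑ j, c r j * ex (s j) x :=
  BC.sum _ fun _ _ => (bc_ex _).cmul _

theorem win_vec (hξ : ∀ t, Φ.U t ξ = ξ) (x : ι → Op H) (l : ι × Fin N) :
    winOp Φ s c x l ξ = Φ.F (fun y => ∑ j, c l.2 j * ex (s j) y) (x l.1 ξ) := by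
  rw [Φ.sum _ fun j _ => (bc_ex (s j)).cmul (c l.2 j), winOp, _root_.sum_apply,
    _root_.sum_apply]
  refine Finset.sum_congr rfl fun j _ => ?_
  rw [Φ.smul _ (bc_ex _)]
  simp only [Calc.σ, smul_apply, mul_apply_eq_comp, hξ]
  rfl

variable [Fintype ι]

theorem win_par
    (h : ∀ j j', ∑ r, conj (c r j) * c r j' = if j = j' then (p j : ℂ) else 0) (x : ι → Op H)
    (η : H) : ∑ l, ‖winOp Φ s c x l η‖ ^ 2 = ∑ j, p j * ∑ i, ‖x i (Φ.U (-s j) η)‖ ^ 2 := by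
  rw [Fintype.sum_prod_type]
  simp only [Finset.mul_sum]
  rw [Finset.sum_comm (γ := Fin N)]
  refine Finset.sum_congr rfl fun i _ => ?_
  have h1 := parseval_sq h fun j => Φ.σ (s j) (x i) η
  simp only [Calc.σ, mul_apply_eq_comp, Φ.norm_U] at h1
  rw [← h1]
  simp only [winOp, Calc.σ, _root_.sum_apply, smul_apply, mul_apply_eq_comp]

theorem win_col (h0 : ∀ j, 0 ≤ p j) (h1 : ∑ j, p j = 1)
    (h : ∀ j j', ∑ r, conj (c r j) * c r j' = if j = j' then (p j : ℂ) else 0) {x : ι → Op H}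
    (hx : ∀ η, ∑ i, ‖x i η‖ ^ 2 ≤ ‖η‖ ^ 2) (η : H) :
    ∑ l, ‖winOp Φ s c x l η‖ ^ 2 ≤ 1 * ‖η‖ ^ 2 := by
  rw [win_par Φ h, ← h1, Finset.sum_mul]
  exact Finset.sum_le_sum fun j _ => mul_le_mul_of_nonneg_left
    ((hx _).trans (by rw [Φ.norm_U])) (h0 j)

theorem win_small (hξ : ∀ t, Φ.U t ξ = ξ) (h1 : ∑ j, p j = 1)
    (h : ∀ j j', ∑ r, conj (c r j) * c r j' = if j = j' then (p j : ℂ) else 0) {x : ι → Op H}
    (hx : ∑ i, ‖x i ξ‖ ^ 2 ≤ 1) {β Ω : ℝ} (β0 : 0 < β) {χ : ℝ → ℂ} (hχ : BC χ)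
    (h2 : ∀ y, Ω ≤ |y| → 1 ≤ ‖χ y‖) (h3 : ∑ i, ‖Φ.F χ (x i ξ)‖ ^ 2 ≤ β)
    (h4 : ∀ y : ℝ, |y| ≤ Ω → ∑ r, (y - κ r) ^ 2 * ‖∑ j, c r j * ex (s j) y‖ ^ 2 ≤ β)
    {d : Fin N → ℝ → ℂ} (hd : ∀ r, BC (d r)) (h5 : ∀ r y, ‖d r y‖ ^ 2 ≤ (y - κ r) ^ 2)
    (h6 : ∀ r y, ‖d r y‖ ^ 2 ≤ 4) :
    ∑ l : ι × Fin N, ‖Φ.F (d l.2) (winOp Φ s c x l ξ)‖ ^ 2 ≤ 5 * β := by
  have key : ∀ η, ∑ r, ‖Φ.F (fun y => d r y * ∑ j, c r j * ex (s j) y) η‖ ^ 2
      ≤ β * ‖η‖ ^ 2 + 4 * ‖Φ.F χ η‖ ^ 2 := by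
    refine Φ.sq_le' (fun r => (hd r).mul (win_bc r)) hχ fun y => ?_
    simp only [norm_mul, mul_pow]
    rcases le_total |y| Ω with hy | hy
    · refine (Finset.sum_le_sum fun r _ => mul_le_mul_of_nonneg_right (h5 r y)
        (by positivity)).trans ((h4 y hy).trans (le_add_of_nonneg_right (by positivity)))
    · refine (Finset.sum_le_sum fun r _ => mul_le_mul_of_nonneg_right (h6 r y)
        (by positivity)).trans ?_
      rw [← Finset.mul_sum, parseval_ex h1 h]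
      have := one_le_pow₀ (n := 2) (h2 y hy)
      linarith
  rw [Fintype.sum_prod_type]
  simp only [win_vec Φ hξ, Φ.mul_apply (hd _) (win_bc _)]
  refine (Finset.sum_le_sum fun i _ => key _).trans ?_
  rw [Finset.sum_add_distrib, ← Finset.mul_sum, ← Finset.mul_sum]
  nlinarith

end Aux

theorem win_lip {u v : ℝ} (hu : Real.exp u ≤ 2) (hv : Real.exp v ≤ 2) :
    |Real.exp u - Real.exp v| ≤ 2 * |u - v| := by
  have key : ∀ a b : ℝ, Real.exp a ≤ 2 → Real.exp a - Real.exp b ≤ 2 * |a - b| := by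
    intro a b ha
    have h1 := Real.add_one_le_exp (b - a)
    have h2 : Real.exp b = Real.exp a * Real.exp (b - a) := by
      rw [← Real.exp_add, add_sub_cancel]
    have h3 := Real.exp_pos a
    have h4 := le_abs_self (a - b)
    have h5 := abs_nonneg (a - b)
    nlinarith
  refine abs_sub_le_iff.2 ⟨key u v hu, ?_⟩
  rw [abs_sub_comm]
  exact key v u hv

theorem win_exp {t : ℝ} (h : t ≤ 1 / 2) : Real.exp t ≤ 2 := by
  have h1 := Real.add_one_le_exp (-t)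
  rw [Real.exp_neg, le_inv_comm₀ (by linarith) (Real.exp_pos t)] at h1
  refine h1.trans ?_
  rw [inv_le_comm₀ (by linarith) two_pos]
  linarith

theorem win_d1 (κ y : ℝ) : ‖gs 1 κ 0 y - 1‖ ^ 2 ≤ (y - κ) ^ 2 ∧ ‖gs 1 κ 0 y - 1‖ ^ 2 ≤ 4 := by
  rw [gs, ← Complex.ofReal_one, ← Complex.ofReal_sub, Complex.norm_real, Real.norm_eq_abs, sq_abs,
    zero_mul, add_zero, neg_one_mul]
  have h1 := Real.add_one_le_exp (-(y - κ) ^ 2)
  have h2 : Real.exp (-(y - κ) ^ 2) ≤ 1 := Real.exp_le_one_iff.2 (neg_nonpos.2 (sq_nonneg _))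
  have h3 := Real.exp_pos (-(y - κ) ^ 2)
  constructor <;> nlinarith

theorem win_d2 (κ y : ℝ) : ‖gs 1 κ 0 y - gs 1 κ (1 / 2) y‖ ^ 2 ≤ (y - κ) ^ 2 ∧
    ‖gs 1 κ 0 y - gs 1 κ (1 / 2) y‖ ^ 2 ≤ 4 := by
  rw [gs, gs, ← Complex.ofReal_sub, Complex.norm_real, Real.norm_eq_abs]
  have h1 : Real.exp (-1 * (y - κ) ^ 2 + 0 * (y - κ)) ≤ 2 := win_exp (by nlinarith)
  have h2 : Real.exp (-1 * (y - κ) ^ 2 + 1 / 2 * (y - κ)) ≤ 2 :=
    win_exp (by nlinarith [sq_nonneg (y - κ - 1 / 4)])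
  have h3 := win_lip h1 h2
  have h4 := Real.exp_pos (-1 * (y - κ) ^ 2 + 0 * (y - κ))
  have h5 := Real.exp_pos (-1 * (y - κ) ^ 2 + 1 / 2 * (y - κ))
  constructor
  · refine (pow_le_pow_left₀ (abs_nonneg _) (h3.trans (le_of_eq ?_)) 2).trans (sq_abs _).le
    rw [← abs_two, ← abs_mul, ← abs_neg]
    congr 1
    ring
  · rw [sq_abs]
    nlinarith

theorem win_row (μ : Mod A B ξ) (κ : ℝ) {x y : Op H} (hx : x ∈ A) (hy : y ∈ B) (e : x ξ = y ξ) :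
    μ.filt (gk 1 κ (1 / 2)) y
      = ((Real.exp (-κ / 2) : ℝ) : ℂ) • jc μ.J (star (μ.filt (gk 1 κ 0) x)) := by
  have h1 : μ.filt (gk 1 κ (1 / 2)) y ∈ B :=
    μ.filt_mem μ.cp.symm (gk_int one_pos _ _) fun t => μ.uB t hy
  have h2 : μ.filt (gk 1 κ 0) x ∈ A := μ.filt_mem μ.cp (gk_int one_pos _ _) fun t => μ.uA t x hx
  refine sub_eq_zero.1 (μ.sepB (sub_mem h1 (SMulMemClass.smul_mem _ (μ.jA _ (star_mem h2)))) ?_)
  rw [sub_apply, smul_apply, jc_apply, μ.J_fix μ.cp, μ.J_filt one_pos κ 0 hx,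
    μ.filt_ξ (gk_int one_pos _ _), ft_gk one_pos, zero_add, smul_smul, ← Complex.ofReal_mul,
    ← Real.exp_add, e, neg_div, neg_add_cancel, Real.exp_zero, Complex.ofReal_one, one_smul,
    sub_self]

theorem win_est {a b n m : Op H} (h1 : ‖a‖ ≤ 1) (hb : (n - m) * b = b * (n - m)) :
    ‖(m * a - a * m) ξ‖ ^ 2 ≤ 3 / 2 * ‖(n * a - a * n) ξ‖ ^ 2 + 18 * ‖n (b ξ - a ξ)‖ ^ 2
      + 18 * ‖m (b ξ - a ξ)‖ ^ 2 + 9 * (‖b‖ ^ 2 + 1) * ‖n ξ - m ξ‖ ^ 2 := by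
  have e1 : n (b ξ) - m (b ξ) = b (n ξ - m ξ) := congrArg (fun T : Op H => T ξ) hb
  have e2 : (m * a - a * m) ξ = (n * a - a * n) ξ + ((n (b ξ - a ξ) - m (b ξ - a ξ))
      - b (n ξ - m ξ) + a (n ξ - m ξ)) := by
    rw [← e1]
    simp only [sub_apply, mul_apply_eq_comp, map_sub]
    abel
  have a1 := norm_add_le ((n * a - a * n) ξ) ((n (b ξ - a ξ) - m (b ξ - a ξ))
      - b (n ξ - m ξ) + a (n ξ - m ξ))
  have a2 := norm_add_le (n (b ξ - a ξ) - m (b ξ - a ξ) - b (n ξ - m ξ)) (a (n ξ - m ξ))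
  have a3 := norm_sub_le (n (b ξ - a ξ) - m (b ξ - a ξ)) (b (n ξ - m ξ))
  have a4 := norm_sub_le (n (b ξ - a ξ)) (m (b ξ - a ξ))
  have a5 := b.le_opNorm (n ξ - m ξ)
  have a6 := (a.le_opNorm (n ξ - m ξ)).trans (mul_le_of_le_one_left (norm_nonneg _) h1)
  rw [← e2] at a1
  set X := ‖(n * a - a * n) ξ‖
  set u := ‖n (b ξ - a ξ)‖
  set v := ‖m (b ξ - a ξ)‖
  set d := ‖n ξ - m ξ‖
  have a7 := pow_le_pow_left₀ (norm_nonneg _)
    (show ‖(m * a - a * m) ξ‖ ≤ X + (u + v + ‖b‖ * d + d) by linarith) 2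
  nlinarith [sq_nonneg (X - 2 * (u + v + ‖b‖ * d + d)), sq_nonneg (u - v),
    sq_nonneg (u + v - ‖b‖ * d), sq_nonneg (u + v - d), sq_nonneg (‖b‖ * d - d)]

/-- Choose `b ∈ B` with `b ξ` near `a ξ`, then `β'` small, `S` from `dft β'`, the family from `hE`,
`Ω` from `Calc.tail` for the vectors `m i ξ`. Put `m i r = ∑ j, c r j • σ (s j) (m i)`, the same for
`m'`; by `parseval_sq` the columns stay contractions and
`∑ ‖[m i r, a] ξ‖ ^ 2 = ∑ j, p j ∑ i, ‖(m i - m' i) (U (-s j) (a ξ))‖ ^ 2 ≥ γ`.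
Put `n i r = filt (gk 1 (κ r) 0) (m i r)` (`filt_col`). The operator
`filt (gk 1 (κ r) (1/2)) (m' i r) ∈ B` equals `exp (-κ r / 2) • jc J (n i r)*` (`J_filt`, `sepB`),
which gives the row bound with constant `exp (1/8)`. With `w r = ∑ j, c r j * ex (s j)` one has
`m i r ξ = F (w r) (m i ξ)`; the symbols `gs 1 κ 0 - 1` and `gs 1 κ 0 - gs 1 κ (1/2)` are bounded by
`C min (|x - κ|) 1`, so `Calc.sq_le'` makes `n ξ - m ξ` and the eigenvector errors small.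
Finally `(n - m) (a ξ) = (n - m) (a ξ - b ξ) + b ((n - m) ξ)`. -/
theorem win (μ : Mod A B ξ) (hξ : ‖ξ‖ = 1) (hC : CP C C') (hle : C ≤ A)
    (hσ : ∀ t, ∀ x ∈ C, μ.σ t x ∈ C) {a : Op H} (ha : a ∈ A) (h1 : ‖a‖ ≤ 1) {γ β : ℝ}
    (γ0 : 0 < γ) (β0 : 0 < β)
    (hE : ∀ S : ℝ, ∃ (ι : Type) (_ : Fintype ι) (m m' : ι → Op H), Adm C B ξ m m' ∧
      ∀ s ∈ Set.Icc 0 S, γ ≤ ∑ i, ‖m i (μ.U (-s) (a ξ)) - m' i (μ.U (-s) (a ξ))‖ ^ 2) :
    ∃ (ι : Type) (_ : Fintype ι) (n : ι → Op H) (κ : ι → ℝ), (∀ l, n l ∈ C) ∧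
      (∀ η, ∑ l, ‖n l η‖ ^ 2 ≤ ‖η‖ ^ 2) ∧
      (∀ η, ∑ l, Real.exp (-κ l) * ‖star (n l) η‖ ^ 2 ≤ 2 * ‖η‖ ^ 2) ∧
      ∑ l, ‖n l ξ - ((Real.exp (-κ l / 2) : ℝ) : ℂ) • μ.J (star (n l) ξ)‖ ^ 2 ≤ β ∧
      γ / 2 ≤ ∑ l, ‖(n l * a - a * n l) ξ‖ ^ 2 := by
  obtain ⟨b, hb, hab⟩ := μ.cycB (a ξ) √(γ / 864) (by positivity)
  have hab' := ((Real.lt_sqrt (norm_nonneg _)).1 hab).le
  have hb1 : 0 < ‖b‖ ^ 2 + 1 := by positivity
  set β' := min (β / 5) (γ / (360 * (‖b‖ ^ 2 + 1))) with hβ'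
  have β1 : 0 < β' := lt_min (by positivity) (by positivity)
  have β2 : β' ≤ β / 5 := min_le_left _ _
  have β3 : β' * (360 * (‖b‖ ^ 2 + 1)) ≤ γ := (le_div_iff₀ (by positivity)).1 (min_le_right _ _)
  obtain ⟨S, -, hS⟩ := dft β' β1
  obtain ⟨ι, _, m, m', hm, hγ⟩ := hE S
  obtain ⟨Ω, Ω0, χ, hχ, h2, h3⟩ := μ.tail (fun i => m i ξ) β' β1
  obtain ⟨N, s, p, κ, c, p0, p1, hs, hc, h4⟩ := hS Ω Ω0
  have hU := μ.U_fix μ.cp
  have hx : ∑ i, ‖m i ξ‖ ^ 2 ≤ 1 := (hm.col ξ).trans (by rw [hξ, one_pow])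
  set M := winOp μ.toCalc s c m with hM
  set M' := winOp μ.toCalc s c m' with hM'
  have mC : ∀ l, M l ∈ C := win_mem _ hσ hm.mem
  have mB : ∀ l, M' l ∈ B := win_mem _ (fun t _ h => μ.uB t h) hm.mem'
  have mE : ∀ l, M l ξ = M' l ξ := fun l => by rw [hM, hM', win_vec _ hU, win_vec _ hU, hm.eq]
  have cM := win_col μ.toCalc (s := s) p0 p1 hc hm.col
  have cM' := win_col μ.toCalc (s := s) p0 p1 hc hm.col'
  set n : ι × Fin N → Op H := fun l => μ.filt (gk 1 (κ l.2) 0) (M l) with hn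
  have nC : ∀ l, n l ∈ C := fun l =>
    μ.filt_mem hC (gk_int one_pos _ _) fun t => hσ t _ (mC l)
  have nV : ∀ l, n l ξ = μ.F (gs 1 (κ l.2) 0) (M l ξ) := fun l => by
    rw [hn, μ.filt_ξ (gk_int one_pos _ _), ft_gk one_pos]
  have cn : ∀ η, ∑ l, ‖n l η‖ ^ 2 ≤ ‖η‖ ^ 2 := fun η => by
    have := μ.filt_col (k := fun l : ι × Fin N => gk 1 (κ l.2) 0) (gd_int one_pos)
      (fun l => gk_int one_pos _ _) (fun l t => by simp [gk_norm one_pos]) M cM η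
    rwa [gd_one one_pos, one_pow, one_mul, one_mul] at this
  have hr := fun l => win_row μ (κ l.2) (hle (mC l)) (mB l) (mE l)
  refine ⟨ι × Fin N, inferInstance, n, fun l => κ l.2, nC, cn, fun η => ?_, ?_, ?_⟩
  · have h5 := μ.filt_col (k := fun l : ι × Fin N => gk 1 (κ l.2) (1 / 2))
      ((gd_int one_pos).const_mul (Real.exp ((1 / 2) ^ 2 / (4 * 1))))
      (fun l => gk_int one_pos _ _) (fun l t => (gk_norm one_pos _ _ t).le) M' cM' (μ.J η)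
    rw [integral_const_mul, gd_one one_pos, mul_one, mul_one, LinearIsometryEquiv.norm_map,
      ← Real.exp_nat_mul] at h5
    refine le_trans (le_of_eq (Finset.sum_congr rfl fun l _ => ?_))
      (h5.trans (mul_le_mul_of_nonneg_right (win_exp (by norm_num)) (sq_nonneg _)))
    rw [hr l, smul_apply, jc_apply, μ.JJ, norm_smul, LinearIsometryEquiv.norm_map, mul_pow,
      Complex.norm_real, Real.norm_eq_abs, sq_abs, ← Real.exp_nat_mul]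
    congr 2
    push_cast
    ring
  · have h5 := win_small μ.toCalc hU p1 hc hx β1 hχ h2 h3 h4
      (fun r => (gs_bc one_pos (κ r) 0).sub (gs_bc one_pos (κ r) (1 / 2)))
      (fun r y => (win_d2 _ y).1) fun r y => (win_d2 _ y).2
    refine le_trans (le_of_eq (Finset.sum_congr rfl fun l _ => ?_)) (h5.trans (by linarith))
    have h6 := congrArg (fun T : Op H => T ξ) (hr l)
    simp only [smul_apply, jc_apply, μ.J_fix μ.cp] at h6
    rw [μ.sub (gs_bc one_pos _ _) (gs_bc one_pos _ _), sub_apply, nV, ← h6,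
      μ.filt_ξ (gk_int one_pos _ _), ft_gk one_pos, ← mE]
  · have h5 := win_small μ.toCalc hU p1 hc hx β1 hχ h2 h3 h4
      (fun r => (gs_bc one_pos (κ r) 0).sub (BC.const 1))
      (fun r y => (win_d1 _ y).1) fun r y => (win_d1 _ y).2
    have h6 : ∑ l, ‖n l ξ - M l ξ‖ ^ 2 ≤ 5 * β' := by
      refine le_trans (le_of_eq (Finset.sum_congr rfl fun l _ => ?_)) h5
      rw [μ.sub (gs_bc one_pos _ _) (BC.const 1), μ.one, sub_apply, nV, one_apply_eq_self]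
    have h7 : γ ≤ ∑ l, ‖(M l * a - a * M l) ξ‖ ^ 2 := by
      have e : ∀ l, (M l * a - a * M l) ξ = winOp μ.toCalc s c (fun i => m i - m' i) l (a ξ) :=
        fun l => by
          have := congrArg (fun T : Op H => T ξ) ((μ.cp.left a).1 ha _ (mB l))
          simp only [mul_apply_eq_comp] at this
          rw [win_sub, sub_apply, sub_apply, mul_apply_eq_comp, mul_apply_eq_comp, mE, this]
      simp only [e]
      rw [win_par _ hc, ← one_mul γ, ← p1, Finset.sum_mul]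
      exact Finset.sum_le_sum fun j _ => mul_le_mul_of_nonneg_left (hγ _ (hs j)) (p0 j)
    have h8 := h7.trans (Finset.sum_le_sum fun l _ => win_est (n := n l) h1
      ((μ.cp.left _).1 (hle (sub_mem (nC l) (mC l))) b hb))
    simp only [Finset.sum_add_distrib, ← Finset.mul_sum] at h8
    have h9 := cn (b ξ - a ξ)
    have h10 := cM (b ξ - a ξ)
    have h11 := mul_le_mul_of_nonneg_left h6 (show 0 ≤ 9 * (‖b‖ ^ 2 + 1) by positivity)
    linarith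

end Vale.Agent.P096b
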