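import Vale.Agent.P096b.Tom
import Vale.Agent.P096b.Erg
import Vale.Agent.P096b.Win
import Vale.Agent.P096b.RegStep
import Vale.Agent.P096b.Sign
import Vale.Agent.P096b.Pauli

/-! The energy decrement. -/

set_option linter.unusedSectionVars false

namespace Vale.Agent.P096b

open Filter Topology Vale.Agent.P096 MeasureTheory
open scoped InnerProductSpace ComplexConjugate

universe u v

variable {H : Type u} [NormedAddCommGroup H] [InnerProductSpace ℂ H] [CompleteSpace H]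

variable {H₀ : Type u} [NormedAddCommGroup H₀] [InnerProductSpace ℂ H₀] [CompleteSpace H₀]
  {D₀ : Alg H₀}

/-- One step: `tomita`, `erg`, `win` (for `C = S.CA`), `reg_step`, `sign`, `dbl_step`, `pauli`. -/
theorem micro (V : ℝ) (V0 : 0 < V) : ∃ c : ℝ, 0 < c ∧ ∀ (S : Stage D₀) (a : Op S.H), S.C a →
    ‖a‖ ≤ 1 → (∀ z ∈ S.N, z ∈ S.D → V ≤ ‖a S.ξ - z S.ξ‖) → ∀ ε : ℝ, 0 < ε →
    ∃ (T : Stage D₀) (e : Ext S T) (a' : Op T.H), T.C a' ∧ ‖a'‖ ≤ 1 ∧ ‖T.ξ - e.ι S.ξ‖ ≤ ε ∧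
      ‖a' T.ξ‖ ^ 2 ≤ ‖a S.ξ‖ ^ 2 - c ∧ e.α a T.ξ - a' T.ξ ∈ T.Mv := by
  obtain ⟨g, g0, hs⟩ := sign.{u} (V ^ 4 / 100 / 2 / 2) (by positivity)
  refine ⟨min (g ^ 2 / 128) 1, by positivity, fun S a ha h1 hV ε hε => ?_⟩
  obtain ⟨t, t0, t1, t2, t3, t4⟩ : ∃ t : ℝ, 0 < t ∧ 2 * t ≤ ε ∧ 2 * t ≤ 1 ∧ 16 * t ≤ g ∧
      6 * t ≤ g ^ 2 / 128 := by
    refine ⟨min (min (ε / 2) (1 / 2)) (min (g / 16) (g ^ 2 / 768)), by positivity, ?_, ?_, ?_, ?_⟩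
    · have := (min_le_left _ (min (g / 16) (g ^ 2 / 768))).trans (min_le_left (ε / 2) (1 / 2))
      linarith
    · have := (min_le_left _ (min (g / 16) (g ^ 2 / 768))).trans (min_le_right (ε / 2) (1 / 2))
      linarith
    · have := (min_le_right (min (ε / 2) (1 / 2)) _).trans (min_le_left (g / 16) (g ^ 2 / 768))
      linarith
    · have := (min_le_right (min (ε / 2) (1 / 2)) _).trans (min_le_right (g / 16) (g ^ 2 / 768))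
      linarith
  obtain ⟨β, β0, hs⟩ := hs t t0
  obtain ⟨μ⟩ := tomita S.cp S.cycN S.cycD
  obtain ⟨ι, _, n, f, n1, n2, n3, n4, n5⟩ := win μ S.norm (cp_cm _) S.CA_le (S.CA_σ μ) ha.1 h1
    (γ := V ^ 4 / 100) (β := β / 3) (by positivity) (by positivity)
    (erg μ S.norm (cp_cm _) S.CA_le (S.CA_σ μ) S.CA_dbl (S.mem_CA.2 ha) h1 V0 hV)
  obtain ⟨S₁, e₁, κ₁, ι', _, k, o1, v1, c1, k1, k2, k3, k4, k5⟩ := reg_step S μ.toCj (S.ok μ) n f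
    (a := a) (by positivity : 0 < β / 3) (fun l => S.mem_CA.1 (n1 l)) n2 n3 n4 n5
  have a1 : ‖e₁.α a‖ ≤ 1 := (NonUnitalStarAlgHom.norm_apply_le e₁.α a).trans h1
  obtain ⟨w, w1, w2, w3, w4⟩ := hs S₁.H S₁.N S₁.D S₁.CA _ S₁.ξ κ₁ (e₁.α a) ι' k S₁.cp (cp_cm _)
    S₁.CA_le S₁.norm a1 (fun i => S₁.mem_CA.2 (k1 i)) k2 k3 (by linarith) k5
  obtain ⟨S₂, e₂, κ₂, s, z, o2, v2, s0, z0, s1, s2, z1, z2, sz, zf, s3, s4⟩ :=
    dbl_step S₁ κ₁ o1 w1 (S₁.mem_CA.1 w2) g0.le w3 w4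
  have a2 : ‖e₂.α (e₁.α a)‖ ≤ 1 := (NonUnitalStarAlgHom.norm_apply_le e₂.α _).trans a1
  obtain ⟨T, e₃, a', p1, p2, p3, p4, p5⟩ := pauli S₂ κ₂ o2 s0 z0 s1 s2 z1 z2 sz zf t2 s3
    (e₂.mapN _ (e₁.mapN a ha.1))
  have hv : ((e₁.trans e₂).trans e₃).ι S.ξ = e₃.ι S₂.ξ := by
    rw [v2, v1]
    rfl
  refine ⟨T, (e₁.trans e₂).trans e₃, a', p2, p3.trans a2, by rw [hv]; linarith, ?_, p4⟩
  have key : ∀ x : Op S₂.H, ∀ c : ℝ, ‖x‖ ≤ c → |‖e₃.α x T.ξ‖ - ‖x S₂.ξ‖| ≤ c * (2 * t) := by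
    intro x c hx
    rw [← e₃.ι.norm_map (x S₂.ξ), ← e₃.αι]
    refine (abs_norm_sub_norm_le _ _).trans ?_
    rw [← map_sub]
    refine (ContinuousLinearMap.le_opNorm _ _).trans ?_
    exact mul_le_mul ((NonUnitalStarAlgHom.norm_apply_le e₃.α x).trans hx) p1 (norm_nonneg _)
      ((norm_nonneg _).trans hx)
  have ns : ‖s‖ ≤ 1 := by
    have := CStarRing.norm_star_mul_self (x := s)
    rw [s1, s2] at this
    have h2 : ‖(1 : Op S₂.H)‖ ≤ 1 := ContinuousLinearMap.norm_id_le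
    nlinarith [norm_nonneg s]
  have q1 := abs_le.1 (key _ 1 a2)
  have q2 := abs_le.1 (key (s * e₂.α (e₁.α a) - e₂.α (e₁.α a) * s) 2 (by
    refine (norm_sub_le _ _).trans ?_
    have b1 := norm_mul_le s (e₂.α (e₁.α a))
    have b2 := norm_mul_le (e₂.α (e₁.α a)) s
    nlinarith [norm_nonneg s, norm_nonneg (e₂.α (e₁.α a))]))
  have q3 : ‖e₂.α (e₁.α a) S₂.ξ‖ = ‖a S.ξ‖ := by
    rw [v2, e₂.αι, e₂.ι.norm_map, v1, e₁.αι, e₁.ι.norm_map]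
  have q4 : ‖a S.ξ‖ ≤ 1 := by
    have := a.le_of_opNorm_le h1 S.ξ
    rwa [S.norm, mul_one] at this
  rw [q3] at q1
  have q5 : g / 4 ≤ ‖e₃.α (s * e₂.α (e₁.α a) - e₂.α (e₁.α a) * s) T.ξ‖ := by linarith [q2.1]
  have q6 := min_le_left (g ^ 2 / 128) 1
  have q7 : ‖e₃.α (e₂.α (e₁.α a)) T.ξ‖ ^ 2 ≤ (‖a S.ξ‖ + 2 * t) ^ 2 :=
    pow_le_pow_left₀ (norm_nonneg _) (by linarith [q1.2]) 2
  have q8 := pow_le_pow_left₀ (by positivity) q5 2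
  nlinarith [norm_nonneg (a S.ξ)]

/-- Iterate `micro` at most `1 / c` times: by induction on `k`, either some extension already has
the required property or there is one with `‖a' ξ'‖ ^ 2 ≤ 1 - k c`. -/
theorem big_one (S : Stage D₀) (a : Op S.H) (ha : S.C a) (h1 : ‖a‖ ≤ 1) (ε : ℝ) (hε : 0 < ε) :
    ∃ (T : Stage D₀) (e : Ext S T), ‖T.ξ - e.ι S.ξ‖ ≤ ε ∧
      ∃ z ∈ T.N, z ∈ T.D ∧ ∃ r ∈ T.Mv, ‖e.ι (a S.ξ) - z T.ξ - r‖ ≤ ε := by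
  obtain ⟨c, c0, hm⟩ := micro (D₀ := D₀) (ε / 2) (by positivity)
  obtain ⟨n, hn⟩ := exists_nat_gt (1 / c)
  obtain ⟨t, t0, ht⟩ : ∃ t : ℝ, 0 < t ∧ n * t ≤ ε / 2 := by
    refine ⟨ε / 2 / (n + 1), by positivity, ?_⟩
    rw [mul_div_assoc', div_le_iff₀ (by positivity)]
    nlinarith
  have key : ∀ k : ℕ, k ≤ n → (∃ (T : Stage D₀) (e : Ext S T), ‖T.ξ - e.ι S.ξ‖ ≤ ε ∧
      ∃ z ∈ T.N, z ∈ T.D ∧ ∃ r ∈ T.Mv, ‖e.ι (a S.ξ) - z T.ξ - r‖ ≤ ε) ∨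
      ∃ (T : Stage D₀) (e : Ext S T) (a' : Op T.H), T.C a' ∧ ‖a'‖ ≤ 1 ∧
        ‖T.ξ - e.ι S.ξ‖ ≤ k * t ∧ ‖a' T.ξ‖ ^ 2 ≤ 1 - k * c ∧
        ∃ r ∈ T.Mv, ‖e.ι (a S.ξ) - a' T.ξ - r‖ ≤ k * t := by
    intro k
    induction k with
    | zero =>
      refine fun _ => .inr ⟨S, .refl S, a, ha, h1, by simp [Ext.refl], ?_, 0, zero_mem _,
        by simp [Ext.refl]⟩
      have := a.le_of_opNorm_le h1 S.ξ
      rw [S.norm, mul_one] at this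
      have := pow_le_one₀ (n := 2) (norm_nonneg _) this
      simpa using this
    | succ k ih =>
      intro hk
      have hk' : (k : ℝ) * t ≤ ε / 2 :=
        (mul_le_mul_of_nonneg_right (by exact_mod_cast (Nat.le_of_succ_le hk)) t0.le).trans ht
      rcases ih (Nat.le_of_succ_le hk) with h | ⟨T, e, a', b1, b2, b3, b4, r, r1, r2⟩
      · exact .inl h
      by_cases hV : ∀ z ∈ T.N, z ∈ T.D → ε / 2 ≤ ‖a' T.ξ - z T.ξ‖
      · obtain ⟨R, f, a'', c1, c2, c3, c4, c5⟩ := hm T a' b1 b2 hV t t0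
        refine .inr ⟨R, e.trans f, a'', c1, c2, ?_, by push_cast; linarith,
          f.ι r + (f.α a' R.ξ - a'' R.ξ), add_mem (f.mapMv r1) c5, ?_⟩
        · have e1 : R.ξ - (e.trans f).ι S.ξ = (R.ξ - f.ι T.ξ) + f.ι (T.ξ - e.ι S.ξ) := by
            rw [map_sub]
            exact (sub_add_sub_cancel _ _ _).symm
          rw [e1]
          refine (norm_add_le _ _).trans ?_
          rw [f.ι.norm_map]
          push_cast
          linarith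
        · have e1 : (e.trans f).ι (a S.ξ) - a'' R.ξ - (f.ι r + (f.α a' R.ξ - a'' R.ξ)) =
              f.ι (e.ι (a S.ξ) - a' T.ξ - r) - f.α a' (R.ξ - f.ι T.ξ) := by
            rw [map_sub, map_sub, map_sub, f.αι]
            show f.ι (e.ι (a S.ξ)) - _ - _ = _
            abel
          rw [e1]
          refine (norm_sub_le _ _).trans ?_
          rw [f.ι.norm_map]
          have := (f.α a').le_of_opNorm_le
            ((NonUnitalStarAlgHom.norm_apply_le f.α a').trans b2) (R.ξ - f.ι T.ξ)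
          push_cast
          linarith
      · push Not at hV
        obtain ⟨z, z1, z2, z3⟩ := hV
        refine .inl ⟨T, e, by linarith, z, z1, z2, r, r1, ?_⟩
        have e1 : e.ι (a S.ξ) - z T.ξ - r = (e.ι (a S.ξ) - a' T.ξ - r) + (a' T.ξ - z T.ξ) := by
          abel
        rw [e1]
        linarith [norm_add_le (e.ι (a S.ξ) - a' T.ξ - r) (a' T.ξ - z T.ξ)]
  rcases key n le_rfl with h | ⟨T, e, a', -, -, -, b4, -⟩
  · exact h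
  · rw [div_lt_iff₀ c0] at hn
    nlinarith [sq_nonneg ‖a' T.ξ‖]

/-- Approximate `v` by `a₀ ξ`, average with `Stage.avg` and scale. -/
theorem big_step (S : Stage D₀) (v : S.H) (ε : ℝ) (hε : 0 < ε) :
    ∃ (T : Stage D₀) (e : Ext S T), ‖T.ξ - e.ι S.ξ‖ ≤ ε ∧
      ∃ z ∈ T.N, z ∈ T.D ∧ ∃ r ∈ T.Mv, ‖e.ι v - z T.ξ - r‖ ≤ ε := by
  obtain ⟨a₀, h0, h1⟩ := S.cycN v (ε / 2) (by positivity)
  obtain ⟨a, a1, a2, a3, -⟩ := S.avg h0
  obtain ⟨c, hc⟩ : ∃ c : ℝ, c = ‖a‖ + 1 := ⟨_, rfl⟩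
  have c1 : 1 ≤ c := by rw [hc]; linarith [norm_nonneg a]
  have c0 : 0 < c := by linarith
  obtain ⟨T, e, b1, z, z1, z2, r, r1, r2⟩ := big_one S (((c⁻¹ : ℝ) : ℂ) • a)
    ⟨S.N.smul_mem a1.1 _, fun γ hγ => by rw [mul_smul_comm, smul_mul_assoc, a1.2 γ hγ]⟩
    (by
      rw [norm_smul, Complex.norm_real, Real.norm_of_nonneg (by positivity),
        inv_mul_le_iff₀ c0]
      linarith)
    (ε / 2 / c) (by positivity)
  have d1 : ε / 2 / c ≤ ε / 2 := div_le_self (by positivity) c1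
  refine ⟨T, e, by linarith, (c : ℂ) • z, T.N.smul_mem z1 _, T.D.smul_mem z2 _,
    (c : ℂ) • r + e.ι (a₀ S.ξ - a S.ξ), add_mem (T.Mv.smul_mem _ r1) (e.mapMv a3), ?_⟩
  have e1 : e.ι v - ((c : ℂ) • z) T.ξ - ((c : ℂ) • r + e.ι (a₀ S.ξ - a S.ξ)) =
      (c : ℂ) • (e.ι ((((c⁻¹ : ℝ) : ℂ) • a) S.ξ) - z T.ξ - r) - e.ι (a₀ S.ξ - v) := by
    have : (c : ℂ) * ((c⁻¹ : ℝ) : ℂ) = 1 := by
      rw [← Complex.ofReal_mul, mul_inv_cancel₀ c0.ne', Complex.ofReal_one]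
    simp only [smul_apply, map_smul, map_sub, smul_sub, smul_smul, this, one_smul]
    abel
  rw [e1]
  refine (norm_sub_le _ _).trans ?_
  rw [norm_smul, e.ι.norm_map, Complex.norm_real, Real.norm_of_nonneg c0.le]
  have := mul_le_mul_of_nonneg_left r2 c0.le
  rw [mul_div_cancel₀ _ c0.ne'] at this
  linarith

end Vale.Agent.P096b
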