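import Vale.Agent.P096b.PinSeq
import Vale.Agent.P096b.IndLim

/-! Existence of pinned vectors. -/

set_option linter.unusedSectionVars false

namespace Vale.Agent.P096b

open Filter Topology Vale.Agent.P096 MeasureTheory
open scoped InnerProductSpace ComplexConjugate

universe u v

variable {H : Type u} [NormedAddCommGroup H] [InnerProductSpace ℂ H] [CompleteSpace H]

variable {H₀ : Type u} [NormedAddCommGroup H₀] [InnerProductSpace ℂ H₀] [CompleteSpace H₀]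
  {D₀ : Alg H₀}

/-- The enlarged algebra. -/
noncomputable def enl {K : Type u} [NormedAddCommGroup K] [InnerProductSpace ℂ K] [CompleteSpace K]
    (π : Op H₀ →⋆ₐ[ℂ] Op K) (Λ : ℕ → Subgroup (unitary (Op K))) (D : Alg H₀) : Alg K :=
  cm (π '' D ∪ Set.range fun g : ↥(⨆ n, Λ n) => ((⨆ n, Λ n).subtype g : Op K))

/-- The map induced on unitaries. -/
noncomputable def pxU {K : Type u} [NormedAddCommGroup K] [InnerProductSpace ℂ K] [CompleteSpace K]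
    (p : Op H →⋆ₐ[ℂ] Op K) : unitary (Op H) →* unitary (Op K) where
  toFun u := ⟨p u, Unitary.map_mem p u.2⟩
  map_one' := Subtype.ext (map_one p)
  map_mul' _ _ := Subtype.ext (map_mul p _ _)

/-- The compression of an operator. -/
noncomputable def pxC {K : Type u} [NormedAddCommGroup K] [InnerProductSpace ℂ K] [CompleteSpace K]
    (j : H →ₗᵢ[ℂ] K) (x : Op K) : Op H :=
  (ContinuousLinearMap.adjoint j.toContinuousLinearMap).comp (x.comp j.toContinuousLinearMap)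

section Comp

variable {K : Type u} [NormedAddCommGroup K] [InnerProductSpace ℂ K] [CompleteSpace K]

theorem px_inner (j : H →ₗᵢ[ℂ] K) (x : Op K) (u w : H) : ⟪u, pxC j x w⟫_ℂ = ⟪j u, x (j w)⟫_ℂ :=
  ContinuousLinearMap.adjoint_inner_right j.toContinuousLinearMap u (x (j w))

theorem px_comm {j : H →ₗᵢ[ℂ] K} {p : Op H →⋆ₐ[ℂ] Op K} (h : ∀ a η, p a (j η) = j (a η))
    {x : Op K} {a : Op H} (hx : x * p a = p a * x) : pxC j x * a = a * pxC j x := by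
  refine ContinuousLinearMap.ext fun w => ext_inner_left ℂ fun u => ?_
  have e : x (p a (j w)) = p a (x (j w)) := congrArg (fun y : Op K => y (j w)) hx
  rw [mul_apply_eq_comp, mul_apply_eq_comp, px_inner, ← h, e, ← tl_inner' a, px_inner, ← h,
    map_star, tl_inner']

theorem px_comm' {j : H →ₗᵢ[ℂ] K} {p : Op H →⋆ₐ[ℂ] Op K} (h : ∀ a η, p a (j η) = j (a η))
    {x : Op K} {a : Op H} (hx : pxC j x * a = a * pxC j x) (u w : H) :
    ⟪j u, (x * p a - p a * x) (j w)⟫_ℂ = 0 := by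
  have e : pxC j x (a w) = a (pxC j x w) := congrArg (fun y : Op H => y w) hx
  rw [sub_apply, inner_sub_right, mul_apply_eq_comp, mul_apply_eq_comp, h,
    ← px_inner, e, ← tl_inner' a, px_inner, ← h, map_star, tl_inner', sub_self]

theorem px_norm (p : Op H →⋆ₐ[ℂ] Op K) (x : Op H) : ‖p x‖ ≤ ‖x‖ :=
  NonUnitalStarAlgHom.norm_apply_le p x

theorem px_orth {g h : Op K} (hg : g ∈ unitary (Op K)) (hh : h ∈ unitary (Op K)) {w : K}
    (hw : g (h w) = w) (η : K) : ⟪w, g (h η) - η⟫_ℂ = 0 := by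
  rw [inner_sub_right, sub_eq_zero]
  conv_lhs => rw [← hw]
  rw [g.inner_map_map_of_mem_unitary hg, h.inner_map_map_of_mem_unitary hh]

end Comp

/-- The data of the inductive limit. -/
structure PxL (D₀ : Alg H₀) (K : Type u) [NormedAddCommGroup K] [InnerProductSpace ℂ K]
    [CompleteSpace K] where
  S : ℕ → Stage D₀
  e : ∀ n, Ext (S n) (S (n + 1))
  j : ∀ n, (S n).H →ₗᵢ[ℂ] K
  p : ∀ n, Op (S n).H →⋆ₐ[ℂ] Op K
  hj : ∀ n η, j (n + 1) ((e n).ι η) = j n η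
  hp : ∀ n x, p (n + 1) ((e n).α x) = p n x
  hpj : ∀ n x η, p n x (j n η) = j n (x η)
  dense : ∀ (η : K) (ε : ℝ), 0 < ε → ∃ n ζ, ‖j n ζ - η‖ < ε

namespace PxL

variable {K : Type u} [NormedAddCommGroup K] [InnerProductSpace ℂ K] [CompleteSpace K]
  (L : PxL D₀ K)

/-- The representation. -/
noncomputable def π : Op H₀ →⋆ₐ[ℂ] Op K := (L.p 0).comp (L.S 0).π

/-- The first family of groups. -/
noncomputable def Λ (n : ℕ) : Subgroup (unitary (Op K)) := (L.S n).Λ.map (pxU (L.p n))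

/-- The second family of groups. -/
noncomputable def Γ (n : ℕ) : Subgroup (UU K) :=
  (L.S n).Γ.map ((pxU (L.p n)).prodMap (pxU (L.p n)))

/-- The algebra. -/
noncomputable def A : Alg K := enl L.π L.Λ D₀

/-- The commutant. -/
noncomputable def B : Alg K := cm (L.A : Set (Op K))

/-- The vectors fixed by the group. -/
def Fix (w : K) : Prop := ∀ n, ∀ γ ∈ L.Γ n, (γ.1 : Op K) ((γ.2 : Op K) w) = w

theorem π_eq (n : ℕ) (x : Op H₀) : L.π x = L.p n ((L.S n).π x) := by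
  induction n with
  | zero => rfl
  | succ n ih => rw [ih, (L.e n).π, L.hp]

theorem mem_Λ {n : ℕ} {l : unitary (Op K)} :
    l ∈ L.Λ n ↔ ∃ l₀ ∈ (L.S n).Λ, L.p n l₀ = l :=
  Subgroup.mem_map.trans (exists_congr fun _ => and_congr_right fun _ => Subtype.ext_iff)

theorem mem_Γ {n : ℕ} {γ : UU K} :
    γ ∈ L.Γ n ↔ ∃ γ₀ ∈ (L.S n).Γ, L.p n γ₀.1 = γ.1 ∧ L.p n γ₀.2 = γ.2 :=
  Subgroup.mem_map.trans (exists_congr fun _ => and_congr_right fun _ =>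
    Prod.ext_iff.trans (and_congr Subtype.ext_iff Subtype.ext_iff))

theorem mono_Λ : Monotone L.Λ := monotone_nat_of_le_succ fun n l hl => by
  obtain ⟨l₀, h1, h2⟩ := L.mem_Λ.1 hl
  obtain ⟨l', h3, h4⟩ := (L.e n).mapΛ l₀ h1
  exact L.mem_Λ.2 ⟨l', h3, by rw [h4, L.hp, h2]⟩

theorem mono_Γ : Monotone L.Γ := monotone_nat_of_le_succ fun n γ hγ => by
  obtain ⟨γ₀, h1, h2, h2'⟩ := L.mem_Γ.1 hγ
  obtain ⟨γ', h3, h4, h4'⟩ := (L.e n).mapΓ γ₀ h1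
  exact L.mem_Γ.2 ⟨γ', h3, by rw [h4, L.hp, h2], by rw [h4', L.hp, h2']⟩

theorem fin_Λ (n : ℕ) : Finite (L.Λ n) :=
  have := (L.S n).finΛ
  Finite.of_surjective _ (MonoidHom.subgroupMap_surjective _ _)

theorem fin_Γ (n : ℕ) : Finite (L.Γ n) :=
  have := (L.S n).finΓ
  Finite.of_surjective _ (MonoidHom.subgroupMap_surjective _ _)

theorem comm_Λ (n : ℕ) (l : unitary (Op K)) (hl : l ∈ L.Λ n) (x : Op H₀) :
    (l : Op K) * L.π x = L.π x * l := by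
  obtain ⟨l₀, h1, h2⟩ := L.mem_Λ.1 hl
  rw [← h2, L.π_eq n, ← map_mul, ← map_mul, (L.S n).comm l₀ h1]

theorem mem_A {x : Op K} : x ∈ L.A ↔ (∀ y ∈ D₀, x * L.π y = L.π y * x) ∧
    ∀ n, ∀ l ∈ L.Λ n, x * (l : Op K) = l * x := by
  refine (mem_cm' ?_).trans ⟨fun h => ⟨fun y hy => h _ (Or.inl ⟨y, hy, rfl⟩),
    fun n l hl => h _ (Or.inr ⟨⟨l, Subgroup.mem_iSup_of_mem n hl⟩, rfl⟩)⟩, ?_⟩
  · rintro _ (⟨y, hy, rfl⟩ | ⟨g, rfl⟩)
    · exact Or.inl ⟨star y, star_mem (s := D₀) hy, map_star _ _⟩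
    · exact Or.inr ⟨g⁻¹, rfl⟩
  · rintro h _ (⟨y, hy, rfl⟩ | ⟨g, rfl⟩)
    · exact h.1 y hy
    · obtain ⟨n, hn⟩ := (Subgroup.mem_iSup_of_directed L.mono_Λ.directed_le).1 g.2
      exact h.2 n _ hn

theorem cp : CP L.A L.B := cp_cm _

theorem upN {n k : ℕ} (h : n ≤ k) {a : Op (L.S n).H} (ha : a ∈ (L.S n).N) :
    ∃ a' ∈ (L.S k).N, L.p k a' = L.p n a := by
  induction k, h using Nat.le_induction with
  | base => exact ⟨a, ha, rfl⟩
  | succ k _ ih =>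
    obtain ⟨a', h1, h2⟩ := ih
    exact ⟨_, (L.e k).mapN _ h1, by rw [L.hp, h2]⟩

theorem upD {n k : ℕ} (h : n ≤ k) {a : Op (L.S n).H} (ha : a ∈ (L.S n).D) :
    ∃ a' ∈ (L.S k).D, L.p k a' = L.p n a := by
  induction k, h using Nat.le_induction with
  | base => exact ⟨a, ha, rfl⟩
  | succ k _ ih =>
    obtain ⟨a', h1, h2⟩ := ih
    exact ⟨_, (L.e k).mapD _ h1, by rw [L.hp, h2]⟩

theorem upv {n k : ℕ} (h : n ≤ k) (v : (L.S n).H) : ∃ v', L.j k v' = L.j n v := by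
  induction k, h using Nat.le_induction with
  | base => exact ⟨v, rfl⟩
  | succ k _ ih =>
    obtain ⟨v', h2⟩ := ih
    exact ⟨_, by rw [L.hj, h2]⟩

theorem j_iter (n k : ℕ) (v : (L.S n).H) : L.j (n + k) ((iter L.e n k).ι v) = L.j n v := by
  induction k with
  | zero => rfl
  | succ k ih => exact (L.hj (n + k) _).trans ih

theorem mapN {n : ℕ} {a : Op (L.S n).H} (ha : a ∈ (L.S n).N) : L.p n a ∈ L.A := by
  refine L.mem_A.2 ⟨fun y hy => ?_, fun m l hl => ?_⟩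
  · rw [L.π_eq n, ← map_mul, ← map_mul, (((L.S n).gen a).1 ha).1 y hy]
  · obtain ⟨a', h1, h2⟩ := L.upN (le_max_left n m) ha
    obtain ⟨l₀, h3, h4⟩ := L.mem_Λ.1 (L.mono_Λ (le_max_right n m) hl)
    rw [← h2, ← h4, ← map_mul, ← map_mul, (((L.S _).gen a').1 h1).2 l₀ h3]

theorem denseRange : DenseRange fun q : Σ k, (L.S k).H => L.j q.1 q.2 :=
  Metric.denseRange_iff.2 fun η ε hε => by
    obtain ⟨n, ζ, h⟩ := L.dense η ε hε
    exact ⟨⟨n, ζ⟩, by rwa [dist_comm, dist_eq_norm]⟩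

theorem eq_zero {T : Op K} {n : ℕ}
    (h : ∀ k, n ≤ k → ∀ u w, ⟪L.j k u, T (L.j k w)⟫_ℂ = 0) : T = 0 := by
  refine ContinuousLinearMap.ext fun ζ => ext_inner_left ℂ fun η => ?_
  rw [zero_apply, inner_zero_right]
  refine L.denseRange.induction_on₂ (p := fun η ζ => ⟪η, T ζ⟫_ℂ = 0)
    (isClosed_eq (by fun_prop) continuous_const) (fun a b => ?_) η ζ
  obtain ⟨u, hu⟩ := L.upv (k := max n (max a.1 b.1)) (by omega) a.2
  obtain ⟨w, hw⟩ := L.upv (k := max n (max a.1 b.1)) (by omega) b.2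
  rw [← hu, ← hw]
  exact h _ (le_max_left _ _) u w

theorem comp_mem {x : Op K} (hx : x ∈ L.A) (k : ℕ) : pxC (L.j k) x ∈ (L.S k).N := by
  obtain ⟨h1, h2⟩ := L.mem_A.1 hx
  refine ((L.S k).gen _).2 ⟨fun y hy => px_comm (L.hpj k) ?_, fun l hl => px_comm (L.hpj k) ?_⟩
  · rw [← L.π_eq]
    exact h1 y hy
  · exact h2 k (pxU (L.p k) l) (Subgroup.mem_map_of_mem _ hl)

theorem mapD {n : ℕ} {d : Op (L.S n).H} (hd : d ∈ (L.S n).D) : L.p n d ∈ L.B := by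
  refine mem_cm_alg.2 fun x hx => (sub_eq_zero.1 (L.eq_zero (n := n) fun k hk u w => ?_)).symm
  obtain ⟨d', h1, h2⟩ := L.upD hk hd
  rw [← h2]
  exact px_comm' (L.hpj k) (((L.S k).cp.left _).1 (L.comp_mem hx k) d' h1) u w

theorem memA (n : ℕ) (γ : UU K) (hγ : γ ∈ L.Γ n) : (γ.1 : Op K) ∈ L.A := by
  obtain ⟨γ₀, h1, h2, -⟩ := L.mem_Γ.1 hγ
  exact h2 ▸ L.mapN ((L.S n).memN γ₀ h1)

theorem memB (n : ℕ) (γ : UU K) (hγ : γ ∈ L.Γ n) : (γ.2 : Op K) ∈ L.B := by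
  obtain ⟨γ₀, h1, -, h2⟩ := L.mem_Γ.1 hγ
  exact h2 ▸ L.mapD ((L.S n).memD γ₀ h1)

theorem orth {w : K} (hw : L.Fix w) {n : ℕ} {r : (L.S n).H} (hr : r ∈ (L.S n).Mv) :
    ⟪w, L.j n r⟫_ℂ = 0 := by
  induction hr using Submodule.span_induction with
  | mem v hv =>
    obtain ⟨γ, h1, η, rfl⟩ := hv
    rw [map_sub, ← L.hpj, ← L.hpj]
    exact px_orth (Unitary.map_mem _ γ.1.2) (Unitary.map_mem _ γ.2.2)
      (hw n _ (Subgroup.mem_map_of_mem _ h1)) _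
  | zero => rw [map_zero, inner_zero_right]
  | add _ _ _ _ h1 h2 => rw [map_add, inner_add_right, h1, h2, add_zero]
  | smul c _ _ h1 => rw [map_smul, inner_smul_right, h1, mul_zero]

theorem fix_mul {w : K} (hw : L.Fix w) {x : Op K}
    (h1 : ∀ n, ∀ γ ∈ L.Γ n, (γ.1 : Op K) * x = x * γ.1)
    (h2 : ∀ n, ∀ γ ∈ L.Γ n, (γ.2 : Op K) * x = x * γ.2) : L.Fix (x w) := fun n γ hγ => by
  have e1 : (γ.2 : Op K) (x w) = x ((γ.2 : Op K) w) :=
    congrArg (fun y : Op K => y w) (h2 n γ hγ)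
  have e2 : (γ.1 : Op K) (x ((γ.2 : Op K) w)) = x ((γ.1 : Op K) ((γ.2 : Op K) w)) :=
    congrArg (fun y : Op K => y ((γ.2 : Op K) w)) (h1 n γ hγ)
  rw [e1, e2, hw n γ hγ]

theorem commA {x : Op K} (hx : x ∈ L.A) (n : ℕ) (γ : UU K) (hγ : γ ∈ L.Γ n) :
    (γ.2 : Op K) * x = x * γ.2 := (L.cp.right _).1 (L.memB n γ hγ) x hx

theorem commB {x : Op K} (hx : x ∈ L.B) (n : ℕ) (γ : UU K) (hγ : γ ∈ L.Γ n) :
    (γ.1 : Op K) * x = x * γ.1 := (L.cp.left _).1 (L.memA n γ hγ) x hx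

theorem exists_vec {b : ℕ → ℝ} (h0 : ∀ n, 0 < b n) (h1 : ∀ n, b (n + 1) ≤ b n / 2)
    (h2 : ∀ n, ‖(L.S (n + 1)).ξ - (L.e n).ι (L.S n).ξ‖ ≤ b n / 2) :
    ∃ ξ : K, ‖ξ‖ = 1 ∧ L.Fix ξ ∧ ∀ n, ‖ξ - L.j n (L.S n).ξ‖ ≤ b n := by
  have e1 : ∀ n, ‖L.j (n + 1) (L.S (n + 1)).ξ - L.j n (L.S n).ξ‖ ≤ b n / 2 := fun n => by
    rw [← L.hj n, ← map_sub, LinearIsometry.norm_map]
    exact h2 n
  have e2 : ∀ n, b n ≤ b 0 / 2 ^ n := fun n => by
    induction n with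
    | zero => simp
    | succ n ih =>
      rw [pow_succ, ← div_div]
      linarith [h1 n]
  have e3 : CauchySeq fun n => L.j n (L.S n).ξ :=
    cauchySeq_of_le_geometric_two (C := b 0) fun n => by
      rw [dist_comm, dist_eq_norm, div_right_comm]
      linarith [e1 n, e2 n]
  obtain ⟨ξ, hξ⟩ := cauchySeq_tendsto_of_complete e3
  refine ⟨ξ, ?_, fun n γ hγ => ?_, fun n => ?_⟩
  · refine tendsto_nhds_unique hξ.norm (tendsto_const_nhds.congr fun n => ?_)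
    rw [LinearIsometry.norm_map, (L.S n).norm]
  · refine tendsto_nhds_unique (((γ.1 : Op K).continuous.tendsto _).comp
      (((γ.2 : Op K).continuous.tendsto _).comp hξ)) (hξ.congr' ?_)
    filter_upwards [eventually_ge_atTop n] with k hk
    obtain ⟨γ₀, h3, h4, h5⟩ := L.mem_Γ.1 (L.mono_Γ hk hγ)
    simp only [Function.comp_apply]
    rw [← h4, ← h5, L.hpj, L.hpj, (L.S k).fix γ₀ h3]
  · refine le_of_tendsto (hξ.sub_const _).norm ?_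
    filter_upwards [eventually_ge_atTop n] with k hk
    have : ‖L.j k (L.S k).ξ - L.j n (L.S n).ξ‖ ≤ b n - b k := by
      induction k, hk using Nat.le_induction with
      | base => simp
      | succ k _ ih =>
        have := norm_sub_le_norm_sub_add_norm_sub (L.j (k + 1) (L.S (k + 1)).ξ) (L.j k (L.S k).ξ)
          (L.j n (L.S n).ξ)
        linarith [e1 k, h1 k]
    linarith [h0 k]

theorem approx {ξ : K} {m : ℕ} {t : ℝ} (h : ‖ξ - L.j m (L.S m).ξ‖ ≤ t) (x : Op (L.S m).H) :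
    ‖L.p m x ξ - L.j m (x (L.S m).ξ)‖ ≤ ‖x‖ * t := by
  rw [← L.hpj, ← map_sub]
  exact ((L.p m x).le_opNorm _).trans
    (mul_le_mul (px_norm _ x) h (norm_nonneg _) (norm_nonneg _))

theorem capt {b : ℕ → ℝ} {ξ : K} (h : ∀ n, ‖ξ - L.j n (L.S n).ξ‖ ≤ b n)
    (hc : ∀ (n : ℕ) (v : (L.S n).H) (ε : ℝ), 0 < ε →
      ∃ k, Capt (L.S (n + k)) (b (n + k)) ((iter L.e n k).ι v) ε) (η : K) {ε : ℝ} (hε : 0 < ε) :
    (∃ x ∈ L.A, ‖x ξ - η‖ < ε) ∧ (∃ y ∈ L.B, ‖y ξ - η‖ < ε) ∧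
      ∃ z ∈ L.A, z ∈ L.B ∧ ∃ r, (∀ w, L.Fix w → ⟪w, r⟫_ℂ = 0) ∧ ‖η - z ξ - r‖ < ε := by
  obtain ⟨n, v, hv⟩ := L.dense η (ε / 2) (half_pos hε)
  obtain ⟨k, x, hx, y, hy, z, hz, hz', r, hr, e1, e2, e3⟩ := hc n v (ε / 2) (half_pos hε)
  rw [← L.j_iter n k] at hv
  generalize (iter L.e n k).ι v = v' at *
  generalize n + k = m at *
  have key : ∀ x : Op (L.S m).H, ‖L.p m x ξ - η‖
      ≤ ‖x‖ * b m + ‖x (L.S m).ξ - v'‖ + ‖L.j m v' - η‖ := fun x => by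
    have e : L.p m x ξ - η = (L.p m x ξ - L.j m (x (L.S m).ξ)) + L.j m (x (L.S m).ξ - v')
        + (L.j m v' - η) := by
      rw [map_sub]
      abel
    rw [e, ← (L.j m).norm_map (x (L.S m).ξ - v')]
    exact norm_add₃_le.trans (by gcongr; exact L.approx (h m) x)
  refine ⟨⟨_, L.mapN hx, by linarith [key x]⟩, ⟨_, L.mapD hy, by linarith [key y]⟩,
    _, L.mapN hz, L.mapD hz', L.j m r, fun w hw => L.orth hw hr, ?_⟩
  have e : η - L.p m z ξ - L.j m r = L.j m (v' - z (L.S m).ξ - r)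
      - (L.p m z ξ - L.j m (z (L.S m).ξ)) - (L.j m v' - η) := by
    rw [map_sub, map_sub]
    abel
  have e4 := L.approx (h m) z
  have e5 := norm_sub_le (L.j m (v' - z (L.S m).ξ - r) - (L.p m z ξ - L.j m (z (L.S m).ξ)))
    (L.j m v' - η)
  have e6 := norm_sub_le (L.j m (v' - z (L.S m).ξ - r)) (L.p m z ξ - L.j m (z (L.S m).ξ))
  rw [LinearIsometry.norm_map] at e6
  rw [e]
  linarith

theorem cen {ξ : K} (hξ : L.Fix ξ) {ζ : K} (hζ : L.Fix ζ) {ε : ℝ}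
    (h : ∃ z ∈ L.A, z ∈ L.B ∧ ∃ r, (∀ w, L.Fix w → ⟪w, r⟫_ℂ = 0) ∧ ‖ζ - z ξ - r‖ < ε) :
    ∃ z ∈ L.A, z ∈ L.B ∧ ‖ζ - z ξ‖ < ε := by
  obtain ⟨z, h1, h2, r, h3, h4⟩ := h
  refine ⟨z, h1, h2, lt_of_le_of_lt ?_ h4⟩
  have e1 : L.Fix (z ξ) := L.fix_mul hξ (L.commB h2) (L.commA h1)
  have e2 : L.Fix (ζ - z ξ) := fun n γ hγ => by
    rw [map_sub, map_sub, hζ n γ hγ, e1 n γ hγ]
  have e3 := @norm_sub_sq ℂ _ _ _ _ (ζ - z ξ) r
  rw [h3 _ e2, map_zero] at e3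
  refine (pow_le_pow_iff_left₀ (norm_nonneg _) (norm_nonneg _) two_ne_zero).1 ?_
  rw [e3]
  linarith [sq_nonneg ‖r‖]

theorem pin {b : ℕ → ℝ} (h0 : ∀ n, 0 < b n) (h1 : ∀ n, b (n + 1) ≤ b n / 2)
    (h2 : ∀ n, ‖(L.S (n + 1)).ξ - (L.e n).ι (L.S n).ξ‖ ≤ b n / 2)
    (hc : ∀ (n : ℕ) (v : (L.S n).H) (ε : ℝ), 0 < ε →
      ∃ k, Capt (L.S (n + k)) (b (n + k)) ((iter L.e n k).ι v) ε) :
    ∃ ξ, Pin L.A L.B ξ L.Γ := by
  obtain ⟨ξ, e1, e2, e3⟩ := L.exists_vec h0 h1 h2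
  have cA : Cyc L.A ξ := fun η ε hε => (L.capt e3 hc η hε).1
  have cB : Cyc L.B ξ := fun η ε hε => (L.capt e3 hc η hε).2.1
  refine ⟨ξ, L.cp, cA, cB, e1, L.mono_Γ, L.fin_Γ, L.memA, L.memB, e2, fun x hx h => ?_,
    fun y hy h => ?_⟩
  · exact central_of_approx L.cp cA cB hx fun ε hε =>
      L.cen e2 (L.fix_mul e2 h (L.commA hx)) (L.capt e3 hc _ hε).2.2
  · refine central_of_approx L.cp.symm cB cA hy fun ε hε => ?_
    obtain ⟨z, k1, k2, k3⟩ := L.cen e2 (L.fix_mul e2 (L.commB hy) h) (L.capt e3 hc _ hε).2.2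
    exact ⟨z, k2, k1, k3⟩

end PxL

/-- The initial stage. -/
noncomputable def pxS [TopologicalSpace.SeparableSpace H₀] {N₀ : Alg H₀} (h : CP N₀ D₀) {ξ₀ : H₀}
    (h1 : ‖ξ₀‖ = 1) (hN : Cyc N₀ ξ₀) (hD : Cyc D₀ ξ₀) : Stage D₀ where
  H := H₀
  N := N₀
  D := D₀
  cp := h
  ξ := ξ₀
  norm := h1
  cycN := hN
  cycD := hD
  π := .id ℂ _
  j := .id
  πj _ _ := rfl
  Λ := ⊥
  finΛ := inferInstance
  comm l hl x := by simp [Subgroup.mem_bot.1 hl]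
  gen x := (h.left x).trans ⟨fun k => ⟨k, fun l hl => by simp [Subgroup.mem_bot.1 hl]⟩,
    fun k => k.1⟩
  Γ := ⊥
  finΓ := inferInstance
  memN γ hγ := by simp [Subgroup.mem_bot.1 hγ]
  memD γ hγ := by simp [Subgroup.mem_bot.1 hγ]
  fix γ hγ := by simp [Subgroup.mem_bot.1 hγ]
  dbl x _ _ k := (h.right x).2 fun c hc => k c hc fun γ hγ => by simp [Subgroup.mem_bot.1 hγ]

/-- Take `stage_seq` and `ind_lim` (maps `j n`, `p n`); `π = p 0 ∘ (S 0).π`, `Λ n`, `Γ n` are the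
images under `p n`, `ξ = lim j n (ξ n)` with `‖ξ - j n (ξ n)‖ ≤ b n`. `p n` maps `N n` into
`enl` (use `gen` at later stages) and `D n` into its commutant (for `x ∈ enl` the compression
`(j k)* x (j k)` lies in `N k` by `gen`; then use density). `Capt` gives cyclicity, and that every
vector `ζ` fixed by all `γ.1 γ.2` is a limit of vectors `z ξ`, `z` central: `ζ` is orthogonal to
`j k Mv`; subtract from `ζ` its projection onto the closure of the central vectors (which are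
fixed), the rest `ζ'` is fixed and `⟪ζ', j n v⟫ = 0` for all `v`. Finish with
`central_of_approx` (for both algebras). -/
theorem pin_exists [TopologicalSpace.SeparableSpace H₀] {N₀ : Alg H₀} (h : CP N₀ D₀) {ξ₀ : H₀}
    (h1 : ‖ξ₀‖ = 1) (hN : Cyc N₀ ξ₀) (hD : Cyc D₀ ξ₀) :
    ∃ (K : Type u) (_ : NormedAddCommGroup K) (_ : InnerProductSpace ℂ K) (_ : CompleteSpace K)
      (π : Op H₀ →⋆ₐ[ℂ] Op K) (j : H₀ →ₗᵢ[ℂ] K) (Λ : ℕ → Subgroup (unitary (Op K))) (ξ : K)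
      (Γ : ℕ → Subgroup (UU K)), (∀ x η, π x (j η) = j (x η)) ∧ Monotone Λ ∧
      (∀ n, Finite (Λ n)) ∧ (∀ n, ∀ l ∈ Λ n, ∀ x, (l : Op K) * π x = π x * l) ∧
      Pin (enl π Λ D₀) (cm (enl π Λ D₀ : Set (Op K))) ξ Γ := by
  obtain ⟨S, e, b, b0, b1, b2, hc⟩ := stage_seq (pxS h h1 hN hD)
  obtain ⟨K, i1, i2, i3, j, p, hj, hp, hpj, hd⟩ :=
    ind_lim (fun n => (S n).H) (fun n => (e n).ι) (fun n => (e n).α) fun n => (e n).αι
  let L : PxL D₀ K := ⟨S, e, j, p, hj, hp, hpj, hd⟩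
  obtain ⟨ξ, hξ⟩ := L.pin b0 b1 b2 hc
  refine ⟨K, i1, i2, i3, L.π, (j 0).comp (S 0).j, L.Λ, ξ, L.Γ, fun x η => ?_, L.mono_Λ, L.fin_Λ,
    L.comm_Λ, hξ⟩
  exact (hpj 0 _ _).trans (congrArg (j 0) ((S 0).πj x η))

end Vale.Agent.P096b
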