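import Vale.Agent.P096b.Micro

/-! The sequence of stages. -/

set_option linter.unusedSectionVars false

namespace Vale.Agent.P096b

open Filter Topology Vale.Agent.P096 MeasureTheory
open scoped InnerProductSpace ComplexConjugate

universe u v

variable {H : Type u} [NormedAddCommGroup H] [InnerProductSpace ℂ H] [CompleteSpace H]

variable {H₀ : Type u} [NormedAddCommGroup H₀] [InnerProductSpace ℂ H₀] [CompleteSpace H₀]
  {D₀ : Alg H₀}

/-- Iterated extensions. -/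
noncomputable def iter {S : ℕ → Stage D₀} (e : ∀ n, Ext (S n) (S (n + 1))) (n : ℕ) :
    ∀ k, Ext (S n) (S (n + k))
  | 0 => Ext.refl _
  | k + 1 => (iter e n k).trans (e (n + k))

/-- The vector `v` is captured at the stage `T` with future budget `b`. -/
def Capt (T : Stage D₀) (b : ℝ) (v : T.H) (ε : ℝ) : Prop :=
  ∃ x ∈ T.N, ∃ y ∈ T.D, ∃ z ∈ T.N, z ∈ T.D ∧ ∃ r ∈ T.Mv,
    ‖x T.ξ - v‖ + ‖x‖ * b ≤ ε ∧ ‖y T.ξ - v‖ + ‖y‖ * b ≤ ε ∧ ‖v - z T.ξ - r‖ + ‖z‖ * b ≤ ε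

theorem Capt.mono {T : Stage D₀} {b ε ε' : ℝ} {v w : T.H} (h : Capt T b v ε)
    (h1 : ε + ‖v - w‖ ≤ ε') : Capt T b w ε' := by
  obtain ⟨x, x1, y, y1, z, z1, z2, r, r1, a1, a2, a3⟩ := h
  refine ⟨x, x1, y, y1, z, z1, z2, r, r1, ?_, ?_, ?_⟩
  · linarith [norm_sub_le_norm_sub_add_norm_sub (x T.ξ) v w]
  · linarith [norm_sub_le_norm_sub_add_norm_sub (y T.ξ) v w]
  · have e : w - z T.ξ - r = (v - z T.ξ - r) - (v - w) := by abel
    rw [e]
    linarith [norm_sub_le (v - z T.ξ - r) (v - w)]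

/-- One step of the recursion. -/
theorem capt_step (S : Stage D₀) (v : S.H) {b ε : ℝ} (hb : 0 < b) (hε : 0 < ε) :
    ∃ (T : Stage D₀) (e : Ext S T) (b' : ℝ), 0 < b' ∧ b' ≤ b / 2 ∧ ‖T.ξ - e.ι S.ξ‖ ≤ b / 2 ∧
      Capt T b' (e.ι v) ε := by
  obtain ⟨T, e, h1, z, z1, z2, r, r1, h2⟩ := big_step S v (min (b / 2) (ε / 2)) (by positivity)
  obtain ⟨x, x1, x2⟩ := T.cycN (e.ι v) (ε / 2) (by positivity)
  obtain ⟨y, y1, y2⟩ := T.cycD (e.ι v) (ε / 2) (by positivity)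
  obtain ⟨c, hc⟩ : ∃ c : ℝ, c = ‖x‖ + ‖y‖ + ‖z‖ + 1 := ⟨_, rfl⟩
  have c0 : 0 < c := by rw [hc]; positivity
  have key : ∀ w : ℝ, 0 ≤ w → w ≤ c → w * min (b / 2) (ε / 2 / c) ≤ ε / 2 := fun w w0 wc => by
    refine (mul_le_mul wc (min_le_right _ _) (by positivity) c0.le).trans ?_
    rw [mul_div_cancel₀ _ c0.ne']
  have n1 := norm_nonneg x
  have n2 := norm_nonneg y
  have n3 := norm_nonneg z
  have h3 := h2.trans (min_le_right _ _)
  refine ⟨T, e, min (b / 2) (ε / 2 / c), by positivity, min_le_left _ _,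
    h1.trans (min_le_left _ _), x, x1, y, y1, z, z1, z2, r, r1, ?_, ?_, ?_⟩
  · linarith [key _ n1 (by linarith)]
  · linarith [key _ n2 (by linarith)]
  · linarith [key _ n3 (by linarith)]

/-- The states of the recursion. -/
structure St (D₀ : Alg H₀) where
  S : Stage D₀
  b : ℝ
  pos : 0 < b
  d : ℕ → ℕ → S.H

theorem st_step (n : ℕ) (s : St D₀) : ∃ (t : St D₀) (e : Ext s.S t.S), t.b ≤ s.b / 2 ∧
    ‖t.S.ξ - e.ι s.S.ξ‖ ≤ s.b / 2 ∧
    Capt t.S t.b (e.ι (s.d n.unpair.1 n.unpair.2.unpair.1)) (1 / (n + 1)) ∧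
    (∀ i j, i ≤ n → t.d i j = e.ι (s.d i j)) ∧ DenseRange (t.d (n + 1)) := by
  classical
  obtain ⟨T, e, b', h1, h2, h3, h4⟩ := capt_step s.S (s.d n.unpair.1 n.unpair.2.unpair.1) s.pos
    (ε := 1 / (n + 1)) (by positivity)
  have : Nonempty T.H := ⟨0⟩
  refine ⟨⟨T, b', h1, fun i j => if i ≤ n then e.ι (s.d i j) else
    TopologicalSpace.denseSeq T.H j⟩, e, h2, h3, h4, fun i j hi => if_pos hi, ?_⟩
  simp only [add_le_iff_nonpos_right, nonpos_iff_eq_zero, one_ne_zero, if_false]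
  exact TopologicalSpace.denseRange_denseSeq _

/-- Bookkeeping. Recursively build states `(S n, b n, d n : ℕ × ℕ → (S n).H)` where `d n (n, ·)` is
dense in `(S n).H` and `d (n + 1) (i, j) = ι (d n (i, j))` for `i ≤ n`. At step `n`, with
`(i, m) = unpair n` (so `i ≤ n`) and `j = (unpair m).1`, apply `big_step` to `d n (i, j)` with
precision `min (b n / 2) (2 ^ (-n))`, pick `x, y` by cyclicity in the new stage and choose
`b (n + 1)` small. Every pair `(i, j)` is treated infinitely often. -/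
theorem stage_seq (S₀ : Stage D₀) : ∃ (S : ℕ → Stage D₀) (e : ∀ n, Ext (S n) (S (n + 1)))
    (b : ℕ → ℝ), (∀ n, 0 < b n) ∧ (∀ n, b (n + 1) ≤ b n / 2) ∧
      (∀ n, ‖(S (n + 1)).ξ - (e n).ι (S n).ξ‖ ≤ b n / 2) ∧
      ∀ (n : ℕ) (v : (S n).H) (ε : ℝ), 0 < ε →
        ∃ k, Capt (S (n + k)) (b (n + k)) ((iter e n k).ι v) ε := by
  choose t e h1 h2 h3 h4 h5 using st_step (D₀ := D₀)
  have : Nonempty S₀.H := ⟨0⟩
  let s : ℕ → St D₀ := fun n => Nat.rec ⟨S₀, 1, one_pos, fun _ => TopologicalSpace.denseSeq S₀.H⟩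
    (fun n x => t n x) n
  have hd : ∀ n, DenseRange ((s n).d n) := fun n => by
    cases n with
    | zero => exact TopologicalSpace.denseRange_denseSeq _
    | succ n => exact h5 n (s n)
  refine ⟨fun n => (s n).S, fun n => e n (s n), fun n => (s n).b, fun n => (s n).pos,
    fun n => h1 n (s n), fun n => h2 n (s n), fun n v ε hε => ?_⟩
  have hi : ∀ k j, (iter (S := fun n => (s n).S) (fun n => e n (s n)) n k).ι ((s n).d n j) =
      (s (n + k)).d n j := fun k j => by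
    induction k with
    | zero => rfl
    | succ k ih =>
      have := h4 (n + k) (s (n + k)) n j (Nat.le_add_right n k)
      rw [← ih] at this
      exact this.symm
  obtain ⟨j, hj⟩ := (hd n).exists_dist_lt v (half_pos hε)
  obtain ⟨m, hm⟩ := exists_nat_one_div_lt (half_pos hε)
  obtain ⟨k, hk⟩ := Nat.exists_eq_add_of_le (Nat.left_le_pair n (Nat.pair j m))
  have hc := h3 (n + k) (s (n + k))
  have e1 : (n + k).unpair.1 = n := by rw [← hk, Nat.unpair_pair]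
  have e2 : (n + k).unpair.2.unpair.1 = j := by rw [← hk, Nat.unpair_pair, Nat.unpair_pair]
  rw [e1, e2, ← hi] at hc
  refine ⟨k + 1, Capt.mono hc ?_⟩
  have e3 : ‖(e (n + k) (s (n + k))).ι
      ((iter (S := fun n => (s n).S) (fun n => e n (s n)) n k).ι ((s n).d n j)) -
      (iter (S := fun n => (s n).S) (fun n => e n (s n)) n (k + 1)).ι v‖ = dist v ((s n).d n j) := by
    rw [dist_comm, dist_eq_norm,
      ← (iter (S := fun n => (s n).S) (fun n => e n (s n)) n (k + 1)).ι.norm_map, map_sub]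
    rfl
  have e4 : (m : ℝ) ≤ (n + k : ℕ) := by
    rw [← hk]
    exact_mod_cast (Nat.right_le_pair j m).trans (Nat.right_le_pair n _)
  have e5 : 1 / (((n + k : ℕ) : ℝ) + 1) ≤ 1 / ((m : ℝ) + 1) :=
    one_div_le_one_div_of_le (by positivity) (by linarith)
  exact (add_le_add_right e3.le _).trans (by linarith)

end Vale.Agent.P096b
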