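import Vale.Agent.P096b.Calc

/-! First consequences of the polar decomposition. -/

set_option linter.unusedSectionVars false

namespace Vale.Agent.P096b

open Filter Topology Vale.Agent.P096 MeasureTheory
open scoped InnerProductSpace ComplexConjugate

universe u v

variable {H : Type u} [NormedAddCommGroup H] [InnerProductSpace ℂ H] [CompleteSpace H]

theorem sq_sub_ne (κ : ℝ) (h : κ ≠ 0) : sf κ * sf κ - cf κ * cf κ ≠ 0 := by
  rw [sf, cf_sq, cf_sq, ← Complex.ofReal_sub, Complex.ofReal_ne_zero, sub_ne_zero]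
  intro e
  have e2 := Real.exp_injective (add_left_cancel (inv_injective e))
  exact h (by linarith)

theorem bc_ratio (κ₀ : ℝ) : BC fun κ => cf (κ - κ₀) * (cf κ)⁻¹ := by
  refine BC.of_le ((bc_cf.1.comp (continuous_id.sub continuous_const)).mul
    (bc_cf.1.inv₀ cf_ne)) (C := √(1 + Real.exp κ₀)) fun κ => ?_
  have h1 := Real.exp_pos κ
  have h2 := Real.exp_pos κ₀
  have h3 := Real.exp_pos (κ - κ₀)
  have h4 : Real.exp κ₀ * Real.exp (κ - κ₀) = Real.exp κ := by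
    rw [← Real.exp_add]; congr 1; ring
  rw [cf, cf, ← Complex.ofReal_inv, ← Complex.ofReal_mul, Complex.norm_real, ← Real.sqrt_inv,
    inv_inv, ← Real.sqrt_mul (by positivity), Real.norm_of_nonneg (Real.sqrt_nonneg _)]
  refine Real.sqrt_le_sqrt ?_
  rw [inv_mul_le_iff₀ (by positivity)]
  nlinarith

namespace Pre

variable {A B : Alg H} {ξ : H} (μ : Pre A ξ) {f g : ℝ → ℂ}

theorem cs_comm (η : H) : μ.F cf (μ.F sf η) = μ.F sf (μ.F cf η) :=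
  congrArg (fun T : Op H => T η) (μ.comm bc_cf bc_sf)

theorem sq_add (η : H) : μ.F cf (μ.F cf η) + μ.F sf (μ.F sf η) = η := by
  rw [μ.mul_apply bc_cf bc_cf, μ.mul_apply bc_sf bc_sf, ← add_apply,
    ← μ.add (bc_cf.mul bc_cf) (bc_sf.mul bc_sf)]
  simp only [cf_sq_add]
  rw [μ.one, one_apply_eq_self]

theorem cf_inner (η ζ : H) : ⟪μ.F cf η, ζ⟫_ℂ = ⟪η, μ.F cf ζ⟫_ℂ := by
  rw [tl_inner, μ.star_real bc_cf conj_cf]

theorem sf_inner (η ζ : H) : ⟪μ.F sf η, ζ⟫_ℂ = ⟪η, μ.F sf ζ⟫_ℂ := by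
  rw [tl_inner, μ.star_real bc_sf conj_sf]

theorem J_cf (η : H) : μ.J (μ.F cf η) = μ.F sf (μ.J η) := by
  rw [μ.JF bc_cf]
  simp only [cf_neg, conj_sf]

theorem J_sf (η : H) : μ.J (μ.F sf η) = μ.F cf (μ.J η) := by
  rw [μ.JF bc_sf]
  simp only [sf_neg, conj_cf]

theorem J_U (t : ℝ) (η : H) : μ.J (μ.U t η) = μ.U t (μ.J η) := by
  unfold Calc.U
  rw [μ.JF (bc_ex t)]
  simp only [ex_neg, conj_ex, neg_neg]

theorem jc_σ (t : ℝ) (x : Op H) : jc μ.J (μ.σ t x) = μ.σ t (jc μ.J x) := by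
  ext η
  simp only [Calc.σ, jc_apply, mul_apply_eq_comp, μ.J_U]

/-- Parametrization of the graph: `γ = F cf (x ξ) + F sf (J x* ξ)`. -/
theorem gam {x : Op H} (hx : x ∈ A) :
    ∃ γ, x ξ = μ.F cf γ ∧ μ.J (star x ξ) = μ.F sf γ := by
  have hg := μ.graph x hx
  have hcs : ∀ η, μ.F cf (μ.F sf η) = μ.F sf (μ.F cf η) := μ.cs_comm
  refine ⟨μ.F cf (x ξ) + μ.F sf (μ.J (star x ξ)), ?_, ?_⟩
  · rw [map_add, hcs, ← hg, μ.sq_add]
  · rw [map_add, ← hcs, hg, μ.sq_add]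

/-- The graph equation for the commutant: pair with the core. -/
theorem graphB (h : CP A B) {y : Op H} (hy : y ∈ B) :
    μ.F cf (y ξ) = μ.F sf (μ.J (star y ξ)) := by
  have key : ∀ x ∈ A, ⟪x ξ, y ξ⟫_ℂ = ⟪μ.J (star x ξ), μ.J (star y ξ)⟫_ℂ := by
    intro x hx
    rw [J_inner, tl_inner' y ξ, ← h.app (star_mem hx) hy, tl_inner x]
  refine ext_inner_left ℂ fun γ => ?_
  rw [← μ.cf_inner, ← μ.sf_inner, ← sub_eq_zero, ← norm_le_zero_iff]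
  refine le_of_forall_pos_le_add fun ε hε => ?_
  set K : ℝ := ‖y ξ‖ + ‖μ.J (star y ξ)‖ + 1 with hK
  have hK0 : 0 < K := by positivity
  obtain ⟨x, hx, h1, h2⟩ := μ.core γ (ε / K) (div_pos hε hK0)
  have e : ⟪μ.F cf γ, y ξ⟫_ℂ - ⟪μ.F sf γ, μ.J (star y ξ)⟫_ℂ =
      ⟪μ.J (star x ξ) - μ.F sf γ, μ.J (star y ξ)⟫_ℂ - ⟪x ξ - μ.F cf γ, y ξ⟫_ℂ := by
    rw [inner_sub_left, inner_sub_left, key x hx]; ring
  rw [e, zero_add]
  have a1 := norm_inner_le_norm (𝕜 := ℂ) (μ.J (star x ξ) - μ.F sf γ) (μ.J (star y ξ))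
  have a2 := norm_inner_le_norm (𝕜 := ℂ) (x ξ - μ.F cf γ) (y ξ)
  have a3 := mul_le_mul_of_nonneg_right h1.le (norm_nonneg (y ξ))
  have a4 := mul_le_mul_of_nonneg_right h2.le (norm_nonneg (μ.J (star y ξ)))
  have a5 : ε / K * K = ε := div_mul_cancel₀ _ hK0.ne'
  have a6 : 0 < ε / K := div_pos hε hK0
  refine (norm_sub_le _ _).trans ?_
  rw [hK] at a5
  rw [← hK] at a5
  nlinarith

/-- If both graph equations hold then the vector is fixed: `F (sf * sf - cf * cf) η = 0`. -/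
theorem both {η η' : H} (h1 : μ.F sf η = μ.F cf η') (h2 : μ.F cf η = μ.F sf η') :
    η' = η ∧ ∀ f, BC f → μ.F f η = f 0 • η := by
  have h3 : μ.F (fun κ => sf κ * sf κ - cf κ * cf κ) η = 0 := by
    rw [μ.sub (bc_sf.mul bc_sf) (bc_cf.mul bc_cf), sub_apply,
      ← μ.mul_apply bc_sf bc_sf, ← μ.mul_apply bc_cf bc_cf, h1, h2, μ.cs_comm, sub_self]
  have h4 : ∀ f, BC f → μ.F f η = f 0 • η := fun f hf =>
    μ.at_zero ((bc_sf.mul bc_sf).sub (bc_cf.mul bc_cf)) sq_sub_ne h3 hf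
  refine ⟨μ.cancel bc_cf cf_ne ?_, h4⟩
  rw [← h1, h4 _ bc_sf, h4 _ bc_cf, sf, neg_zero]

theorem matched0 (h : CP A B) {g k : Op H} (hg : g ∈ A) (hk : k ∈ B) (h1 : g ξ = k ξ)
    (h2 : star g ξ = star k ξ) :
    μ.J (star g ξ) = g ξ ∧ ∀ f, BC f → μ.F f (g ξ) = f 0 • g ξ := by
  refine μ.both (μ.graph g hg) ?_
  rw [h1, h2]
  exact μ.graphB h hk

theorem J_fix (h : CP A B) : μ.J ξ = ξ := by
  simpa using (μ.matched0 h (one_mem A) (one_mem B) rfl rfl).1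

theorem F_fix (h : CP A B) (hf : BC f) : μ.F f ξ = f 0 • ξ := by
  simpa using (μ.matched0 h (one_mem A) (one_mem B) rfl rfl).2 f hf

theorem U_fix (h : CP A B) (t : ℝ) : μ.U t ξ = ξ := by
  rw [Calc.U, μ.F_fix h (bc_ex t), ex_zero', one_smul]

theorem σ_vec (h : CP A B) (t : ℝ) (x : Op H) : μ.σ t x ξ = μ.U t (x ξ) := by
  simp only [Calc.σ, mul_apply_eq_comp, μ.U_fix h]

theorem matched (h : CP A B) {g k : Op H} (hg : g ∈ A) (hk : k ∈ B) (h1 : g ξ = k ξ)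
    (h2 : star g ξ = star k ξ) :
    μ.J (star g ξ) = g ξ ∧ ∀ f, BC f → μ.F f (g ξ) = f 0 • g ξ := by
  exact μ.matched0 h hg hk h1 h2

theorem sym {x y : Op H} (hx : x ∈ A) (hy : y ∈ A) :
    ⟪μ.J (x ξ), star y ξ⟫_ℂ = ⟪y ξ, μ.J (star x ξ)⟫_ℂ := by
  obtain ⟨γ, h1, h2⟩ := μ.gam hx
  obtain ⟨δ, h3, h4⟩ := μ.gam hy
  rw [J_inner' μ.JJ, h4, h3, h2, h1, μ.sf_inner, μ.cf_inner, μ.cs_comm]

theorem pos {x : Op H} (hx : x ∈ A) (h0 : x ξ ≠ 0) :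
    0 < (⟪μ.J (star x ξ), x ξ⟫_ℂ).re := by
  obtain ⟨γ, h1, h2⟩ := μ.gam hx
  have hγ : γ ≠ 0 := by
    rintro rfl
    exact h0 (by rw [h1, map_zero])
  rw [h2, h1, μ.sf_inner, ← μ.cs_comm, μ.mul_apply bc_cf bc_sf]
  refine μ.toCalc.pos (bc_cf.mul bc_sf) (fun κ => ?_) hγ
  rw [cf_mul_sf, Complex.ofReal_re]
  have := Real.cosh_pos (κ / 2)
  positivity

/-- The action of `Δ ^ (1/2)`. -/
theorem half {x : Op H} (hx : x ∈ A) {η : H} (hf : BC f) (hg : BC g)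
    (h : ∀ κ, g κ = (Real.exp (κ / 2) : ℝ) * f κ) (h1 : x ξ = μ.F f η) :
    μ.J (star x ξ) = μ.F g η := by
  refine μ.cancel bc_cf cf_ne ?_
  rw [← μ.graph x hx, h1, μ.mul_apply bc_sf hf, μ.mul_apply bc_cf hg]
  congr 2
  funext κ
  rw [h, sf_eq]; ring

/-- The core property at all scales. -/
theorem core' (κ₀ : ℝ) (γ : H) (ε : ℝ) (hε : 0 < ε) : ∃ x ∈ A,
    ‖x ξ - μ.F (fun κ => cf (κ - κ₀)) γ‖ < ε ∧
      ‖((Real.exp (-κ₀ / 2) : ℝ) : ℂ) • μ.J (star x ξ) - μ.F (fun κ => sf (κ - κ₀)) γ‖ < ε := by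
  set E : ℝ := Real.exp (-κ₀ / 2) with hE
  have hE0 : 0 < E := Real.exp_pos _
  have hb := bc_ratio κ₀
  obtain ⟨x, hx, h1, h2⟩ := μ.core (μ.F (fun κ => cf (κ - κ₀) * (cf κ)⁻¹) γ) (ε / (1 + E))
    (by positivity)
  have hle : ε / (1 + E) * (1 + E) = ε := div_mul_cancel₀ _ (by positivity)
  have hpos : 0 < ε / (1 + E) := by positivity
  have e1 : (fun κ => cf κ * (cf (κ - κ₀) * (cf κ)⁻¹)) = fun κ => cf (κ - κ₀) := by
    funext κ
    have := cf_ne κ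
    field_simp
  have e2 : (fun κ => sf (κ - κ₀)) =
      fun κ => (E : ℂ) * (sf κ * (cf (κ - κ₀) * (cf κ)⁻¹)) := by
    funext κ
    have := cf_ne κ
    have e : Real.exp ((κ - κ₀) / 2) = E * Real.exp (κ / 2) := by
      rw [hE, ← Real.exp_add]; congr 1; ring
    rw [sf_eq, sf_eq, e]
    push_cast
    field_simp
  rw [μ.mul_apply bc_cf hb, e1] at h1
  rw [μ.mul_apply bc_sf hb] at h2
  refine ⟨x, hx, by nlinarith, ?_⟩
  rw [e2, μ.smul _ (bc_sf.mul hb), smul_apply, ← smul_sub, norm_smul,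
    Complex.norm_real, Real.norm_of_nonneg hE0.le]
  have := mul_lt_mul_of_pos_left h2 hE0
  nlinarith

end Pre

end Vale.Agent.P096b
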