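import Vale.Agent.P096b.PreApi

/-! The linear Radon-Nikodym lemma and the operator equation. -/

set_option linter.unusedSectionVars false

namespace Vale.Agent.P096b

open Filter Topology Vale.Agent.P096 MeasureTheory
open scoped InnerProductSpace ComplexConjugate

universe u v

variable {H : Type u} [NormedAddCommGroup H] [InnerProductSpace ℂ H] [CompleteSpace H]

variable {A B : Alg H} {ξ : H}

/-- The basic inequality. With `p = (ε + a* a) ^ (1/4)` and the contraction `w = a p⁻²` one has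
`|⟪a ξ, y ξ⟫| ≤ ‖y‖ ‖p ξ‖ ‖p⁻¹ a* ξ‖`, and `x = r w` gives
`α ⟪a ξ, w ξ⟫ + β ⟪w* ξ, a* ξ⟫ = α ⟪ξ, a* a p⁻² ξ⟫ + β ‖p⁻¹ a* ξ‖ ^ 2`. -/
theorem rn_ineq (h : CP A B) {a y : Op H} (ha : a ∈ A) (hy : y ∈ B) {α β : ℝ} (hα : 0 < α)
    (hβ : 0 < β) (ε : ℝ) (hε : 0 < ε) : ∃ x ∈ A, ‖x‖ ≤ ‖y‖ / (2 * √(α * β)) ∧
      (⟪a ξ, y ξ⟫_ℂ).re ≤ (α * ⟪a ξ, x ξ⟫_ℂ + β * ⟪star x ξ, star a ξ⟫_ℂ).re + ε := by
  obtain ⟨r, hr⟩ : ∃ r, r = ‖y‖ / (2 * √(α * β)) := ⟨_, rfl⟩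
  have hs : 0 < √(α * β) := Real.sqrt_pos.2 (mul_pos hα hβ)
  have hr0 : 0 ≤ r := by rw [hr]; positivity
  obtain ⟨t, ht⟩ : ∃ t, t = ε / (r * α * ‖ξ‖ ^ 2 + 1) := ⟨_, rfl⟩
  have ht0 : 0 < t := by rw [ht]; positivity
  have ht1 : r * α * ‖ξ‖ ^ 2 * t ≤ ε := by
    rw [ht, mul_div_assoc', div_le_iff₀ (by positivity)]
    nlinarith
  obtain ⟨l, k, sl, sk, lk, kl, ll, -, l0, lc⟩ := exists_sqrt (star a * a) (by simp)
    (fun η => by rw [← tl_norm_sq]; positivity) (t ^ 2) (by positivity)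
  obtain ⟨p, sp, pp, pc⟩ := exists_sqrt' l sl l0
  have hc : ∀ z ∈ B, z * l = l * z ∧ z * k = k * z := fun z hz =>
    lc z ((h.left _).1 (mul_mem (star_mem ha) ha) z hz).symm
  have hk : k ∈ A := (h.left k).2 fun z hz => (hc z hz).2.symm
  have hp : p ∈ A := (h.left p).2 fun z hz => (pc z (hc z hz).1).symm
  have kp : k * p = p * k := pc k (kl.trans lk.symm)
  have aa : star a * a = l * l - ((t ^ 2 : ℝ) : ℂ) • 1 := by rw [ll, add_sub_cancel_right]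
  have e1 : star a * a * k = l - ((t ^ 2 : ℝ) : ℂ) • k := by
    rw [aa, sub_mul, mul_assoc, lk, mul_one, smul_mul_assoc, one_mul]
  have e2 : ∀ η, ‖(a * k) η‖ ^ 2 = ‖η‖ ^ 2 - t ^ 2 * ‖k η‖ ^ 2 := fun η => by
    have e3 : star (a * k) * (a * k) = 1 - ((t ^ 2 : ℝ) : ℂ) • (star k * k) := by
      rw [star_mul, sk, mul_assoc, ← mul_assoc (star a), e1, mul_sub, kl, mul_smul_comm]
    rw [tl_norm_sq, tl_norm_sq k, e3, sub_apply, smul_apply, inner_sub_right, inner_smul_right,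
      Complex.sub_re, Complex.re_ofReal_mul, one_apply_eq_self, inner_self_eq_norm_sq_to_K]
    norm_cast
  have e3 : ‖a * k‖ ≤ 1 := ContinuousLinearMap.opNorm_le_bound _ zero_le_one fun η => by
    rw [one_mul]
    exact (abs_le_of_sq_le_sq' (by rw [e2]; exact sub_le_self _ (by positivity)) (norm_nonneg _)).2
  have e4 : t * ‖k ξ‖ ≤ ‖ξ‖ := (abs_le_of_sq_le_sq' (by
    have := e2 ξ
    nlinarith [sq_nonneg ‖(a * k) ξ‖]) (norm_nonneg _)).2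
  have e5 : (⟪a ξ, (a * k) ξ⟫_ℂ).re = ‖p ξ‖ ^ 2 - t ^ 2 * (⟪ξ, k ξ⟫_ℂ).re := by
    rw [tl_inner, ← mul_apply_eq_comp, ← mul_assoc, e1, tl_norm_sq, sp, pp, sub_apply, smul_apply,
      inner_sub_right, inner_smul_right, Complex.sub_re, Complex.re_ofReal_mul]
  have e6 : (⟪star (a * k) ξ, star a ξ⟫_ℂ).re = ‖(p * k) (star a ξ)‖ ^ 2 := by
    have e7 : star (p * k) * (p * k) = k := by
      rw [star_mul, sk, sp, mul_assoc, ← mul_assoc p, pp, lk, mul_one]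
    rw [tl_norm_sq, e7, star_mul, mul_apply_eq_comp, tl_inner']
  have e7 : (⟪a ξ, y ξ⟫_ℂ).re ≤ ‖p ξ‖ * (‖y‖ * ‖(p * k) (star a ξ)‖) := by
    have e8 : ⟪a ξ, y ξ⟫_ℂ = ⟪p ξ, y ((p * k) (star a ξ))⟫_ℂ := by
      rw [tl_inner p, sp, h.app hp hy, ← mul_apply_eq_comp p, ← mul_assoc, pp, lk,
        one_apply_eq_self, ← h.app (star_mem ha) hy, tl_inner]
    rw [e8]
    exact (Complex.re_le_norm _).trans ((norm_inner_le_norm _ _).trans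
      (mul_le_mul_of_nonneg_left (y.le_opNorm _) (norm_nonneg _)))
  have e8 : (⟪ξ, k ξ⟫_ℂ).re ≤ ‖ξ‖ * ‖k ξ‖ := (Complex.re_le_norm _).trans (norm_inner_le_norm _ _)
  refine ⟨(r : ℂ) • (a * k), A.smul_mem (mul_mem ha hk) _, ?_, ?_⟩
  · rw [norm_smul, Complex.norm_real, Real.norm_of_nonneg hr0, ← hr]
    exact mul_le_of_le_one_right hr0 e3
  rw [star_smul, smul_apply, smul_apply, inner_smul_right, inner_smul_left, Complex.star_def,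
    Complex.conj_conj, Complex.add_re, Complex.re_ofReal_mul, Complex.re_ofReal_mul,
    Complex.re_ofReal_mul, Complex.re_ofReal_mul, e5, e6]
  generalize ‖p ξ‖ = P at e7 ⊢
  generalize ‖(p * k) (star a ξ)‖ = Q at e7 ⊢
  have e9 : 2 * √(α * β) * (P * Q) ≤ α * P ^ 2 + β * Q ^ 2 := by
    rw [Real.sqrt_mul hα.le]
    nlinarith [sq_nonneg (√α * P - √β * Q), Real.sq_sqrt hα.le, Real.sq_sqrt hβ.le]
  have e10 : ‖y‖ = r * (2 * √(α * β)) := by rw [hr]; field_simp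
  have e11 := mul_le_mul_of_nonneg_left e9 hr0
  have e12 : t ^ 2 * (⟪ξ, k ξ⟫_ℂ).re ≤ ‖ξ‖ ^ 2 * t :=
    calc _ ≤ t ^ 2 * (‖ξ‖ * ‖k ξ‖) := by gcongr
      _ = t * ‖ξ‖ * (t * ‖k ξ‖) := by ring
      _ ≤ t * ‖ξ‖ * ‖ξ‖ := by gcongr
      _ = _ := by ring
  have e13 := mul_le_mul_of_nonneg_left e12 (mul_nonneg hr0 hα.le)
  rw [e10] at e7
  nlinarith

theorem rn_sc (μ : Pre A ξ) (η ζ : H) : ⟪η, μ.F cf ζ⟫_ℂ = ⟪μ.F cf η, ζ⟫_ℂ := by
  rw [tl_inner, μ.star_real bc_cf conj_cf]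

theorem rn_ss (μ : Pre A ξ) (η ζ : H) : ⟪η, μ.F sf ζ⟫_ℂ = ⟪μ.F sf η, ζ⟫_ℂ := by
  rw [tl_inner, μ.star_real bc_sf conj_sf]

theorem rn_J (μ : Pre A ξ) (η ζ : H) : ⟪η, μ.J ζ⟫_ℂ = ⟪ζ, μ.J η⟫_ℂ := by
  rw [← J_inner μ.J (μ.J η) ζ, μ.JJ]

theorem rn_exists (μ : Pre A ξ) (h : CP A B) {y : Op H} (hy : y ∈ B) {α β : ℝ} (hα : 0 < α)
    (hβ : 0 < β) : ∃ x ∈ A, ‖x‖ ≤ ‖y‖ / (2 * √(α * β)) ∧
      (α : ℂ) • μ.F cf (x ξ) + (β : ℂ) • μ.F sf (μ.J (star x ξ)) = μ.F cf (y ξ) := by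
  obtain ⟨r, hr⟩ : ∃ r, r = ‖y‖ / (2 * √(α * β)) := ⟨_, rfl⟩
  have hr0 : 0 ≤ r := by rw [hr]; positivity
  obtain ⟨T, hT⟩ : ∃ T : Op H → H, ∀ x,
      T x = (α : ℂ) • μ.F cf (x ξ) + (β : ℂ) • μ.F sf (μ.J (star x ξ)) := ⟨_, fun _ => rfl⟩
  have hT1 : ∀ x η, ⟪η, T x⟫_ℂ =
      α * ⟪μ.F cf η, x ξ⟫_ℂ + β * ⟪μ.F sf η, μ.J (star x ξ)⟫_ℂ := fun x η => by
    rw [hT, inner_add_right, inner_smul_right, inner_smul_right, rn_sc, rn_ss]
  simp only [← hT, ← hr]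
  by_contra hn
  have hcv : Convex ℝ {v | ∃ x ∈ A, ‖x‖ ≤ r ∧ T x = v} := by
    rintro _ ⟨x, hx, h1, rfl⟩ _ ⟨z, hz, h2, rfl⟩ s t hs ht hst
    refine ⟨(s : ℂ) • x + (t : ℂ) • z, add_mem (A.smul_mem hx _) (A.smul_mem hz _), ?_, ?_⟩
    · refine (norm_add_le _ _).trans ?_
      rw [norm_smul, norm_smul, Complex.norm_real, Complex.norm_real, Real.norm_of_nonneg hs,
        Real.norm_of_nonneg ht]
      calc _ ≤ s * r + t * r := by gcongr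
        _ = r := by rw [← add_mul, hst, one_mul]
    · simp only [hT, star_add, star_smul, add_apply, smul_apply, map_add, map_smul,
        LinearIsometryEquiv.map_smulₛₗ, Complex.star_def, Complex.conj_ofReal, ← Complex.coe_smul]
      module
  have hcl : IsClosed {v | ∃ x ∈ A, ‖x‖ ≤ r ∧ T x = v} := by
    refine isClosed_of_closure_subset fun v hv => ?_
    obtain ⟨u, hu, hv⟩ := mem_closure_iff_seq_limit.1 hv
    choose x hx h1 h2 using hu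
    obtain ⟨S, hS⟩ := tl_ulim (hyperfilter ℕ) x r h1
    refine ⟨S, CP.weak h (Eventually.of_forall hx) hS, norm_le_of_inner hr0 fun ζ η => ?_,
      ext_inner_left ℂ fun η => ?_⟩
    · refine le_of_tendsto' (hS ζ η).norm fun n => (norm_inner_le_norm _ _).trans ?_
      calc _ ≤ ‖η‖ * (r * ‖ζ‖) := by gcongr; exact (x n).le_of_opNorm_le (h1 n) ζ
        _ = _ := by ring
    · refine tendsto_nhds_unique (l := hyperfilter ℕ) (f := fun n => ⟪η, u n⟫_ℂ) ?_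
        ((tendsto_const_nhds.inner hv).mono_left Nat.hyperfilter_le_atTop)
      simp only [← h2, hT1, rn_J, tl_inner']
      exact ((hS _ _).const_mul _).add ((hS _ _).const_mul _)
  obtain ⟨f, u, h1, h2⟩ := RCLike.geometric_hahn_banach_closed_point (𝕜 := ℂ) hcv hcl
    (x := μ.F cf (y ξ)) hn
  obtain ⟨γ, rfl⟩ := (InnerProductSpace.toDual ℂ H).surjective f
  simp only [InnerProductSpace.toDual_apply_apply, RCLike.re_to_complex] at h1 h2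
  refine h2.not_ge (le_of_forall_pos_le_add fun ε hε => ?_)
  obtain ⟨t, ht⟩ : ∃ t, t = ε / (1 + ‖y ξ‖ + (α + β) * (r * ‖ξ‖)) := ⟨_, rfl⟩
  have ht0 : 0 < t := by rw [ht]; positivity
  have ht1 : t * (1 + ‖y ξ‖ + (α + β) * (r * ‖ξ‖)) = ε := by rw [ht]; field_simp
  obtain ⟨a, ha, h3, h4⟩ := μ.core γ t ht0
  obtain ⟨x, hx, h5, h6⟩ := rn_ineq (ξ := ξ) h ha hy hα hβ t ht0
  rw [← hr] at h5
  have h7 := h1 _ ⟨x, hx, h5, rfl⟩
  have key : ∀ p q z : H, ∀ c : ℝ, ‖p - q‖ < t → ‖z‖ ≤ c →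
      |(⟪p, z⟫_ℂ).re - (⟪q, z⟫_ℂ).re| ≤ t * c := fun p q z c k1 k2 => by
    rw [← Complex.sub_re, ← inner_sub_left]
    exact (Complex.abs_re_le_norm _).trans ((norm_inner_le_norm _ _).trans (by gcongr))
  have k1 := (abs_le.1 (key _ _ (y ξ) _ h3 le_rfl)).1
  have k2 := (abs_le.1 (key _ _ (x ξ) _ h3 (x.le_of_opNorm_le h5 ξ))).2
  have k3 := (abs_le.1 (key _ _ (μ.J (star x ξ)) (r * ‖ξ‖) h4 (by
    rw [μ.J.norm_map]
    exact (star x).le_of_opNorm_le ((norm_star x).trans_le h5) ξ))).2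
  rw [J_inner] at k3
  rw [hT1] at h7
  rw [rn_sc]
  simp only [Complex.add_re, Complex.re_ofReal_mul] at h6 h7
  have k4 := mul_le_mul_of_nonneg_left k2 hα.le
  have k5 := mul_le_mul_of_nonneg_left k3 hβ.le
  nlinarith

/-- The set of vectors `α F cf (x ξ) + β F sf (J x* ξ)`, `x ∈ A`, `‖x‖ ≤ r`, is convex, bounded and
closed (`tl_ulim`, `CP.weak`); if it misses `F cf (y ξ)` separate by a vector `γ`
(`geometric_hahn_banach_point_closed` or the Hilbert projection), approximate `γ` with `core` and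
contradict `rn_ineq`. Finally use `graph` and cancel `F cf`. -/
theorem Pre.rn (μ : Pre A ξ) (h : CP A B) {y : Op H} (hy : y ∈ B) {α β : ℝ} (hα : 0 < α)
    (hβ : 0 < β) : ∃ x ∈ A, ‖x‖ ≤ ‖y‖ / (2 * √(α * β)) ∧
      x ξ = μ.F (fun κ => ((α + β * Real.exp κ)⁻¹ : ℝ)) (y ξ) ∧
      ∀ a ∈ A, ⟪a ξ, y ξ⟫_ℂ = α * ⟪a ξ, x ξ⟫_ℂ + β * ⟪star x ξ, star a ξ⟫_ℂ := by
  obtain ⟨x, hx, h1, h2⟩ := rn_exists μ h hy hα hβ
  refine ⟨x, hx, h1, ?_, fun a ha => ?_⟩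
  · have hp : ∀ κ, 0 < α + β * Real.exp κ := fun κ => by positivity
    have hg : BC fun κ => (((α + β * Real.exp κ)⁻¹ : ℝ) : ℂ) :=
      BC.of_le (Complex.continuous_ofReal.comp
        (Continuous.inv₀ (by fun_prop) fun κ => (hp κ).ne')) (C := α⁻¹) fun κ => by
        rw [Complex.norm_real, Real.norm_of_nonneg (inv_pos.2 (hp κ)).le]
        exact inv_anti₀ hα (le_add_of_nonneg_right (by positivity))
    obtain ⟨γ, h3, h4⟩ := μ.gam hx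
    refine μ.cancel bc_cf cf_ne ?_
    rw [← mul_apply_eq_comp (μ.F cf) (μ.F _) (y ξ), μ.comm bc_cf hg, mul_apply_eq_comp, ← h2, h4, h3,
      μ.mul_apply bc_cf bc_cf, μ.mul_apply bc_sf bc_sf, ← smul_apply, ← smul_apply,
      ← μ.smul _ (bc_cf.mul bc_cf), ← μ.smul _ (bc_sf.mul bc_sf), ← add_apply,
      ← μ.add ((bc_cf.mul bc_cf).cmul _) ((bc_sf.mul bc_sf).cmul _),
      μ.mul_apply hg (((bc_cf.mul bc_cf).cmul _).add ((bc_sf.mul bc_sf).cmul _))]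
    congr 2
    funext κ
    have h5 : ((α + β * Real.exp κ : ℝ) : ℂ) ≠ 0 := Complex.ofReal_ne_zero.2 (hp κ).ne'
    have h6 : ((Real.exp κ : ℝ) : ℂ) = (Real.exp (κ / 2) : ℝ) * (Real.exp (κ / 2) : ℝ) := by
      rw [← Complex.ofReal_mul, ← Real.exp_add, add_halves]
    rw [sf_eq, Complex.ofReal_inv, eq_inv_mul_iff_mul_eq₀ h5, Complex.ofReal_add, Complex.ofReal_mul,
      h6]
    ring
  · obtain ⟨γ, h3, h4⟩ := μ.gam ha
    rw [← J_inner μ.J (star a ξ), h4, h3, ← rn_sc, ← h2, inner_add_right, inner_smul_right,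
      inner_smul_right, rn_sc, rn_ss]

theorem rn_partner (μ : Pre A ξ) (h : CP A B) {d : Op H} (hd : d ∈ B) : ∃ a ∈ A,
    μ.J (μ.F cf (μ.F sf (d ξ))) = a ξ ∧ star a ξ = μ.F cf (μ.F cf (d ξ)) ∧
      ∀ c ∈ A, ⟪c ξ, a ξ⟫_ℂ = ⟪μ.F sf (μ.F sf (d ξ)), star c ξ⟫_ℂ := by
  obtain ⟨a, ha, -, h1, h2⟩ := μ.rn h (star_mem hd) one_pos one_pos
  have cs : ∀ η, μ.F cf (μ.F sf η) = μ.F sf (μ.F cf η) := fun η =>
    congrArg (fun T : Op H => T η) (μ.comm bc_cf bc_sf)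
  have h3 : a ξ = μ.F cf (μ.F sf (μ.J (d ξ))) := by
    have h4 := μ.graphB h (star_mem hd)
    rw [star_star] at h4
    rw [h1, ← h4, μ.mul_apply bc_cf bc_cf]
    simp only [cf_sq, one_mul]
  have h4 : star a ξ = μ.F cf (μ.F cf (d ξ)) := by
    apply μ.J.injective
    refine μ.cancel bc_cf cf_ne ?_
    rw [← μ.graph a ha, h3, μ.J_cf, μ.J_cf, cs (μ.F sf _)]
  refine ⟨a, ha, by rw [μ.J_cf, μ.J_sf, h3, cs], h4, fun c hc => ?_⟩
  have h5 : μ.F sf (μ.F sf (d ξ)) = d ξ - star a ξ := by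
    rw [h4, eq_sub_iff_add_eq', μ.mul_apply bc_cf bc_cf, μ.mul_apply bc_sf bc_sf, ← add_apply,
      ← μ.add (bc_cf.mul bc_cf) (bc_sf.mul bc_sf)]
    simp only [cf_sq_add, μ.one, one_apply_eq_self]
  have h6 := h2 c hc
  rw [← tl_inner' (star d), star_star, ← h.app hc hd, tl_inner, Complex.ofReal_one, one_mul,
    one_mul] at h6
  rw [h5, inner_sub_left, h6, add_sub_cancel_right]

/-- The operator equation. For `b i ∈ B` let `a i ∈ A` come from `rn` with `α = β = 1` and put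
`γ i = J (b i)* ξ` (a dense set). Then `a i ξ = F (cf sf) (γ i)`, `J (a i)* ξ = F (sf sf) (γ i)`,
`J ((b i)* - (a i)*) ξ = F (cf cf) (γ i)`. Apply the equation for `x` to `(a 1)* (a 2)` and use
`⟪a₁ x ξ, a₂ ξ⟫ = ⟪(b₂* - a₂*) ξ, x* a₁* ξ⟫`, `⟪a₂ x* ξ, a₁ ξ⟫ = ⟪(b₁* - a₁*) ξ, x a₂* ξ⟫`.
This gives `F(cs) y F(cs) = α F(cc) (J x* J) F(ss) + β F(ss) (J x* J) F(cc)`; conjugate by `J`. -/
theorem Pre.opeq (μ : Pre A ξ) (h : CP A B) (hB : Cyc B ξ) {y : Op H} (hy : y ∈ B) {α β : ℝ}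
    (hα : 0 < α) (hβ : 0 < β) : ∃ x ∈ A,
      μ.F (fun κ => cf κ * sf κ) * jc μ.J y * μ.F (fun κ => cf κ * sf κ) =
        (α : ℂ) • (μ.F (fun κ => sf κ * sf κ) * x * μ.F (fun κ => cf κ * cf κ)) +
          (β : ℂ) • (μ.F (fun κ => cf κ * cf κ) * x * μ.F (fun κ => sf κ * sf κ)) := by
  obtain ⟨x, hx, -, -, h1⟩ := μ.rn h hy hα hβ
  refine ⟨star x, star_mem hx, hB.ext_op fun d hd => sub_eq_zero.1 (hB.inner_zero fun e he => ?_)⟩
  obtain ⟨a, ha, a1, a2, a3⟩ := rn_partner μ h he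
  obtain ⟨b, hb, b1, b2, b3⟩ := rn_partner μ h hd
  have cs : ∀ η, μ.F cf (μ.F sf η) = μ.F sf (μ.F cf η) := fun η =>
    congrArg (fun T : Op H => T η) (μ.comm bc_cf bc_sf)
  have h2 := h1 _ (mul_mem (star_mem hb) ha)
  have h3 := a3 _ (mul_mem hb hx)
  have h4 := b3 _ (mul_mem ha (star_mem hx))
  simp only [star_mul, star_star, mul_apply_eq_comp] at h2 h3 h4
  rw [tl_inner', tl_inner' b, h.app hb hy, ← tl_inner a, h4, ← inner_conj_symm (a ξ) (b (x ξ)), h3,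
    inner_conj_symm, a2, b2] at h2
  rw [inner_eq_zero_symm, inner_sub_left, sub_eq_zero, μ.mul bc_cf bc_sf, μ.mul bc_cf bc_cf,
    μ.mul bc_sf bc_sf]
  simp only [mul_apply_eq_comp, add_apply, smul_apply, jc_apply, inner_add_left, inner_smul_left,
    Complex.conj_ofReal, ← rn_sc, ← rn_ss]
  rw [b1, ← cs, ← μ.JJ (μ.F cf (μ.F sf (e ξ))), a1, J_inner, h2, tl_inner' x (μ.F sf _)]

end Vale.Agent.P096b
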