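import Vale.Agent.P096b.Tensor2

/-! Tensoring a stage with a matrix algebra. -/

set_option linter.unusedSectionVars false

namespace Vale.Agent.P096b

open Filter Topology Vale.Agent.P096 MeasureTheory
open scoped InnerProductSpace ComplexConjugate

universe u v

variable {H : Type u} [NormedAddCommGroup H] [InnerProductSpace ℂ H] [CompleteSpace H]

variable {H₀ : Type u} [NormedAddCommGroup H₀] [InnerProductSpace ℂ H₀] [CompleteSpace H₀]
  {D₀ : Alg H₀}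

/-- The data produced by tensoring a stage with a matrix algebra. -/
structure Tens (S T : Stage D₀) (e : Ext S T) (κ : Cj S.N S.D S.ξ) (κ' : Cj T.N T.D T.ξ)
    {I : Type} [Fintype I] [DecidableEq I] (ρ : I → ℝ) (E : I → I → Op T.H) : Prop where
  ok : T.Ok κ'
  vec : T.ξ = e.ι S.ξ
  grp : ∀ γ' ∈ T.Γ, ∃ γ ∈ S.Γ, (γ'.1 : Op T.H) = e.α γ.1 ∧ (γ'.2 : Op T.H) = e.α γ.2
  mem : ∀ a b, E a b ∈ T.N
  comm : ∀ a b x, E a b * e.α x = e.α x * E a b
  mul : ∀ a b c d, E a b * E c d = if b = c then E a d else 0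
  star : ∀ a b, star (E a b) = E b a
  sum : ∑ a, E a a = 1
  norm : ∀ a b η, ‖E a b (e.ι η)‖ ^ 2 = ρ b * ‖η‖ ^ 2
  swap : ∀ a b η, ((√(ρ a) : ℝ) : ℂ) • κ'.J (E a b (e.ι η)) =
    ((√(ρ b) : ℝ) : ℂ) • E b a (e.ι (κ.J η))

open Tn in
/-- The amplified stage. -/
noncomputable def tnStage (S : Stage D₀) (κ : Cj S.N S.D S.ξ) {I : Type} [Fintype I]
    [DecidableEq I] {ρ : I → ℝ} (h0 : ∀ i, 0 < ρ i) (h1 : ∑ i, ρ i = 1) (o : I) : Stage D₀ where
  H := TK I S.H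
  i4 := (PiLp.continuousLinearEquiv 2 ℂ fun _ : I × I => S.H).symm.surjective.denseRange
    |>.separableSpace (PiLp.continuousLinearEquiv 2 ℂ fun _ : I × I => S.H).symm.continuous
  N := al S.D (eR S.H)
  D := al S.N (eL S.H)
  cp := cp_al S.cp o
  ξ := io ρ h0 h1 S.ξ
  norm := by rw [LinearIsometry.norm_map, S.norm]
  cycN := (cyc_of_cj (cp_al S.cp o) (cjT h0 h1 S.cp κ o)).1
  cycD := (cyc_of_cj (cp_al S.cp o) (cjT h0 h1 S.cp κ o)).2
  π := (dg S.H I).comp S.π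
  j := (io ρ h0 h1).comp S.j
  πj x η := (dg_io h0 h1 _ _).trans (congrArg _ (S.πj x η))
  Λ := gp I S.Λ
  finΛ := have := S.finΛ; finite_gp S.Λ
  comm l hl x := gp_dg hl fun l hl => S.comm l hl x
  gen x := by
    refine ⟨fun hx => ⟨fun y hy => ((mem_al eR_star).1 hx).1 _ ?_,
      fun l hl => ((cp_al S.cp o).left x).1 hx _ ((mem_al eL_star).2 ⟨fun n hn => gp_dg hl ?_,
        gp_eL hl⟩)⟩, fun hx => mem_of_ent S.cp o (comm_eR hx.2) fun a b => (S.gen _).2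
        ⟨fun y hy => ent_comm o (hx.1 y hy) a b, fun l hl => ent_comm o (hx.2 _ (du_mem hl)) a b⟩⟩
    · exact (S.cp.right _).2 fun n hn => (((S.gen n).1 hn).1 y hy).symm
    · exact fun l hl => (((S.gen n).1 hn).2 l hl).symm
  Γ := S.Γ.map ((du I).prodMap (du I))
  finΓ := have := S.finΓ; Finite.Set.finite_image _ _
  memN := by
    rintro _ ⟨γ, hγ, rfl⟩
    exact dg_memN S.cp (S.memN γ hγ)
  memD := by
    rintro _ ⟨γ, hγ, rfl⟩
    exact dg_memD S.cp (S.memD γ hγ)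
  fix := by
    rintro _ ⟨γ, hγ, rfl⟩
    change dg S.H I γ.1 (dg S.H I γ.2 _) = _
    rw [dg_io, dg_io, S.fix γ hγ]
  dbl x hx h2 h3 := by
    have h4 := eq_dg o ((mem_al eR_star).1 hx).2 fun a b => h3 _ (eL_mem a b) <| by
      rintro _ ⟨γ, -, rfl⟩
      exact (eL_dg a b _).symm
    rw [h4]
    refine dg_memD S.cp (S.dbl _ (ent_mem S.cp o hx o o)
      (fun γ hγ => (ent_comm o (h2 _ ⟨γ, hγ, rfl⟩).symm o o).symm) fun c hc h5 =>
        ent_comm o (h3 _ (dg_memN S.cp hc) ?_) o o)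
    rintro _ ⟨γ, hγ, rfl⟩
    change dg S.H I γ.1 * _ = _ * dg S.H I γ.1
    rw [← map_mul, ← map_mul, h5 γ hγ]

/-- Let `K = PiLp 2 (fun _ : I × I => H)`, `α x` the diagonal action, `ι η (i, j) = δ i j √(ρ i) η`,
`(E a b f) (i, j) = δ i a f (b, j)`, `(E' a b f) (i, j) = δ j a f (i, b)`,
`(J' f) (i, j) = J (f (j, i))`. `N'` is the commutant of `α D` and the `E'`, `D'` the commutant of
`α N` and the `E`; an operator `X` commuting with the `E'` is `∑ α (x a b) E a b` with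
`x a b` its matrix entries, which proves `CP N' D'`, cyclicity, `pos`
(`⟪J' X* ξ', X ξ'⟫ = ∑ √(ρ a ρ b) ⟪J (x a b)* ξ, x a b ξ⟫`), `gen` and `dbl`.
`Λ'` is generated by `α Λ` and the finite group of signed permutation matrices `∑ ± E' (τ b) b`
(for instance the image of `Λ × (I → ℤˣ) × Equiv.Perm I` is a finite set closed under products, or
add the symmetries one by one); commuting with all of them is the same as commuting with the `E'`.
`Γ'` is the image of `Γ`. -/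
theorem tensor (S : Stage D₀) (κ : Cj S.N S.D S.ξ) (hκ : S.Ok κ) (I : Type) [Fintype I]
    [DecidableEq I] (ρ : I → ℝ) (h0 : ∀ i, 0 < ρ i) (h1 : ∑ i, ρ i = 1) :
    ∃ (T : Stage D₀) (e : Ext S T) (κ' : Cj T.N T.D T.ξ) (E : I → I → Op T.H),
      Tens S T e κ κ' ρ E := by
  obtain ⟨o, -⟩ : (Finset.univ : Finset I).Nonempty :=
    Finset.nonempty_of_sum_ne_zero (h1 ▸ one_ne_zero)
  let e : Ext S (tnStage S κ h0 h1 o) :=
    { ι := Tn.io ρ h0 h1
      α := Tn.dg S.H I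
      αι := Tn.dg_io h0 h1
      mapN := fun _ => Tn.dg_memN S.cp
      mapD := fun _ => Tn.dg_memD S.cp
      π := fun _ => rfl
      j := fun _ => rfl
      mapΛ := fun l hl => ⟨_, Tn.du_mem hl, rfl⟩
      mapΓ := fun γ hγ => ⟨_, ⟨γ, hγ, rfl⟩, rfl, rfl⟩ }
  refine ⟨tnStage S κ h0 h1 o, e, Tn.cjT h0 h1 S.cp κ o, Tn.eL S.H, ?_, rfl, ?_, Tn.eL_mem,
    Tn.eL_dg, Tn.eL_mul, Tn.eL_star, Tn.eL_sum, fun a b η => ?_, fun a b η => ?_⟩
  · rintro _ ⟨γ, hγ, rfl⟩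
    exact (congrArg (Tn.dg S.H I) (hκ γ hγ)).trans (Tn.jc_dg κ.JJ _).symm
  · rintro _ ⟨γ, hγ, rfl⟩
    exact ⟨γ, hγ, rfl, rfl⟩
  · change ‖Tn.eL S.H a b (Tn.io ρ h0 h1 η)‖ ^ 2 = _
    rw [Tn.eL_io, norm_smul, mul_pow, Tn.norm_sg, Complex.norm_real, Real.norm_eq_abs, sq_abs,
      Real.sq_sqrt (h0 b).le]
  · have h2 : ((√(ρ a) : ℝ) : ℂ) • Tn.fj I κ.J κ.JJ (Tn.eL S.H a b (Tn.io ρ h0 h1 η)) =
        ((√(ρ b) : ℝ) : ℂ) • Tn.eL S.H b a (Tn.io ρ h0 h1 (κ.J η)) := by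
      rw [Tn.eL_io, Tn.eL_io, map_smulₛₗ, Complex.conj_ofReal, Tn.fj_sg, smul_comm]
    exact h2

end Vale.Agent.P096b
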