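import Vale.Agent.P096b.Basic

/-! Operators on a finite sum of copies of a Hilbert space. -/

set_option linter.unusedSectionVars false

namespace Vale.Agent.P096b.Tn

open Filter Topology Vale.Agent.P096
open scoped InnerProductSpace ComplexConjugate

universe u

/-- The sum of copies of `H` indexed by pairs. -/
abbrev TK (I : Type) (H : Type u) : Type u := PiLp 2 (fun _ : I × I => H)

variable {H : Type u} [NormedAddCommGroup H] [InnerProductSpace ℂ H] [CompleteSpace H]
  {I : Type} [Fintype I] [DecidableEq I]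

/-- A map into the sum with given components. -/
noncomputable def mk {E : Type u} [NormedAddCommGroup E] [NormedSpace ℂ E]
    (T : I × I → E →L[ℂ] H) : E →L[ℂ] TK I H :=
  ((PiLp.continuousLinearEquiv 2 ℂ (fun _ : I × I => H)).symm :
    (I × I → H) →L[ℂ] TK I H) ∘L ContinuousLinearMap.pi T

@[simp] theorem mk_apply {E : Type u} [NormedAddCommGroup E] [NormedSpace ℂ E]
    (T : I × I → E →L[ℂ] H) (f : E) (p : I × I) : mk T f p = T p f := rfl

/-- The coordinates. -/
noncomputable def pr (p : I × I) : TK I H →L[ℂ] H := PiLp.proj 2 (fun _ : I × I => H) p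

@[simp] theorem pr_apply (p : I × I) (f : TK I H) : pr p f = f p := rfl

/-- The embeddings. -/
noncomputable def sg (p : I × I) : H →L[ℂ] TK I H := mk fun q => if q = p then 1 else 0

theorem sg_apply (p q : I × I) (η : H) : sg p η q = if q = p then η else 0 := by
  rw [sg, mk_apply]; split_ifs <;> rfl

theorem inner_sg (p : I × I) (η : H) (f : TK I H) : ⟪sg p η, f⟫_ℂ = ⟪η, f p⟫_ℂ := by
  rw [PiLp.inner_apply, Finset.sum_eq_single p]
  · rw [sg_apply, if_pos rfl]
  · intro q _ hq
    rw [sg_apply, if_neg hq, inner_zero_left]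
  · simp

theorem norm_sg (p : I × I) (η : H) : ‖sg p η‖ ^ 2 = ‖η‖ ^ 2 := by
  rw [PiLp.norm_sq_eq_of_L2, Finset.sum_eq_single p]
  · rw [sg_apply, if_pos rfl]
  · intro q _ hq
    rw [sg_apply, if_neg hq]; simp
  · simp

theorem sum_ap {ι : Type} (s : Finset ι) (f : ι → TK I H) (p : I × I) :
    (∑ i ∈ s, f i) p = ∑ i ∈ s, f i p := map_sum (pr p) f s

theorem star_eq {X Y : Op H} (h : ∀ f g, ⟪X f, g⟫_ℂ = ⟪f, Y g⟫_ℂ) : star Y = X :=
  ContinuousLinearMap.ext fun f => ext_inner_right ℂ fun g => by rw [tl_inner', h]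

variable (I H) in
/-- The diagonal action. -/
noncomputable def dg : Op H →⋆ₐ[ℂ] Op (TK I H) where
  toFun x := mk fun p => x ∘L pr p
  map_one' := by ext f p; rfl
  map_mul' x y := by ext f p; rfl
  map_zero' := by ext f p; rfl
  map_add' x y := by ext f p; rfl
  commutes' c := by ext f p; rfl
  map_star' x := (star_eq fun f g => by
    simp only [PiLp.inner_apply]
    exact Finset.sum_congr rfl fun p _ => tl_inner' x _ _).symm

@[simp] theorem dg_apply (x : Op H) (f : TK I H) (p : I × I) : dg H I x f p = x (f p) := rfl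

theorem dg_sg (x : Op H) (p : I × I) (η : H) : dg H I x (sg p η) = sg p (x η) := by
  ext q
  rw [dg_apply, sg_apply, sg_apply]
  split_ifs <;> simp

variable (H) in
/-- The matrix units acting on the first index. -/
noncomputable def eL (a b : I) : Op (TK I H) :=
  mk fun p => if p.1 = a then pr (b, p.2) else 0

variable (H) in
/-- The matrix units acting on the second index. -/
noncomputable def eR (a b : I) : Op (TK I H) :=
  mk fun p => if p.2 = a then pr (p.1, b) else 0

theorem eL_apply (a b : I) (f : TK I H) (i j : I) :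
    eL H a b f (i, j) = if i = a then f (b, j) else 0 := by
  rw [eL, mk_apply]; split_ifs <;> rfl

theorem eR_apply (a b : I) (f : TK I H) (i j : I) :
    eR H a b f (i, j) = if j = a then f (i, b) else 0 := by
  rw [eR, mk_apply]; split_ifs <;> rfl

theorem eL_dg (a b : I) (x : Op H) : eL H a b * dg H I x = dg H I x * eL H a b := by
  ext f ⟨i, j⟩
  simp only [mul_apply_eq_comp, eL_apply, dg_apply]
  split_ifs <;> simp

theorem eR_dg (a b : I) (x : Op H) : eR H a b * dg H I x = dg H I x * eR H a b := by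
  ext f ⟨i, j⟩
  simp only [mul_apply_eq_comp, eR_apply, dg_apply]
  split_ifs <;> simp

theorem eL_eR (a b c d : I) : eL H a b * eR H c d = eR H c d * eL H a b := by
  ext f ⟨i, j⟩
  simp only [mul_apply_eq_comp, eL_apply, eR_apply]
  split_ifs <;> rfl

theorem eL_mul (a b c d : I) : eL H a b * eL H c d = if b = c then eL H a d else 0 := by
  ext f ⟨i, j⟩
  by_cases h : b = c <;> simp [eL_apply, h]

theorem eL_sum : ∑ a, eL H a a = (1 : Op (TK I H)) := by
  ext f ⟨i, j⟩
  simp [sum_ap, eL_apply]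

theorem inner_ite (c : Prop) [Decidable c] (u v : H) :
    ⟪u, if c then v else 0⟫_ℂ = if c then ⟪u, v⟫_ℂ else 0 := by
  split_ifs <;> simp

theorem ite_inner (c : Prop) [Decidable c] (u v : H) :
    ⟪if c then u else 0, v⟫_ℂ = if c then ⟪u, v⟫_ℂ else 0 := by
  split_ifs <;> simp

theorem eL_star (a b : I) : star (eL H a b) = eL H b a := star_eq fun f g => by
  simp [PiLp.inner_apply, Fintype.sum_prod_type, eL_apply, inner_ite, ite_inner]

theorem eR_star (a b : I) : star (eR H a b) = eR H b a := star_eq fun f g => by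
  simp [PiLp.inner_apply, Fintype.sum_prod_type, eR_apply, inner_ite, ite_inner]

variable (I) in
/-- The conjugation with the flip. -/
noncomputable def fj (J : H ≃ₗᵢ⋆[ℂ] H) (hJ : ∀ η, J (J η) = η) : TK I H ≃ₗᵢ⋆[ℂ] TK I H where
  toFun f := WithLp.toLp 2 fun p => J (f p.swap)
  invFun f := WithLp.toLp 2 fun p => J (f p.swap)
  map_add' f g := by ext p; simp
  map_smul' c f := by ext p; simp [map_smulₛₗ]
  left_inv f := by ext p; simp [hJ]
  right_inv f := by ext p; simp [hJ]
  norm_map' f := by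
    refine (sq_eq_sq₀ (norm_nonneg _) (norm_nonneg _)).1 ?_
    rw [PiLp.norm_sq_eq_of_L2, PiLp.norm_sq_eq_of_L2, ← (Equiv.prodComm I I).sum_comp]
    exact Finset.sum_congr rfl fun p _ => by simp

variable {J : H ≃ₗᵢ⋆[ℂ] H} (hJ : ∀ η, J (J η) = η)

@[simp] theorem fj_apply (f : TK I H) (i j : I) : fj I J hJ f (i, j) = J (f (j, i)) := rfl

theorem fj_fj (f : TK I H) : fj I J hJ (fj I J hJ f) = f := by
  ext ⟨i, j⟩; simp [hJ]

theorem jc_dg (x : Op H) : jc (fj I J hJ) (dg H I x) = dg H I (jc J x) := by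
  ext f ⟨i, j⟩; simp

theorem jc_eL (a b : I) : jc (fj I J hJ) (eL H a b) = eR H a b := by
  ext f ⟨i, j⟩
  simp only [jc_apply, fj_apply, eL_apply, eR_apply]
  split_ifs <;> simp [hJ]

theorem jc_eR (a b : I) : jc (fj I J hJ) (eR H a b) = eL H a b := by
  rw [← jc_eL hJ, jc_jc (fj_fj hJ)]

theorem fj_sg (a b : I) (η : H) : fj I J hJ (sg (a, b) η) = sg (b, a) (J η) := by
  ext ⟨i, j⟩
  simp only [fj_apply, sg_apply, Prod.mk.injEq, and_comm (a := j = a)]
  split_ifs <;> simp

/-- The embedding given by the weights. -/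
noncomputable def io (ρ : I → ℝ) (h0 : ∀ i, 0 < ρ i) (h1 : ∑ i, ρ i = 1) : H →ₗᵢ[ℂ] TK I H where
  toLinearMap :=
    (mk fun p : I × I => if p.1 = p.2 then ((√(ρ p.1) : ℝ) : ℂ) • (1 : Op H) else 0).toLinearMap
  norm_map' η := by
    refine (sq_eq_sq₀ (norm_nonneg _) (norm_nonneg _)).1 ?_
    rw [PiLp.norm_sq_eq_of_L2, Fintype.sum_prod_type, ← one_mul (‖η‖ ^ 2), ← h1, Finset.sum_mul]
    refine Finset.sum_congr rfl fun i _ => ?_
    rw [Finset.sum_eq_single i]
    · simp [norm_smul, mul_pow, Real.sq_sqrt (h0 i).le]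
    · intro j _ hj
      simp [hj.symm]
    · simp

variable {ρ : I → ℝ} (h0 : ∀ i, 0 < ρ i) (h1 : ∑ i, ρ i = 1)

theorem io_apply (η : H) (i j : I) :
    io ρ h0 h1 η (i, j) = if i = j then ((√(ρ i) : ℝ) : ℂ) • η else 0 := by
  change (if i = j then ((√(ρ i) : ℝ) : ℂ) • (1 : Op H) else 0) η = _
  split_ifs <;> rfl

theorem dg_io (x : Op H) (η : H) : dg H I x (io ρ h0 h1 η) = io ρ h0 h1 (x η) := by
  ext ⟨i, j⟩
  simp only [dg_apply, io_apply]
  split_ifs <;> simp

theorem fj_io (η : H) : fj I J hJ (io ρ h0 h1 η) = io ρ h0 h1 (J η) := by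
  ext ⟨i, j⟩
  simp only [fj_apply, io_apply]
  by_cases h : i = j
  · rw [if_pos h.symm, if_pos h, h, map_smulₛₗ, Complex.conj_ofReal]
  · simp [h, Ne.symm h]

theorem eL_io (a b : I) (η : H) :
    eL H a b (io ρ h0 h1 η) = ((√(ρ b) : ℝ) : ℂ) • sg (a, b) η := by
  ext ⟨i, j⟩
  simp only [eL_apply, io_apply, PiLp.smul_apply, sg_apply, Prod.mk.injEq]
  by_cases h : i = a <;> by_cases h' : b = j <;> simp [h, h', eq_comm (a := j)]

/-- The matrix entries. -/
noncomputable def ent (o : I) (X : Op (TK I H)) (a b : I) : Op H :=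
  pr (a, o) ∘L X ∘L sg (b, o)

theorem ent_apply (o : I) (X : Op (TK I H)) (a b : I) (η : H) :
    ent o X a b η = X (sg (b, o) η) (a, o) := rfl

theorem ent_star (o : I) (X : Op (TK I H)) (a b : I) :
    star (ent o X a b) = ent o (star X) b a := star_eq fun f g => by
  rw [ent_apply, ent_apply, ← inner_sg, ← inner_conj_symm, ← inner_sg, inner_conj_symm, tl_inner']

theorem ent_comm (o : I) {X : Op (TK I H)} {y : Op H} (h : X * dg H I y = dg H I y * X) (a b : I) :
    ent o X a b * y = y * ent o X a b := by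
  ext η
  rw [mul_apply_eq_comp, mul_apply_eq_comp, ent_apply, ent_apply, ← dg_sg, ← mul_apply_eq_comp, h]
  rfl

theorem expand (o : I) {X : Op (TK I H)} (h : ∀ a b, X * eR H a b = eR H a b * X) (f : TK I H)
    (i j : I) : X f (i, j) = ∑ b, ent o X i b (f (b, j)) := by
  have h2 : eR H o j f = ∑ b, sg (b, o) (f (b, j)) := by
    ext ⟨k, l⟩
    by_cases hl : l = o <;> simp [eR_apply, sum_ap, sg_apply, hl]
  have h3 : X f (i, j) = (eR H o j * X) f (i, o) := by
    rw [mul_apply_eq_comp, eR_apply, if_pos rfl]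
  rw [h3, ← h, mul_apply_eq_comp, h2, map_sum, sum_ap]
  rfl

theorem expand' (o : I) {X : Op (TK I H)} (h : ∀ a b, X * eR H a b = eR H a b * X) :
    X = ∑ a, ∑ b, dg H I (ent o X a b) * eL H a b := by
  ext f ⟨i, j⟩
  simp [expand o h, sum_ap, eL_apply, apply_ite (ent o X _ _)]

theorem eq_dg (o : I) {X : Op (TK I H)} (h : ∀ a b, X * eR H a b = eR H a b * X)
    (h' : ∀ a b, X * eL H a b = eL H a b * X) : X = dg H I (ent o X o o) := by
  ext f ⟨i, j⟩
  have h2 : (eL H o i * eR H o j) f = sg (o, o) (f (i, j)) := by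
    ext ⟨k, l⟩
    by_cases hk : k = o <;> by_cases hl : l = o <;> simp [eL_apply, eR_apply, sg_apply, hk, hl]
  have h3 : X f (i, j) = (eL H o i * eR H o j * X) f (o, o) := by
    simp [eL_apply, eR_apply]
  rw [h3, mul_assoc, ← h, ← mul_assoc, ← h', mul_assoc, mul_apply_eq_comp, h2]
  rfl

theorem apply_io (o : I) {X : Op (TK I H)} (h : ∀ a b, X * eR H a b = eR H a b * X) (η : H)
    (a b : I) : X (io ρ h0 h1 η) (a, b) = ((√(ρ b) : ℝ) : ℂ) • ent o X a b η := by
  rw [expand o h, Finset.sum_eq_single b]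
  · rw [io_apply, if_pos rfl, map_smul]
  · intro c _ hc
    rw [io_apply, if_neg hc, map_zero]
  · simp

end Vale.Agent.P096b.Tn
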