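import Vale.Agent.P096b.Tensor1

/-! The amplified algebras and groups. -/

set_option linter.unusedSectionVars false

namespace Vale.Agent.P096b.Tn

open Filter Topology Vale.Agent.P096
open scoped InnerProductSpace ComplexConjugate

universe u

variable {H : Type u} [NormedAddCommGroup H] [InnerProductSpace ℂ H] [CompleteSpace H]
  {I : Type} [Fintype I] [DecidableEq I]

/-- The commutant of a diagonal algebra and a family of operators. -/
noncomputable def al (D : Alg H) (F : I → I → Op (TK I H)) : Alg (TK I H) :=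
  cm {y | (∃ d ∈ D, y = dg H I d) ∨ ∃ a b, y = F a b}

theorem mem_al {D : Alg H} {F : I → I → Op (TK I H)} (hF : ∀ a b, star (F a b) = F b a)
    {x : Op (TK I H)} :
    x ∈ al D F ↔ (∀ d ∈ D, x * dg H I d = dg H I d * x) ∧ ∀ a b, x * F a b = F a b * x := by
  rw [al, mem_cm']
  · refine ⟨fun h => ⟨fun d hd => h _ (.inl ⟨d, hd, rfl⟩), fun a b => h _ (.inr ⟨a, b, rfl⟩)⟩, ?_⟩
    rintro h _ (⟨d, hd, rfl⟩ | ⟨a, b, rfl⟩)
    · exact h.1 d hd
    · exact h.2 a b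
  · rintro _ (⟨d, hd, rfl⟩ | ⟨a, b, rfl⟩)
    · exact .inl ⟨star d, star_mem hd, (map_star _ _).symm⟩
    · exact .inr ⟨b, a, hF a b⟩

variable {N D : Alg H} {ξ : H}

theorem dg_memN (h : CP N D) {x : Op H} (hx : x ∈ N) : dg H I x ∈ al D (eR H) :=
  (mem_al eR_star).2 ⟨fun d hd => by rw [← map_mul, ← map_mul, (h.left x).1 hx d hd],
    fun a b => (eR_dg a b x).symm⟩

theorem dg_memD (h : CP N D) {x : Op H} (hx : x ∈ D) : dg H I x ∈ al N (eL H) :=
  (mem_al eL_star).2 ⟨fun d hd => by rw [← map_mul, ← map_mul, (h.right x).1 hx d hd],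
    fun a b => (eL_dg a b x).symm⟩

theorem eL_mem (a b : I) : eL H a b ∈ al D (eR H) :=
  (mem_al eR_star).2 ⟨fun d _ => eL_dg a b d, fun c d => eL_eR a b c d⟩

theorem ent_mem (h : CP N D) (o : I) {x : Op (TK I H)} (hx : x ∈ al D (eR H)) (a b : I) :
    ent o x a b ∈ N :=
  (h.left _).2 fun y hy => ent_comm o (((mem_al eR_star).1 hx).1 y hy) a b

theorem mem_of_ent (h : CP N D) (o : I) {x : Op (TK I H)}
    (hx : ∀ a b, x * eR H a b = eR H a b * x) (he : ∀ a b, ent o x a b ∈ N) :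
    x ∈ al D (eR H) := by
  rw [expand' o hx]
  exact sum_mem fun a _ => sum_mem fun b _ => mul_mem (dg_memN h (he a b)) (eL_mem a b)

theorem cp_al (h : CP N D) (o : I) : CP (al D (eR H : I → I → _)) (al N (eL H)) := by
  have h1 : ∀ x ∈ al D (eR H : I → I → _), ∀ y ∈ al N (eL H), x * y = y * x := fun x hx y hy => by
    obtain ⟨h2, h3⟩ := (mem_al eL_star).1 hy
    rw [expand' o ((mem_al eR_star).1 hx).2]
    simp only [Finset.sum_mul, Finset.mul_sum]
    refine Finset.sum_congr rfl fun a _ => Finset.sum_congr rfl fun b _ => ?_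
    rw [mul_assoc, ← h3, ← mul_assoc, ← h2 _ (ent_mem h o hx a b), mul_assoc]
  refine ⟨fun x => ⟨h1 x, fun hx => (mem_al eR_star).2 ⟨fun d hd => hx _ (dg_memD h hd),
    fun a b => hx _ ((mem_al eL_star).2 ⟨fun d _ => eR_dg a b d, fun c d => (eL_eR c d a b).symm⟩)⟩⟩,
    fun y => ⟨fun hy x hx => (h1 x hx y hy).symm, fun hy => (mem_al eL_star).2
      ⟨fun d hd => hy _ (dg_memN h hd), fun a b => hy _ (eL_mem a b)⟩⟩⟩

theorem jc_comm {J : H ≃ₗᵢ⋆[ℂ] H} (hJ : ∀ η, J (J η) = η) {x y : Op H}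
    (h : x * jc J y = jc J y * x) : jc J x * y = y * jc J x := by
  have := congrArg (jc J) h
  rwa [jc_mul hJ, jc_mul hJ, jc_jc hJ] at this

variable {ρ : I → ℝ} (h0 : ∀ i, 0 < ρ i) (h1 : ∑ i, ρ i = 1)

/-- The amplified conjugation. -/
noncomputable def cjT (h : CP N D) (κ : Cj N D ξ) (o : I) :
    Cj (al D (eR H : I → I → _)) (al N (eL H)) (io ρ h0 h1 ξ) where
  J := fj I κ.J κ.JJ
  JJ := fj_fj κ.JJ
  fix := by rw [fj_io, κ.fix]
  jA x hx := by
    obtain ⟨h2, h3⟩ := (mem_al eR_star).1 hx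
    refine (mem_al eL_star).2 ⟨fun n hn => jc_comm (fj_fj κ.JJ) ?_,
      fun a b => jc_comm (fj_fj κ.JJ) ?_⟩
    · rw [jc_dg]; exact h2 _ (κ.jA n hn)
    · rw [jc_eL]; exact h3 a b
  jB x hx := by
    obtain ⟨h2, h3⟩ := (mem_al eL_star).1 hx
    refine (mem_al eR_star).2 ⟨fun n hn => jc_comm (fj_fj κ.JJ) ?_,
      fun a b => jc_comm (fj_fj κ.JJ) ?_⟩
    · rw [jc_dg]; exact h2 _ (κ.jB n hn)
    · rw [jc_eR]; exact h3 a b
  pos x hx hx0 := by
    have h2 := ((mem_al eR_star).1 hx).2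
    have h3 := ((mem_al eR_star).1 (star_mem hx)).2
    have h4 : ∀ p : I × I, (⟪fj I κ.J κ.JJ (star x (io ρ h0 h1 ξ)) p, x (io ρ h0 h1 ξ) p⟫_ℂ).re =
        √(ρ p.1) * √(ρ p.2) *
          (⟪κ.J (star (ent o x p.1 p.2) ξ), ent o x p.1 p.2 ξ⟫_ℂ).re := fun ⟨a, b⟩ => by
      rw [fj_apply, apply_io h0 h1 o h2, apply_io h0 h1 o h3, ← ent_star, map_smulₛₗ,
        inner_smul_left, inner_smul_right, Complex.conj_conj, ← mul_assoc, ← Complex.ofReal_mul,
        Complex.re_ofReal_mul]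
    have h5 : ∀ p : I × I, 0 < √(ρ p.1) * √(ρ p.2) := fun p =>
      mul_pos (Real.sqrt_pos.2 (h0 _)) (Real.sqrt_pos.2 (h0 _))
    rw [PiLp.inner_apply, Complex.re_sum]
    simp only [h4]
    refine Finset.sum_pos' (fun p _ => mul_nonneg (h5 p).le ?_) ?_
    · by_cases h6 : ent o x p.1 p.2 = 0
      · simp [h6]
      · exact (κ.pos _ (ent_mem h o hx _ _) h6).le
    · by_contra h6
      refine hx0 ?_
      rw [expand' o h2]
      refine Finset.sum_eq_zero fun a _ => Finset.sum_eq_zero fun b _ => ?_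
      have h7 : ent o x a b = 0 := by
        by_contra h7
        exact h6 ⟨(a, b), Finset.mem_univ _, mul_pos (h5 _) (κ.pos _ (ent_mem h o hx _ _) h7)⟩
      rw [h7, map_zero, zero_mul]

theorem cyc_of_cj (h : CP N D) (κ : Cj N D ξ) : Cyc N ξ ∧ Cyc D ξ := by
  have h2 : Cyc D ξ := cyc_of_sep h fun x hx h3 => by
    by_contra h4
    simpa [h3] using κ.pos x hx h4
  refine ⟨fun η ε hε => ?_, h2⟩
  obtain ⟨y, hy, h3⟩ := h2 (κ.J η) ε hε
  refine ⟨_, κ.jB y hy, ?_⟩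
  rwa [jc_apply, κ.fix, ← κ.J.norm_map, map_sub, κ.JJ]

/-- The shape of the elements of the amplified group. -/
def Sh (l : unitary (Op H)) (s : I → ℤˣ) (τ : Equiv.Perm I) (u : unitary (Op (TK I H))) : Prop :=
  ∀ f i j, (u : Op (TK I H)) f (i, j) = s j • (l : Op H) (f (i, τ j))

theorem map_us (x : Op H) (s : ℤˣ) (η : H) : x (s • η) = s • x η := by
  rw [Units.smul_def, Units.smul_def, map_zsmul]

variable (I) in
/-- The amplified group. -/
def gp (Λ : Subgroup (unitary (Op H))) : Subgroup (unitary (Op (TK I H))) where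
  carrier := {u | ∃ l ∈ Λ, ∃ s τ, Sh l s τ u}
  one_mem' := ⟨1, one_mem _, 1, 1, fun f i j => by simp⟩
  mul_mem' := by
    rintro u u' ⟨l, hl, s, τ, h⟩ ⟨l', hl', s', τ', h'⟩
    refine ⟨l * l', mul_mem hl hl', fun j => s j * s' (τ j), τ' * τ, fun f i j => ?_⟩
    rw [Submonoid.coe_mul, mul_apply_eq_comp, h, h', map_us, smul_smul]
    rfl
  inv_mem' := by
    rintro u ⟨l, hl, s, τ, h⟩
    refine ⟨l⁻¹, inv_mem hl, fun j => (s (τ⁻¹ j))⁻¹, τ⁻¹, fun f i j => ?_⟩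
    have h2 := h ((u⁻¹ : unitary _).1 f) i (τ⁻¹ j)
    rw [← mul_apply_eq_comp, ← Submonoid.coe_mul, mul_inv_cancel] at h2
    change f (i, τ⁻¹ j) = _ at h2
    rw [h2, map_us, smul_smul, inv_mul_cancel, one_smul, ← mul_apply_eq_comp, ← Submonoid.coe_mul,
      inv_mul_cancel]
    simp

theorem finite_gp (Λ : Subgroup (unitary (Op H))) [Finite Λ] : Finite (gp I Λ) := by
  have : (gp I Λ : Set (unitary (Op (TK I H)))) ⊆
      ⋃ t : Λ × (I → ℤˣ) × Equiv.Perm I, {u | Sh t.1 t.2.1 t.2.2 u} := by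
    rintro u ⟨l, hl, s, τ, h⟩
    exact Set.mem_iUnion.2 ⟨(⟨l, hl⟩, s, τ), h⟩
  refine (Set.finite_iUnion fun t => Set.Subsingleton.finite fun u hu u' hu' => ?_).subset this
  ext f ⟨i, j⟩
  rw [hu f i j, hu' f i j]

theorem gp_dg {Λ : Subgroup (unitary (Op H))} {u : unitary (Op (TK I H))} (hu : u ∈ gp I Λ)
    {x : Op H} (hx : ∀ l ∈ Λ, (l : Op H) * x = x * l) :
    (u : Op (TK I H)) * dg H I x = dg H I x * u := by
  obtain ⟨l, hl, s, τ, h⟩ := hu
  ext f ⟨i, j⟩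
  rw [mul_apply_eq_comp, mul_apply_eq_comp, dg_apply, h, h, dg_apply, map_us, ← mul_apply_eq_comp,
    hx l hl, mul_apply_eq_comp]

theorem gp_eL {Λ : Subgroup (unitary (Op H))} {u : unitary (Op (TK I H))} (hu : u ∈ gp I Λ)
    (a b : I) : (u : Op (TK I H)) * eL H a b = eL H a b * u := by
  obtain ⟨l, hl, s, τ, h⟩ := hu
  ext f ⟨i, j⟩
  rw [mul_apply_eq_comp, mul_apply_eq_comp, eL_apply, h, h, eL_apply]
  split_ifs <;> simp

/-- The induced map on unitaries. -/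
noncomputable def du (I : Type) [Fintype I] [DecidableEq I] :
    unitary (Op H) →* unitary (Op (TK I H)) where
  toFun l := ⟨dg H I l, Unitary.map_mem _ l.2⟩
  map_one' := Subtype.ext (map_one (dg H I))
  map_mul' _ _ := Subtype.ext (map_mul (dg H I) _ _)

theorem du_mem {Λ : Subgroup (unitary (Op H))} {l : unitary (Op H)} (hl : l ∈ Λ) :
    du I l ∈ gp I Λ := ⟨l, hl, 1, 1, fun f i j => by simp [du]⟩

theorem exists_sh (s : I → ℤˣ) (τ : Equiv.Perm I) :
    ∃ u : unitary (Op (TK I H)), Sh 1 s τ u := by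
  let P : (I → ℤˣ) → Equiv.Perm I → Op (TK I H) := fun s τ => mk fun p => s p.2 • pr (p.1, τ p.2)
  have hP : ∀ s τ f i j, P s τ f (i, j) = s j • f (i, τ j) := fun _ _ _ _ _ => rfl
  have h2 : star (P s τ) = P (fun j => (s (τ⁻¹ j))⁻¹) τ⁻¹ := star_eq fun f g => by
    simp only [PiLp.inner_apply, Fintype.sum_prod_type, hP]
    refine Finset.sum_congr rfl fun i _ => ?_
    rw [← Equiv.sum_comp τ]
    refine Finset.sum_congr rfl fun j _ => ?_
    rcases Int.units_eq_one_or (s j) with h | h <;> simp [h]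
  refine ⟨⟨P s τ, ?_, ?_⟩, fun f i j => hP s τ f i j⟩
  · rw [h2]
    ext f ⟨i, j⟩
    simp [hP, smul_smul]
  · rw [h2]
    ext f ⟨i, j⟩
    simp [hP, smul_smul]

theorem comm_eR {Λ : Subgroup (unitary (Op H))} {x : Op (TK I H)}
    (hx : ∀ u ∈ gp I Λ, x * (u : Op (TK I H)) = u * x) (a b : I) :
    x * eR H a b = eR H a b * x := by
  obtain ⟨u, hu⟩ := exists_sh (H := H) (fun j => if j = a then -1 else 1) 1
  obtain ⟨w, hw⟩ := exists_sh (H := H) 1 (Equiv.swap a b)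
  have h2 : eR H a b = (2⁻¹ : ℂ) • ((1 - (u : Op (TK I H))) * w) := by
    ext f ⟨i, j⟩
    rw [sub_mul, one_mul, smul_apply, PiLp.smul_apply, sub_apply, PiLp.sub_apply,
      mul_apply_eq_comp, hu, hw]
    by_cases h : j = a <;> simp [h, eR_apply, ← two_smul ℂ, smul_smul, hw _ _ _]
  have h3 : Commute x u := hx u ⟨1, one_mem _, _, _, hu⟩
  have h4 : Commute x w := hx w ⟨1, one_mem _, _, _, hw⟩
  rw [h2]
  exact (((Commute.one_right x).sub_right h3).mul_right h4).smul_right _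

end Vale.Agent.P096b.Tn
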